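import Mathlib

set_option autoImplicit false

namespace Crest.Agent.R180

open Module

variable {K : Type*} [Field K] {M : Type*} [AddCommGroup M] [Module K M]

theorem represent (B : M →ₗ[K] M →ₗ[K] K) (T : Submodule K M) [FiniteDimensional K T]
    (hB : ∀ b ∈ T, (∀ c ∈ T, B b c = 0) → b = 0) (l : Dual K M) :
    ∃ b ∈ T, ∀ c ∈ T, B b c = l c := by
  let φ : T →ₗ[K] Dual K T := B.compl₁₂ T.subtype T.subtype
  have hinj : Function.Injective φ := by
    rw [← LinearMap.ker_eq_bot, LinearMap.ker_eq_bot']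
    intro b hb
    apply Subtype.ext
    apply hB b b.2
    intro c hc
    exact LinearMap.congr_fun hb ⟨c, hc⟩
  have hsurj : Function.Surjective φ :=
    (LinearMap.injective_iff_surjective_of_finrank_eq_finrank
      (Subspace.dual_finrank_eq).symm).1 hinj
  obtain ⟨b, hb⟩ := hsurj (l ∘ₗ T.subtype)
  exact ⟨b, b.2, fun c hc => LinearMap.congr_fun hb ⟨c, hc⟩⟩

/-- double orthogonal -/
theorem dperp (B : M →ₗ[K] M →ₗ[K] K) (T : Submodule K M) [FiniteDimensional K T]
    (hB : ∀ b ∈ T, (∀ c ∈ T, B b c = 0) → b = 0) {W : Submodule K M} (hW : W ≤ T) {c : M}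
    (hc : c ∈ T) (h : ∀ b ∈ T, (∀ w ∈ W, B b w = 0) → B b c = 0) : c ∈ W := by
  by_contra hcW
  obtain ⟨l, hl, hl'⟩ := Submodule.exists_dual_map_eq_bot_of_notMem hcW inferInstance
  obtain ⟨b, hb, hb'⟩ := represent B T hB l
  apply hl
  rw [← hb' c hc]
  apply h b hb
  intro w hw
  rw [hb' w (hW hw)]
  have : l w ∈ W.map l := Submodule.mem_map_of_mem hw
  rw [hl'] at this
  exact this

/-- the orthogonal of `W` inside `T` -/
def perpIn (B : M →ₗ[K] M →ₗ[K] K) (T W : Submodule K M) : Submodule K M where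
  carrier := {b | b ∈ T ∧ ∀ w ∈ W, B b w = 0}
  add_mem' := fun ha hb => ⟨add_mem ha.1 hb.1, fun w hw => by simp [ha.2 w hw, hb.2 w hw]⟩
  zero_mem' := ⟨zero_mem _, fun w _ => by simp⟩
  smul_mem' := fun c _ hx => ⟨Submodule.smul_mem _ _ hx.1, fun w hw => by simp [hx.2 w hw]⟩

theorem mem_perpIn {B : M →ₗ[K] M →ₗ[K] K} {T W : Submodule K M} {b : M} :
    b ∈ perpIn B T W ↔ b ∈ T ∧ ∀ w ∈ W, B b w = 0 := Iff.rfl

theorem perpIn_le (B : M →ₗ[K] M →ₗ[K] K) (T W : Submodule K M) : perpIn B T W ≤ T :=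
  fun _ h => h.1

theorem finrank_perpIn (B : M →ₗ[K] M →ₗ[K] K) (T : Submodule K M) [FiniteDimensional K T]
    (hB : ∀ b ∈ T, (∀ c ∈ T, B b c = 0) → b = 0) {W : Submodule K M} (hW : W ≤ T) :
    finrank K (perpIn B T W) + finrank K W = finrank K T := by
  haveI : FiniteDimensional K W := Submodule.finiteDimensional_of_le hW
  let φ : T →ₗ[K] Dual K W := B.compl₁₂ T.subtype W.subtype
  have hsurj : LinearMap.range φ = ⊤ := by
    rw [LinearMap.range_eq_top]
    intro l
    obtain ⟨l', hl'⟩ := LinearMap.exists_extend l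
    obtain ⟨b, hb, hb'⟩ := represent B T hB l'
    refine ⟨⟨b, hb⟩, ?_⟩
    ext w
    have := LinearMap.congr_fun hl' w
    simp only [LinearMap.coe_comp, Submodule.coe_subtype, Function.comp_apply] at this
    simp only [φ, LinearMap.compl₁₂_apply, Submodule.coe_subtype]
    rw [hb' w (hW w.2), this]
  have hker : (LinearMap.ker φ).map T.subtype = perpIn B T W := by
    ext b
    constructor
    · rintro ⟨b, hb, rfl⟩
      exact ⟨b.2, fun w hw => LinearMap.congr_fun hb ⟨w, hw⟩⟩
    · rintro ⟨h1, h2⟩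
      refine ⟨⟨b, h1⟩, ?_, rfl⟩
      ext w
      exact h2 w w.2
  have := LinearMap.finrank_range_add_finrank_ker φ
  rw [hsurj, finrank_top, Subspace.dual_finrank_eq] at this
  rw [← hker, Submodule.finrank_map_subtype_eq, add_comm, this]

/-- rank-nullity for submodules -/
theorem finrank_map_add_inf_ker {M' : Type*} [AddCommGroup M'] [Module K M'] (f : M →ₗ[K] M')
    (W : Submodule K M) [FiniteDimensional K W] :
    finrank K (W.map f) + finrank K (W ⊓ LinearMap.ker f : Submodule K M) = finrank K W := by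
  have := LinearMap.finrank_range_add_finrank_ker (f.domRestrict W)
  rw [LinearMap.range_domRestrict] at this
  have e : W ⊓ LinearMap.ker f = (LinearMap.ker (f.domRestrict W)).map W.subtype := by
    ext x
    constructor
    · rintro ⟨h1, h2⟩; exact ⟨⟨x, h1⟩, h2, rfl⟩
    · rintro ⟨y, hy, rfl⟩; exact ⟨y.2, hy⟩
  rw [← this, e, Submodule.finrank_map_subtype_eq]

/-- codimension of a preimage -/
theorem finrank_inf_comap {M' : Type*} [AddCommGroup M'] [Module K M'] (f : M →ₗ[K] M')
    (V : Submodule K M) [FiniteDimensional K V] (W : Submodule K M') [FiniteDimensional K W] :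
    finrank K (V ⊓ W.comap f : Submodule K M) + finrank K (V.map f ⊔ W : Submodule K M') =
      finrank K V + finrank K W := by
  have h1 := finrank_map_add_inf_ker (W.mkQ ∘ₗ f) V
  have h2 := finrank_map_add_inf_ker W.mkQ (V.map f ⊔ W)
  rw [LinearMap.ker_comp, Submodule.ker_mkQ] at h1
  rw [Submodule.ker_mkQ, inf_eq_right.2 le_sup_right, Submodule.map_sup, Submodule.mkQ_map_self,
    sup_bot_eq, ← Submodule.map_comp] at h2
  omega

theorem inf_eq_bot_of_dim {A B T : Submodule K M} [FiniteDimensional K A] [FiniteDimensional K B]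
    (h : T ≤ A ⊔ B) (hd : finrank K A + finrank K B ≤ finrank K T) : A ⊓ B = ⊥ := by
  have h1 := Submodule.finrank_sup_add_finrank_inf_eq A B
  have h2 := Submodule.finrank_mono h
  apply Submodule.finrank_eq_zero.1
  omega

theorem inf_eq_bot_of_dim3 {A B C T : Submodule K M} [FiniteDimensional K A]
    [FiniteDimensional K B] [FiniteDimensional K C] (h : T ≤ A ⊔ B ⊔ C)
    (hd : finrank K A + finrank K B + finrank K C ≤ finrank K T) : A ⊓ B = ⊥ := by
  have h1 := Submodule.finrank_sup_add_finrank_inf_eq A B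
  have h2 := Submodule.finrank_mono h
  have h3 := Submodule.finrank_add_le_finrank_add_finrank (A ⊔ B) C
  apply Submodule.finrank_eq_zero.1
  omega

theorem eq_inf_comap_of_dim {M' : Type*} [AddCommGroup M'] [Module K M'] (f : M →ₗ[K] M')
    {V V' : Submodule K M} [FiniteDimensional K V] {A B T : Submodule K M'}
    [FiniteDimensional K A] [FiniteDimensional K B] (h : T ≤ V.map f ⊔ (A ⊔ B))
    (h1 : V' ≤ V ⊓ (A ⊔ B).comap f)
    (hd : finrank K V + finrank K A + finrank K B ≤ finrank K V' + finrank K T) :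
    V' = V ⊓ (A ⊔ B).comap f := by
  apply Submodule.eq_of_le_of_finrank_le h1
  have h2 := finrank_inf_comap f V (A ⊔ B)
  have h3 := Submodule.finrank_mono h
  have h4 := Submodule.finrank_add_le_finrank_add_finrank A B
  omega

/-- a complement inside a subspace -/
theorem exists_compl_in {A B : Submodule K M} (h : A ≤ B) :
    ∃ U : Submodule K M, U ≤ B ∧ A ⊓ U = ⊥ ∧ A ⊔ U = B := by
  obtain ⟨U, hU⟩ := (A.comap B.subtype).exists_isCompl
  refine ⟨U.map B.subtype, Submodule.map_subtype_le _ _, ?_, ?_⟩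
  · rw [eq_bot_iff]
    rintro x ⟨h1, ⟨y, hy, rfl⟩⟩
    have : y ∈ A.comap B.subtype ⊓ U := ⟨h1, hy⟩
    rw [hU.inf_eq_bot] at this
    rw [(Submodule.mem_bot K).1 this]; simp
  · have := congrArg (Submodule.map B.subtype) hU.sup_eq_top
    rwa [Submodule.map_sup, Submodule.map_comap_subtype, Submodule.map_top, Submodule.range_subtype,
      inf_eq_right.2 h] at this

/-- a complement of `A` in `A ⊔ L` inside `L` -/
theorem exists_compl_le (A L : Submodule K M) :
    ∃ U : Submodule K M, U ≤ L ∧ A ⊓ U = ⊥ ∧ A ⊔ U = A ⊔ L := by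
  obtain ⟨U, h1, h2, h3⟩ := exists_compl_in (inf_le_right : A ⊓ L ≤ L)
  refine ⟨U, h1, ?_, ?_⟩
  · rw [← h2, inf_assoc, inf_eq_right.2 h1]
  · apply le_antisymm (sup_le_sup_left h1 _)
    rw [← h3, ← sup_assoc]
    exact sup_le_sup_right (sup_le le_rfl inf_le_left) _

end Crest.Agent.R180
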