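import Crest.Agent.R180.Tens
import Crest.Agent.R180.Perp

set_option autoImplicit false

namespace Crest.Agent.R180

open Module

variable {K : Type} [Field K] [Algebra Z0 K]

variable (K) in
/-- the trace form -/
noncomputable def trB : Tw K →ₗ[K] Tw K →ₗ[K] K := (LinearMap.mul K (Tw K)).compr₂ tr

@[simp] theorem trB_apply (x y : Tw K) : trB K x y = tr (x * y) := rfl

theorem fd_of_le {J : Finset ℕ} {A : Subalgebra K (Tw K)} (h : A ≤ DJ K J) :
    FiniteDimensional K A :=
  Submodule.finiteDimensional_of_le (S₁ := Subalgebra.toSubmodule A)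
    (S₂ := Subalgebra.toSubmodule (DJ K J)) h

theorem fd_of_le' {J : Finset ℕ} {A : Submodule K (Tw K)}
    (h : A ≤ Subalgebra.toSubmodule (DJ K J)) : FiniteDimensional K A :=
  Submodule.finiteDimensional_of_le h

instance (priority := 50) fd_toSubmodule (A : Subalgebra K (Tw K)) [h : FiniteDimensional K A] :
    FiniteDimensional K (Subalgebra.toSubmodule A) := h

theorem fd_of_le_alg {A B : Subalgebra K (Tw K)} [FiniteDimensional K B] (h : A ≤ B) :
    FiniteDimensional K A :=
  Submodule.finiteDimensional_of_le (S₁ := Subalgebra.toSubmodule A)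
    (S₂ := Subalgebra.toSubmodule B) h

theorem finrank_mono_alg {A B : Subalgebra K (Tw K)} [FiniteDimensional K B] (h : A ≤ B) :
    finrank K A ≤ finrank K B :=
  Submodule.finrank_mono (s := Subalgebra.toSubmodule A) (t := Subalgebra.toSubmodule B) h

theorem eq_of_le_alg {A B : Subalgebra K (Tw K)} [FiniteDimensional K B] (h : A ≤ B)
    (h' : finrank K B ≤ finrank K A) : A = B :=
  Subalgebra.toSubmodule_injective (Submodule.eq_of_le_of_finrank_le
    (S₁ := Subalgebra.toSubmodule A) (S₂ := Subalgebra.toSubmodule B) h h')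

variable [Dom K]

theorem eq_zero_of_tr (A : Subalgebra K (Tw K)) [FiniteDimensional K A] {x : Tw K} (hx : x ∈ A)
    (h : ∀ y ∈ A, tr (x * y) = 0) : x = 0 := by
  by_contra h0
  have := h _ (inv_mem_of_fd A hx)
  rw [mul_inv_cancel₀ h0, tr_one] at this
  exact one_ne_zero this

theorem trB_nondeg (A : Subalgebra K (Tw K)) [FiniteDimensional K A] :
    ∀ b ∈ Subalgebra.toSubmodule A, (∀ c ∈ Subalgebra.toSubmodule A, trB K b c = 0) → b = 0 :=
  fun _ hb h => eq_zero_of_tr A hb h

theorem exists_prj (A : Subalgebra K (Tw K)) [FiniteDimensional K A] :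
    ∃ π : Tw K →ₗ[K] Tw K, ∀ x, π x ∈ A ∧ ∀ y ∈ A, tr (π x * y) = tr (x * y) := by
  haveI : FiniteDimensional K (Subalgebra.toSubmodule A) := ‹FiniteDimensional K A›
  choose π h1 h2 using fun x => represent (trB K) (Subalgebra.toSubmodule A) (trB_nondeg A) (trB K x)
  refine ⟨⟨⟨π, ?_⟩, ?_⟩, fun x => ⟨h1 x, h2 x⟩⟩
  · intro x y
    rw [← sub_eq_zero]
    apply eq_zero_of_tr A (sub_mem (h1 _) (add_mem (h1 _) (h1 _)))
    intro z hz
    have e1 := h2 (x + y) z hz
    have e2 := h2 x z hz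
    have e3 := h2 y z hz
    simp only [trB_apply] at e1 e2 e3
    simp only [sub_mul, add_mul, map_sub, map_add, e1, e2, e3, sub_self]
  · intro c x
    rw [← sub_eq_zero]
    apply eq_zero_of_tr A (sub_mem (h1 _) (Subalgebra.smul_mem _ (h1 _) _))
    intro z hz
    have e1 := h2 (c • x) z hz
    have e2 := h2 x z hz
    simp only [trB_apply] at e1 e2
    simp only [RingHom.id_apply, sub_mul, smul_mul_assoc, map_sub, map_smul, e1, e2, sub_self]

open Classical in
/-- orthogonal projection onto a finite-dimensional subalgebra -/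
noncomputable def prj (A : Subalgebra K (Tw K)) : Tw K →ₗ[K] Tw K :=
  if h : FiniteDimensional K A then (@exists_prj K _ _ _ A h).choose else 0

section prj
variable (A : Subalgebra K (Tw K)) [hA : FiniteDimensional K A]

theorem prj_mem (x : Tw K) : prj A x ∈ A := by
  unfold prj; rw [dif_pos hA]; exact ((exists_prj A).choose_spec x).1

theorem tr_prj_mul (x : Tw K) {y : Tw K} (hy : y ∈ A) : tr (prj A x * y) = tr (x * y) := by
  unfold prj; rw [dif_pos hA]; exact ((exists_prj A).choose_spec x).2 y hy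

theorem tr_mul_prj (x : Tw K) {y : Tw K} (hy : y ∈ A) : tr (y * prj A x) = tr (y * x) := by
  rw [tr_comm, tr_prj_mul A x hy, tr_comm]

theorem prj_eq {x c : Tw K} (hc : c ∈ A) (h : ∀ y ∈ A, tr (c * y) = tr (x * y)) :
    prj A x = c := by
  rw [← sub_eq_zero]
  apply eq_zero_of_tr A (sub_mem (prj_mem A x) hc)
  intro y hy
  rw [sub_mul, map_sub, tr_prj_mul A x hy, h y hy, sub_self]

theorem prj_of_mem {x : Tw K} (hx : x ∈ A) : prj A x = x := prj_eq A hx (fun _ _ => rfl)

theorem prj_mul_left {a : Tw K} (ha : a ∈ A) (x : Tw K) : prj A (a * x) = a * prj A x := by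
  apply prj_eq A (mul_mem ha (prj_mem A x))
  intro y hy
  rw [mul_assoc, tr_comm, mul_assoc, tr_prj_mul A x (mul_mem hy ha), ← mul_assoc, tr_comm,
    mul_assoc]

theorem prj_mul_right {a : Tw K} (ha : a ∈ A) (x : Tw K) : prj A (x * a) = prj A x * a := by
  apply prj_eq A (mul_mem (prj_mem A x) ha)
  intro y hy
  rw [mul_assoc, tr_prj_mul A x (mul_mem ha hy), mul_assoc]

theorem prj_eq_zero_iff {x : Tw K} : prj A x = 0 ↔ ∀ y ∈ A, tr (x * y) = 0 := by
  constructor
  · intro h y hy; rw [← tr_prj_mul A x hy, h, zero_mul, map_zero]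
  · intro h; exact prj_eq A (zero_mem _) (fun y hy => by rw [zero_mul, map_zero, h y hy])

theorem prj_congr {x x' : Tw K} (h : ∀ y ∈ A, tr (x * y) = tr (x' * y)) : prj A x = prj A x' :=
  prj_eq A (prj_mem A x') (fun y hy => by rw [tr_prj_mul A x' hy, h y hy])

theorem prj_prj {B : Subalgebra K (Tw K)} [FiniteDimensional K B] (h : A ≤ B) (x : Tw K) :
    prj A (prj B x) = prj A x :=
  prj_congr A (fun _ hy => tr_prj_mul B x (h hy))

end prj

/-- left basis over a subalgebra -/
theorem exists_basis_over {A B : Subalgebra K (Tw K)} (h : A ≤ B) [FiniteDimensional K B] :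
    ∃ (e : ℕ) (l : Fin e → Tw K), (∀ k, l k ∈ B) ∧ e * finrank K A = finrank K B ∧
      (∀ y ∈ B, ∃ c : Fin e → Tw K, (∀ k, c k ∈ A) ∧ y = ∑ k, c k * l k) ∧
      (∀ c : Fin e → Tw K, (∀ k, c k ∈ A) → ∑ k, c k * l k = 0 → ∀ k, c k = 0) := by
  haveI : FiniteDimensional K A :=
    Submodule.finiteDimensional_of_le (S₁ := Subalgebra.toSubmodule A)
      (S₂ := Subalgebra.toSubmodule B) h
  letI : DivisionRing A := DivisionRing.ofIsUnitOrEqZero (fun x => by
    by_cases hx : x = 0
    · exact Or.inr hx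
    · exact Or.inl (FiniteDimensional.isUnit K hx))
  let B' : Submodule A (Tw K) :=
    { carrier := B
      add_mem' := fun ha hb => add_mem ha hb
      zero_mem' := zero_mem _
      smul_mem' := fun c _ hx => mul_mem (h c.2) hx }
  let eq : B' ≃ₗ[K] B :=
    { toFun := fun x => ⟨x.1, x.2⟩
      invFun := fun x => ⟨x.1, x.2⟩
      map_add' := fun _ _ => rfl
      map_smul' := fun _ _ => rfl
      left_inv := fun _ => rfl
      right_inv := fun _ => rfl }
  haveI : FiniteDimensional K B' := eq.symm.finiteDimensional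
  haveI : Module.Finite A B' := Module.Finite.of_restrictScalars_finite K A B'
  let b := Module.finBasis A B'
  refine ⟨finrank A B', fun k => b k, fun k => (b k).2, ?_, ?_, ?_⟩
  · rw [mul_comm, Module.finrank_mul_finrank, eq.finrank_eq]
  · intro y hy
    refine ⟨fun k => b.repr ⟨y, hy⟩ k, fun k => (b.repr ⟨y, hy⟩ k).2, ?_⟩
    have := congrArg Subtype.val (b.sum_repr ⟨y, hy⟩)
    rw [Submodule.coe_sum] at this
    exact this.symm
  · intro c hc h0 k
    have := Fintype.linearIndependent_iff.1 b.linearIndependent (fun k => ⟨c k, hc k⟩)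
      (by
        apply Subtype.ext
        rw [Submodule.coe_sum]
        exact h0) k
    exact congrArg Subtype.val this

theorem finrank_dvd_of_le {A B : Subalgebra K (Tw K)} (h : A ≤ B) [FiniteDimensional K B] :
    finrank K A ∣ finrank K B := by
  obtain ⟨e, l, -, he, -⟩ := exists_basis_over h
  exact Dvd.intro_left e he

theorem tr_inv_mo_mul (g : G) (x : Tw K) : tr ((mo g)⁻¹ * x) = co K x g := by
  have h1 := co_mo_mul g 0 ((mo g)⁻¹ * x)
  rw [← mul_assoc, mul_inv_cancel₀ (mo_ne_zero _), one_mul, add_zero] at h1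
  rw [h1, tr_apply]
  simp [cc, c0_zero_right]

theorem trace_DJ (J : Finset ℕ)
    (T : Subalgebra.toSubmodule (DJ K J) →ₗ[K] Subalgebra.toSubmodule (DJ K J)) :
    LinearMap.trace K _ T = ∑ g : GJ J, 
      tr ((mo (g : G) : Tw K)⁻¹ * (T ⟨mo (g : G), mo_mem_DJ g.2⟩ : Tw K)) := by
  classical
  let b := Basis.ofEquivFun (DJequiv (K := K) J)
  rw [LinearMap.trace_eq_matrix_trace K b, Matrix.trace]
  apply Finset.sum_congr rfl
  intro g _
  rw [Matrix.diag_apply, LinearMap.toMatrix_apply, tr_inv_mo_mul]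
  have : b g = ⟨mo (g : G), mo_mem_DJ g.2⟩ := by
    apply (DJequiv J).injective
    ext k
    simp only [b, Basis.coe_ofEquivFun, LinearEquiv.apply_symm_apply]
    change _ = co K (mo g) k
    rw [co_mo_apply, Pi.single_apply]
    by_cases hk : k = g
    · rw [if_pos hk, if_pos (by rw [hk])]
    · rw [if_neg hk, if_neg (fun h => hk (Subtype.ext h.symm))]
  rw [this]
  rfl

theorem trace_mul_mul (J : Finset ℕ) {s t : Tw K} (ht : t ∈ DJ K J)
    (T : Subalgebra.toSubmodule (DJ K J) →ₗ[K] Subalgebra.toSubmodule (DJ K J))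
    (hT : ∀ y, (T y : Tw K) = s * (y : Tw K) * t) :
    LinearMap.trace K _ T = ((NJ J ^ 2 : ℕ) : K) * tr s * tr t := by
  rw [trace_DJ]
  have : ∀ g : GJ J, tr ((mo (g : G) : Tw K)⁻¹ * (T ⟨mo (g : G), mo_mem_DJ g.2⟩ : Tw K)) =
      tr (s * (mo (g : G) * t * (mo (g : G))⁻¹)) := by
    intro g
    rw [hT, tr_comm]; simp only [mul_assoc]
  simp only [this]
  rw [← map_sum, ← Finset.mul_sum, average_DJ ht, mul_smul_comm, mul_one, map_smul, smul_eq_mul]
  ring

/-- centraliser inside `DJ` -/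
noncomputable def Cen (J : Finset ℕ) (s : Set (Tw K)) : Subalgebra K (Tw K) :=
  Subalgebra.centralizer K s ⊓ DJ K J

theorem mem_Cen {J : Finset ℕ} {s : Set (Tw K)} {x : Tw K} :
    x ∈ Cen J s ↔ (∀ g ∈ s, g * x = x * g) ∧ x ∈ DJ K J := by
  unfold Cen; rw [Algebra.mem_inf, Subalgebra.mem_centralizer_iff]

theorem Cen_le (J : Finset ℕ) (s : Set (Tw K)) : Cen J s ≤ DJ K J := inf_le_right

instance (J : Finset ℕ) (s : Set (Tw K)) : FiniteDimensional K (Cen J s) := fd_of_le (Cen_le J s)
instance (J : Finset ℕ) (s : Set (Tw K)) :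
    FiniteDimensional K (Subalgebra.toSubmodule (Cen J s)) := fd_of_le (Cen_le J s)

theorem exists_dual_basis (A : Subalgebra K (Tw K)) [FiniteDimensional K A] :
    ∃ (a a' : Fin (finrank K A) → Tw K), (∀ i, a i ∈ A) ∧ (∀ i, a' i ∈ A) ∧
      (∀ y ∈ A, y = ∑ i, tr (a' i * y) • a i) ∧ (∀ y ∈ A, y = ∑ i, tr (y * a i) • a' i) ∧
      (∀ i, tr (a' i * a i) = 1) ∧
      (∀ T : A →ₗ[K] A, LinearMap.trace K A T = 
        ∑ i, tr (a' i * (T (Module.finBasis K A i) : Tw K))) ∧
      ∀ i, a i = Module.finBasis K A i := by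
  classical
  haveI : FiniteDimensional K (Subalgebra.toSubmodule A) := ‹FiniteDimensional K A›
  let b := Module.finBasis K A
  have hex : ∀ i, ∃ a' ∈ A, ∀ y : A, tr (a' * (y : Tw K)) = b.repr y i := by
    intro i
    obtain ⟨l, hl⟩ := LinearMap.exists_extend (p := Subalgebra.toSubmodule A) (b.coord i)
    obtain ⟨a', h1, h2⟩ := represent (trB K) (Subalgebra.toSubmodule A) (trB_nondeg A) l
    refine ⟨a', h1, fun y => ?_⟩
    have := h2 y y.2
    rw [trB_apply] at this
    rw [this]
    exact LinearMap.congr_fun hl y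
  choose a' h1 h2 using hex
  have e1 : ∀ y ∈ A, y = ∑ i, tr (a' i * y) • (b i : Tw K) := by
    intro y hy
    have := congrArg Subtype.val (b.sum_repr ⟨y, hy⟩)
    rw [AddSubmonoidClass.coe_finsetSum] at this
    conv_lhs => rw [show y = _ from this.symm]
    apply Finset.sum_congr rfl
    intro i _
    rw [h2 i ⟨y, hy⟩]; rfl
  refine ⟨fun i => b i, a', fun i => (b i).2, h1, e1, ?_, ?_, ?_, fun _ => rfl⟩
  · intro y hy
    rw [← sub_eq_zero]
    apply eq_zero_of_tr A (sub_mem hy (Subalgebra.sum_mem _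
      (fun i _ => Subalgebra.smul_mem _ (h1 i) _)))
    intro z hz
    rw [sub_mul, map_sub, sub_eq_zero]
    conv_lhs => rw [e1 z hz]
    simp only [Finset.mul_sum, Finset.sum_mul, mul_smul_comm, smul_mul_assoc, map_sum, map_smul,
      smul_eq_mul, mul_comm]
  · intro i
    rw [h2 i (b i)]; simp
  · intro T
    rw [LinearMap.trace_eq_matrix_trace K b, Matrix.trace]
    apply Finset.sum_congr rfl
    intro i _
    rw [Matrix.diag_apply, LinearMap.toMatrix_apply, h2]

theorem trace_mulLeft_tower {A B : Subalgebra K (Tw K)} (h : A ≤ B) [FiniteDimensional K B]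
    {l : Tw K} (hl : l ∈ A) (TA : A →ₗ[K] A) (hTA : ∀ y, (TA y : Tw K) = l * y)
    (TB : Subalgebra.toSubmodule B →ₗ[K] Subalgebra.toSubmodule B)
    (hTB : ∀ y, (TB y : Tw K) = l * y) :
    (finrank K A : K) * LinearMap.trace K _ TB = (finrank K B : K) * LinearMap.trace K _ TA := by
  classical
  haveI : FiniteDimensional K A :=
    Submodule.finiteDimensional_of_le (S₁ := Subalgebra.toSubmodule A)
      (S₂ := Subalgebra.toSubmodule B) h
  obtain ⟨e, d, hd, he, h1, h2⟩ := exists_basis_over h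
  let Φ0 : (Fin e → A) →ₗ[K] Subalgebra.toSubmodule B :=
    { toFun := fun c => ⟨∑ k, c k * d k,
        Subalgebra.sum_mem _ (fun k _ => mul_mem (h (c k).2) (hd k))⟩
      map_add' := fun c c' => by
        apply Subtype.ext; simp [add_mul, Finset.sum_add_distrib]
      map_smul' := fun r c => by
        apply Subtype.ext; simp [Finset.smul_sum] }
  have hbij : Function.Bijective Φ0 := by
    constructor
    · rw [← LinearMap.ker_eq_bot, LinearMap.ker_eq_bot']
      intro c hc
      funext k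
      exact Subtype.ext (h2 (fun k => c k) (fun k => (c k).2) (congrArg Subtype.val hc) k)
    · intro y
      obtain ⟨c, hc, hy⟩ := h1 y y.2
      exact ⟨fun k => ⟨c k, hc k⟩, Subtype.ext hy.symm⟩
  let Φ := LinearEquiv.ofBijective Φ0 hbij
  let Dg : (Fin e → A) →ₗ[K] (Fin e → A) :=
    ∑ k, LinearMap.single K (fun _ => A) k ∘ₗ (TA ∘ₗ LinearMap.proj k)
  have hDg : ∀ c k, Dg c k = TA (c k) := by
    intro c k
    simp [Dg, LinearMap.sum_apply, Finset.sum_apply, Pi.single_apply]
  have hconj : TB = Φ.conj Dg := by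
    ext y
    obtain ⟨c, rfl⟩ := Φ.surjective y
    rw [LinearEquiv.conj_apply_apply, LinearEquiv.symm_apply_apply, hTB]
    change l * ∑ k, (c k : Tw K) * d k = ∑ k, (Dg c k : Tw K) * d k
    rw [Finset.mul_sum]
    apply Finset.sum_congr rfl
    intro k _
    rw [hDg, hTA, mul_assoc]
  rw [hconj, LinearMap.trace_conj', map_sum]
  have : ∀ k : Fin e, LinearMap.trace K _
      (LinearMap.single K (fun _ => A) k ∘ₗ (TA ∘ₗ LinearMap.proj k)) = LinearMap.trace K _ TA := by
    intro k
    rw [LinearMap.trace_comp_comm']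
    congr 1
    ext y
    simp
  simp only [this, Finset.sum_const, Finset.card_univ, Fintype.card_fin, nsmul_eq_mul]
  rw [← he]; push_cast; ring

theorem casimir_sum {J : Finset ℕ} {A : Subalgebra K (Tw K)} (hA : A ≤ DJ K J)
    [FiniteDimensional K A] {a a' : Fin (finrank K A) → Tw K} (ha : ∀ i, a i ∈ A)
    (ha' : ∀ i, a' i ∈ A)
    (e4 : ∀ T : A →ₗ[K] A, LinearMap.trace K A T =
        ∑ i, tr (a' i * (T (Module.finBasis K A i) : Tw K)))
    (e5 : ∀ i, a i = Module.finBasis K A i) :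
    ∑ i, a i * a' i = (finrank K A : K) • (1 : Tw K) := by
  haveI : CharZero K := charZero_K
  have hN : ((NJ J ^ 2 : ℕ) : K) ≠ 0 := by exact_mod_cast (pow_pos (NJ_pos J) 2).ne'
  rw [← sub_eq_zero]
  apply eq_zero_of_tr A (sub_mem (Subalgebra.sum_mem _ (fun i _ => mul_mem (ha i) (ha' i)))
    (Subalgebra.smul_mem _ (one_mem _) _))
  intro l hl
  let TA : A →ₗ[K] A := LinearMap.mulLeft K ⟨l, hl⟩
  let TB : Subalgebra.toSubmodule (DJ K J) →ₗ[K] Subalgebra.toSubmodule (DJ K J) :=
    (LinearMap.mulLeft K l).restrict (fun y hy => (DJ K J).mul_mem (hA hl) hy)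
  have h1 := trace_mulLeft_tower hA hl TA (fun _ => rfl) TB (fun _ => rfl)
  rw [trace_mul_mul J (s := l) (one_mem _) TB (fun y => by rw [mul_one]; rfl), e4, tr_one,
    mul_one] at h1
  have h2 : finrank K (DJ K J) = NJ J ^ 2 := finrank_DJ J
  rw [h2] at h1
  have h3 : ∑ i, tr (a' i * (TA (Module.finBasis K A i) : Tw K)) =
      tr ((∑ i, a i * a' i) * l) := by
    rw [Finset.sum_mul, map_sum]
    apply Finset.sum_congr rfl
    intro i _
    rw [mul_assoc (a i), tr_comm (a i), e5, mul_assoc]; rfl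
  rw [h3] at h1
  rw [sub_mul, map_sub, smul_mul_assoc, one_mul, map_smul, smul_eq_mul, sub_eq_zero]
  apply mul_left_cancel₀ hN
  rw [← h1]; ring

theorem casimir_comm {A : Subalgebra K (Tw K)} {ι : Type} [Fintype ι] {a a' : ι → Tw K}
    (ha : ∀ i, a i ∈ A) (ha' : ∀ i, a' i ∈ A)
    (e1 : ∀ y ∈ A, y = ∑ i, tr (a' i * y) • a i) (e2 : ∀ y ∈ A, y = ∑ i, tr (y * a i) • a' i)
    {c : Tw K} (hc : c ∈ A) (y : Tw K) :
    c * ∑ i, a i * y * a' i = (∑ i, a i * y * a' i) * c := by
  have h1 : ∀ i, c * a i = ∑ j, tr (a' j * (c * a i)) • a j := fun i => e1 _ (mul_mem hc (ha i))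
  have h2 : ∀ j, a' j * c = ∑ i, tr (a' j * c * a i) • a' i :=
    fun j => e2 _ (mul_mem (ha' j) hc)
  rw [Finset.mul_sum, Finset.sum_mul]
  have l1 : ∀ i, c * (a i * y * a' i) = ∑ j, tr (a' j * c * a i) • (a j * y * a' i) := by
    intro i
    have : c * (a i * y * a' i) = (c * a i) * (y * a' i) := by simp only [mul_assoc]
    rw [this, h1 i, Finset.sum_mul]
    apply Finset.sum_congr rfl
    intro j _
    rw [smul_mul_assoc, mul_assoc (a' j), mul_assoc (a j)]
  have l2 : ∀ j, a j * y * a' j * c = ∑ i, tr (a' j * c * a i) • (a j * y * a' i) := by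
    intro j
    rw [mul_assoc (a j * y)]
    conv_lhs => rw [h2 j]
    rw [Finset.mul_sum]
    apply Finset.sum_congr rfl
    intro i _
    rw [mul_smul_comm]
  rw [Finset.sum_congr rfl (fun i _ => l1 i), Finset.sum_congr rfl (fun j _ => l2 j),
    Finset.sum_comm]

theorem isProj_trace' {M : Type} [AddCommGroup M] [Module K M] [FiniteDimensional K M]
    {p : Submodule K M} {f : M →ₗ[K] M} (h : LinearMap.IsProj p f) :
    LinearMap.trace K M f = finrank K p := h.trace

/-- dimension of the centraliser -/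
theorem finrank_mul_Cen {J : Finset ℕ} {A : Subalgebra K (Tw K)} (hA : A ≤ DJ K J) :
    finrank K A * finrank K (Cen J (A : Set (Tw K))) = NJ J ^ 2 := by
  haveI := fd_of_le hA
  haveI : CharZero K := charZero_K
  obtain ⟨a, a', ha, ha', e1, e2, e3, e4, e5⟩ := exists_dual_basis A
  have hd : (finrank K A : K) ≠ 0 := by
    exact_mod_cast (Module.finrank_pos (R := K) (M := A)).ne'
  have hz := casimir_sum hA ha ha' e4 e5
  obtain ⟨Ti, hTi⟩ : ∃ Ti : Fin (finrank K A) →
      (Subalgebra.toSubmodule (DJ K J) →ₗ[K] Subalgebra.toSubmodule (DJ K J)),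
      ∀ i y, (Ti i y : Tw K) = a i * (y : Tw K) * a' i :=
    ⟨fun i => (LinearMap.mulRight K (a' i) ∘ₗ LinearMap.mulLeft K (a i)).restrict
      (fun y hy => by
        rw [LinearMap.comp_apply, LinearMap.mulLeft_apply, LinearMap.mulRight_apply]
        exact (DJ K J).mul_mem ((DJ K J).mul_mem (hA (ha i)) hy) (hA (ha' i))),
      fun _ _ => by
        rw [LinearMap.restrict_coe_apply, LinearMap.comp_apply, LinearMap.mulLeft_apply,
          LinearMap.mulRight_apply]⟩
  obtain ⟨T, hT0⟩ : ∃ T, T = (finrank K A : K)⁻¹ • ∑ i, Ti i := ⟨_, rfl⟩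
  have hT : ∀ y, (T y : Tw K) = (finrank K A : K)⁻¹ • ∑ i, a i * (y : Tw K) * a' i := by
    intro y
    simp only [hT0, LinearMap.smul_apply, LinearMap.sum_apply, Submodule.coe_smul,
      Submodule.coe_sum, hTi]
  obtain ⟨p, hp⟩ : ∃ p : Submodule K (Subalgebra.toSubmodule (DJ K J)), p =
    (Subalgebra.toSubmodule (Cen J (A : Set (Tw K)))).comap (Submodule.subtype _) := ⟨_, rfl⟩
  have hp' : ∀ y, y ∈ p ↔ (y : Tw K) ∈ Cen J (A : Set (Tw K)) := by
    intro y; rw [hp]; rfl
  have hproj : LinearMap.IsProj p T := by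
    constructor
    · intro y
      rw [hp']
      refine mem_Cen.2 ⟨fun g hg => ?_, (T y).2⟩
      rw [hT, mul_smul_comm, smul_mul_assoc, casimir_comm ha ha' e1 e2 hg]
    · intro y hy
      apply Subtype.ext
      rw [hT]
      have : ∀ i, a i * (y : Tw K) * a' i = (y : Tw K) * (a i * a' i) := by
        intro i
        rw [(mem_Cen.1 ((hp' y).1 hy)).1 (a i) (ha i), mul_assoc]
      rw [Finset.sum_congr rfl (fun i _ => this i), ← Finset.mul_sum, hz, mul_smul_comm, mul_one,
        smul_smul, inv_mul_cancel₀ hd, one_smul]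
  have h1 := isProj_trace' hproj
  have h2 : finrank K p = finrank K (Cen J (A : Set (Tw K))) := by
    rw [hp]
    exact (Submodule.comapSubtypeEquivOfLe (p := Subalgebra.toSubmodule (Cen J (A : Set (Tw K))))
      (q := Subalgebra.toSubmodule (DJ K J)) (Cen_le J _)).finrank_eq
  rw [h2, hT0, map_smul, map_sum] at h1
  have h3 : ∀ i, LinearMap.trace K _ (Ti i) = ((NJ J ^ 2 : ℕ) : K) * (tr (a i) * tr (a' i)) :=
    fun i => by rw [trace_mul_mul J (hA (ha' i)) _ (hTi i), mul_assoc]
  have h4 : ∑ i, tr (a i) * tr (a' i) = 1 := by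
    have := congrArg tr (e1 1 (one_mem _))
    rw [tr_one, map_sum] at this
    rw [this]
    apply Finset.sum_congr rfl
    intro i _
    rw [map_smul, mul_one, smul_eq_mul, mul_comm]
  rw [Finset.sum_congr rfl (fun i _ => h3 i), ← Finset.mul_sum, h4, mul_one, smul_eq_mul] at h1
  have : ((finrank K A * finrank K (Cen J (A : Set (Tw K))) : ℕ) : K) = ((NJ J ^ 2 : ℕ) : K) := by
    rw [Nat.cast_mul, ← h1, ← mul_assoc, mul_inv_cancel₀ hd, one_mul]
  exact_mod_cast this

end Crest.Agent.R180
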