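import Crest.Agent.R180.RedTw

set_option autoImplicit false

namespace Crest.Agent.R180

open Module Polynomial

/-- noncommutative polynomial terms in two variables -/
inductive Tm (A : Type) : Type
  | c : A → Tm A
  | v : Fin 2 → Tm A
  | add : Tm A → Tm A → Tm A
  | mul : Tm A → Tm A → Tm A

def Tm.map {A B : Type} (s : A → B) : Tm A → Tm B
  | .c a => .c (s a)
  | .v j => .v j
  | .add f g => .add (f.map s) (g.map s)
  | .mul f g => .mul (f.map s) (g.map s)

theorem Tm.map_map {A B C : Type} (s : A → B) (t : B → C) (f : Tm A) :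
    (f.map s).map t = f.map (t ∘ s) := by
  induction f with
  | c a => rfl
  | v j => rfl
  | add f g hf hg => simp [Tm.map, hf, hg]
  | mul f g hf hg => simp [Tm.map, hf, hg]

theorem Tm.map_id {A : Type} (f : Tm A) : f.map id = f := by
  induction f with
  | c a => rfl
  | v j => rfl
  | add f g hf hg => simp [Tm.map, hf, hg]
  | mul f g hf hg => simp [Tm.map, hf, hg]

variable {K K' : Type} [Field K] [Field K'] [Algebra Z0 K] [Algebra Z0 K']

def Tm.pow (f : Tm K) : ℕ → Tm K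
  | 0 => .c 1
  | k + 1 => .mul (f.pow k) f

def Tm.poly (p : K[X]) (f : Tm K) : ℕ → Tm K
  | 0 => .c 0
  | k + 1 => .add (Tm.poly p f k) (.mul (.c (p.coeff k)) (f.pow k))

noncomputable def ev (w : Vec K) : Tm K → Tw K
  | .c a => algebraMap K (Tw K) a
  | .v j => w j
  | .add f g => ev w f + ev w g
  | .mul f g => ev w f * ev w g

noncomputable def D1 (w : Vec K) : Tm K → (Vec K →ₗ[K] Tw K)
  | .c _ => 0
  | .v j => LinearMap.proj j
  | .add f g => D1 w f + D1 w g
  | .mul f g => LinearMap.mulRight K (ev w g) ∘ₗ D1 w f + LinearMap.mulLeft K (ev w f) ∘ₗ D1 w g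

noncomputable def D2 (w : Vec K) : Tm K → (Vec K →ₗ[K] Vec K →ₗ[K] Tw K)
  | .c _ => 0
  | .v _ => 0
  | .add f g => D2 w f + D2 w g
  | .mul f g => (D2 w f).compr₂ (LinearMap.mulRight K (ev w g)) +
      (LinearMap.mul K (Tw K)).compl₁₂ (D1 w f) (D1 w g) +
      (D2 w g).compr₂ (LinearMap.mulLeft K (ev w f))

section
variable (w ξ η : Vec K) (f g : Tm K) (a : K) (j : Fin 2)
@[simp] theorem ev_c : ev w (.c a) = algebraMap K (Tw K) a := rfl
@[simp] theorem ev_v : ev w (.v j) = w j := rfl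
@[simp] theorem ev_add : ev w (.add f g) = ev w f + ev w g := rfl
@[simp] theorem ev_mul : ev w (.mul f g) = ev w f * ev w g := rfl
@[simp] theorem D1_c : D1 w (.c a) ξ = 0 := rfl
@[simp] theorem D1_v : D1 w (.v j) ξ = ξ j := rfl
@[simp] theorem D1_add : D1 w (.add f g) ξ = D1 w f ξ + D1 w g ξ := rfl
@[simp] theorem D1_mul : D1 w (.mul f g) ξ = D1 w f ξ * ev w g + ev w f * D1 w g ξ := rfl
@[simp] theorem D2_c : D2 w (.c a) ξ η = 0 := rfl
@[simp] theorem D2_v : D2 w (.v j) ξ η = 0 := rfl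
@[simp] theorem D2_add : D2 w (.add f g) ξ η = D2 w f ξ η + D2 w g ξ η := rfl
@[simp] theorem D2_mul : D2 w (.mul f g) ξ η =
    D2 w f ξ η * ev w g + D1 w f ξ * D1 w g η + ev w f * D2 w g ξ η := rfl
end

theorem ev_mem {A : Subalgebra K (Tw K)} {w : Vec K} (hw : ∀ j, w j ∈ A) (f : Tm K) :
    ev w f ∈ A := by
  induction f with
  | c a => exact A.algebraMap_mem a
  | v j => exact hw j
  | add f g hf hg => exact add_mem hf hg
  | mul f g hf hg => exact mul_mem hf hg

theorem D1_mem {A : Subalgebra K (Tw K)} {w ξ : Vec K} (hw : ∀ j, w j ∈ A) (hξ : ∀ j, ξ j ∈ A)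
    (f : Tm K) : D1 w f ξ ∈ A := by
  induction f with
  | c a => exact zero_mem _
  | v j => exact hξ j
  | add f g hf hg => exact add_mem hf hg
  | mul f g hf hg => exact add_mem (mul_mem hf (ev_mem hw g)) (mul_mem (ev_mem hw f) hg)

theorem D2_mem {A : Subalgebra K (Tw K)} {w ξ η : Vec K} (hw : ∀ j, w j ∈ A) (hξ : ∀ j, ξ j ∈ A)
    (hη : ∀ j, η j ∈ A) (f : Tm K) : D2 w f ξ η ∈ A := by
  induction f with
  | c a => exact zero_mem _
  | v j => exact zero_mem _
  | add f g hf hg => exact add_mem hf hg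
  | mul f g hf hg =>
    exact add_mem (add_mem (mul_mem hf (ev_mem hw g)) (mul_mem (D1_mem hw hξ f) (D1_mem hw hη g)))
      (mul_mem (ev_mem hw f) hg)

theorem ev_comm {w : Vec K} {m : Tw K} (hw : ∀ j, m * w j = w j * m) (f : Tm K) :
    m * ev w f = ev w f * m :=
  (Subalgebra.mem_centralizer_iff K).1
    (ev_mem (A := Subalgebra.centralizer K {m}) (fun j => by
      rw [Subalgebra.mem_centralizer_iff]; rintro _ rfl; exact hw j) f) m rfl

theorem D1_comm {w ξ : Vec K} {m : Tw K} (hw : ∀ j, m * w j = w j * m)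
    (hξ : ∀ j, m * ξ j = ξ j * m) (f : Tm K) : m * D1 w f ξ = D1 w f ξ * m :=
  (Subalgebra.mem_centralizer_iff K).1
    (D1_mem (A := Subalgebra.centralizer K {m}) (fun j => by
      rw [Subalgebra.mem_centralizer_iff]; rintro _ rfl; exact hw j) (fun j => by
      rw [Subalgebra.mem_centralizer_iff]; rintro _ rfl; exact hξ j) f) m rfl

theorem D1_smul {w : Vec K} {m : Tw K} (hw : ∀ j, m * w j = w j * m) (ξ : Vec K) (f : Tm K) :
    D1 w f (m • ξ) = m * D1 w f ξ := by
  induction f with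
  | c a => simp
  | v j => simp
  | add f g hf hg => simp only [D1_add, hf, hg, mul_add]
  | mul f g hf hg =>
    simp only [D1_mul, hf, hg, mul_add]
    rw [← mul_assoc (ev w f), ← ev_comm hw]; simp only [mul_assoc]

theorem D2_smul_left {w : Vec K} {m : Tw K} (hw : ∀ j, m * w j = w j * m) (ξ η : Vec K)
    (f : Tm K) : D2 w f (m • ξ) η = m * D2 w f ξ η := by
  induction f with
  | c a => simp
  | v j => simp
  | add f g hf hg => simp only [D2_add, hf, hg, mul_add]
  | mul f g hf hg =>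
    simp only [D2_mul, hf, hg, mul_add, D1_smul hw]
    rw [← mul_assoc (ev w f), ← ev_comm hw]; simp only [mul_assoc]

theorem D2_smul_right {w ξ : Vec K} {m : Tw K} (hw : ∀ j, m * w j = w j * m)
    (hξ : ∀ j, m * ξ j = ξ j * m) (η : Vec K) (f : Tm K) :
    D2 w f ξ (m • η) = m * D2 w f ξ η := by
  induction f with
  | c a => simp
  | v j => simp
  | add f g hf hg => simp only [D2_add, hf, hg, mul_add]
  | mul f g hf hg =>
    simp only [D2_mul, hf, hg, mul_add, D1_smul hw]
    rw [← mul_assoc (ev w f), ← ev_comm hw, ← mul_assoc (D1 w f ξ), ← D1_comm hw hξ]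
    simp only [mul_assoc]

theorem D1_ad (w : Vec K) (g : Tw K) (f : Tm K) :
    D1 w f (fun j => g * w j - w j * g) = g * ev w f - ev w f * g := by
  induction f with
  | c a => simp [Algebra.commutes]
  | v j => simp
  | add f g hf hg => simp only [D1_add, ev_add, hf, hg]; noncomm_ring
  | mul f g hf hg => simp only [D1_mul, ev_mul, hf, hg]; noncomm_ring

theorem ev_pow (w : Vec K) (f : Tm K) (k : ℕ) : ev w (f.pow k) = ev w f ^ k := by
  induction k with
  | zero => simp [Tm.pow]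
  | succ k ih => simp [Tm.pow, ih, pow_succ]

theorem D1_pow (w ξ : Vec K) (f : Tm K) (k : ℕ) :
    D1 w (f.pow k) ξ = Delk (ev w f) k (D1 w f ξ) := by
  induction k with
  | zero => simp [Tm.pow, Delk_zero]
  | succ k ih => simp [Tm.pow, ih, Delk_succ, ev_pow]

theorem D2_pow (w ξ η : Vec K) (f : Tm K) {g : Tw K}
    (h : D1 w f η = g * ev w f - ev w f * g) (k : ℕ) :
    D2 w (f.pow k) ξ η = Delk (ev w f) k (D2 w f ξ η + D1 w f ξ * g) -
      Delk (ev w f) k (D1 w f ξ) * g + D1 w (f.pow k) ξ * g - D1 w (f.pow k) ξ * g := by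
  induction k with
  | zero => simp [Tm.pow, Delk_zero]
  | succ k ih =>
    simp only [Tm.pow, D2_mul, ih, Delk_succ, ev_pow, D1_pow, h, add_sub_cancel_right]
    noncomm_ring

theorem ev_poly' (w : Vec K) (p : K[X]) (f : Tm K) (N : ℕ) :
    ev w (Tm.poly p f N) = ∑ k ∈ Finset.range N, p.coeff k • ev w f ^ k := by
  induction N with
  | zero => simp [Tm.poly]
  | succ N ih => simp [Tm.poly, ih, Finset.sum_range_succ, ev_pow, Algebra.smul_def]

theorem ev_poly (w : Vec K) {p : K[X]} (f : Tm K) {N : ℕ} (h : p.natDegree < N) :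
    ev w (Tm.poly p f N) = aeval (ev w f) p := by
  rw [ev_poly', aeval_eq_sum_range' h]

theorem D1_poly (w ξ : Vec K) {p : K[X]} (f : Tm K) {N : ℕ} (h : p.natDegree < N) :
    D1 w (Tm.poly p f N) ξ = Del (ev w f) p (D1 w f ξ) := by
  rw [Del_eq_sum _ _ h]
  clear h
  induction N with
  | zero => simp [Tm.poly]
  | succ N ih => simp [Tm.poly, ih, Finset.sum_range_succ, D1_pow, Algebra.smul_def]

theorem D2_poly (w ξ η : Vec K) {p : K[X]} (f : Tm K) {N : ℕ} (h : p.natDegree < N) {g : Tw K}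
    (hg : D1 w f η = g * ev w f - ev w f * g) :
    D2 w (Tm.poly p f N) ξ η = Del (ev w f) p (D2 w f ξ η + D1 w f ξ * g) -
      Del (ev w f) p (D1 w f ξ) * g := by
  rw [Del_eq_sum _ _ h, Del_eq_sum _ _ h]
  clear h
  induction N with
  | zero => simp [Tm.poly]
  | succ N ih =>
    simp only [Tm.poly, D2_add, ih, Finset.sum_range_succ, D2_mul, D2_c, D1_c, zero_mul, zero_add,
      ev_c, D2_pow w ξ η f hg, add_sub_cancel_right, ← Algebra.smul_def, smul_sub, add_mul,
      smul_mul_assoc]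
    abel

variable {φ : ValExt K K'}

variable (φ) in
/-- reduction of terms -/
inductive TRed : Tm K' → Tm K → Prop
  | c {x a} : φ.R x a → TRed (.c x) (.c a)
  | v (j) : TRed (.v j) (.v j)
  | add {f' g' f g} : TRed f' f → TRed g' g → TRed (.add f' g') (.add f g)
  | mul {f' g' f g} : TRed f' f → TRed g' g → TRed (.mul f' g') (.mul f g)

variable (φ) in
theorem TRed.map (f : Tm K) : TRed φ (f.map φ.ι) f := by
  induction f with
  | c a => exact .c (φ.R_ι a)
  | v j => exact .v j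
  | add f g hf hg => exact .add hf hg
  | mul f g hf hg => exact .mul hf hg

theorem TRed.pow {f' : Tm K'} {f : Tm K} (h : TRed φ f' f) (k : ℕ) :
    TRed φ (f'.pow k) (f.pow k) := by
  induction k with
  | zero => exact .c φ.R_one
  | succ k ih => exact .mul ih h

theorem TRed.poly {f' : Tm K'} {f : Tm K} (h : TRed φ f' f) {q : K'[X]} {p : K[X]}
    (hp : RedP φ q p) (N : ℕ) : TRed φ (Tm.poly q f' N) (Tm.poly p f N) := by
  induction N with
  | zero => exact .c φ.R_zero
  | succ k ih => exact .add ih (.mul (.c (hp k)) (h.pow k))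

theorem TRed.ev {f' : Tm K'} {f : Tm K} (h : TRed φ f' f) {w' : Vec K'} {w : Vec K}
    (hw : Red φ w' w) : Red φ (ev w' f') (ev w f) := by
  induction h with
  | c h => exact Red.algebraMap h
  | v j => exact hw j
  | add _ _ h1 h2 => exact h1.add h2
  | mul _ _ h1 h2 => exact h1.mul h2

theorem TRed.D1 {f' : Tm K'} {f : Tm K} (h : TRed φ f' f) {w' ξ' : Vec K'} {w ξ : Vec K}
    (hw : Red φ w' w) (hξ : Red φ ξ' ξ) : Red φ (D1 w' f' ξ') (D1 w f ξ) := by
  induction h with
  | c h => exact Red.zero φ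
  | v j => exact hξ j
  | add _ _ h1 h2 => exact h1.add h2
  | mul a b h1 h2 => exact (h1.mul (b.ev hw)).add ((a.ev hw).mul h2)

theorem TRed.D2 {f' : Tm K'} {f : Tm K} (h : TRed φ f' f) {w' ξ' η' : Vec K'} {w ξ η : Vec K}
    (hw : Red φ w' w) (hξ : Red φ ξ' ξ) (hη : Red φ η' η) :
    Red φ (D2 w' f' ξ' η') (D2 w f ξ η) := by
  induction h with
  | c h => exact Red.zero φ
  | v j => exact Red.zero φ
  | add _ _ h1 h2 => exact h1.add h2
  | mul a b h1 h2 =>
    exact ((h1.mul (b.ev hw)).add ((a.D1 hw hξ).mul (b.D1 hw hη))).add ((a.ev hw).mul h2)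

/-- first order Taylor expansion -/
theorem TRed.taylor1 {f' : Tm K'} {f : Tm K} (h : TRed φ f' f) {w' ξ' : Vec K'} {w ξ : Vec K}
    (hw : Red φ w' w) (hξ : Red φ ξ' ξ) {s : K'} (hs : φ.R s 0) :
    ∃ y, R180.ev (w' + s • ξ') f' = R180.ev w' f' + s • R180.D1 w' f' ξ' + (s * s) • y ∧
      Red φ y (R180.D2 w f ξ ξ) := by
  induction h with
  | c h => exact ⟨0, by simp, Red.zero φ⟩
  | v j => exact ⟨0, by simp, Red.zero φ⟩
  | add _ _ h1 h2 =>
    obtain ⟨y1, e1, r1⟩ := h1
    obtain ⟨y2, e2, r2⟩ := h2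
    refine ⟨y1 + y2, ?_, r1.add r2⟩
    simp only [ev_add, D1_add, e1, e2, smul_add]; abel
  | @mul f' g' f g a b h1 h2 =>
    obtain ⟨y1, e1, r1⟩ := h1
    obtain ⟨y2, e2, r2⟩ := h2
    refine ⟨y1 * R180.ev w' g' + R180.D1 w' f' ξ' * R180.D1 w' g' ξ' + R180.ev w' f' * y2 +
      s • (y1 * R180.D1 w' g' ξ' + R180.D1 w' f' ξ' * y2 + s • (y1 * y2)), ?_, ?_⟩
    · simp only [ev_mul, D1_mul, e1, e2, smul_add, add_mul, mul_add, smul_mul_assoc, mul_smul_comm,
        smul_smul]
      module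
    · have := (((r1.mul (b.ev hw)).add ((a.D1 hw hξ).mul (b.D1 hw hξ))).add ((a.ev hw).mul r2)).add
        (Red.smul_zero hs (((r1.mul (b.D1 hw hξ)).add ((a.D1 hw hξ).mul r2)).add
          (Red.smul_zero hs (r1.mul r2))))
      rwa [add_zero] at this

/-- Taylor expansion of the derivative -/
theorem TRed.taylorD {f' : Tm K'} {f : Tm K} (h : TRed φ f' f) {w' ξ' η' : Vec K'}
    {w ξ η : Vec K} (hw : Red φ w' w) (hξ : Red φ ξ' ξ) (hη : Red φ η' η) {s : K'}
    (hs : φ.R s 0) :
    ∃ y, R180.D1 (w' + s • ξ') f' η' = R180.D1 w' f' η' + s • y ∧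
      Red φ y (R180.D2 w f ξ η + R180.D2 w f η ξ) := by
  induction h with
  | c h => exact ⟨0, by simp, by simpa using Red.zero φ⟩
  | v j => exact ⟨0, by simp, by simpa using Red.zero φ⟩
  | add _ _ h1 h2 =>
    obtain ⟨y1, e1, r1⟩ := h1
    obtain ⟨y2, e2, r2⟩ := h2
    refine ⟨y1 + y2, ?_, ?_⟩
    · simp only [D1_add, e1, e2, smul_add]; abel
    · convert r1.add r2 using 1
      simp only [D2_add]; abel
  | @mul f' g' f g a b h1 h2 =>
    obtain ⟨y1, e1, r1⟩ := h1
    obtain ⟨y2, e2, r2⟩ := h2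
    obtain ⟨z1, e3, r3⟩ := a.taylor1 hw hξ hs
    obtain ⟨z2, e4, r4⟩ := b.taylor1 hw hξ hs
    refine ⟨(y1 * R180.ev w' g' + R180.D1 w' f' η' * R180.D1 w' g' ξ') +
      (R180.D1 w' f' ξ' * R180.D1 w' g' η' + R180.ev w' f' * y2) +
      s • (R180.D1 w' f' η' * z2 + y1 * R180.D1 w' g' ξ' + s • (y1 * z2) +
        (z1 * R180.D1 w' g' η' + R180.D1 w' f' ξ' * y2 + s • (z1 * y2))), ?_, ?_⟩
    · simp only [D1_mul, e1, e2, e3, e4, smul_add, add_mul, mul_add, smul_mul_assoc, mul_smul_comm,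
        smul_smul]
      module
    · have := (((r1.mul (b.ev hw)).add ((a.D1 hw hη).mul (b.D1 hw hξ))).add
        (((a.D1 hw hξ).mul (b.D1 hw hη)).add ((a.ev hw).mul r2))).add
        (Red.smul_zero hs (((((a.D1 hw hη).mul r4).add (r1.mul (b.D1 hw hξ))).add
          (Red.smul_zero hs (r1.mul r4))).add (((r3.mul (b.D1 hw hη)).add
            ((a.D1 hw hξ).mul r2)).add (Red.smul_zero hs (r3.mul r2)))))
      convert this using 1
      simp only [D2_mul, add_mul, mul_add]; abel

variable (φ) in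
/-- base change of vectors -/
noncomputable def upV (w : Vec K) : Vec K' := fun j => up φ (w j)

variable (φ) in
theorem Red.upV (w : Vec K) : Red φ (upV φ w) w := fun j => Red.up φ (w j)

theorem ev_up (w : Vec K) (f : Tm K) : ev (upV φ w) (f.map φ.ι) = up φ (ev w f) := by
  induction f with
  | c a => simp [Tm.map, up_algebraMap]
  | v j => rfl
  | add f g hf hg => simp [Tm.map, hf, hg]
  | mul f g hf hg => simp [Tm.map, hf, hg]

theorem D1_up (w ξ : Vec K) (f : Tm K) :
    D1 (upV φ w) (f.map φ.ι) (upV φ ξ) = up φ (D1 w f ξ) := by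
  induction f with
  | c a => simp [Tm.map]
  | v j => rfl
  | add f g hf hg => simp [Tm.map, hf, hg]
  | mul f g hf hg => simp [Tm.map, hf, hg, ev_up]

theorem up_Delk (a y : Tw K) (k : ℕ) : up φ (Delk a k y) = Delk (up φ a) k (up φ y) := by
  induction k with
  | zero => simp [Delk_zero]
  | succ k ih => simp [Delk_succ, ih]

theorem up_Del (a y : Tw K) (p : K[X]) :
    up φ (Del a p y) = Del (up φ a) (p.map φ.ι) (up φ y) := by
  induction p using Polynomial.induction_on' with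
  | add p q hp hq => simp [hp, hq]
  | monomial k c => simp [Del_monomial, up_smul, up_Delk]

end Crest.Agent.R180
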