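import Mathlib

set_option autoImplicit false

namespace Crest.Agent.R180

/-- order of the `α`-th symbol algebra -/
def ell (α : ℕ) : ℕ := 2 * α + 5

instance (α : ℕ) : NeZero (ell α) := ⟨by unfold ell; omega⟩
instance (α : ℕ) : Fact (1 < ell α) := ⟨by unfold ell; omega⟩

structure Ix where
  a : ℕ
  b : Bool
deriving DecidableEq

def Ix.enc (i : Ix) : ℕ := 2 * i.a + i.b.toNat

theorem Ix.enc_inj : Function.Injective Ix.enc := by
  rintro ⟨a, b⟩ ⟨c, d⟩ h
  simp only [Ix.enc] at h
  cases b <;> cases d <;> simp at h ⊢ <;> omega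

noncomputable instance : LinearOrder Ix := LinearOrder.lift' Ix.enc Ix.enc_inj

abbrev G := Π₀ i : Ix, ZMod (ell i.a)

/-- one term of the bilinear pairing -/
noncomputable def Bterm (i : Ix) : ZMod (ell i.a) →+ (G →+ UnitAddCircle) :=
  if i.b then
    { toFun := fun x =>
        { toFun := fun h => ZMod.toAddCircle (x * h ⟨i.a, false⟩)
          map_zero' := by simp
          map_add' := by intro h k; simp [mul_add] }
      map_zero' := by ext h; simp
      map_add' := by intro x y; ext h; simp [add_mul] }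
  else 0

noncomputable def Bf : G →+ (G →+ UnitAddCircle) := DFinsupp.sumAddHom Bterm

theorem Bf_single (i : Ix) (x : ZMod (ell i.a)) (h : G) :
    Bf (DFinsupp.single i x) h =
      if i.b then ZMod.toAddCircle (x * h ⟨i.a, false⟩) else 0 := by
  unfold Bf
  rw [DFinsupp.sumAddHom_single]
  unfold Bterm
  split_ifs <;> simp

theorem Bf_single_right (g : G) (i : Ix) (x : ZMod (ell i.a)) :
    Bf g (DFinsupp.single i x) =
      if i.b then 0 else ZMod.toAddCircle (g ⟨i.a, true⟩ * x) := by
  induction g using DFinsupp.induction with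
  | h0 => simp
  | ha j y g _ _ ih =>
    rw [map_add, AddMonoidHom.add_apply, ih, Bf_single]
    obtain ⟨a, b⟩ := i
    obtain ⟨c, d⟩ := j
    by_cases hac : a = c
    · subst hac
      cases b <;> cases d <;> simp [add_mul]
    · have h1 : ∀ e : Bool, (⟨a, b⟩ : Ix) ≠ ⟨c, e⟩ := by intro e h; simp at h; exact hac h.1
      have h2 : ∀ e : Bool, (⟨c, d⟩ : Ix) ≠ ⟨a, e⟩ := by intro e h; simp at h; exact hac h.1.symm
      cases b <;> cases d <;> simp [h1, h2]

theorem Bf_eq_zero_of_disj (g h : G) (H : ∀ a, g ⟨a, true⟩ = 0 ∨ h ⟨a, false⟩ = 0) :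
    Bf g h = 0 := by
  classical
  unfold Bf
  rw [DFinsupp.sumAddHom_apply, DFinsupp.sum, AddMonoidHom.finsetSum_apply]
  apply Finset.sum_eq_zero
  rintro ⟨a, b⟩ _
  unfold Bterm
  cases b
  · simp
  · rcases H a with h1 | h1 <;> simp [h1]

abbrev Gam' := Lex (Ix →₀ ℚ)

/-- the integral points -/
def Gam : AddSubgroup Gam' where
  carrier := {x | ∀ i, ∃ n : ℤ, ofLex x i = n}
  zero_mem' := fun i => ⟨0, by simp⟩
  add_mem' := by
    intro x y hx hy i
    obtain ⟨n, hn⟩ := hx i
    obtain ⟨k, hk⟩ := hy i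
    exact ⟨n + k, by simp [hn, hk]⟩
  neg_mem' := by
    intro x hx i
    obtain ⟨n, hn⟩ := hx i
    exact ⟨-n, by simp [hn]⟩

noncomputable def dg (g : G) : Gam' :=
  toLex (Finsupp.onFinset g.support (fun i => ((g i).val : ℚ) / ell i.a) (by
    intro i hi
    rw [DFinsupp.mem_support_iff]
    intro h
    apply hi
    simp [h]))

theorem dg_apply (g : G) (i : Ix) : ofLex (dg g) i = ((g i).val : ℚ) / ell i.a := by
  simp [dg]

theorem dg_zero : dg 0 = 0 := by
  apply ofLex.injective
  ext i
  simp [dg_apply]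

theorem kap_mem (g h : G) : dg g + dg h - dg (g + h) ∈ Gam := by
  intro i
  have h0 : (ell i.a : ℚ) ≠ 0 := by exact_mod_cast NeZero.ne _
  obtain ⟨q, hq⟩ : ∃ q : ℕ, q = ((g i).val + (h i).val) / ell i.a := ⟨_, rfl⟩
  refine ⟨q, ?_⟩
  simp only [ofLex_sub, ofLex_add, Finsupp.coe_sub, Finsupp.coe_add, Pi.sub_apply, Pi.add_apply,
    dg_apply, DFinsupp.add_apply, ZMod.val_add]
  have := Nat.div_add_mod ((g i).val + (h i).val) (ell i.a)
  rw [← hq] at this
  have h2 : ((ell i.a : ℚ)) * (q : ℚ)
      + ((((g i).val + (h i).val) % ell i.a : ℕ) : ℚ) = (g i).val + (h i).val := by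
    exact_mod_cast this
  field_simp
  push_cast at h2 ⊢
  linarith

theorem dg_inj_mod (g h : G) (H : dg g - dg h ∈ Gam) : g = h := by
  ext i
  obtain ⟨n, hn⟩ := H i
  simp only [ofLex_sub, Finsupp.coe_sub, Pi.sub_apply, dg_apply] at hn
  have h0 : (ell i.a : ℚ) ≠ 0 := by exact_mod_cast NeZero.ne _
  have h1 : ((g i).val : ℚ) - (h i).val = n * ell i.a := by
    field_simp at hn; linarith
  have h2 : ((g i).val : ℤ) - (h i).val = n * ell i.a := by exact_mod_cast h1
  have h3 : (((g i).val : ℤ) : ZMod (ell i.a)) - (((h i).val : ℤ) : ZMod (ell i.a)) = 0 := by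
    rw [← Int.cast_sub, h2]; simp
  simpa [sub_eq_zero] using h3

noncomputable def kap (g h : G) : Gam := ⟨dg g + dg h - dg (g + h), kap_mem g h⟩

abbrev Z0 := HahnSeries Gam ℂ

noncomputable example : Field Z0 := inferInstance

noncomputable def circ (t : UnitAddCircle) : ℂ := (AddCircle.toCircle t : Circle)

theorem circ_add (s t : UnitAddCircle) : circ (s + t) = circ s * circ t := by
  simp [circ, AddCircle.toCircle_add]

theorem circ_zero : circ 0 = 1 := by simp [circ]

theorem circ_ne_zero (t : UnitAddCircle) : circ t ≠ 0 := by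
  simp [circ]

theorem circ_eq_one {t : UnitAddCircle} (h : circ t = 1) : t = 0 := by
  apply AddCircle.injective_toCircle one_ne_zero
  rw [AddCircle.toCircle_zero]
  exact Circle.ext h

theorem circ_nsmul (n : ℕ) (t : UnitAddCircle) : circ (n • t) = circ t ^ n := by
  simp [circ, AddCircle.toCircle_nsmul]

noncomputable def c0 (g h : G) : Z0 := HahnSeries.single (kap g h) (circ (Bf g h))

theorem c0_ne_zero (g h : G) : c0 g h ≠ 0 := by
  unfold c0
  exact HahnSeries.single_ne_zero (circ_ne_zero _)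

theorem c0_cocycle (g h k : G) : c0 g h * c0 (g + h) k = c0 h k * c0 g (h + k) := by
  unfold c0
  rw [HahnSeries.single_mul_single, HahnSeries.single_mul_single]
  congr 1
  · congr 1
    apply Subtype.ext
    simp only [kap, AddSubgroup.coe_add, add_assoc]
    abel
  · simp only [← circ_add, map_add, AddMonoidHom.add_apply]
    congr 1; abel

theorem c0_zero_left (h : G) : c0 0 h = 1 := by
  unfold c0
  have : kap 0 h = 0 := by apply Subtype.ext; simp [kap, dg_zero]
  rw [this]; simp [circ_zero]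

theorem c0_zero_right (h : G) : c0 h 0 = 1 := by
  unfold c0
  have : kap h 0 = 0 := by apply Subtype.ext; simp [kap, dg_zero]
  rw [this]; simp [circ_zero]

noncomputable def eps0 (g h : G) : Z0 := HahnSeries.C (circ (Bf g h - Bf h g))

theorem c0_comm (g h : G) : c0 g h = eps0 g h * c0 h g := by
  unfold c0 eps0
  rw [HahnSeries.C_apply, HahnSeries.single_mul_single, ← circ_add]
  congr 1
  · congr 1
    apply Subtype.ext
    simp [kap, add_comm]
  · congr 1; abel

theorem eps0_eq_one_iff (g h : G) : eps0 g h = 1 ↔ Bf g h = Bf h g := by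
  unfold eps0
  constructor
  · intro H
    have : circ (Bf g h - Bf h g) = 1 := by
      apply HahnSeries.C_injective (Γ := Gam)
      rw [H, map_one]
    exact sub_eq_zero.1 (circ_eq_one this)
  · intro H; rw [H, sub_self, circ_zero, map_one]

theorem eps0_pow (g h : G) (n : ℕ) (hn : n • g = 0) : eps0 g h ^ n = 1 := by
  unfold eps0
  rw [← map_pow, ← circ_nsmul, smul_sub]
  have h1 : n • Bf g h = 0 := by
    rw [← AddMonoidHom.nsmul_apply, ← map_nsmul, hn]; simp
  have h2 : n • Bf h g = 0 := by rw [← map_nsmul, hn]; simp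
  rw [h1, h2, sub_self, circ_zero, map_one]

instance : CharZero Z0 := by
  refine ⟨fun a b h => ?_⟩
  have : (HahnSeries.C (a : ℂ) : Z0) = HahnSeries.C (b : ℂ) := by simpa using h
  exact_mod_cast HahnSeries.C_injective this

end Crest.Agent.R180
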