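import Crest.Agent.R180.LocT

set_option autoImplicit false

namespace Crest.Agent.R180

open Module Polynomial

variable {K : Type} [Field K] [Algebra Z0 K]

theorem pmap_add {A B : Type} [Ring A] [Ring B] (f : A →+ B) (q q' : A[X]) :
    pmap f (q + q') = pmap f q + pmap f q' := by
  ext k; simp [coeff_pmap]

theorem pmap_sub {A B : Type} [Ring A] [Ring B] (f : A →+ B) (q q' : A[X]) :
    pmap f (q - q') = pmap f q - pmap f q' := by
  ext k; simp [coeff_pmap]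

theorem pmap_zero {A B : Type} [Ring A] [Ring B] (f : A →+ B) : pmap f (0 : A[X]) = 0 := by
  ext k; simp [coeff_pmap]

theorem pmap_ep_map (m : ℕ) (k : ℤ) (q : K[X]) :
    pmap (lcf k) (ep K ^ m • q.map (lau K).ι) = if k = m then q else 0 := by
  ext j
  rw [coeff_pmap, coeff_smul, coeff_map, smul_eq_mul, lau_ι, lcf_ep_pow_mul_lC]
  split_ifs <;> simp

theorem poly_scale {m : ℕ} {q : (Lau K)[X]} (h : ∀ k < (m : ℤ), pmap (lcf k) q = 0) :
    ∃ q', q = ep K ^ m • q' ∧ RedP (lau K) q' (pmap (lcf m) q) := by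
  refine ⟨(ep K ^ m)⁻¹ • q, by
    rw [smul_smul, mul_inv_cancel₀ (pow_ne_zero _ ep_ne_zero), one_smul], fun j => ?_⟩
  rw [coeff_smul, smul_eq_mul, lau_R_inv_mul]
  exact ⟨fun k hk => by rw [← coeff_pmap, h k hk, coeff_zero], (coeff_pmap _ _ _).symm⟩

theorem shift {F' : Tm (Lau K)} {F : Tm K} (hF : TRed (lau K) F' F) {w' ζ' : Vec (Lau K)}
    {w ζ : Vec K} (hw : Red (lau K) w' w) (hζ : Red (lau K) ζ' ζ) {m : ℕ} (hm : 0 < m)
    {c : Tw K} (hc : Od (K := K) m (ev w' F') c) :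
    Od (K := K) m (ev (w' + ep K ^ m • ζ') F') (c + D1 w F ζ) := by
  obtain ⟨y, e, hy⟩ := hF.taylor1 hw hζ (R_ep_pow hm)
  rw [e, mul_smul]
  have := (hc.add (Od.of_red (hF.D1 hw hζ))).add
    (Od.of_red (m := m) (Red.smul_zero (R_ep_pow hm) hy))
  rwa [add_zero] at this

theorem Od.red_add {w' : Vec (Lau K)} {w τ : Vec K} {m : ℕ} (hm : 0 < m)
    (h : Od (K := K) m (w' - upV (lau K) w) τ) : Red (lau K) w' w := by
  have := (Od_zero_iff.1 (h.lower hm)).add (Red.upV (lau K) w)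
  simpa using this

variable [Dom K]

/-- admissible variations of the minimal polynomial -/
noncomputable def Wp (a : Tw K) (W : Submodule K (Tw K)) : Submodule K K[X] :=
  degreeLT K (dgr a) ⊓ W.comap (LinearMap.mulLeft K (pd a)⁻¹ ∘ₗ (aeval a).toLinearMap)

theorem mem_Wp {a : Tw K} {W : Submodule K (Tw K)} {q : K[X]} :
    q ∈ Wp a W ↔ q.degree < dgr a ∧ (pd a)⁻¹ * aeval a q ∈ W := by
  rw [Wp, Submodule.mem_inf, mem_degreeLT]; rfl

section
variable (J E : Finset ℕ) (w : Vec K) (S : ℕ → Tm K) (R : ℕ → Submodule K (Tw K)) (n : ℕ)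
  (U : ℕ → Submodule K (Tw K)) (τ : Vec K)

/-- conditions on the first order term -/
structure ArcC (X : Submodule K (Vec K)) : Prop where
  disj : Disjoint J E
  mem : τ ∈ VV (J ∪ E) w S n
  le : X ≤ VV J w S n
  a2 : ∀ b ∈ NN (J ∪ E) w S (fun i => Tens E (R i)) n, cmp K J 0 b = 0 → Om w S n b τ τ = 0
  a3 : ∀ b ∈ NN (J ∪ E) w S (fun i => Tens E (R i)) n,
    (∀ η ∈ Tens E X, Om w S n b τ η + Om w S n b η τ = 0) → b ∈ base K (Fam K) J
  gc : DJ K (J ∪ E) ≤ Algebra.adjoin K ((DJ K J : Set (Tw K)) ∪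
      {y | ∃ f : Tm K, ev w f = 0 ∧ y = D1 w f τ})

/-- local conditions -/
structure LocC : Prop where
  hw : w ∈ base K (Vec K) J
  hR : ∀ i < n, R i ≤ CC J w S i
  hPR : ∀ i < n, PP J w S i (S i) ⊓ R i = ⊥
  hU : IsU J w S R n U

noncomputable def WW : Submodule K (Fam K) :=
  ImR (J ∪ E) w S (fun i => Tens E (R i)) n ⊔ famSub n U

noncomputable def pt (q : ℕ → (Lau K)[X]) (i : ℕ) : (Lau K)[X] :=
  (minpoly K (ev w (S i))).map (lau K).ι + q i

noncomputable def Phi (w' : Vec (Lau K)) (q : ℕ → (Lau K)[X]) (i : ℕ) : Tw (Lau K) :=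
  aeval (ev w' ((S i).map (lau K).ι)) (pt w S q i)

noncomputable def Ft (q : ℕ → (Lau K)[X]) (i : ℕ) : Tm (Lau K) :=
  Tm.poly (pt w S q i) ((S i).map (lau K).ι) (dgr (ev w (S i)) + 1)

structure Bas (w' : Vec (Lau K)) (q : ℕ → (Lau K)[X]) : Prop where
  mem : w' ∈ base (Lau K) (Vec (Lau K)) (J ∪ E)
  fo : Od (K := K) 1 (w' - upV (lau K) w) τ
  deg : ∀ i < n, (q i).degree < dgr (ev w (S i))
  var : ∀ i < n, ∀ k, pmap (lcf k) (q i) ∈ Wp (ev w (S i)) (U i ⊔ R i ⊓ LL w S i)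
  two : ∀ i < n, ∀ k < 2, pmap (lcf k) (q i) = 0

def Pre (m : ℕ) (w' : Vec (Lau K)) (q : ℕ → (Lau K)[X]) : Prop :=
  Bas J E w S R n U τ w' q ∧ ∀ i < n, ∃ c : Tw K, Od (K := K) m (Phi w S w' q i) c

def State (m : ℕ) (w' : Vec (Lau K)) (q : ℕ → (Lau K)[X]) : Prop :=
  Bas J E w S R n U τ w' q ∧ ∃ c ∈ WW J E w S R n U,
    ∀ i < n, Od (K := K) m (Phi w S w' q i) (pd (ev w (S i)) * c i)

def ArcEnd (w' : Vec (Lau K)) (q : ℕ → (Lau K)[X]) : Prop :=
  Bas J E w S R n U τ w' q ∧ ∀ i < n, Phi w S w' q i = 0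

/-- vanishing of the bulk obstruction -/
def IMP : Prop :=
  ∀ m, 2 ≤ m → ∀ w' q, Bas J E w S R n U τ w' q → ∀ ξ ∈ base K (Vec K) (J ∪ E),
    ∀ ρ ∈ famSub n (fun i => Tens E (R i)), ∀ u ∈ famSub n U,
      (∀ i < n, Od (K := K) m (Phi w S w' q i) (pd (ev w (S i)) * (lam w (S i) ξ + ρ i + u i))) →
      ∀ i < n, ρ i ∈ R i ⊓ LL w S i

end

variable {J E : Finset ℕ} {w : Vec K} {S : ℕ → Tm K} {R : ℕ → Submodule K (Tw K)} {n : ℕ}
  {U : ℕ → Submodule K (Tw K)} {τ : Vec K} {X : Submodule K (Vec K)}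
  {w' : Vec (Lau K)} {q : ℕ → (Lau K)[X]}

theorem LocC.pre (h : LocC J w S R (n + 1) U) : LocC J w S R n U :=
  ⟨h.hw, fun i hi => h.hR i (Nat.lt_succ_of_lt hi), fun i hi => h.hPR i (Nat.lt_succ_of_lt hi),
    fun i hi => h.hU i (Nat.lt_succ_of_lt hi)⟩

theorem ArcC.pre (h : ArcC J E w S R (n + 1) τ X) : ArcC J E w S R n τ X where
  disj := h.disj
  mem := VV_anti (Nat.le_succ n) h.mem
  le := h.le.trans (VV_anti (Nat.le_succ n))
  a2 b hb h0 := by
    rw [← Om_succ_of ((NN_le hb).2 n le_rfl)]; exact h.a2 b (NN_le_succ hb) h0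
  a3 b hb h0 := h.a3 b (NN_le_succ hb) (fun η hη => by
    rw [Om_succ_of ((NN_le hb).2 n le_rfl), Om_succ_of ((NN_le hb).2 n le_rfl)]; exact h0 η hη)
  gc := h.gc

theorem Bas.pre (h : Bas J E w S R (n + 1) U τ w' q) : Bas J E w S R n U τ w' q :=
  ⟨h.mem, h.fo, fun i hi => h.deg i (Nat.lt_succ_of_lt hi),
    fun i hi => h.var i (Nat.lt_succ_of_lt hi), fun i hi => h.two i (Nat.lt_succ_of_lt hi)⟩

theorem ArcEnd.pre (h : ArcEnd J E w S R (n + 1) U τ w' q) : ArcEnd J E w S R n U τ w' q :=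
  ⟨h.1.pre, fun i hi => h.2 i (Nat.lt_succ_of_lt hi)⟩

theorem LocC.hw' (h : LocC J w S R n U) : w ∈ base K (Vec K) (J ∪ E) :=
  base_mono Finset.subset_union_left h.hw

theorem WW_le (hE : Disjoint J E) (h : LocC J w S R n U) : WW J E w S R n U ≤ TT (J ∪ E) w S n :=
  sup_le (ImR_le h.hw' (Tens_R_le hE h.hw h.hR))
    (famSub_mono (fun i hi => (h.hU i hi).1.trans (LL_le_CC h.hw' i)))

theorem ArcC.tens_le (hA : ArcC J E w S R n τ X) (hw : w ∈ base K (Vec K) J) :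
    Tens E X ≤ VV (J ∪ E) w S n := VV_Tens hA.disj hw ▸ Tens_mono subset_rfl hA.le

theorem ArcC.primal2 (hA : ArcC J E w S R n τ X) (h : LocC J w S R n U) :
    Psi w S n τ τ ∈ WW J E w S R n U := by
  apply dperp (prF K n) _ prF_nondeg (WW_le hA.disj h) (Psi_mem h.hw' hA.mem hA.mem)
  intro b hb h0
  have hb' : b ∈ NN (J ∪ E) w S (fun i => Tens E (R i)) n :=
    ⟨hb, fun c hc => h0 c (Submodule.mem_sup_left hc)⟩
  exact hA.a2 b hb' (cmp_zero_eq_zero hA.disj h.hw h.hR h.hU hb'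
    (fun u hu => h0 u (Submodule.mem_sup_right hu)))

theorem ArcC.primal3 (hA : ArcC J E w S R n τ X) (h : LocC J w S R n U) {c : Fam K}
    (hc : c ∈ TT (J ∪ E) w S n) : ∃ η ∈ Tens E X, c + Sg w S n τ η ∈ WW J E w S R n U := by
  have : c ∈ (Tens E X).map (Sg w S n τ) ⊔ WW J E w S R n U := by
    apply dperp (prF K n) _ prF_nondeg (sup_le _ (WW_le hA.disj h)) hc
    · intro b hb h0
      have hb' : b ∈ NN (J ∪ E) w S (fun i => Tens E (R i)) n :=
        ⟨hb, fun c hc => h0 c (Submodule.mem_sup_right (Submodule.mem_sup_left hc))⟩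
      have h1 := hA.a3 b hb' (fun η hη => by
        rw [← prF_Sg]; exact h0 _ (Submodule.mem_sup_left ⟨η, hη, rfl⟩))
      have h2 := cmp_zero_eq_zero hA.disj h.hw h.hR h.hU hb'
        (fun u hu => h0 u (Submodule.mem_sup_right (Submodule.mem_sup_right hu)))
      rw [cmp_zero_of_mem h1] at h2
      rw [h2]; simp
    · rintro _ ⟨η, hη, rfl⟩
      exact Sg_mem h.hw' hA.mem (hA.tens_le h.hw hη)
  obtain ⟨_, ⟨η, hη, rfl⟩, x, hx, rfl⟩ := Submodule.mem_sup.1 this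
  exact ⟨-η, neg_mem hη, by simpa using hx⟩

theorem Bas.red (h : Bas J E w S R n U τ w' q) : Red (lau K) w' w := h.fo.red_add one_pos

theorem Bas.redP (h : Bas J E w S R n U τ w' q) {i : ℕ} (hi : i < n) :
    RedP (lau K) (pt w S q i) (minpoly K (ev w (S i))) := by
  obtain ⟨q', e, hq⟩ := poly_scale (m := 2) (h.two i hi)
  have := (RedP.map (lau K) (minpoly K (ev w (S i)))).add (hq.smul (R_ep_pow two_pos))
  rwa [zero_smul, add_zero, ← e] at this

theorem Bas.degree_pt (h : Bas J E w S R n U τ w' q) {i : ℕ} (hi : i < n) :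
    (pt w S q i).Monic ∧ (pt w S q i).natDegree = dgr (ev w (S i)) := by
  have hm := (minpoly.monic (isIntegral_Tw (ev w (S i)))).map (lau K).ι
  have hd : ((minpoly K (ev w (S i))).map (lau K).ι).degree = dgr (ev w (S i)) := by
    rw [degree_map, degree_eq_natDegree (minpoly.ne_zero (isIntegral_Tw _))]; rfl
  have hlt := hd ▸ h.deg i hi
  exact ⟨hm.add_of_left hlt, natDegree_eq_of_degree_eq_some
    (by rw [pt, degree_add_eq_left_of_degree_lt hlt, hd])⟩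

theorem Bas.tred (h : Bas J E w S R n U τ w' q) {i : ℕ} (hi : i < n) :
    TRed (lau K) (Ft w S q i) (pf w (S i)) := (TRed.map _ _).poly (h.redP hi) _

theorem Bas.ev_Ft (h : Bas J E w S R n U τ w' q) {i : ℕ} (hi : i < n) (v : Vec (Lau K)) :
    ev v (Ft w S q i) = Phi w S v q i :=
  ev_poly _ _ (by rw [(h.degree_pt hi).2]; exact Nat.lt_succ_self _)

theorem Bas.D1_Ft (h : Bas J E w S R n U τ w' q) {i : ℕ} (hi : i < n) (v ζ : Vec (Lau K)) :
    D1 v (Ft w S q i) ζ = Del (ev v ((S i).map (lau K).ι)) (pt w S q i)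
      (D1 v ((S i).map (lau K).ι) ζ) :=
  D1_poly _ _ _ (by rw [(h.degree_pt hi).2]; exact Nat.lt_succ_self _)

theorem D1_pf (w ζ : Vec K) (f : Tm K) : D1 w (pf w f) ζ = pd (ev w f) * lam w f ζ := by
  rw [pf, D1_poly _ _ _ (N := dgr (ev w f) + 1) (Nat.lt_succ_self _), Del_minpoly, lam_apply]

theorem pd_mul_psi (w ξ η : Vec K) (f : Tm K) :
    pd (ev w f) * psi w f ξ η = D2 w (pf w f) ξ η := by
  rw [psi_apply, ← mul_assoc, mul_inv_cancel₀ (pd_ne_zero _), one_mul]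

theorem Bas.shift (h : Bas J E w S R n U τ w' q) {i : ℕ} (hi : i < n) {ζ' : Vec (Lau K)}
    {ζ : Vec K} (hζ : Red (lau K) ζ' ζ) {m : ℕ} (hm : 0 < m) {c : Tw K}
    (hc : Od (K := K) m (Phi w S w' q i) c) :
    Od (K := K) m (Phi w S (w' + ep K ^ m • ζ') q i) (c + pd (ev w (S i)) * lam w (S i) ζ) := by
  rw [← h.ev_Ft hi] at hc ⊢
  rw [← D1_pf]
  exact R180.shift (h.tred hi) h.red hζ hm hc

theorem Bas.D1_up (h : Bas J E w S R n U τ w' q) {i : ℕ} (hi : i < n) {η : Vec K}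
    (hη : lam w (S i) η = 0) :
    Od (K := K) 1 (D1 w' (Ft w S q i) (upV (lau K) η))
      (pd (ev w (S i)) * (psi w (S i) τ η + psi w (S i) η τ)) := by
  obtain ⟨τ', e, hτ⟩ := h.fo
  have e' : w' = upV (lau K) w + ep K • τ' := by rw [pow_one] at e; rw [← e]; abel
  obtain ⟨y, e2, hy⟩ := (h.tred hi).taylorD (Red.upV _ w) hτ (Red.upV _ η) R_ep
  obtain ⟨q', e3, hq⟩ := poly_scale (m := 2) (h.two i hi)
  rw [← e'] at e2
  rw [e2, h.D1_Ft hi, R180.D1_up, ev_up, pt, map_add, LinearMap.add_apply, ← up_Del, Del_minpoly,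
    ← lam_apply, hη, mul_zero, map_zero, zero_add, e3, map_smul, LinearMap.smul_apply, mul_add,
    pd_mul_psi, pd_mul_psi]
  have := ((Od.of_red (m := 2) (hq.Del (Red.up _ (ev w (S i)))
    (Red.up _ (D1 w (S i) η)))).lower one_lt_two).add (Od.of_red (m := 1) hy)
  rwa [zero_add, pow_one] at this

theorem Bas.shift2 (h : Bas J E w S R n U τ w' q) {i : ℕ} (hi : i < n) {η : Vec K}
    (hη : lam w (S i) η = 0) {m : ℕ} (hm : 2 ≤ m) {c : Tw K}
    (hc : Od (K := K) (m + 1) (Phi w S w' q i) c) :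
    Od (K := K) (m + 1) (Phi w S (w' + ep K ^ m • upV (lau K) η) q i)
      (c + pd (ev w (S i)) * (psi w (S i) τ η + psi w (S i) η τ)) := by
  rw [← h.ev_Ft hi] at hc ⊢
  obtain ⟨y, e, hy⟩ := (h.tred hi).taylor1 h.red (Red.upV _ η) (R_ep_pow (m := m) (by omega))
  obtain ⟨z, e2, hz⟩ := h.D1_up hi hη
  rw [e, e2, smul_smul, ← pow_add, ← pow_add]
  have := (hc.add (Od.of_red (m := m + 1) hz)).add
    ((Od.of_red (m := m + m) hy).lower (k := m + 1) (by omega))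
  rwa [add_zero] at this

theorem Bas.mem_Cen (h : Bas J E w S R n U τ w' q) (i : ℕ) {m : ℕ} {c : Tw K}
    (hc : Od (K := K) m (Phi w S w' q i) c) : c ∈ Cen (J ∪ E) {ev w (S i)} := by
  rw [Od_iff] at hc
  exact leadA_Cen_le ((TRed.map _ (S i)).ev h.red) (hc.mem_leadA (Subalgebra.smul_mem _
    (Lf_le_Cen (ev_mem_DJ h.mem _) (aeval_mem_Lf _ _)) _))

theorem Bas.add (h : Bas J E w S R n U τ w' q) {m : ℕ} (hm : 2 ≤ m) {ζ : Vec K}
    (hζ : ζ ∈ base K (Vec K) (J ∪ E)) :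
    Bas J E w S R n U τ (w' + ep K ^ m • upV (lau K) ζ) q := by
  refine ⟨add_mem h.mem (Submodule.smul_mem _ _ (upV_mem hζ)), ?_, h.deg, h.var, h.two⟩
  have := h.fo.add ((Od.of_red (m := m) (Red.upV _ ζ)).lower (k := 1) (by omega))
  rw [add_zero] at this
  convert this using 1
  abel

theorem step1 {m : ℕ} (hm : 2 ≤ m) (hL : LocC J w S R n U) (h : Bas J E w S R n U τ w' q)
    {ξ : Vec K} (hξ : ξ ∈ base K (Vec K) (J ∪ E)) {ρ u : Fam K}
    (hρ : ∀ i < n, ρ i ∈ R i ⊓ LL w S i) (hu : u ∈ famSub n U)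
    (hc : ∀ i < n, Od (K := K) m (Phi w S w' q i)
      (pd (ev w (S i)) * (lam w (S i) ξ + ρ i + u i)))
    {η : Vec K} (hη : η ∈ VV (J ∪ E) w S n) :
    ∃ q', Pre J E w S R n U τ (m + 1) (w' + ep K ^ m • upV (lau K) (η - ξ)) q' ∧
      ∀ i < n, ∀ k < (m : ℤ), pmap (lcf k) (q' i) = pmap (lcf k) (q i) := by
  have h1 : ∀ i, ∃ r : K[X], i < n → r.degree < dgr (ev w (S i)) ∧
      aeval (ev w (S i)) r = pd (ev w (S i)) * (ρ i + u i) := by
    intro i
    by_cases hi : i < n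
    · obtain ⟨r, hr⟩ := exists_poly_of_mem_Lf (mul_mem (pd_mem_Lf (ev w (S i)))
        (add_mem (hρ i hi).2 ((hL.hU i hi).1 (hu.1 i hi))))
      exact ⟨r, fun _ => hr⟩
    · exact ⟨0, fun h => absurd h hi⟩
  choose r hr using h1
  have hB := h.add hm (sub_mem hη.1 hξ)
  refine ⟨fun i => q i - ep K ^ m • (r i).map (lau K).ι, ⟨⟨hB.mem, hB.fo, fun i hi => ?_,
    fun i hi k => ?_, fun i hi k hk => ?_⟩, fun i hi => ?_⟩, fun i hi k hk => ?_⟩
  · refine (degree_sub_le _ _).trans_lt (max_lt (h.deg i hi) ?_)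
    exact (degree_smul_le _ _).trans_lt (degree_map_le.trans_lt (hr i hi).1)
  · rw [pmap_sub, pmap_ep_map]
    refine sub_mem (h.var i hi k) ?_
    split_ifs
    · refine mem_Wp.2 ⟨(hr i hi).1, ?_⟩
      rw [(hr i hi).2, ← mul_assoc, inv_mul_cancel₀ (pd_ne_zero _), one_mul, add_comm]
      exact Submodule.add_mem_sup (hu.1 i hi) (hρ i hi)
    · exact zero_mem _
  · rw [pmap_sub, pmap_ep_map, if_neg (by omega), h.two i hi k hk, sub_zero]
  · apply Od.succ_Tw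
    have e1 := h.shift hi (Red.upV _ (η - ξ)) (by omega) (hc i hi)
    have e2 := Od.of_red (m := m) ((RedP.map (lau K) (r i)).aeval ((TRed.map _ (S i)).ev hB.red))
    have e3 := e1.sub e2
    rw [(hr i hi).2, map_sub, hη.2 i hi] at e3
    convert e3 using 1
    · simp only [Phi, pt, ← add_sub_assoc, map_sub, map_smul]
    · noncomm_ring
  · rw [pmap_sub, pmap_ep_map, if_neg (by omega), sub_zero]

theorem step2 {m : ℕ} (hm : 2 ≤ m) (hA : ArcC J E w S R n τ X) (hL : LocC J w S R n U)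
    (h : Pre J E w S R n U τ (m + 1) w' q) :
    ∃ η ∈ Tens E X, State J E w S R n U τ (m + 1) (w' + ep K ^ m • upV (lau K) η) q := by
  have h1 : ∀ i, ∃ c : Tw K, i < n → Od (K := K) (m + 1) (Phi w S w' q i) c := by
    intro i
    by_cases hi : i < n
    · obtain ⟨c, hc⟩ := h.2 i hi; exact ⟨c, fun _ => hc⟩
    · exact ⟨0, fun h => absurd h hi⟩
  choose c hc using h1
  obtain ⟨η, hη, h2⟩ := hA.primal3 hL (c := mkFam n (fun i => (pd (ev w (S i)))⁻¹ * c i))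
    (mkFam_mem (fun i hi => (Cen _ _).mul_mem
      (Lf_le_Cen (ev_mem_DJ hL.hw' _) (inv_mem_Lf (pd_mem_Lf _))) (h.1.mem_Cen i (hc i hi))))
  have hη' := hA.tens_le hL.hw hη
  refine ⟨η, hη, h.1.add hm hη'.1, _, h2, fun i hi => ?_⟩
  convert h.1.shift2 hi (hη'.2 i hi) hm (hc i hi) using 1
  rw [Finsupp.add_apply, mkFam_lt _ hi, Sg_lt _ _ _ _ hi, mul_add, ← mul_assoc,
    mul_inv_cancel₀ (pd_ne_zero _), one_mul]

theorem State.decomp {m : ℕ} (h : State J E w S R n U τ m w' q) :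
    ∃ ξ ∈ base K (Vec K) (J ∪ E), ∃ ρ ∈ famSub n (fun i => Tens E (R i)), ∃ u ∈ famSub n U,
      ∀ i < n, Od (K := K) m (Phi w S w' q i) (pd (ev w (S i)) * (lam w (S i) ξ + ρ i + u i)) := by
  obtain ⟨-, c, hc, h2⟩ := h
  obtain ⟨x, hx, u, hu, rfl⟩ := Submodule.mem_sup.1 hc
  obtain ⟨_, ⟨ξ, hξ, rfl⟩, ρ, hρ, rfl⟩ := Submodule.mem_sup.1 hx
  refine ⟨ξ, hξ, ρ, hρ, u, hu, fun i hi => ?_⟩
  have := h2 i hi
  rwa [Finsupp.add_apply, Finsupp.add_apply, Lam_lt _ hi] at this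

theorem upV_add (ξ η : Vec K) : upV (lau K) (ξ + η) = upV (lau K) ξ + upV (lau K) η := by
  funext j; simp [upV]

theorem step {m : ℕ} (hm : 2 ≤ m) (hA : ArcC J E w S R n τ X) (hL : LocC J w S R n U)
    (hI : IMP J E w S R n U τ) (h : Bas J E w S R n U τ w' q)
    {ξ : Vec K} (hξ : ξ ∈ base K (Vec K) (J ∪ E)) {ρ u : Fam K}
    (hρ : ρ ∈ famSub n (fun i => Tens E (R i))) (hu : u ∈ famSub n U)
    (hc : ∀ i < n, Od (K := K) m (Phi w S w' q i)
      (pd (ev w (S i)) * (lam w (S i) ξ + ρ i + u i)))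
    {η0 : Vec K} (hη0 : η0 ∈ VV (J ∪ E) w S n) :
    ∃ η ∈ Tens E X, ∃ q', State J E w S R n U τ (m + 1)
      (w' + ep K ^ m • upV (lau K) (η0 - ξ + η)) q' ∧
      ∀ i < n, ∀ k < (m : ℤ), pmap (lcf k) (q' i) = pmap (lcf k) (q i) := by
  obtain ⟨q', h1, h2⟩ := step1 hm hL h hξ (hI m hm w' q h ξ hξ ρ hρ u hu hc) hu hc hη0
  obtain ⟨η, hη, h3⟩ := step2 hm hA hL h1
  refine ⟨η, hη, q', ?_, h2⟩
  rwa [upV_add, smul_add, ← add_assoc]

theorem state_start (hA : ArcC J E w S R n τ X) (hL : LocC J w S R n U) :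
    State J E w S R n U τ 2 (upV (lau K) w + ep K • upV (lau K) τ) 0 := by
  have hB : Bas J E w S R n U τ (upV (lau K) w + ep K • upV (lau K) τ) 0 :=
    ⟨add_mem (upV_mem hL.hw') (Submodule.smul_mem _ _ (upV_mem hA.mem.1)),
      ⟨_, by simp, Red.upV _ τ⟩, fun i hi => by
        simp only [Pi.zero_apply, degree_zero]; exact WithBot.bot_lt_coe _,
      fun i hi k => by simp only [Pi.zero_apply, pmap_zero]; exact zero_mem _,
      fun i hi k _ => by simp only [Pi.zero_apply, pmap_zero]⟩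
  refine ⟨hB, _, hA.primal2 hL, fun i hi => ?_⟩
  obtain ⟨y, e, hy⟩ := (hB.tred hi).taylor1 (Red.upV _ w) (Red.upV _ τ) R_ep
  rw [← hB.ev_Ft hi, e, hB.ev_Ft hi, hB.D1_Ft hi, Phi, ev_up, R180.D1_up, pt, Pi.zero_apply,
    add_zero, ← up_aeval, ← up_Del, minpoly.aeval, Del_minpoly, ← lam_apply, hA.mem.2 i hi,
    mul_zero, map_zero, smul_zero, add_zero, zero_add, ← sq, Psi_apply, mkFam_lt _ hi, pd_mul_psi]
  exact Od.of_red hy

theorem arc_limit (hA : ArcC J E w S R n τ X) (hL : LocC J w S R n U)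
    (hI : IMP J E w S R n U τ) {m0 : ℕ} (hm : 2 ≤ m0) (h : State J E w S R n U τ m0 w' q) :
    ∃ w'' q'', ArcEnd J E w S R n U τ w'' q'' ∧ ∃ a : Vec K, Od (K := K) m0 (w'' - w') a := by
  have hstep : ∀ (m : ℕ) (s : Vec (Lau K) × (ℕ → (Lau K)[X])),
      ∃ s' : Vec (Lau K) × (ℕ → (Lau K)[X]), 2 ≤ m → State J E w S R n U τ m s.1 s.2 →
        State J E w S R n U τ (m + 1) s'.1 s'.2 ∧ (∃ a : Vec K, Od (K := K) m (s'.1 - s.1) a) ∧
        ∀ i < n, ∀ k < (m : ℤ), pmap (lcf k) (s'.2 i) = pmap (lcf k) (s.2 i) := by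
    intro m s
    by_cases hs : 2 ≤ m ∧ State J E w S R n U τ m s.1 s.2
    · obtain ⟨ξ, hξ, ρ, hρ, u, hu, hc⟩ := hs.2.decomp
      obtain ⟨η, -, q', h1, h2⟩ := step hs.1 hA hL hI hs.2.1 hξ hρ hu hc (zero_mem _)
      exact ⟨(_, q'), fun _ _ => ⟨h1, ⟨_, by
        rw [add_sub_cancel_left]; exact Od.of_red (Red.upV _ _)⟩, h2⟩⟩
    · exact ⟨s, fun h1 h2 => absurd ⟨h1, h2⟩ hs⟩
  choose nx hnx using hstep
  let s : ℕ → Vec (Lau K) × (ℕ → (Lau K)[X]) :=
    fun m => Nat.rec (w', q) (fun m s => if m0 ≤ m then nx m s else s) m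
  have s_succ : ∀ m, s (m + 1) = if m0 ≤ m then nx m (s m) else s m := fun m => rfl
  have s0 : ∀ m ≤ m0, s m = (w', q) := by
    intro m
    induction m with
    | zero => exact fun _ => rfl
    | succ m ih => intro hm; rw [s_succ, if_neg (by omega), ih (by omega)]
  have s1 : ∀ m ≥ m0, State J E w S R n U τ m (s m).1 (s m).2 := by
    intro m hm
    induction m, hm using Nat.le_induction with
    | base => rw [s0 m0 le_rfl]; exact h
    | succ m hm' ih => rw [s_succ, if_pos hm']; exact (hnx m _ (by omega) ih).1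
  have s2 : ∀ m ≥ m0, (∃ a : Vec K, Od (K := K) m ((s (m + 1)).1 - (s m).1) a) ∧
      ∀ i < n, ∀ k < (m : ℤ), pmap (lcf k) ((s (m + 1)).2 i) = pmap (lcf k) ((s m).2 i) := by
    intro m hm'
    rw [s_succ, if_pos hm']; exact (hnx m _ (by omega) (s1 m hm')).2
  obtain ⟨x, hx1, hx2⟩ := vec_limit (J := J ∪ E) (fun m => (s m).1) m0 (fun m => by
    rcases le_total m m0 with h1 | h1
    · rw [s0 m h1]; exact mem_base_Vec.1 h.1.mem
    · exact mem_base_Vec.1 (s1 m h1).1.mem) (fun m hm' => (s2 m hm').1)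
  have hq : ∀ i j, ∃ c : Lau K, i < n → ∀ m ≥ m0, ∀ k < (m : ℤ),
      lcf k c = lcf k (((s m).2 i).coeff j) := by
    intro i j
    by_cases hi : i < n
    · obtain ⟨c, hc⟩ := lau_limit (fun m => ((s m).2 i).coeff j) m0 (fun m hm' k hk => by
        rw [← coeff_pmap, ← coeff_pmap, (s2 m hm').2 i hi k hk])
      exact ⟨c, fun _ => hc⟩
    · exact ⟨0, fun h => absurd h hi⟩
  choose c hc using hq
  let q'' : ℕ → (Lau K)[X] := fun i => ∑ j ∈ Finset.range (dgr (ev w (S i))), monomial j (c i j)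
  have hq1 : ∀ i j, (q'' i).coeff j = if j < dgr (ev w (S i)) then c i j else 0 := by
    intro i j
    simp [q'', coeff_monomial]
  have hq2 : ∀ i < n, ∀ m ≥ m0, ∀ k < (m : ℤ), pmap (lcf k) (q'' i) = pmap (lcf k) ((s m).2 i) := by
    intro i hi m hm' k hk
    ext j
    rw [coeff_pmap, coeff_pmap, hq1]
    split_ifs with hj
    · exact hc i j hi m hm' k hk
    · rw [coeff_eq_zero_of_degree_lt (((s1 m hm').1.deg i hi).trans_le
        (by exact_mod_cast not_lt.1 hj))]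
  obtain ⟨a0, ha0⟩ := hx2 m0 le_rfl
  rw [s0 m0 le_rfl] at ha0
  have hB : Bas J E w S R n U τ x q'' := by
    refine ⟨mem_base_Vec.2 hx1, ?_, fun i hi => ?_, fun i hi k => ?_, fun i hi k hk => ?_⟩
    · have := h.1.fo.add (ha0.lower (k := 1) (by omega))
      rw [add_zero] at this
      convert this using 1
      abel
    · rw [degree_lt_iff_coeff_zero]
      intro j hj
      rw [hq1, if_neg (not_lt.2 hj)]
    · rw [hq2 i hi (max m0 (k + 1).toNat) (le_max_left _ _) k (by omega)]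
      exact (s1 _ (le_max_left _ _)).1.var i hi k
    · rw [hq2 i hi m0 le_rfl k (by omega)]
      exact (s1 _ le_rfl).1.two i hi k hk
  refine ⟨x, q'', ⟨hB, fun i hi => ?_⟩, a0, ha0⟩
  apply eq_zero_of_Od (m0 := m0)
  intro m hm'
  obtain ⟨a, ζ, e, hζ⟩ := hx2 m hm'
  obtain ⟨hB', c, -, hc'⟩ := s1 m hm'
  have e1 := hB'.shift hi hζ (by omega) (hc' i hi)
  obtain ⟨r, e2, hr⟩ := poly_scale (m := m) (q := q'' i - (s m).2 i) (fun k hk => by
    rw [pmap_sub, hq2 i hi m hm' k hk, sub_self])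
  have e3 := e1.add (Od.of_red (m := m) (hr.aeval ((TRed.map _ (S i)).ev hB.red)))
  have e4 : Phi w S x q'' i = Phi w S ((s m).1 + ep K ^ m • ζ) (s m).2 i +
      ep K ^ m • aeval (ev x ((S i).map (lau K).ι)) r := by
    rw [← e, add_sub_cancel, ← map_smul, ← e2]
    simp only [Phi, pt, map_add, map_sub]
    abel
  rw [e4]
  exact ⟨_, e3⟩

theorem arc_exists (hA : ArcC J E w S R n τ X) (hL : LocC J w S R n U)
    (hI : IMP J E w S R n U τ) : ∃ w'' q'', ArcEnd J E w S R n U τ w'' q'' := by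
  obtain ⟨w'', q'', h, -⟩ := arc_limit hA hL hI le_rfl (state_start hA hL)
  exact ⟨w'', q'', h⟩

theorem probe_exists {m : ℕ} (hm : 2 ≤ m) (hA : ArcC J E w S R n τ X) (hL : LocC J w S R n U)
    (hI : IMP J E w S R n U τ) (h : Bas J E w S R n U τ w' q)
    {ξ : Vec K} (hξ : ξ ∈ base K (Vec K) (J ∪ E)) {ρ u : Fam K}
    (hρ : ρ ∈ famSub n (fun i => Tens E (R i))) (hu : u ∈ famSub n U)
    (hc : ∀ i < n, Od (K := K) m (Phi w S w' q i)
      (pd (ev w (S i)) * (lam w (S i) ξ + ρ i + u i)))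
    {η0 : Vec K} (hη0 : η0 ∈ VV (J ∪ E) w S n) :
    ∃ η ∈ Tens E X, ∃ w'' q'' ζ', ArcEnd J E w S R n U τ w'' q'' ∧ w'' = w' + ep K ^ m • ζ' ∧
      Red (lau K) ζ' (η0 - ξ + η) := by
  obtain ⟨η, hη, q', h1, -⟩ := step hm hA hL hI h hξ hρ hu hc hη0
  obtain ⟨w'', q'', h2, a, ha⟩ := arc_limit hA hL hI (by omega) h1
  obtain ⟨y, e, hy⟩ := ha.lower (Nat.lt_succ_self m)
  refine ⟨η, hη, w'', q'', upV (lau K) (η0 - ξ + η) + y, h2, ?_, ?_⟩
  · rw [smul_add, ← e]; abel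
  · simpa using (Red.upV (lau K) (η0 - ξ + η)).add hy

end Crest.Agent.R180
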