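import Crest.Agent.R180.KeyB

set_option autoImplicit false

/-!
PLAN (helper28).  Notation: `L = Lf a` (commutative field, dim `d = dgr a`), `C = Cen J {a}`,
`L0 = L0f P` (dim `δ`), `k = NJ E`, `π_A = prj A` (Alg.lean: A-bilinear, `tr (π_A x * y) = tr (x * y)`
for `y ∈ A`), `TA` makes `Tens E A` a subalgebra, components `cmpT J z x` (Tens.lean).

GL (generic independence): a finite family of polynomial curves `t ↦ v_i t` in a `K`-space which is
independent at `t = 0` is independent for all but finitely many `t` (take functionals dual to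
`v_i 0`, determinant is a polynomial with value 1 at 0); `K` is infinite (`charZero_K`).
DER: let `ψ` commute with a commutative subalgebra `L`, with `a^i ψ^j` (i<d, j<s) independent and
`ψ^s = Σ_{j<s} l_j ψ^j` (l_j ∈ L).  If for all `t ≠ 0` the elements `a` and `ψ + tγ` (γ commuting with L)
lie in a subalgebra of dim ≤ d s, then the family `a^i (ψ+tγ)^j`, `q(ψ+tγ)/t` is dependent for all
t ≠ 0, so by GL `Δ := Delk ψ s γ - Σ l_j Delk ψ j γ ∈ span (a^i ψ^j) = L[ψ]`.  By `tr_Delk_mul`,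
`tr (Δ c) = tr (γ c q'(ψ))` for `c` commuting with ψ, a; and `q'(ψ) ≠ 0` (independence, char 0).
If γ commutes with ψ then Δ = q'(ψ) γ, so γ ∈ L[ψ].
* `exists_prim`: take θ ∈ Y = P p⁻¹ of maximal degree; DER (with L = ⊥, commutative case) gives
  Y ⊆ K[θ]; if θ = 0 use θ = 1 (`L0f_le_of`).
* `F0_lower`: `L0 ≤ F0` (`L0f_le_of`, π_F x = x on P).  F1 := π_F (Tens E L0) ≤ F0 because
  π_F (l m_z) = l π_F(p m_z) p⁻¹.  With a basis l_1..l_e of L over L0 (`exists_basis_over`; L is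
  commutative) F = π_F (Tens L) = Σ l_i F1, so d k ≤ e dim F1, e δ = d.
* `F0_tens`: now F1 = F0.  For l' ∈ L, l' ⊥ L0: tr (l' φ) = 0 on F0 = π_F(Tens L0) (as l' ∈ F);
  for φ ∈ F0, m = m_z: tr (φ l' m) = tr (l' φ π_F m) = 0 since π_F m ∈ F0 (F need not be assumed
  commutative: l' is central in Tens L).  So components of φ (in L) are ⊥ L ∩ L0^⊥, so lie in L0 (`dperp`).
* `key`, Step 0: there is z0 ∈ DJ E with a^i (p z0)^j (i<d, j<k) independent: take ψ ∈ span{p u_α : α∈E}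
  (u_α = mo (single ⟨α,false⟩ 1), all commute) with dim L[ψ] maximal; DER gives u_α ∈ L[ψ], so the
  centraliser of F=L[ψ] in DJ (J∪E) has only components at u-monomials: dim ≤ k dim C, and
  `finrank_mul_Cen`, `dgr_mul_Cen` give dim F ≥ d k (or show independence of a^i m_g directly).
  Step 1: for z with a^i (pz)^j independent (z0 and z0 + t m, generic t, by GL), H applied to
  ψ = p z / t shows DER applies, so tr (γ c y) = 0 for c ∈ C ∩ L^⊥, y ∈ L[pz] ∋ z.  Hence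
  γ ⊥ c m for all m ∈ DJ E, so all components of γ lie in L (`dperp`): γ ∈ Tens E L.
  Step 2: for ψ = p z with a^i (γ+ψ)^j independent (ψ1 = p z0 / t by GL, and ψ1 + t' p m), F is the
  span of these, so F ≤ Tens L, dim F = d k, get F0 ≤ A0 := TA L0.  F = Σ l_i F0, and
  π_{A0}(l φ) = π_{A0}(l) φ with π_{A0}(l) = π_{L0}(l) ∈ L0 ≤ F0, so π_{A0} maps F into F.
  For l' ∈ L ∩ L0^⊥ put y = π_{A0}(p⁻¹ l' γ) = π_{A0}(p⁻¹ l' (γ+ψ)) ∈ F: it commutes with γ+ψ for both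
  ψ, hence with p m, hence with every m ∈ DJ E; so tr (y m_z) = 0 for z ≠ 0 (conjugate by m_g with
  eps ≠ 1, cf. `central_DJ`).  So for z ≠ 0 the component γ_z p⁻¹ ∈ L is ⊥ L ∩ L0^⊥ and ⊥ L0 (Rb), so 0.
  If γ ∈ PP then γ p⁻¹ = π_F γ p⁻¹ ∈ F0 ≤ Tens L0 and ∈ L, so ∈ L0, and γ ∈ Qf ⊓ Rb = ⊥.
-/


namespace Crest.Agent.R180

open Module Polynomial

variable {K : Type} [Field K] [Algebra Z0 K] [Dom K]

/-- primitive element of the field of ratios -/
theorem exists_prim {a : Tw K} {P : Submodule K (Tw K)} (hP : P ≤ Subalgebra.toSubmodule (Lf a))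
    {p : Tw K} (hp : p ∈ P) (hp0 : p ≠ 0) :
    ∃ q ∈ P, q ≠ 0 ∧ Lf (q * p⁻¹) = L0f P := by
  have hY : P.map (LinearMap.mulRight K p⁻¹) ≤ Subalgebra.toSubmodule (Lf a) := by
    rintro _ ⟨x, hx, rfl⟩
    exact (Lf a).mul_mem (hP hx) (inv_mem_Lf (hP hp))
  obtain ⟨θ, ⟨q, hq, rfl⟩, hθ⟩ := exists_prim_sub hY (fun x hx y hy => Lf_comm (hY hx) (hY hy))
  rw [LinearMap.mulRight_apply] at hθ
  have key : ∀ r ∈ P, Lf (q * p⁻¹) ≤ Lf (r * p⁻¹) → Lf (r * p⁻¹) = L0f P := by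
    intro r hr h
    refine le_antisymm (Lf_le (ratio_mem_L0f hr hp)) (L0f_le_of hp0 fun x hx => h ?_)
    exact hθ _ ⟨x, hx, rfl⟩
  by_cases hq0 : q = 0
  · refine ⟨p, hp, hp0, key p hp (Lf_le ?_)⟩
    rw [hq0, zero_mul]; exact zero_mem _
  · exact ⟨q, hq, hq0, key q hq le_rfl⟩

theorem F0_lower {J E : Finset ℕ} (hJE : Disjoint J E) {a : Tw K} (ha : a ∈ DJ K J)
    {P : Submodule K (Tw K)} (hP : P ≤ Subalgebra.toSubmodule (Lf a))
    {p : Tw K} (hp : p ∈ P) (hp0 : p ≠ 0) {F F0 : Subalgebra K (Tw K)} (haF : a ∈ F)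
    (hF : Subalgebra.toSubmodule F ≤ Tens E (Subalgebra.toSubmodule (Lf a)))
    (hdim : finrank K F = dgr a * NJ E) (hF0 : F0 ≤ F)
    (hr : ∀ x ∈ Tens E P, prj F x * p⁻¹ ∈ F0) :
    finrank K (L0f P) * NJ E ≤ finrank K F0 := by
  have hFD : F ≤ DJ K (J ∪ E) := fun x hx => TA_le hJE (Lf_le ha) (hF hx)
  have := fd_of_le hFD
  have := fd_of_le (hF0.trans hFD)
  have : FiniteDimensional K (Subalgebra.toSubmodule F0) := ‹FiniteDimensional K F0›
  have hL0 : L0f P ≤ F0 := L0f_le_of hp0 fun x hx => by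
    have := hr x (le_Tens E _ hx)
    rwa [prj_of_mem F (Lf_le haF (hP hx))] at this
  exact lower_sub hP haF hF hdim (Subalgebra.toSubmodule F0) fun z hz c hc =>
    F0.mul_mem (prj_DJ_mem hP hp hp0 haF hr (mo_mem_DJ hz)) (hL0 hc)

theorem F0_tens {J E : Finset ℕ} (hJE : Disjoint J E) {a : Tw K} (ha : a ∈ DJ K J)
    {P : Submodule K (Tw K)} (hP : P ≤ Subalgebra.toSubmodule (Lf a))
    {p : Tw K} (hp : p ∈ P) (hp0 : p ≠ 0) {F F0 : Subalgebra K (Tw K)} (haF : a ∈ F)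
    (hF : Subalgebra.toSubmodule F ≤ Tens E (Subalgebra.toSubmodule (Lf a)))
    (hdim : finrank K F = dgr a * NJ E) (hF0 : F0 ≤ F)
    (hr : ∀ x ∈ Tens E P, prj F x * p⁻¹ ∈ F0)
    (hle : finrank K F0 ≤ finrank K (L0f P) * NJ E) :
    Subalgebra.toSubmodule F0 ≤ Tens E (Subalgebra.toSubmodule (L0f P)) := by
  have hFD : F ≤ DJ K (J ∪ E) := fun x hx => TA_le hJE (Lf_le ha) (hF hx)
  have := fd_of_le hFD
  have := fd_of_le (hF0.trans hFD)
  have : FiniteDimensional K (Subalgebra.toSubmodule F0) := ‹FiniteDimensional K F0›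
  have := fd_L0f hP
  have : FiniteDimensional K (Subalgebra.toSubmodule (L0f P)) := ‹FiniteDimensional K (L0f P)›
  have hL0L : L0f P ≤ Lf a := L0f_le hP
  have hLF : Lf a ≤ F := Lf_le haF
  have hLJ : Lf a ≤ DJ K J := Lf_le ha
  have hL0 : L0f P ≤ F0 := L0f_le_of hp0 fun x hx => by
    have := hr x (le_Tens E _ hx)
    rwa [prj_of_mem F (Lf_le haF (hP hx))] at this
  have h1 : (Tens E (Subalgebra.toSubmodule (L0f P))).map (prj F) ≤ Subalgebra.toSubmodule F0 := by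
    rw [Submodule.map_le_iff_le_comap, Tens_le_iff]
    intro z hz c hc
    rw [Submodule.mem_comap, smul_eq_mul, prj_mul_right F (hLF (hL0L hc))]
    exact F0.mul_mem (prj_DJ_mem hP hp hp0 haF hr (mo_mem_DJ hz)) (hL0 hc)
  have h2 := lower_sub hP haF hF hdim ((Tens E (Subalgebra.toSubmodule (L0f P))).map (prj F))
    fun z hz c hc => ⟨mo z * c, smul_mem_Tens (M := Tw K) hz hc, prj_mul_right F (hLF (hL0L hc)) _⟩
  have h3 := Submodule.eq_of_le_of_finrank_le h1 (hle.trans h2)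
  intro φ hφ
  have hφT := hF (hF0 hφ)
  refine mem_Tens_of_cmp (M := Tw K) hJE (hFD (hF0 hφ)) fun z hz => ?_
  refine dperp (trB K) (Subalgebra.toSubmodule (Lf a)) (trB_nondeg _) hL0L
    (cmp_mem_of_Tens (M := Tw K) hJE hLJ hφT hz) fun l hl hl0 => ?_
  rw [trB_apply, cmp_Tw, tr_mul_cmpT J z (hLJ hl), ← mul_assoc, tr_comm, ← mul_assoc,
    ← tr_mul_prj F _ (F.mul_mem (hF0 hφ) (hLF hl)), mul_assoc, tr_comm, mul_assoc]
  have h4 : prj F (mo z)⁻¹ * φ ∈ Subalgebra.toSubmodule F0 :=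
    F0.mul_mem (prj_DJ_mem hP hp hp0 haF hr (mo_inv_mem hz)) hφ
  rw [← h3] at h4
  obtain ⟨x, hx, hx'⟩ := h4
  rw [← hx', tr_mul_prj F _ (hLF hl)]
  exact tr_mul_Tens hJE (hL0L.trans hLJ) (hLJ hl) hl0 hx

/-- Step 1 of the key lemma -/
theorem key_step1 {J E : Finset ℕ} (hJE : Disjoint J E) {a : Tw K} (ha : a ∈ DJ K J)
    {p : Tw K} (hp : p ∈ Lf a) (hp0 : p ≠ 0) {γ : Tw K}
    (hγ : γ ∈ Tens E (Subalgebra.toSubmodule (Cen J {a})))
    (H : ∀ z ∈ DJ K E, ∀ l : K, dgr (l • a + (γ + z * p)) ≤ dgr a * NJ E) :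
    γ ∈ Tens E (Subalgebra.toSubmodule (Lf a)) := by
  have hLJ : Lf a ≤ DJ K J := Lf_le ha
  have hCJ : Cen J {a} ≤ DJ K J := Cen_le J _
  have main : ∀ (l : K), ∀ z ∈ DJ K E, dgr a * NJ E ≤ dgr (l • a + z * p) →
      ∀ c ∈ Cen J {a}, (∀ w ∈ Lf a, tr (c * w) = 0) → tr (γ * (c * z)) = 0 := by
    intro l z hz hd
    have hpi : pia (l • a + z * p) γ ∈ Lf (l • a + z * p) := by
      refine pia_mem_Lf fun t ht => le_trans ?_ hd
      have e : l • a + z * p + t • γ = t • ((t⁻¹ * l) • a + (γ + (t⁻¹ • z) * p)) := by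
        rw [smul_add, smul_add, smul_smul, ← mul_assoc, mul_inv_cancel₀ ht, one_mul,
          smul_mul_assoc, smul_smul, mul_inv_cancel₀ ht, one_smul]
        abel
      rw [e, dgr_smul ht]
      exact H _ (Subalgebra.smul_mem _ hz _) _
    have hθ : l • a + z * p ∈ TA hJE hLJ :=
      (TA hJE hLJ).add_mem (Subalgebra.smul_mem _ (le_Tens E _ (self_mem_Lf a)) _)
        (mul_mem_Tens hz hp)
    have h1 : ∀ c ∈ Cen J {a}, (∀ w ∈ Lf a, tr (c * w) = 0) → ∀ y ∈ Lf (l • a + z * p),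
        tr (γ * (c * y)) = 0 := by
      intro c hc hc0 y hy
      have hac := (mem_Cen_singleton.1 hc).1
      have hcθ : (l • a + z * p) * c = c * (l • a + z * p) := by
        have c1 : Commute a c := hac
        have c2 : Commute z c := DJ_comm hJE (hCJ hc) hz
        have c3 : Commute p c := comm_of_mem_Lf hac hp
        exact ((c1.smul_left l).add_left (c2.mul_left c3)).eq
      have hcy : (l • a + z * p) * (c * y) = (c * y) * (l • a + z * p) := by
        rw [← mul_assoc, hcθ, mul_assoc, ← comm_of_mem_Lf rfl hy, mul_assoc]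
      rw [← tr_pia_mul hcy, tr_comm, mul_assoc]
      exact tr_mul_Tens hJE hLJ (hCJ hc) hc0 (Lf_le hθ (mul_mem hy hpi))
    have h2 : ∀ c ∈ Cen J {a}, (∀ w ∈ Lf a, tr (c * w) = 0) → tr (γ * (c * (z * p))) = 0 := by
      intro c hc hc0
      have e1 := h1 c hc hc0 _ (self_mem_Lf _)
      have e2 := h1 (c * a) (mul_mem hc (Lf_le_Cen ha (self_mem_Lf a)))
        (fun w hw => by rw [mul_assoc]; exact hc0 _ (mul_mem (self_mem_Lf a) hw)) 1 (one_mem _)
      rw [mul_one] at e2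
      rwa [mul_add, mul_add, map_add, mul_smul_comm, mul_smul_comm, map_smul, e2, smul_zero,
        zero_add] at e1
    intro c hc hc0
    have := h2 (c * p⁻¹) (mul_mem hc (Lf_le_Cen ha (inv_mem_Lf hp)))
      (fun w hw => by rw [mul_assoc]; exact hc0 _ (mul_mem (inv_mem_Lf hp) hw))
    rwa [DJ_comm hJE (hLJ hp) hz, mul_assoc c, ← mul_assoc p⁻¹, inv_mul_cancel₀ hp0,
      one_mul] at this
  obtain ⟨l, z, hz, hd⟩ := exists_big hJE ha hp hp0
  refine mem_Tens_of_cmp (M := Tw K) hJE (Tens_le_base (M := Tw K) (J := J) hCJ hγ) fun g hg => ?_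
  refine dperp (trB K) (Subalgebra.toSubmodule (Cen J {a})) (trB_nondeg _) (Lf_le_Cen ha)
    (cmp_mem_of_Tens (M := Tw K) hJE hCJ hγ hg) fun c hc hc0 => ?_
  rw [trB_apply, cmp_Tw, tr_mul_cmpT J g (hCJ hc), ← mul_assoc, tr_comm]
  obtain ⟨t, ht, hd'⟩ := exists_dgr_le (l • a + z * p) ((mo g)⁻¹ * p)
  have e : l • a + z * p + t • ((mo g)⁻¹ * p) = l • a + (z + t • (mo g)⁻¹) * p := by
    rw [add_mul, smul_mul_assoc, add_assoc]
  rw [e] at hd'
  have h1 := main l z hz hd c hc hc0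
  have h2 := main l _ (add_mem hz (Subalgebra.smul_mem _ (mo_inv_mem hg) t)) (hd.trans hd') c hc hc0
  rw [mul_add, mul_add, map_add, h1, zero_add, mul_smul_comm, mul_smul_comm, map_smul,
    smul_eq_mul] at h2
  exact (mul_eq_zero.1 h2).resolve_left ht

/-- the key lemma -/
theorem key {J E : Finset ℕ} (hJE : Disjoint J E) {a : Tw K} (ha : a ∈ DJ K J)
    {P : Submodule K (Tw K)} (hP : P ≤ Subalgebra.toSubmodule (Lf a))
    {p : Tw K} (hp : p ∈ P) (hp0 : p ≠ 0) {γ : Tw K} (hγ : γ ∈ Tens E (Rb J a P))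
    (PP : Set (Tw K)) (hPP : ∀ x ∈ Tens E P, x ∈ PP)
    (H : ∀ ψ ∈ Tens E P, ∃ F : Subalgebra K (Tw K), F ≤ DJ K (J ∪ E) ∧
      (∀ x ∈ F, ∀ y ∈ F, x * y = y * x) ∧ a ∈ F ∧ γ + ψ ∈ F ∧ finrank K F ≤ dgr a * NJ E ∧
      (finrank K F = dgr a * NJ E → ∃ F0 : Subalgebra K (Tw K), F0 ≤ F ∧
        finrank K F0 ≤ finrank K (L0f P) * NJ E ∧ ∀ x ∈ PP, prj F x * p⁻¹ ∈ F0)) :
    γ ∈ Lf a ∧ (γ ∈ PP → γ = 0) := by
  have hLJ : Lf a ≤ DJ K J := Lf_le ha
  have hpL : p ∈ Lf a := hP hp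
  have hL0L : L0f P ≤ Lf a := L0f_le hP
  have hL0J : L0f P ≤ DJ K J := hL0L.trans hLJ
  have hRJ : Rb J a P ≤ Subalgebra.toSubmodule (DJ K J) := (Rb_le J a P).trans (Cen_le J _)
  have := fd_L0f hP
  have := fd_of_le (TA_le hJE hL0J)
  have hγL : γ ∈ Tens E (Subalgebra.toSubmodule (Lf a)) := by
    refine key_step1 hJE ha hpL hp0 (Tens_mono subset_rfl (Rb_le J a P) hγ) fun z hz l => ?_
    obtain ⟨F, hF, -, haF, hγF, hd, -⟩ := H _ (mul_mem_Tens hz hp)
    have := fd_of_le hF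
    exact (dgr_le_finrank (F.add_mem (F.smul_mem haF l) hγF)).trans hd
  -- consequences of `H` at a good point
  have main : ∀ (l : K), ∀ z ∈ DJ K E, dgr a * NJ E ≤ dgr (l • a + (γ + z * p)) →
      (∀ l' ∈ Lf a, (∀ w ∈ L0f P, tr (l' * w) = 0) →
        prj (TA hJE hL0J) (p⁻¹ * l' * γ) * (γ + z * p) =
          (γ + z * p) * prj (TA hJE hL0J) (p⁻¹ * l' * γ)) ∧
      (γ ∈ Lf a → γ ∈ PP → γ * p⁻¹ ∈ Tens E (Subalgebra.toSubmodule (L0f P))) := by
    intro l z hz hd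
    obtain ⟨F, hF, hFc, haF, hγF, hd1, hF0⟩ := H _ (mul_mem_Tens hz hp)
    have := fd_of_le hF
    have hθF : l • a + (γ + z * p) ∈ F := F.add_mem (F.smul_mem haF l) hγF
    have hd2 := dgr_le_finrank hθF
    have hdim : finrank K F = dgr a * NJ E := le_antisymm hd1 (hd.trans hd2)
    obtain ⟨F0, hF0F, hle, hr⟩ := hF0 hdim
    have hr' : ∀ x ∈ Tens E P, prj F x * p⁻¹ ∈ F0 := fun x hx => hr x (hPP x hx)
    have hFL : Subalgebra.toSubmodule (Lf (l • a + (γ + z * p))) = Subalgebra.toSubmodule F := by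
      have : FiniteDimensional K (Subalgebra.toSubmodule F) := ‹FiniteDimensional K F›
      refine Submodule.eq_of_le_of_finrank_le (Lf_le hθF) ?_
      change finrank K F ≤ finrank K (Lf _)
      rw [finrank_Lf, hdim]; exact hd
    have hθ : l • a + (γ + z * p) ∈ TA hJE hLJ :=
      (TA hJE hLJ).add_mem (Subalgebra.smul_mem _ (le_Tens E _ (self_mem_Lf a)) _)
        ((TA hJE hLJ).add_mem hγL (mul_mem_Tens hz hpL))
    have hFT : Subalgebra.toSubmodule F ≤ Tens E (Subalgebra.toSubmodule (Lf a)) := by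
      rw [← hFL]; exact Lf_le hθ
    have hT0 := F0_tens hJE ha hP hp hp0 haF hFT hdim hF0F hr' hle
    have hLF : Lf a ≤ F := Lf_le haF
    constructor
    · intro l' hl' hl0
      have h1 : ∀ x ∈ Tens E (Subalgebra.toSubmodule (Lf a)),
          prj (TA hJE hL0J) (prj F x) ∈ F := by
        intro x hx
        induction hx using Tens_induction with
        | h0 => simp
        | hadd a b _ _ ha hb => rw [map_add, map_add]; exact add_mem ha hb
        | hm g hg w hw =>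
          have h2 := prj_DJ_mem hP hp hp0 haF hr' (mo_mem_DJ (K := K) hg)
          rw [smul_eq_mul, prj_mul_right F (hLF hw), prj_mul_left (TA hJE hL0J) (hT0 h2),
            prj_TA hJE hL0J (hLJ hw)]
          exact F.mul_mem (hF0F h2) (hLF (hL0L (prj_mem _ w)))
      have h2 : p⁻¹ * l' * (γ + z * p) ∈ F :=
        F.mul_mem (hLF (mul_mem (inv_mem_Lf hpL) hl')) hγF
      have h3 := h1 _ (hFT h2)
      rw [prj_of_mem F h2, mul_add, map_add] at h3
      have h4 : prj (TA hJE hL0J) (p⁻¹ * l' * (z * p)) = 0 := by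
        rw [DJ_comm hJE (hLJ hpL) hz, Lf_comm (inv_mem_Lf hpL) hl', mul_assoc, ← mul_assoc p⁻¹,
          inv_mul_cancel₀ hp0, one_mul, prj_mul_right (TA hJE hL0J) (DJ_mem_Tens _ hz),
          prj_TA hJE hL0J (hLJ hl'), (prj_eq_zero_iff _).2 hl0, zero_mul]
      rw [h4, add_zero] at h3
      exact hFc _ h3 _ hγF
    · intro h1 h2
      have := hr γ h2
      rw [prj_of_mem F (hLF h1)] at this
      exact hT0 this
  obtain ⟨l0, z0, hz0, hd0⟩ := exists_big hJE ha hpL hp0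
  obtain ⟨t, ht, hd1⟩ := exists_dgr_le (l0 • a + z0 * p) γ
  have e : l0 • a + z0 * p + t • γ = t • ((t⁻¹ * l0) • a + (γ + (t⁻¹ • z0) * p)) := by
    rw [smul_add, smul_add, smul_smul, ← mul_assoc, mul_inv_cancel₀ ht, one_mul,
      smul_mul_assoc, smul_smul, mul_inv_cancel₀ ht, one_smul]
    abel
  rw [e, dgr_smul ht] at hd1
  obtain ⟨l, hl⟩ : ∃ l, l = t⁻¹ * l0 := ⟨_, rfl⟩
  obtain ⟨z, hz'⟩ : ∃ z, z = t⁻¹ • z0 := ⟨_, rfl⟩
  rw [← hl, ← hz'] at hd1
  have hz : z ∈ DJ K E := by rw [hz']; exact Subalgebra.smul_mem _ hz0 _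
  have hd := hd0.trans hd1
  -- vanishing of elements of `Rb` with ratio in `L0`
  have hzero : ∀ x ∈ Rb J a P, x * p⁻¹ ∈ L0f P → x = 0 := by
    intro x hx hx0
    have := eq_zero_of_tr (L0f P) hx0 fun w hw => by
      rw [mul_assoc]; exact hx.2 p hp w hw
    exact (mul_eq_zero.1 this).resolve_right (inv_ne_zero hp0)
  have hcmp : ∀ g ∈ GJ E, g ≠ 0 → cmpT J g γ = 0 := by
    intro g hg hg0
    have hgL : cmpT J g γ ∈ Lf a := cmp_mem_of_Tens (M := Tw K) hJE hLJ hγL hg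
    refine hzero _ (cmp_mem_of_Tens (M := Tw K) hJE hRJ hγ hg) ?_
    refine dperp (trB K) (Subalgebra.toSubmodule (Lf a)) (trB_nondeg _)
      (W := Subalgebra.toSubmodule (L0f P)) hL0L ((Lf a).mul_mem hgL (inv_mem_Lf hpL)) fun l' hl' hl0 => ?_
    obtain ⟨y, hy⟩ : ∃ y, y = prj (TA hJE hL0J) (p⁻¹ * l' * γ) := ⟨_, rfl⟩
    have hyp : p * y = y * p :=
      comm_Tens hJE (hLJ hpL) (fun w hw => Lf_comm hpL (hL0L hw))
        (W := Subalgebra.toSubmodule (L0f P)) (by rw [hy]; exact prj_mem (TA hJE hL0J) _)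
    have hym : ∀ m ∈ DJ K E, y * m = m * y := by
      intro m hm
      obtain ⟨s, hs, hd2⟩ := exists_dgr_le (l • a + (γ + z * p)) (m * p)
      have e2 : l • a + (γ + z * p) + s • (m * p) = l • a + (γ + (z + s • m) * p) := by
        rw [add_mul, smul_mul_assoc]; abel
      rw [e2] at hd2
      have h1 := (main l z hz hd).1 l' hl' hl0
      have h2 := (main l _ (add_mem hz (Subalgebra.smul_mem _ hm s)) (hd.trans hd2)).1 l' hl' hl0
      rw [← hy] at h1 h2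
      rw [add_mul z, ← add_assoc, mul_add, add_mul _ _ y, h1, add_right_inj, smul_mul_assoc,
        smul_mul_assoc, mul_smul_comm, mul_assoc m, hyp, ← mul_assoc, ← mul_assoc] at h2
      exact mul_right_cancel₀ hp0 (smul_right_injective _ hs h2)
    have h3 := tr_mul_eq_zero_of_comm hym hg hg0
    rw [hy, tr_prj_mul _ _ (DJ_mem_Tens _ (mo_inv_mem hg)), tr_comm, ← mul_assoc,
      DJ_comm hJE (hLJ (mul_mem (inv_mem_Lf hpL) hl')) (mo_inv_mem hg), mul_assoc,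
      ← tr_mul_cmpT J g (hLJ (mul_mem (inv_mem_Lf hpL) hl')), mul_assoc, tr_comm, mul_assoc] at h3
    exact h3
  have hγ0 : γ = cmpT J 0 γ := by
    conv_lhs => rw [← asm_cmp (K := K) (M := Tw K) hJE (x := γ)
      (Tens_le_base (M := Tw K) (J := J) hRJ hγ)]
    rw [Finset.sum_eq_single (0 : GJ E)]
    · rw [cmp_Tw, ZeroMemClass.coe_zero, mo_zero, one_smul]
    · intro g _ hg
      rw [cmp_Tw, hcmp g g.2 (fun h => hg (Subtype.ext h)), smul_zero]
    · simp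
  have hγL' : γ ∈ Lf a := by
    rw [hγ0]; exact cmp_mem_of_Tens (M := Tw K) hJE hLJ hγL (zero_mem _)
  refine ⟨hγL', fun hPPγ => hzero γ ?_ ?_⟩
  · rw [hγ0]; exact cmp_mem_of_Tens (M := Tw K) hJE hRJ hγ (zero_mem _)
  · have h1 := cmp_mem_of_Tens (M := Tw K) hJE hL0J ((main l z hz hd).2 hγL' hPPγ) (zero_mem _)
    rwa [cmp_zero_of_mem (M := Tw K) (hLJ (mul_mem hγL' (inv_mem_Lf hpL)))] at h1

end Crest.Agent.R180
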