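import Crest.Agent.R180.Loc

set_option autoImplicit false

namespace Crest.Agent.R180

open Module Polynomial

variable {K : Type} [Field K] [Algebra Z0 K] [Dom K]

section gen
variable {M : Type} [AddCommGroup M] [Module K M] [Module (Tw K) M] [IsScalarTower K (Tw K) M]
  {M2 : Type} [AddCommGroup M2] [Module K M2] [Module (Tw K) M2] [IsScalarTower K (Tw K) M2]

theorem smul_mem_Tens' {E : Finset ℕ} {W : Submodule K M} {d : Tw K} (hd : d ∈ DJ K E) {x : M}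
    (hx : x ∈ W) : d • x ∈ Tens E W := by
  induction hd using DJ_induction with
  | h0 => rw [zero_smul]; exact zero_mem _
  | hadd a b _ _ ha hb => rw [add_smul]; exact add_mem ha hb
  | hm g c hg => rw [smul_assoc]; exact Submodule.smul_mem _ _ (smul_mem_Tens hg hx)

theorem Tens_map {E : Finset ℕ} (W : Submodule K M) (T : M →ₗ[K] M2)
    (hT : ∀ z ∈ GJ E, ∀ x, T ((mo z : Tw K) • x) = (mo z : Tw K) • T x) :
    (Tens E W).map T = Tens E (W.map T) := by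
  apply le_antisymm
  · rw [Submodule.map_le_iff_le_comap, Tens_le_iff]
    intro z hz x hx
    rw [Submodule.mem_comap, hT z hz]
    exact smul_mem_Tens hz ⟨x, hx, rfl⟩
  · rw [Tens_le_iff]
    rintro z hz _ ⟨x, hx, rfl⟩
    exact ⟨_, smul_mem_Tens hz hx, hT z hz x⟩

theorem cmp_map [GrM K M] [GrM K M2] {J E : Finset ℕ} (h : Disjoint J E) (T : M →ₗ[K] M2)
    (hT0 : ∀ x ∈ base K M J, T x ∈ base K M2 J)
    (hT : ∀ z ∈ GJ E, ∀ x, T ((mo z : Tw K) • x) = (mo z : Tw K) • T x) {x : M}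
    (hx : x ∈ base K M (J ∪ E)) {z : G} (hz : z ∈ GJ E) :
    cmp K J z (T x) = T (cmp K J z x) := by
  conv_lhs => rw [← asm_cmp h hx, map_sum]
  rw [Finset.sum_congr rfl (fun (y : GJ E) _ => hT y y.2 _)]
  exact cmp_sum h (f := fun y : GJ E => T (cmp K J y x)) (fun y => hT0 _ (cmp_mem _ _ _)) ⟨z, hz⟩

end gen

variable {J E : Finset ℕ} {w : Vec K} {S : ℕ → Tm K} {R : ℕ → Submodule K (Tw K)} {n : ℕ}

theorem comm_vec (h : Disjoint J E) (hw : w ∈ base K (Vec K) J) {m : Tw K} (hm : m ∈ DJ K E)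
    (j : Fin 2) : m * w j = w j * m := DJ_comm h (mem_base_Vec.1 hw j) hm

theorem lam_smul (h : Disjoint J E) (hw : w ∈ base K (Vec K) J) {m : Tw K} (hm : m ∈ DJ K E)
    (f : Tm K) (ξ : Vec K) : lam w f (m • ξ) = m * lam w f ξ := by
  rw [lam_apply, D1_smul (comm_vec h hw hm), pia_mul_left (ev_comm (comm_vec h hw hm) f).symm,
    lam_apply]

theorem Lam_smul (h : Disjoint J E) (hw : w ∈ base K (Vec K) J) {m : Tw K} (hm : m ∈ DJ K E)
    (ξ : Vec K) : Lam w S n (m • ξ) = m • Lam w S n ξ := by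
  ext1 i
  rw [Finsupp.smul_apply, Lam_apply, Lam_apply, mkFam_apply, mkFam_apply, lam_smul h hw hm]
  split_ifs <;> simp

theorem lam_cmp (h : Disjoint J E) (hw : w ∈ base K (Vec K) J) (f : Tm K) {ξ : Vec K}
    (hξ : ξ ∈ base K (Vec K) (J ∪ E)) {z : G} (hz : z ∈ GJ E) :
    cmpT J z (lam w f ξ) = lam w f (cmp K J z ξ) :=
  cmp_map (M2 := Tw K) h (lam w f) (fun _ hx => Cen_le _ _ (lam_mem hw hx f))
    (fun _ hz x => lam_smul h hw (mo_mem_DJ hz) f x) hξ hz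

theorem VV_Tens (h : Disjoint J E) (hw : w ∈ base K (Vec K) J) :
    Tens E (VV J w S n) = VV (J ∪ E) w S n := by
  apply le_antisymm
  · rw [Tens_le_iff]
    intro z hz x hx
    exact ⟨Tens_le_base VV_le (smul_mem_Tens hz hx), fun i hi => by
      rw [lam_smul h hw (mo_mem_DJ hz), hx.2 i hi, mul_zero]⟩
  · intro x hx
    apply mem_Tens_of_cmp h hx.1
    intro z hz
    exact ⟨cmp_mem _ _ _, fun i hi => by rw [← lam_cmp h hw _ hx.1 hz, hx.2 i hi, map_zero]⟩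

theorem PP_Tens (h : Disjoint J E) (hw : w ∈ base K (Vec K) J) (f : Tm K) :
    Tens E (PP J w S n f) = PP (J ∪ E) w S n f := by
  unfold PP
  rw [← VV_Tens h hw, Tens_map _ _ (fun z hz x => lam_smul h hw (mo_mem_DJ hz) f x)]

theorem CC_Tens (h : Disjoint J E) (hw : w ∈ base K (Vec K) J) (i : ℕ) :
    Tens E (CC J w S i) = CC (J ∪ E) w S i := Cen_Tens h (ev_mem_DJ hw _)

theorem finrank_VV_union (h : Disjoint J E) (hw : w ∈ base K (Vec K) J) :
    finrank K (VV (J ∪ E) w S n) = NJ E ^ 2 * finrank K (VV J w S n) := by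
  rw [← VV_Tens h hw, finrank_Tens h (VV J w S n) VV_le]

theorem finrank_CC_union (h : Disjoint J E) (hw : w ∈ base K (Vec K) J) (i : ℕ) :
    finrank K (CC (J ∪ E) w S i) = NJ E ^ 2 * finrank K (CC J w S i) := by
  rw [← CC_Tens h hw, finrank_Tens (M := Tw K) h _ (CC_le i)]

theorem finrank_TT_union (h : Disjoint J E) (hw : w ∈ base K (Vec K) J) :
    finrank K (TT (J ∪ E) w S n) = NJ E ^ 2 * finrank K (TT J w S n) := by
  unfold TT
  rw [finrank_famSub (fun _ _ => inferInstance), finrank_famSub (fun _ _ => inferInstance),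
    Finset.mul_sum]
  exact Finset.sum_congr rfl (fun i _ => finrank_CC_union h hw i)

theorem NJ_union (h : Disjoint J E) : NJ (J ∪ E) = NJ J * NJ E := Finset.prod_union h

theorem Tens_R_le (h : Disjoint J E) (hw : w ∈ base K (Vec K) J)
    (hR : ∀ i < n, R i ≤ CC J w S i) : ∀ i < n, Tens E (R i) ≤ CC (J ∪ E) w S i :=
  fun i hi => CC_Tens h hw i ▸ Tens_mono subset_rfl (hR i hi)

theorem sum_finrank_Tens_R (h : Disjoint J E) (hR : ∀ i < n, R i ≤ CC J w S i) :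
    ∑ i ∈ Finset.range n, finrank K (Tens E (R i)) =
      NJ E ^ 2 * ∑ i ∈ Finset.range n, finrank K (R i) := by
  rw [Finset.mul_sum]
  apply Finset.sum_congr rfl
  intro i hi
  haveI : FiniteDimensional K (R i) :=
    Submodule.finiteDimensional_of_le (hR i (Finset.mem_range.1 hi))
  exact finrank_Tens (M := Tw K) h _ ((hR i (Finset.mem_range.1 hi)).trans (CC_le i))

theorem finrank_ImR_union_le (h : Disjoint J E) (hw : w ∈ base K (Vec K) J)
    (hR : ∀ i < n, R i ≤ CC J w S i) (hPR : ∀ i < n, PP J w S i (S i) ⊓ R i = ⊥) :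
    finrank K (ImR (J ∪ E) w S (fun i => Tens E (R i)) n) ≤
      NJ E ^ 2 * finrank K (ImR J w S R n) := by
  have hfd : ∀ i < n, FiniteDimensional K (Tens E (R i)) :=
    fun i hi => Submodule.finiteDimensional_of_le (Tens_R_le h hw hR i hi)
  haveI := fd_famSub (W := fun i => Tens E (R i)) hfd
  have h1 := Submodule.finrank_add_le_finrank_add_finrank
    ((base K (Vec K) (J ∪ E)).map (Lam w S n)) (famSub n (fun i => Tens E (R i)))
  have h3 := finrank_map_add_inf_ker (Lam w S n) (base K (Vec K) (J ∪ E))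
  rw [finrank_famSub (W := fun i => Tens E (R i)) hfd, sum_finrank_Tens_R h hR] at h1
  rw [← VV_eq, finrank_base_Vec, finrank_VV_union h hw, NJ_union h] at h3
  have h4 := finrank_ImR hR hPR
  have h5 := congrArg (NJ E ^ 2 * ·) h4
  simp only [mul_add] at h5
  unfold ImR at h5 ⊢
  nlinarith

theorem prF_cmp (h : Disjoint J E) (b : Fam K) {c : Fam K} (hc : c ∈ base K (Fam K) J) {z : G}
    (hz : z ∈ GJ E) : prF K n (cmp K J z b) c = prF K n b ((mo z : Tw K)⁻¹ • c) := by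
  rw [prF_apply, prF_apply]
  apply Finset.sum_congr rfl
  intro i _
  rw [cmp_Fam, tr_comm, tr_mul_cmpT J z (hc i), Finsupp.smul_apply, smul_eq_mul,
    DJ_comm h (hc i) (mo_inv_mem hz), ← mul_assoc, tr_comm]

theorem cmp_mem_NN (h : Disjoint J E) (hw : w ∈ base K (Vec K) J)
    (hR : ∀ i < n, R i ≤ CC J w S i) {b : Fam K}
    (hb : b ∈ NN (J ∪ E) w S (fun i => Tens E (R i)) n) {z : G} (hz : z ∈ GJ E) :
    cmp K J z b ∈ NN J w S R n := by
  obtain ⟨h1, h2, h3⟩ := mem_NN.1 hb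
  refine mem_NN.2 ⟨⟨fun i hi => ?_, fun i hi => ?_⟩, fun ξ hξ => ?_, fun i hi ρ hρ => ?_⟩
  · have : b i ∈ Tens E (CC J w S i) := by rw [CC_Tens h hw i]; exact h1.1 i hi
    exact cmp_mem_of_Tens (M := Tw K) h (CC_le i) this hz
  · rw [cmp_Fam, h1.2 i hi, map_zero]
  · rw [prF_cmp h b (TT_le_base (Lam_mem hw hξ)) hz, ← Lam_smul h hw (mo_inv_mem hz)]
    exact h2 _ (Tens_le_base le_rfl (smul_mem_Tens' (mo_inv_mem hz) hξ))
  · have hρ' : ρ ∈ DJ K J := CC_le i (hR i hi hρ)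
    rw [cmp_Fam, tr_comm, tr_mul_cmpT J z hρ', ← mul_assoc, tr_comm,
      ← DJ_comm h hρ' (mo_inv_mem hz)]
    exact h3 i hi _ (smul_mem_Tens' (mo_inv_mem hz) hρ)

theorem cmp_zero_eq_zero (h : Disjoint J E) (hw : w ∈ base K (Vec K) J)
    (hR : ∀ i < n, R i ≤ CC J w S i) {U : ℕ → Submodule K (Tw K)} (hU : IsU J w S R n U)
    {b : Fam K} (hb : b ∈ NN (J ∪ E) w S (fun i => Tens E (R i)) n)
    (h0 : ∀ u ∈ famSub n U, prF K n b u = 0) : cmp K J 0 b = 0 := by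
  have h1 := cmp_mem_NN h hw hR hb (zero_mem _)
  apply prF_nondeg _ (NN_le h1)
  intro c hc
  obtain ⟨x, hx, u, hu, rfl⟩ := Submodule.mem_sup.1 (TT_le_sup hw hR hU hc)
  rw [map_add, h1.2 x hx, prF_cmp h b (TT_le_base (famU_le hw hU hu)) (zero_mem _), mo_zero,
    inv_one, one_smul, h0 u hu, add_zero]

theorem psi_smul (h : Disjoint J E) (hw : w ∈ base K (Vec K) J) {s t : Tw K} (hs : s ∈ DJ K E)
    (ht : t ∈ DJ K E) {k : Vec K} (hk : k ∈ base K (Vec K) J) (ξ : Vec K) (f : Tm K) :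
    psi w f (s • k) (t • ξ) = s * t * psi w f k ξ := by
  rw [psi_apply, D2_smul_left (comm_vec h hw hs), D2_smul_right (comm_vec h hw ht)
    (comm_vec h hk ht), psi_apply, ← mul_assoc s, ← mul_assoc, ← DJ_comm h
      (Lf_le (ev_mem_DJ hw f) (inv_mem_Lf (pd_mem_Lf _))) (mul_mem hs ht), mul_assoc]

theorem Om_smul (h : Disjoint J E) (hw : w ∈ base K (Vec K) J) {r s t : Tw K} (hr : r ∈ DJ K E)
    (hs : s ∈ DJ K E) (ht : t ∈ DJ K E) {b : Fam K} (hb : b ∈ base K (Fam K) J) {k ξ : Vec K}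
    (hk : k ∈ base K (Vec K) J) (hξ : ξ ∈ base K (Vec K) J) :
    Om w S n (r • b) (s • k) (t • ξ) = tr (r * (s * t)) * Om w S n b k ξ := by
  rw [Om_eq_sum, Om_eq_sum, Finset.mul_sum]
  apply Finset.sum_congr rfl
  intro i _
  rw [psi_smul h hw hs ht hk, Finsupp.smul_apply, smul_eq_mul,
    ← tr_mul_of_disj h (mul_mem (hb i) (psi_mem_DJ hw hk hξ _)) (mul_mem hr (mul_mem hs ht)),
    mul_assoc r, ← mul_assoc (b i), ← DJ_comm h (hb i) (mul_mem hs ht)]
  simp only [mul_assoc]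

theorem tr_mo_mul_inv (y z : G) : tr ((mo y : Tw K) * (mo z)⁻¹) = if y = z then 1 else 0 := by
  rw [tr_comm, tr_inv_mo_mul, co_mo_apply]

theorem Al_cmp (h : Disjoint J E) (hw : w ∈ base K (Vec K) J) {b : Fam K}
    (hb : b ∈ base K (Fam K) J) {k ξ : Vec K} (hk : k ∈ base K (Vec K) (J ∪ E))
    (hξ : ξ ∈ base K (Vec K) J) {z : G} (hz : z ∈ GJ E) :
    Al w S n b k ((mo z : Tw K)⁻¹ • ξ) = Al w S n b (cmp K J z k) ξ := by
  conv_lhs => rw [← asm_cmp h hk]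
  rw [map_sum, LinearMap.sum_apply, Finset.sum_eq_single ⟨z, hz⟩]
  · have e1 := Om_smul (S := S) (n := n) h hw (one_mem _) (mo_mem_DJ hz) (mo_inv_mem hz) hb
      (cmp_mem J z k) hξ
    have e2 := Om_smul (S := S) (n := n) h hw (one_mem _) (mo_inv_mem hz) (mo_mem_DJ hz) hb hξ
      (cmp_mem J z k)
    rw [one_smul, one_mul, mul_inv_cancel₀ (mo_ne_zero _), tr_one, one_mul] at e1
    rw [one_smul, one_mul, inv_mul_cancel₀ (mo_ne_zero _), tr_one, one_mul] at e2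
    rw [Al_apply, e1, e2, Al_apply]
  · intro y _ hy
    have hy' : (y : G) ≠ z := fun e => hy (Subtype.ext e)
    have e1 := Om_smul (S := S) (n := n) h hw (one_mem _) (mo_mem_DJ y.2) (mo_inv_mem hz) hb
      (cmp_mem J y k) hξ
    have e2 := Om_smul (S := S) (n := n) h hw (one_mem _) (mo_inv_mem hz) (mo_mem_DJ y.2) hb hξ
      (cmp_mem J y k)
    rw [one_smul, one_mul, tr_mo_mul_inv, if_neg hy', zero_mul] at e1
    rw [one_smul, one_mul, tr_comm, tr_mo_mul_inv, if_neg hy', zero_mul] at e2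
    rw [Al_apply, e1, e2, sub_self]
  · simp

theorem nice_Tens (h : Disjoint J E) (hw : w ∈ base K (Vec K) J) {N : Submodule K (Fam K)}
    (hN : N ≤ base K (Fam K) J) {H X : Submodule K (Vec K)} (hH : H ≤ base K (Vec K) J)
    (hX : X ≤ base K (Vec K) J) (h0 : Nice (Al w S n) N H X) :
    Nice (Al w S n) N (Tens E H) (Tens E X) := by
  intro s b k hb h1 h2 h3 a
  apply eq_zero_of_cmp h (Tens_le_base hH (h2 a))
  intro z hz
  refine h0 s b (fun a => cmp K J z (k a)) hb h1 (fun a => cmp_mem_of_Tens h hH (h2 a) hz) ?_ a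
  intro ξ hξ
  rw [← h3 _ (smul_mem_Tens' (mo_inv_mem hz) hξ)]
  exact Finset.sum_congr rfl (fun a _ =>
    (Al_cmp h hw (hN (h1 a)) (Tens_le_base hH (h2 a)) (hX hξ) hz).symm)

section red
variable {K' : Type} [Field K'] [Algebra Z0 K'] [Dom K'] {φ : ValExt K K'}

theorem RedP.natDegree_eq {q : K'[X]} {p : K[X]} (h : RedP φ q p) (hq : q.Monic) (hp : p.Monic) :
    q.natDegree = p.natDegree := by
  apply le_antisymm
  · apply le_natDegree_of_ne_zero
    have := h q.natDegree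
    rw [hq.coeff_natDegree] at this
    rw [φ.uniq this φ.R_one]; exact one_ne_zero
  · apply le_natDegree_of_ne_zero
    have := h p.natDegree
    rw [hp.coeff_natDegree] at this
    intro h0
    rw [h0] at this
    exact one_ne_zero (φ.uniq this φ.R_zero)

variable (φ) in
/-- compatibility of a term at two points -/
structure Cmp (w' : Vec K') (f' : Tm K') (w : Vec K) (f : Tm K) : Prop where
  hw : Red φ w' w
  tm : TRed φ f' f
  mp : RedP φ (minpoly K' (ev w' f')) (minpoly K (ev w f))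

variable {w' : Vec K'} {f' : Tm K'} {f : Tm K}

theorem Cmp.ev (h : Cmp φ w' f' w f) : Red φ (ev w' f') (ev w f) := h.tm.ev h.hw

theorem Cmp.dgr (h : Cmp φ w' f' w f) : dgr (R180.ev w' f') = dgr (R180.ev w f) :=
  h.mp.natDegree_eq (minpoly.monic (isIntegral_Tw _)) (minpoly.monic (isIntegral_Tw _))

theorem Cmp.pf (h : Cmp φ w' f' w f) : TRed φ (pf w' f') (pf w f) := by
  unfold R180.pf; rw [h.dgr]; exact h.tm.poly h.mp _

theorem Cmp.pd_inv (h : Cmp φ w' f' w f) : Red φ (pd (R180.ev w' f'))⁻¹ (pd (R180.ev w f))⁻¹ :=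
  (h.ev.pd h.mp).inv (pd_ne_zero _)

theorem Cmp.lam (h : Cmp φ w' f' w f) {ξ' : Vec K'} {ξ : Vec K} (hξ : Red φ ξ' ξ) :
    Red φ (lam w' f' ξ') (lam w f ξ) := h.ev.pia h.mp (h.tm.D1 h.hw hξ)

theorem Cmp.psi (h : Cmp φ w' f' w f) {ξ' η' : Vec K'} {ξ η : Vec K} (hξ : Red φ ξ' ξ)
    (hη : Red φ η' η) : Red φ (psi w' f' ξ' η') (psi w f ξ η) :=
  h.pd_inv.mul (h.pf.D2 h.hw hξ hη)

theorem Cmp.lead_CC (h : Cmp φ w' f' w f) (hw' : w' ∈ base K' (Vec K') J) :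
    lead φ (Subalgebra.toSubmodule (Cen J {R180.ev w' f'})) =
      Subalgebra.toSubmodule (Cen J {R180.ev w f}) :=
  congrArg Subalgebra.toSubmodule (leadA_Cen h.ev (ev_mem_DJ hw' _) h.mp)

theorem Cmp.lead_LL (h : Cmp φ w' f' w f) :
    lead φ (Subalgebra.toSubmodule (Lf (R180.ev w' f'))) =
      Subalgebra.toSubmodule (Lf (R180.ev w f)) :=
  congrArg Subalgebra.toSubmodule (leadA_Lf h.ev h.dgr.le)

theorem Red.mkFam {c' : ℕ → Tw K'} {c : ℕ → Tw K} (h : ∀ i < n, Red φ (c' i) (c i)) :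
    Red φ (mkFam n c') (mkFam n c) := by
  intro i
  rw [mkFam_apply, mkFam_apply]
  split_ifs with hi
  · exact h i hi
  · exact Red.zero φ

theorem Red.prF {b' c' : Fam K'} {b c : Fam K} (hb : Red φ b' b) (hc : Red φ c' c) :
    φ.R (prF K' n b' c') (prF K n b c) := by
  rw [prF_apply, prF_apply]
  exact Red_scalar.1 (Red.sum (fun i _ => Red_scalar.2 ((hb i).mul (hc i)).tr))

theorem lead_famSub_le (W' : ℕ → Submodule K' (Tw K')) :
    lead φ (famSub n W') ≤ famSub n (fun i => lead φ (W' i)) := by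
  rintro b ⟨b', h1, h2⟩
  exact ⟨fun i hi => ⟨_, h1.1 i hi, h2 i⟩, fun i hi => by
    have := h2 i
    rw [h1.2 i hi] at this
    exact this.eq_zero⟩

theorem famSub_lead_le (W' : ℕ → Submodule K' (Tw K')) :
    famSub n (fun i => lead φ (W' i)) ≤ lead φ (famSub n W') := by
  intro b hb
  have : ∀ i, ∃ x, i < n → x ∈ W' i ∧ Red φ x (b i) := by
    intro i
    by_cases hi : i < n
    · obtain ⟨x, hx⟩ := hb.1 i hi; exact ⟨x, fun _ => hx⟩
    · exact ⟨0, fun h => absurd h hi⟩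
  choose x hx using this
  refine ⟨mkFam n x, mkFam_mem (fun i hi => (hx i hi).1), ?_⟩
  have e : b = mkFam n b := fam_ext hb (mkFam_mem hb.1) (fun i hi => (mkFam_lt _ hi).symm)
  rw [e]
  exact Red.mkFam (fun i hi => (hx i hi).2)

theorem Red.mem_base_Vec {ξ' : Vec K'} {ξ : Vec K} (h : Red φ ξ' ξ)
    (hξ : ξ' ∈ base K' (Vec K') J) : ξ ∈ base K (Vec K) J :=
  R180.mem_base_Vec.2 (fun j => (h j).mem_DJ (R180.mem_base_Vec.1 hξ j))

theorem upV_mem {ξ : Vec K} (hξ : ξ ∈ base K (Vec K) J) : upV φ ξ ∈ base K' (Vec K') J :=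
  R180.mem_base_Vec.2 (fun j => up_mem_DJ (R180.mem_base_Vec.1 hξ j))

variable {S' : ℕ → Tm K'}

theorem Red.Lam (h : ∀ i < n, Cmp φ w' (S' i) w (S i)) {ξ' : Vec K'} {ξ : Vec K}
    (hξ : Red φ ξ' ξ) : Red φ (Lam w' S' n ξ') (Lam w S n ξ) :=
  Red.mkFam (fun i hi => (h i hi).lam hξ)

theorem Red.Om (h : ∀ i < n, Cmp φ w' (S' i) w (S i)) {b' : Fam K'} {b : Fam K} (hb : Red φ b' b)
    {ξ' η' : Vec K'} {ξ η : Vec K} (hξ : Red φ ξ' ξ) (hη : Red φ η' η) :
    φ.R (Om w' S' n b' ξ' η') (Om w S n b ξ η) := by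
  rw [Om_apply, Om_apply, Psi_apply, Psi_apply]
  exact hb.prF (Red.mkFam (fun i hi => (h i hi).psi hξ hη))

theorem Red.Al (h : ∀ i < n, Cmp φ w' (S' i) w (S i)) {b' : Fam K'} {b : Fam K} (hb : Red φ b' b)
    {ξ' η' : Vec K'} {ξ η : Vec K} (hξ : Red φ ξ' ξ) (hη : Red φ η' η) :
    φ.R (Al w' S' n b' ξ' η') (Al w S n b ξ η) :=
  Red_scalar.1 ((Red_scalar.2 (hb.Om h hξ hη)).sub (Red_scalar.2 (hb.Om h hη hξ)))

theorem lead_VV_le (h : ∀ i < n, Cmp φ w' (S' i) w (S i)) :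
    lead φ (VV J w' S' n) ≤ VV J w S n := by
  rintro ξ ⟨ξ', h1, h2⟩
  refine ⟨h2.mem_base_Vec h1.1, fun i hi => ?_⟩
  have := (h i hi).lam h2
  rw [h1.2 i hi] at this
  exact this.eq_zero

theorem lead_TT (h : ∀ i < n, Cmp φ w' (S' i) w (S i)) (hw' : w' ∈ base K' (Vec K') J) :
    lead φ (TT J w' S' n) = TT J w S n := by
  apply le_antisymm
  · exact (lead_famSub_le _).trans (famSub_mono (fun i hi => ((h i hi).lead_CC hw').le))
  · exact (famSub_mono (fun i hi => ((h i hi).lead_CC hw').ge)).trans (famSub_lead_le _)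

theorem lead_NN_le (h : ∀ i < n, Cmp φ w' (S' i) w (S i)) (hw' : w' ∈ base K' (Vec K') J)
    {R' : ℕ → Submodule K' (Tw K')} (hR : ∀ i < n, R i ≤ lead φ (R' i)) :
    lead φ (NN J w' S' R' n) ≤ NN J w S R n := by
  rintro b ⟨b', h1, h2⟩
  obtain ⟨h3, h4, h5⟩ := mem_NN.1 h1
  refine mem_NN.2 ⟨lead_TT h hw' ▸ h2.mem_lead h3, fun ξ hξ => ?_, fun i hi ρ hρ => ?_⟩
  · have := h2.prF (n := n) (Red.Lam h (Red.upV φ ξ))
    rw [h4 _ (upV_mem hξ)] at this
    exact φ.uniq this φ.R_zero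
  · obtain ⟨ρ', h6, h7⟩ := hR i hi hρ
    have := ((h2 i).mul h7).tr
    rw [h5 i hi ρ' h6] at this
    exact φ.uniq this φ.R_zero

theorem ImR_le_lead (h : ∀ i < n, Cmp φ w' (S' i) w (S i))
    {R' : ℕ → Submodule K' (Tw K')} (hR : ∀ i < n, R i ≤ lead φ (R' i)) :
    ImR J w S R n ≤ lead φ (ImR J w' S' R' n) := by
  refine sup_le ?_ (((famSub_mono hR).trans (famSub_lead_le _)).trans (lead_mono le_sup_right))
  rintro _ ⟨ξ, hξ, rfl⟩
  exact (Red.Lam h (Red.upV φ ξ)).mem_lead (Submodule.mem_sup_left ⟨_, upV_mem hξ, rfl⟩)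

theorem gen_of_lead {J' : Finset ℕ} (hw' : w' ∈ base K' (Vec K') J')
    (h : ∀ d ∈ DJ K J', ∃ (c : K') (f' : Tm K'), Red φ (c • ev w' f') d) : Gen J' w' := by
  let A : Submodule K' (Tw K') :=
    { carrier := {x | ∃ f', ev w' f' = x}
      add_mem' := fun ⟨f, hf⟩ ⟨g, hg⟩ => ⟨.add f g, by rw [ev_add, hf, hg]⟩
      zero_mem' := ⟨.c 0, by simp⟩
      smul_mem' := fun c _ ⟨f, hf⟩ => ⟨.mul (.c c) f, by rw [ev_mul, ev_c, hf, Algebra.smul_def]⟩ }
  have h1 : A ≤ Subalgebra.toSubmodule (DJ K' J') := by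
    rintro _ ⟨f, rfl⟩; exact ev_mem_DJ hw' f
  have := eq_of_le_of_lead_le (φ := φ) h1 (by
    rw [lead_DJ]
    intro d hd
    obtain ⟨c, f', hf⟩ := h d hd
    exact hf.mem_lead (A.smul_mem c ⟨f', rfl⟩))
  intro d hd
  have : d ∈ A := this ▸ hd
  exact this

end red

end Crest.Agent.R180
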