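import Crest.Agent.R180.Sym
import Crest.Agent.R180.Key
import Crest.Agent.R180.LocT

set_option autoImplicit false

namespace Crest.Agent.R180

open Module Polynomial

variable {K : Type} [Field K] [Algebra Z0 K] [Dom K]

/-- annihilator of `W` in `p⁻¹ A` -/
noncomputable def Mf (A : Subalgebra K (Tw K)) (p : Tw K) (W : Submodule K (Tw K)) :
    Submodule K (Tw K) where
  carrier := {m | p * m ∈ A ∧ ∀ s ∈ W, tr (m * s) = 0}
  add_mem' := fun ha hb => ⟨by rw [mul_add]; exact add_mem ha.1 hb.1, fun s hs => by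
    rw [add_mul, map_add, ha.2 s hs, hb.2 s hs, add_zero]⟩
  zero_mem' := ⟨by rw [mul_zero]; exact zero_mem _, fun s _ => by simp⟩
  smul_mem' := fun c _ hx => ⟨by rw [mul_smul_comm]; exact Subalgebra.smul_mem _ hx.1 _,
    fun s hs => by rw [smul_mul_assoc, map_smul, hx.2 s hs, smul_zero]⟩

theorem mem_Mf {A : Subalgebra K (Tw K)} {p m : Tw K} {W : Submodule K (Tw K)} :
    m ∈ Mf A p W ↔ p * m ∈ A ∧ ∀ s ∈ W, tr (m * s) = 0 := Iff.rfl

theorem Mf_map {A : Subalgebra K (Tw K)} {p : Tw K} (hp : p ≠ 0) (W : Submodule K (Tw K)) :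
    (Mf A p W).map (LinearMap.mulLeft K p) =
      perpIn (trB K) (Subalgebra.toSubmodule A) (W.map (LinearMap.mulRight K p⁻¹)) := by
  ext l
  constructor
  · rintro ⟨m, hm, rfl⟩
    refine ⟨hm.1, ?_⟩
    rintro _ ⟨s, hs, rfl⟩
    change tr (p * m * (s * p⁻¹)) = 0
    rw [← mul_assoc, tr_comm, ← mul_assoc, ← mul_assoc, inv_mul_cancel₀ hp, one_mul]
    exact hm.2 s hs
  · rintro ⟨h1, h2⟩
    refine ⟨p⁻¹ * l, ⟨?_, fun s hs => ?_⟩, ?_⟩
    · rwa [← mul_assoc, mul_inv_cancel₀ hp, one_mul]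
    · have := h2 _ ⟨s, hs, rfl⟩
      change tr (l * (s * p⁻¹)) = 0 at this
      rwa [← mul_assoc, tr_comm, ← mul_assoc] at this
    · change p * (p⁻¹ * l) = l
      rw [← mul_assoc, mul_inv_cancel₀ hp, one_mul]

theorem fd_Mf {A : Subalgebra K (Tw K)} [FiniteDimensional K A] {p : Tw K} (hp : p ≠ 0)
    (W : Submodule K (Tw K)) : FiniteDimensional K (Mf A p W) :=
  (finrank_le_of_inj (LinearMap.mulLeft K p) (Mf A p W) (Subalgebra.toSubmodule A) (fun _ h => h.1)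
    (fun _ _ h => (mul_eq_zero.1 h).resolve_left hp)).1

theorem finrank_Mf {A : Subalgebra K (Tw K)} [FiniteDimensional K A] {p : Tw K} (hp : p ≠ 0)
    {W : Submodule K (Tw K)} (hW : ∀ s ∈ W, s * p⁻¹ ∈ A) :
    finrank K (Mf A p W) + finrank K W = finrank K A := by
  have h1 := finrank_perpIn (trB K) (Subalgebra.toSubmodule A) (trB_nondeg A)
    (W := W.map (LinearMap.mulRight K p⁻¹)) (by rintro _ ⟨s, hs, rfl⟩; exact hW s hs)
  rw [← Mf_map hp, ← (Submodule.equivMapOfInjective (LinearMap.mulLeft K p)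
    (mul_right_injective₀ hp) _).finrank_eq, ← (Submodule.equivMapOfInjective
      (LinearMap.mulRight K p⁻¹) (mul_left_injective₀ (inv_ne_zero hp)) _).finrank_eq] at h1
  exact h1

theorem finrank_pi_fin (k : ℕ) (W : Submodule K (Tw K)) [FiniteDimensional K W] :
    FiniteDimensional K (Submodule.pi Set.univ (fun _ : Fin k => W)) ∧
    finrank K (Submodule.pi Set.univ (fun _ : Fin k => W)) = k * finrank K W :=
  ⟨(piEquiv (Fin k) W).symm.finiteDimensional, by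
    rw [(piEquiv (Fin k) W).finrank_eq, Module.finrank_pi_fintype]; simp⟩

theorem NJ_single (α : ℕ) : NJ {α} = ell α := by simp [NJ]

theorem disj_single {J : Finset ℕ} {α : ℕ} (h : α ∉ J) : Disjoint J {α} :=
  Finset.disjoint_singleton_right.2 h

/-- the first order variation of a noncommutative probe -/
noncomputable def chi (α : ℕ) (p q : Tw K) : Tw K := mo (gu α) * p + mo (gv α) * q

/-- data of a probe -/
structure ChiD (J : Finset ℕ) (α : ℕ) (a : Tw K) (P : Submodule K (Tw K)) (p q : Tw K) : Prop where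
  hα : α ∉ J
  ha : a ∈ DJ K J
  hP : P ≤ Subalgebra.toSubmodule (Lf a)
  hp : p ∈ P
  hq : q ∈ P
  p0 : p ≠ 0
  q0 : q ≠ 0
  prim : Lf (q * p⁻¹) = L0f P

noncomputable def C2 (J : Finset ℕ) (α : ℕ) (a p q : Tw K) : Subalgebra K (Tw K) :=
  Cen (J ∪ {α}) {a, chi α p q}

variable {J : Finset ℕ} {α : ℕ} {a p q : Tw K} {P : Submodule K (Tw K)}

instance : FiniteDimensional K (C2 J α a p q) := by unfold C2; infer_instance

theorem mem_C2 {y : Tw K} : y ∈ C2 J α a p q ↔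
    a * y = y * a ∧ chi α p q * y = y * chi α p q ∧ y ∈ DJ K (J ∪ {α}) := by
  simp [C2, mem_Cen, and_assoc]

theorem C2_le : C2 J α a p q ≤ Cen (J ∪ {α}) {a} := fun _ h =>
  mem_Cen_singleton.2 ⟨(mem_C2.1 h).1, (mem_C2.1 h).2.2⟩

namespace ChiD

theorem disj (h : ChiD J α a P p q) : Disjoint J {α} := disj_single h.hα

theorem L_le (h : ChiD J α a P p q) : Lf a ≤ DJ K J := Lf_le h.ha

theorem L0_le (h : ChiD J α a P p q) : L0f P ≤ Lf a := L0f_le h.hP

theorem P_le (h : ChiD J α a P p q) : P ≤ Subalgebra.toSubmodule (DJ K J) :=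
  fun _ hs => h.L_le (h.hP hs)

theorem th_mem (h : ChiD J α a P p q) : q * p⁻¹ ∈ Lf a := h.L0_le (ratio_mem_L0f h.hq h.hp)

theorem chi_mem (h : ChiD J α a P p q) : chi α p q ∈ Tens {α} P :=
  add_mem (smul_mem_Tens (gu_mem α) h.hp) (smul_mem_Tens (gv_mem α) h.hq)

theorem tens_le (h : ChiD J α a P p q) :
    Tens {α} P ≤ Subalgebra.toSubmodule (Cen (J ∪ {α}) {a}) := by
  rw [← Cen_Tens h.disj h.ha]
  exact Tens_mono subset_rfl (h.hP.trans (Lf_le_Cen h.ha))

theorem comm_L {y l : Tw K} (hy : a * y = y * a) (hl : l ∈ Lf a) : l * y = y * l :=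
  comm_of_mem_Lf hy hl

theorem rec' (h : ChiD J α a P p q) {y : Tw K} (hy : y ∈ C2 J α a p q) :
    (∀ i < ell α, ∀ j < ell α, ell α ≤ i + j → cmpT J (zab α i j) y = 0) ∧
    (∀ i j, i + j < ell α → ∃ κ : K, κ ≠ 0 ∧
      cmpT J (zab α i j) y = κ • ((q * p⁻¹) ^ j * cmpT J (zab α (i + j) 0) y)) := by
  obtain ⟨h1, h2, h3⟩ := mem_C2.1 hy
  refine rec_comm h.hα (h.L_le h.th_mem) (mul_ne_zero h.q0 (inv_ne_zero h.p0)) h3
    (comm_L h1 h.th_mem) ?_
  have e : mo (gu α) + q * p⁻¹ * mo (gv α) = chi α p q * p⁻¹ := by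
    rw [chi, add_mul, mul_assoc (mo (gu α)), mul_inv_cancel₀ h.p0, mul_one, mul_assoc (mo (gv α)),
      mo_comm_DJ h.disj (gv_mem α) (h.L_le h.th_mem)]
  rw [e, mul_assoc, comm_L h1 (inv_mem_Lf (h.hP h.hp)), ← mul_assoc, h2, mul_assoc]

theorem eq_zero (h : ChiD J α a P p q) {y : Tw K} (hy : y ∈ C2 J α a p q)
    (h0 : ∀ k < ell α, cmpT J (zab α k 0) y = 0) : y = 0 := by
  obtain ⟨h1, h2⟩ := h.rec' hy
  refine eq_zero_of_cmp (K := K) (M := Tw K) h.disj (mem_C2.1 hy).2.2 (fun z hz => ?_)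
  obtain ⟨i, hi, j, hj, rfl⟩ := exists_zab hz
  rw [cmp_Tw]
  by_cases hij : i + j < ell α
  · obtain ⟨κ, -, e⟩ := h2 i j hij
    rw [e, h0 _ hij, mul_zero, smul_zero]
  · exact h1 i hi j hj (not_lt.1 hij)

theorem finrank_C2 (h : ChiD J α a P p q) :
    finrank K (C2 J α a p q) ≤ ell α * finrank K (Cen J {a}) := by
  obtain ⟨h1, h2⟩ := finrank_pi_fin (ell α) (Subalgebra.toSubmodule (Cen J {a}))
  refine (finrank_le_of_inj (LinearMap.pi (fun k : Fin (ell α) => cmpT J (zab α k 0)))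
    (Subalgebra.toSubmodule (C2 J α a p q))
    (Submodule.pi Set.univ (fun _ : Fin (ell α) => Subalgebra.toSubmodule (Cen J {a})))
    (fun y hy k _ => ?_) (fun y hy h0 => ?_)).2.trans h2.le
  · have : y ∈ Subalgebra.toSubmodule (Cen (J ∪ {α}) {a}) := C2_le hy
    rw [← Cen_Tens h.disj h.ha] at this
    exact cmp_mem_of_Tens (M := Tw K) h.disj (Cen_le _ _) this (zab_mem _ _ _)
  · exact h.eq_zero hy (fun k hk => congrFun h0 ⟨k, hk⟩)

theorem big (h : ChiD J α a P p q) {A : Subalgebra K (Tw K)} (hA : A ≤ DJ K (J ∪ {α}))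
    (h1 : a ∈ A) (h2 : chi α p q ∈ A) : dgr a * ell α ≤ finrank K A := by
  have e1 := finrank_mul_Cen hA
  have e2 := dgr_mul_Cen h.ha
  have e3 : finrank K (Cen (J ∪ {α}) (A : Set (Tw K))) ≤ ell α * finrank K (Cen J {a}) :=
    (finrank_mono_alg (fun y hy => mem_C2.2 ⟨(mem_Cen.1 hy).1 _ h1, (mem_Cen.1 hy).1 _ h2,
      (mem_Cen.1 hy).2⟩)).trans h.finrank_C2
  rw [NJ_union h.disj, NJ_single, mul_pow, ← e2] at e1
  have e4 : 0 < finrank K (Cen J {a}) := by
    by_contra h0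
    have h0' : finrank K (Cen J {a}) = 0 := by omega
    rw [h0'] at e2
    have := pow_pos (NJ_pos J) 2
    omega
  have e5 : 0 < ell α := by unfold ell; omega
  apply Nat.le_of_mul_le_mul_right _ (Nat.mul_pos e5 e4)
  calc dgr a * ell α * (ell α * finrank K (Cen J {a}))
      = dgr a * finrank K (Cen J {a}) * ell α ^ 2 := by ring
    _ ≤ _ := by rw [← e1]; exact Nat.mul_le_mul_left _ e3

end ChiD

/-- the residue of the new multipliers -/
noncomputable def Mh (J : Finset ℕ) (α : ℕ) (a : Tw K) (P : Submodule K (Tw K)) (p q : Tw K) :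
    Submodule K (Tw K) :=
  Subalgebra.toSubmodule (C2 J α a p q) ⊓
    (Tens {α} (Subalgebra.toSubmodule (L0f P))).comap (LinearMap.mulLeft K p) ⊓
      perpIn (trB K) ⊤ (Tens {α} P)

theorem mem_Mh {m : Tw K} : m ∈ Mh J α a P p q ↔ m ∈ C2 J α a p q ∧
    p * m ∈ Tens {α} (Subalgebra.toSubmodule (L0f P)) ∧ ∀ s ∈ Tens {α} P, tr (m * s) = 0 := by
  simp [Mh, mem_perpIn, and_assoc]

instance : FiniteDimensional K (Mh J α a P p q) :=
  Submodule.finiteDimensional_of_le (inf_le_left.trans inf_le_left)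

namespace ChiD

theorem cmp_mem_Mf (h : ChiD J α a P p q) {m : Tw K} (hm : m ∈ Mh J α a P p q) {z : G}
    (hz : z ∈ GJ {α}) : cmpT J z m ∈ Mf (L0f P) p P := by
  obtain ⟨h1, h2, h3⟩ := mem_Mh.1 hm
  constructor
  · rw [← cmpT_mul_left h.disj hz (h.P_le h.hp)]
    exact cmp_mem_of_Tens (M := Tw K) h.disj (W := Subalgebra.toSubmodule (L0f P))
      (fun _ hx => h.L_le (h.L0_le hx)) h2 hz
  · intro s hs
    rw [tr_comm, tr_mul_cmpT J z (h.P_le hs), ← mul_assoc, tr_comm,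
      ← DJ_comm h.disj (h.P_le hs) (mo_inv_mem hz)]
    exact h3 _ (mul_mem_Tens (mo_inv_mem hz) hs)

theorem cmp_eq_zero (h : ChiD J α a P p q) {m : Tw K} (hm : m ∈ Mh J α a P p q) {k : ℕ}
    (h1 : finrank K (L0f P) ≤ k) (h2 : k < ell α) : cmpT J (zab α k 0) m = 0 := by
  by_contra h0
  have hy := h.cmp_mem_Mf hm (zab_mem α k 0)
  set y := cmpT J (zab α k 0) m with hy'
  have key : ∀ j < dgr (q * p⁻¹), (q * p⁻¹) ^ j * y ∈ Mf (L0f P) p P := by
    intro j hj
    rw [← finrank_Lf, h.prim] at hj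
    obtain ⟨κ, hκ, e⟩ := (h.rec' (mem_Mh.1 hm).1).2 (k - j) j (by omega)
    have := h.cmp_mem_Mf hm (zab_mem α (k - j) j)
    rwa [e, Submodule.smul_mem_iff _ hκ, show k - j + j = k by omega] at this
  have key2 : ∀ l ∈ L0f P, l * y ∈ Mf (L0f P) p P := by
    intro l hl
    rw [← h.prim] at hl
    obtain ⟨s, hs, rfl⟩ := exists_poly_of_mem_Lf hl
    have hs' : s.natDegree < dgr (q * p⁻¹) := by
      by_cases hs0 : s = 0
      · rw [hs0, natDegree_zero]; exact dgr_pos _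
      · exact (natDegree_lt_iff_degree_lt hs0).2 hs
    rw [aeval_eq_sum_range' hs', Finset.sum_mul]
    exact sum_mem (fun j hj => by
      rw [smul_mul_assoc]; exact Submodule.smul_mem _ _ (key j (Finset.mem_range.1 hj)))
  haveI := fd_L0f h.hP
  have := (key2 _ (inv_mem_of_fd _ hy.1)).2 p h.hp
  have e : y * p = p * y := by
    apply mul_left_cancel₀ h.p0
    rw [← mul_assoc]
    exact Lf_comm (h.L0_le hy.1) (h.hP h.hp)
  rw [mul_assoc, e, inv_mul_cancel₀ (mul_ne_zero h.p0 h0), tr_one] at this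
  exact one_ne_zero this

theorem Mh_eq_zero (h : ChiD J α a P p q) {m : Tw K} (hm : m ∈ Mh J α a P p q)
    (h0 : ∀ k < finrank K (L0f P), k < ell α → cmpT J (zab α k 0) m = 0) : m = 0 :=
  h.eq_zero (mem_Mh.1 hm).1 (fun k hk => by
    by_cases h1 : k < finrank K (L0f P)
    · exact h0 k h1 hk
    · exact h.cmp_eq_zero hm (not_lt.1 h1) hk)

theorem ratio (h : ChiD J α a P p q) : ∀ s ∈ P, s * p⁻¹ ∈ L0f P :=
  fun _ hs => ratio_mem_L0f hs h.hp

theorem finrank_Mh (h : ChiD J α a P p q) :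
    finrank K (Mh J α a P p q) ≤ finrank K (L0f P) * finrank K (L0f P) := by
  haveI := fd_L0f h.hP
  haveI := fd_Mf (A := L0f P) h.p0 P
  obtain ⟨h1, h2⟩ := finrank_pi_fin (finrank K (L0f P)) (Mf (L0f P) p P)
  have h3 := finrank_Mf h.p0 h.ratio
  refine ((finrank_le_of_inj (LinearMap.pi (fun k : Fin (finrank K (L0f P)) => cmpT J (zab α k 0)))
    (Mh J α a P p q) (Submodule.pi Set.univ (fun _ => Mf (L0f P) p P))
    (fun y hy k _ => ?_) (fun y hy h0 => ?_)).2.trans h2.le).trans (Nat.mul_le_mul_left _ ?_)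
  · exact h.cmp_mem_Mf hy (zab_mem _ _ _)
  · exact h.Mh_eq_zero hy (fun k hk _ => congrFun h0 ⟨k, hk⟩)
  · omega

theorem exists_G0 (h : ChiD J α a P p q) (hd : 2 * finrank K (L0f P) + 1 ≤ 3 * finrank K P) :
    ∃ (g : ℕ) (l : Fin g → Tw K), g ≤ finrank K (L0f P) ∧
      (∀ j, l j ∈ L0f P ∧ l j * p ∈ P ∧ l j * q ∈ P) ∧
      ∀ y, (∀ j, l j * y ∈ Mf (L0f P) p P) → y = 0 := by
  haveI := fd_L0f h.hP
  haveI := fd_Mf (A := L0f P) h.p0 P
  haveI : FiniteDimensional K P := Submodule.finiteDimensional_of_le h.hP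
  have h3 := finrank_Mf h.p0 h.ratio
  set A := P.map (LinearMap.mulRight K p⁻¹) with hA
  set B := P.map (LinearMap.mulRight K q⁻¹) with hB
  have e1 : finrank K A = finrank K P := (Submodule.equivMapOfInjective
      (LinearMap.mulRight K p⁻¹) (mul_left_injective₀ (inv_ne_zero h.p0)) _).finrank_eq.symm
  have e2 : finrank K B = finrank K P := (Submodule.equivMapOfInjective
      (LinearMap.mulRight K q⁻¹) (mul_left_injective₀ (inv_ne_zero h.q0)) _).finrank_eq.symm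
  have e3 : A ⊔ B ≤ Subalgebra.toSubmodule (L0f P) :=
    sup_le (by rintro _ ⟨s, hs, rfl⟩; exact ratio_mem_L0f hs h.hp)
      (by rintro _ ⟨s, hs, rfl⟩; exact ratio_mem_L0f hs h.hq)
  have e4 : finrank K (A ⊔ B : Submodule K (Tw K)) ≤ finrank K (L0f P) := Submodule.finrank_mono e3
  have e5 := Submodule.finrank_sup_add_finrank_inf_eq A B
  obtain ⟨l, -, l1, l2⟩ := exists_fin_basis (A ⊓ B)
  refine ⟨_, l, (Submodule.finrank_mono (inf_le_left.trans le_sup_left)).trans e4,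
    fun j => ⟨e3 (Submodule.mem_sup_left (l1 j).1), ?_, ?_⟩, fun y hy => ?_⟩
  · obtain ⟨s, hs, e⟩ := (l1 j).1
    rw [← e]
    change s * p⁻¹ * p ∈ P
    rwa [mul_assoc, inv_mul_cancel₀ h.p0, mul_one]
  · obtain ⟨s, hs, e⟩ := (l1 j).2
    rw [← e]
    change s * q⁻¹ * q ∈ P
    rwa [mul_assoc, inv_mul_cancel₀ h.q0, mul_one]
  · by_contra h0
    have := (finrank_le_of_inj (LinearMap.mulRight K y) (A ⊓ B) (Mf (L0f P) p P) (fun s hs => by
      have : Submodule.span K (Set.range l) ≤ (Mf (L0f P) p P).comap (LinearMap.mulRight K y) :=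
        Submodule.span_le.2 (by rintro _ ⟨j, rfl⟩; exact hy j)
      exact this (l2 hs)) (fun s _ hs => (mul_eq_zero.1 hs).resolve_right h0)).2
    omega

theorem ad_mem (h : ChiD J α a P p q) {l : Tw K} (h1 : l ∈ L0f P) (h2 : l * p ∈ P) (h3 : l * q ∈ P)
    {z : G} (hz : z ∈ GJ {α}) :
    mo z * l * chi α p q - chi α p q * (mo z * l) ∈ Tens {α} P := by
  have hl := h.L_le (h.L0_le h1)
  have key : ∀ {g : G} {s : Tw K}, g ∈ GJ {α} → s ∈ P → l * s ∈ P →
      mo z * l * (mo g * s) - mo g * s * (mo z * l) ∈ Tens {α} P := by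
    intro g s hg hs hls
    have e1 : mo z * l * (mo g * s) = (mo z * mo g) * (l * s) := by
      rw [mul_assoc, ← mul_assoc l, ← mo_comm_DJ h.disj hg hl]; simp only [mul_assoc]
    have e2 : mo g * s * (mo z * l) = (mo g * mo z) * (l * s) := by
      rw [mul_assoc, ← mul_assoc s, ← mo_comm_DJ h.disj hz (h.P_le hs),
        Lf_comm (h.L0_le h1) (h.hP hs)]; simp only [mul_assoc]
    rw [e1, e2]
    exact sub_mem (mul_mem_Tens (mul_mem (mo_mem_DJ hz) (mo_mem_DJ hg)) hls)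
      (mul_mem_Tens (mul_mem (mo_mem_DJ hg) (mo_mem_DJ hz)) hls)
  have := add_mem (key (gu_mem α) h.hp h2) (key (gv_mem α) h.hq h3)
  convert this using 1
  rw [chi]; noncomm_ring

theorem cmp_sep (h : ChiD J α a P p q) {m : Tw K} (hm : m ∈ Mh J α a P p q) {s t k : ℕ}
    (hk : k < finrank K (L0f P)) (hs : finrank K (L0f P) * (s + 1) < ell α)
    (ht : finrank K (L0f P) * (t + 1) < ell α) (hst : s ≠ t) :
    cmpT J (zab α (1 + finrank K (L0f P) * s + k) (ell α - 1) -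
      zab α (1 + finrank K (L0f P) * t) (ell α - 1)) m = 0 := by
  obtain ⟨i, hi, j, hj, e⟩ := exists_zab (sub_mem (zab_mem α (1 + finrank K (L0f P) * s + k)
    (ell α - 1)) (zab_mem α (1 + finrank K (L0f P) * t) (ell α - 1)))
  have e1 := congrArg (fun z : G => z ⟨α, true⟩) e
  have e2 := congrArg (fun z : G => z ⟨α, false⟩) e
  simp only [DFinsupp.sub_apply, zab_true, zab_false, sub_self] at e1 e2
  have hj0 : j = 0 := Nat.eq_zero_of_dvd_of_lt ((ZMod.natCast_eq_zero_iff _ _).1 e1.symm) hj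
  rw [e, hj0]
  refine h.cmp_eq_zero hm ?_ hi
  by_contra hi'
  rw [sub_eq_iff_eq_add, ← Nat.cast_add, ZMod.natCast_eq_natCast_iff',
    Nat.mod_eq_of_lt (by rw [mul_add] at hs; omega),
    Nat.mod_eq_of_lt (by rw [mul_add] at ht; omega)] at e2
  generalize finrank K (L0f P) = d at *
  rcases lt_or_gt_of_ne hst with h1 | h1
  · have := Nat.mul_le_mul_left d (Nat.succ_le_of_lt h1)
    rw [Nat.mul_succ] at this; omega
  · have := Nat.mul_le_mul_left d (Nat.succ_le_of_lt h1)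
    rw [Nat.mul_succ] at this; omega

theorem cmp_anti (h : ChiD J α a P p q) {m l : Tw K} (hm : m ∈ Mh J α a P p q) (hl : l ∈ L0f P)
    {z z' : G} (hz : z ∈ GJ {α}) (hz' : z' ∈ GJ {α}) : ∃ c : K, c ≠ 0 ∧
    cmpT J z (m * (mo z' * l) + mo z' * l * m) = c • (l * cmpT J (z - z') m) := by
  have hl' := h.L_le (h.L0_le hl)
  have hm' := (mem_C2.1 (mem_Mh.1 hm).1).2.2
  have e1 := cmpT_mul_mo h.disj hz' (sub_mem hz hz') hm'
  have e2 := cmpT_mo_mul J z' (z - z') (l * m)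
  rw [sub_add_cancel] at e1
  rw [add_sub_cancel] at e2
  have e3 : l * m = m * l := comm_L (mem_C2.1 (mem_Mh.1 hm).1).1 (h.L0_le hl)
  refine ⟨cc K (z - z') z' + cc K z' (z - z'), ?_, ?_⟩
  · rw [cc_comm z', ← one_add_mul]
    refine mul_ne_zero (fun h0 => eps_ne_neg_one (K := K) hz' (z - z') ?_) (cc_ne_zero _ _)
    exact eq_neg_of_add_eq_zero_right h0
  · rw [map_add, mul_assoc, e2, mo_comm_DJ h.disj hz' hl', ← mul_assoc, ← e3, mul_assoc,
      cmpT_mul_left h.disj hz hl', e1, cmpT_mul_left h.disj (sub_mem hz hz') hl', add_smul,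
      mul_smul_comm]

/-- nondegeneracy of the orbit form -/
theorem kks (h : ChiD J α a P p q) (hd : 2 * finrank K (L0f P) + 1 ≤ 3 * finrank K P) {I : ℕ}
    (hI : finrank K (L0f P) * (I * finrank K (L0f P)) < ell α) :
    ∃ g : Fin I → Tw K, (∀ i, g i ∈ Cen (J ∪ {α}) {a} ∧
      g i * chi α p q - chi α p q * g i ∈ Tens {α} P) ∧
      ∀ b : Fin I → Tw K, (∀ i, b i ∈ Mh J α a P p q) →
        (∀ y ∈ Tens {α} P, (∀ c ∈ C2 J α a p q, tr (y * c) = 0) →
          ∑ i, tr (y * (b i * g i + g i * b i)) = 0) → ∀ i, b i = 0 := by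
  obtain ⟨e, l, he, l1, l2⟩ := h.exists_G0 hd
  set d := finrank K (L0f P) with hd'
  let z : Fin I → Fin e → G := fun i j => zab α (1 + d * (i * e + j)) (ell α - 1)
  have hz : ∀ i j, z i j ∈ GJ {α} := fun _ _ => zab_mem _ _ _
  have hlt : ∀ (i : Fin I) (j : Fin e), d * (i * e + j + 1) < ell α := by
    intro i j
    refine lt_of_le_of_lt (Nat.mul_le_mul_left _ ?_) hI
    calc (i : ℕ) * e + j + 1 ≤ (i + 1) * e := by rw [add_mul, one_mul]; have := j.2; omega
      _ ≤ I * d := Nat.mul_le_mul i.2 he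
  refine ⟨fun i => ∑ j, mo (z i j) * l j, fun i => ⟨?_, ?_⟩, fun b hb H i0 => ?_⟩
  · change _ ∈ Subalgebra.toSubmodule (Cen (J ∪ {α}) {a})
    rw [← Cen_Tens h.disj h.ha]
    exact sum_mem (fun j _ => smul_mem_Tens (hz i j) (Lf_le_Cen h.ha (h.L0_le (l1 j).1)))
  · rw [Finset.sum_mul, Finset.mul_sum, ← Finset.sum_sub_distrib]
    exact sum_mem (fun j _ => h.ad_mem (l1 j).1 (l1 j).2.1 (l1 j).2.2 (hz i j))
  refine h.Mh_eq_zero (hb i0) (fun k hk _ => l2 _ (fun j0 => ?_))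
  have hy := h.cmp_mem_Mf (hb i0) (zab_mem α k 0)
  refine ⟨?_, fun s hs => ?_⟩
  · rw [← mul_assoc, Lf_comm (h.hP h.hp) (h.L0_le (l1 j0).1), mul_assoc]
    exact mul_mem (l1 j0).1 hy.1
  set z0 := zab α (1 + d * (i0 * e + j0) + k) (ell α - 1) with hz0
  have hz0' : z0 ∈ GJ {α} := zab_mem _ _ _
  have h5 : 4 < ell α := by unfold ell; omega
  have H1 := H (s * (mo z0)⁻¹) (by
    rw [← DJ_comm h.disj (h.P_le hs) (mo_inv_mem hz0')]
    exact mul_mem_Tens (mo_inv_mem hz0') hs) (fun c hc => by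
      rw [mul_assoc, ← tr_mul_cmpT J z0 (h.P_le hs), (h.rec' hc).1 _ (by
        have := hlt i0 j0; rw [mul_add] at this; omega) _ (by omega) (by omega), mul_zero, map_zero])
  simp only [mul_assoc s, ← tr_mul_cmpT J z0 (h.P_le hs), Finset.mul_sum, Finset.sum_mul,
    ← Finset.sum_add_distrib, map_sum] at H1
  rw [← Finset.sum_product', Finset.sum_eq_single (i0, j0)] at H1
  · obtain ⟨c, hc, e1⟩ := h.cmp_anti (hb i0) (l1 j0).1 hz0' (hz i0 j0)
    have e2 : z0 - z i0 j0 = zab α k 0 := by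
      simp only [hz0, z, zab, add_smul, zero_smul]; abel
    simp only at H1
    rw [e1, e2, mul_smul_comm, map_smul, smul_eq_zero] at H1
    rw [tr_comm]
    exact H1.resolve_left hc
  · rintro ⟨i, j⟩ _ hne
    obtain ⟨c, -, e1⟩ := h.cmp_anti (hb i) (l1 j).1 hz0' (hz i j)
    simp only
    rw [e1, h.cmp_sep (hb i) hk (hlt i0 j0) (hlt i j), mul_zero, smul_zero, mul_zero, map_zero]
    intro h0
    apply hne
    have := finProdFinEquiv.injective (a₁ := (i, j)) (a₂ := (i0, j0)) (Fin.ext (by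
      simp only [finProdFinEquiv_apply_val]
      rw [mul_comm e, mul_comm e]; omega))
    exact this
  · simp

end ChiD

end Crest.Agent.R180
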