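import Crest.Agent.R180.Good

set_option autoImplicit false

namespace Crest.Agent.R180

open Module Polynomial

/-- the level-up statement -/
def LUst (n : ℕ) : Prop :=
  ∀ (x : Pt), Good n x → ∀ E τ X U, ArcC x.J E x.w x.S x.R n τ X → LocC x.J x.w x.S x.R n U →
    IMP x.J E x.w x.S x.R n U τ ∧ ∀ w' q S' R', ArcEnd x.J E x.w x.S x.R n U τ w' q →
      (∀ i < n, Lift1 x.J E x.w x.S x.R w' S' R' i) →
      Good n (x.arc (x.J ∪ E) w' S' R') ∧ IsStep n (n - 1) x (x.J ∪ E) w' S'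

variable {n : ℕ} {x : Pt} {E : Finset ℕ} {τ : Vec x.K} {X : Submodule x.K (Vec x.K)}
  {U : ℕ → Submodule x.K (Tw x.K)} {w' : Vec (Lau x.K)} {q : ℕ → (Lau x.K)[X]}
  {S' : ℕ → Tm (Lau x.K)} {R' : ℕ → Submodule (Lau x.K) (Tw (Lau x.K))}

theorem isStep_of (h : ArcEnd x.J E x.w x.S x.R n U τ w' q)
    (hl : ∀ i < n, Lift1 x.J E x.w x.S x.R w' S' R' i) {nc : ℕ} (hn : nc ≤ n)
    (hq : ∀ i < nc, q i = 0) : IsStep n nc x (x.J ∪ E) w' S' :=
  ⟨Finset.subset_union_left, h.1.red, fun i hi => (hl i hi).hS, fun i hi => by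
    rw [(hl i (by omega)).hS, h.minpoly (by omega), pt, hq i hi, add_zero]⟩

theorem lus0 (hLU : LUst n) (hx : Good n x) (hs : Stable (Good n) n x)
    (hA : ArcC x.J E x.w x.S x.R n τ X) (hL : LocC x.J x.w x.S x.R n U)
    (h : ArcEnd x.J E x.w x.S x.R n U τ w' q)
    (hl : ∀ i < n, Lift1 x.J E x.w x.S x.R w' S' R' i) :
    Good n (x.arc (x.J ∪ E) w' S' R') ∧ Stable (Good n) n (x.arc (x.J ∪ E) w' S' R') ∧
      IsStep n n x (x.J ∪ E) w' S' ∧ rr n x = rr n (x.arc (x.J ∪ E) w' S' R') := by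
  obtain ⟨h1, h2⟩ := (hLU x hx E τ X U hA hL).2 w' q S' R' h hl
  have hc := Chain.single h2 h1
  have h3 := hs _ _ hc
  have h4 : rr n (x.arc (x.J ∪ E) w' S' R') ≤ rr n x := h.rank_le hA hL hl
  exact ⟨h1, fun z ψ hz => h4.trans (hs _ _ (hc.trans hz)),
    isStep_of h hl le_rfl (h.const hA hL hl (fun i hi => (h1.tri i hi).inf) h3),
    le_antisymm h3 h4⟩

theorem lus (hLU : LUst n) (hx : Str n x) (hA : ArcC x.J E x.w x.S x.R n τ X)
    (hL : LocC x.J x.w x.S x.R n U) (h : ArcEnd x.J E x.w x.S x.R n U τ w' q)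
    (hl : ∀ i < n, Lift1 x.J E x.w x.S x.R w' S' R' i) :
    Str n (x.arc (x.J ∪ E) w' S' R') ∧ IsStep n n x (x.J ∪ E) w' S' ∧
      rr n x = rr n (x.arc (x.J ∪ E) w' S' R') := by
  obtain ⟨h1, h2, h3, h4⟩ := lus0 hLU hx.good hx.stable hA hL h hl
  refine ⟨⟨h1, ?_, h2⟩, h3, h4⟩
  obtain ⟨H, e1, e2, e3⟩ := hx.big
  obtain ⟨H', e4, e5, e6⟩ := h.nice hA hL hl (fun i hi => (h1.tri i hi).inf) e1 e3
  refine ⟨H', e4, ?_, e6⟩
  change _ ≤ _ + (rr n x + 1) * (NJ E ^ 2 * rr n x - rr n (x.arc (x.J ∪ E) w' S' R')) at e5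
  change _ * NJ (x.J ∪ E) + _ ≤ finrank (Lau x.K) H'
  rw [← h4] at e5 ⊢
  rw [NJ_union hA.disj]
  generalize rr n x = r at *
  obtain ⟨k, hk⟩ : ∃ k, NJ E = k + 1 := ⟨NJ E - 1, by have := NJ_pos E; omega⟩
  rw [hk] at e5 ⊢
  rw [show (k + 1) ^ 2 * r - r = (k ^ 2 + 2 * k) * r by
    rw [show (k + 1) ^ 2 * r = (k ^ 2 + 2 * k) * r + r by ring]; omega] at e5
  unfold kp at e2 ⊢
  have e7 := Nat.mul_le_mul_left ((k + 1) ^ 2) e2
  have e8 : (r + 1) * (NJ x.J * (k + 1)) + (2 * r ^ 2 + 2 * r + 2) +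
      (r + 1) * ((k ^ 2 + 2 * k) * r) ≤ (k + 1) ^ 2 * ((r + 1) * NJ x.J + (2 * r ^ 2 + 2 * r + 2)) := by
    have : (k + 1) ^ 2 * ((r + 1) * NJ x.J + (2 * r ^ 2 + 2 * r + 2)) =
      (r + 1) * (NJ x.J * (k + 1)) + (2 * r ^ 2 + 2 * r + 2) + (r + 1) * ((k ^ 2 + 2 * k) * r) +
        ((r + 1) * NJ x.J * (k + 1) * k + (k ^ 2 + 2 * k) * (r ^ 2 + r + 2)) := by ring
    omega
  omega

theorem probe_key (hLU : LUst n) {b : Pt} {f : Tm b.K} {φ : ValExt b.K x.K}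
    (hb : Base (Str n) n b f) (hc : Chain (Str n) n n b x φ) (hx : Str n x) {g : Tm x.K}
    (hg : g = f.map φ.ι) (hA : ArcC x.J E x.w x.S x.R n τ X) (hL : LocC x.J x.w x.S x.R n U)
    (hX : ∀ η ∈ Tens E X, lam x.w g η = 0) (h : ArcEnd x.J E x.w x.S x.R n U τ w' q)
    {p : Tw b.K} (hp : p ∈ PP b.J b.w b.S n f) (hp0 : p ≠ 0)
    (hp1 : p ∈ lead φ (PP (x.J ∪ E) x.w x.S n g)) :
    leadA φ (leadA (lau x.K) (Lf (ev w' (g.map (lau x.K).ι)))) ≤ DJ b.K (x.J ∪ E) ∧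
    (∀ s ∈ leadA φ (leadA (lau x.K) (Lf (ev w' (g.map (lau x.K).ι)))),
      ∀ t ∈ leadA φ (leadA (lau x.K) (Lf (ev w' (g.map (lau x.K).ι)))), s * t = t * s) ∧
    ev b.w f ∈ leadA φ (leadA (lau x.K) (Lf (ev w' (g.map (lau x.K).ι)))) ∧
    finrank b.K (leadA φ (leadA (lau x.K) (Lf (ev w' (g.map (lau x.K).ι))))) ≤
      dgr (ev b.w f) * NJ ((x.J ∪ E) \ b.J) ∧
    (finrank b.K (leadA φ (leadA (lau x.K) (Lf (ev w' (g.map (lau x.K).ι))))) =
      dgr (ev b.w f) * NJ ((x.J ∪ E) \ b.J) → ∃ F0 : Subalgebra b.K (Tw b.K),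
        F0 ≤ leadA φ (leadA (lau x.K) (Lf (ev w' (g.map (lau x.K).ι)))) ∧
        finrank b.K F0 ≤ finrank b.K (L0f (PP b.J b.w b.S n f)) * NJ ((x.J ∪ E) \ b.J) ∧
        ∀ s ∈ lead φ (PP (x.J ∪ E) x.w x.S n g),
          prj (leadA φ (leadA (lau x.K) (Lf (ev w' (g.map (lau x.K).ι))))) s * p⁻¹ ∈ F0) := by
  obtain ⟨R', hl⟩ := h.exists_lift hA.disj hL (S' := fun i => (x.S i).map (lau x.K).ι)
    (fun _ _ => rfl)
  obtain ⟨h1, h2, h3⟩ := lus hLU hx hA hL h hl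
  have hc' := Chain.step _ _ _ R' hc h2 h1
  have hf : f.map (φ.comp (lau x.K)).ι = g.map (lau x.K).ι := by rw [hg, Tm.map_map]; rfl
  have ha : ev b.w f ∈ leadA φ (leadA (lau x.K) (Lf (ev w' (g.map (lau x.K).ι)))) := by
    rw [← leadA_comp, ← hf]
    exact ((TRed.map _ f).ev hc'.red).mem_leadA (self_mem_Lf _)
  have key : ∀ s ∈ lead φ (PP (x.J ∪ E) x.w x.S n g),
      prj (leadA φ (leadA (lau x.K) (Lf (ev w' (g.map (lau x.K).ι))))) s ∈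
        lead (φ.comp (lau x.K)) (P0 (x.J ∪ E) w' (fun i => (x.S i).map (lau x.K).ι) n
          (g.map (lau x.K).ι)) := by
    rintro s ⟨s1, h4, h5⟩
    exact lead_lead_le _ _ ((h5.prj _).mem_lead
      (h.prj_mem_lead hA hL hl (fun i hi => (h1.good.tri i hi).inf) h3.le hX h4))
  have hp2 := key p hp1
  rw [prj_of_mem _ (Lf_le ha (hb.le hp))] at hp2
  have hmin := hb.min _ _ hc' (by
    rw [hf]
    intro h0
    change P0 (x.J ∪ E) w' (fun i => (x.S i).map (lau x.K).ι) n (g.map (lau x.K).ι) = ⊥ at h0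
    rw [h0, lead_bot] at hp2
    exact hp0 hp2)
  rw [hf, P0_eq hb.le] at hmin
  have hN : NJ (x.J ∪ E) = NJ b.J * NJ ((x.J ∪ E) \ b.J) := NJ_sdiff hc'.sub
  change _ * _ ≤ _ * NJ (x.J ∪ E) ∧ (_ * _ = _ * NJ (x.J ∪ E) → finrank (Lau x.K)
    (L0f (P0 (x.J ∪ E) w' (fun i => (x.S i).map (lau x.K).ι) n (g.map (lau x.K).ι))) * _ ≤
      _ * NJ (x.J ∪ E)) at hmin
  rw [hN] at hmin
  have hpos := NJ_pos b.J
  haveI := fd_L0f (P0_le (J := x.J ∪ E) (w := w') (S := fun i => (x.S i).map (lau x.K).ι) (n := n)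
    (g.map (lau x.K).ι))
  refine ⟨leadA_le_DJ (leadA_le_DJ (Lf_le (ev_mem_DJ h.1.mem _))),
    leadA_comm (leadA_comm (fun _ hs _ ht => Lf_comm hs ht)), ha, ?_, fun hd => ?_⟩
  · rw [finrank_leadA, finrank_leadA, finrank_Lf]
    apply Nat.le_of_mul_le_mul_right _ hpos
    refine hmin.1.trans (le_of_eq (by ring))
  · rw [finrank_leadA, finrank_leadA, finrank_Lf] at hd
    refine ⟨leadA (φ.comp (lau x.K)) (L0f (P0 (x.J ∪ E) w' (fun i => (x.S i).map (lau x.K).ι) n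
      (g.map (lau x.K).ι))), ?_, ?_, fun s hs => ?_⟩
    · rw [← leadA_comp]; exact leadA_mono (L0f_le (P0_le _))
    · rw [finrank_leadA]
      apply Nat.le_of_mul_le_mul_right _ hpos
      refine (hmin.2 ?_).trans (le_of_eq (by ring))
      change dgr (ev w' (g.map (lau x.K).ι)) * _ = _
      rw [hd]; ring
    · obtain ⟨s1, h4, h5⟩ := key s hs
      obtain ⟨s2, h6, h7⟩ := hp2
      exact (h5.mul (h7.inv hp0)).mem_leadA (ratio_mem_L0f h4 h6)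

theorem sdiff_sub {A B C : Finset ℕ} : (B ∪ C) \ A ⊆ (B \ A) ∪ C := by
  intro a; simp only [Finset.mem_sdiff, Finset.mem_union]; tauto

theorem LB.tensP {b : Pt} {f : Tm b.K} {φ : ValExt b.K x.K} (h : LB n b f x φ)
    (hE : Disjoint x.J E) (hw : x.w ∈ base x.K (Vec x.K) x.J) :
    Tens ((x.J ∪ E) \ b.J) (PP b.J b.w b.S n f) ≤ lead φ (PP (x.J ∪ E) x.w x.S n (x.S n)) := by
  rw [← PP_Tens hE hw]
  exact ((Tens_le_Tens_Tens sdiff_sub _).trans (Tens_mono subset_rfl h.jj)).trans (Tens_lead_le _ _)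

theorem LB.tensR {b : Pt} {f : Tm b.K} {φ : ValExt b.K x.K} (h : LB n b f x φ)
    (hE : Disjoint x.J E) (hJ : b.J ⊆ x.J) (hR : x.R n ≤ CC x.J x.w x.S n) :
    lead φ (Tens E (x.R n)) ≤ Tens ((x.J ∪ E) \ b.J) (Rb b.J (ev b.w f) (PP b.J b.w b.S n f)) := by
  rw [lead_Tens hE (hR.trans (CC_le n))]
  refine (Tens_mono subset_rfl h.lb1).trans (Tens_Tens_le
    (Finset.sdiff_subset_sdiff Finset.subset_union_left subset_rfl) ?_ _)
  intro a ha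
  exact Finset.mem_sdiff.2 ⟨Finset.mem_union_right _ ha,
    fun h' => Finset.disjoint_left.1 hE (hJ h') ha⟩

theorem key_probe {b : Pt} {f : Tm b.K} {φ : ValExt b.K x.K} (hLU : LUst n)
    (hb : Base (Str n) n b f) (hc : Chain (Str n) n n b x φ) (hx : Str n x) (hlb : LB n b f x φ)
    (hE : Disjoint x.J E) (hL : LocC x.J x.w x.S x.R n U) (hR : x.R n ≤ CC x.J x.w x.S n)
    {γ : Tw b.K} {γ' : Tw x.K} (hγ : Red φ γ' γ) (hγ' : γ' ∈ Tens E (x.R n))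
    (H : ∀ η ∈ VV (x.J ∪ E) x.w x.S n, ∃ τ X w' q, ArcC x.J E x.w x.S x.R n τ X ∧
      (∀ η ∈ Tens E X, lam x.w (x.S n) η = 0) ∧ ArcEnd x.J E x.w x.S x.R n U τ w' q ∧
      γ' + lam x.w (x.S n) η ∈ leadA (lau x.K) (Lf (ev w' ((x.S n).map (lau x.K).ι)))) :
    γ ∈ lead φ (x.R n ⊓ LL x.w x.S n) ∧
      (γ ∈ lead φ (PP (x.J ∪ E) x.w x.S n (x.S n)) → γ = 0) := by
  obtain ⟨p, hp, hp0⟩ := Submodule.exists_mem_ne_zero_of_ne_bot hb.ne
  have h1 := hlb.tensP hE hL.hw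
  have h2 := hlb.tensR hE hc.sub hR (hγ.mem_lead hγ')
  have hJ : b.J ∪ (x.J ∪ E) \ b.J = x.J ∪ E :=
    Finset.union_sdiff_of_subset (hc.sub.trans Finset.subset_union_left)
  have hk := key (J := b.J) (E := (x.J ∪ E) \ b.J) Finset.disjoint_sdiff (ev_mem_DJ hb.mem f) hb.le
    hp hp0 h2 (lead φ (PP (x.J ∪ E) x.w x.S n (x.S n)) : Set _) (fun s hs => h1 hs) (by
      intro ψ hψ
      obtain ⟨_, ⟨η, hη, rfl⟩, hr⟩ := h1 hψ
      obtain ⟨τ, X, w', q, hA, hX, h, h3⟩ := H η hη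
      obtain ⟨e1, e2, e3, e4, e5⟩ := probe_key hLU hb hc hx hlb.hS hA hL hX h hp hp0
        (h1 (le_Tens _ _ hp))
      exact ⟨_, by rw [hJ]; exact e1, e2, e3, (hγ.add hr).mem_leadA h3, e4, e5⟩)
  refine ⟨hlb.lb2 ⟨?_, hk.1⟩, hk.2⟩
  have := cmp_mem_of_Tens (M := Tw b.K) Finset.disjoint_sdiff
    ((Rb_le _ _ _).trans (Cen_le _ _)) h2 (zero_mem _)
  rwa [cmp_zero_of_mem (M := Tw b.K) (Lf_le (ev_mem_DJ hb.mem f) hk.1)] at this

theorem mem_of_pd_mul {K : Type} [Field K] [Algebra Z0 K] [Dom K] {A : Subalgebra K (Tw K)}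
    {a y : Tw K} (ha : a ∈ A) (h : pd a * y ∈ A) : y ∈ A := by
  have := A.mul_mem (Lf_le ha (inv_mem_Lf (pd_mem_Lf a))) h
  rwa [← mul_assoc, inv_mul_cancel₀ (pd_ne_zero a), one_mul] at this

theorem imp_succ (hLU : LUst n) (hx : Good (n + 1) x) (hA : ArcC x.J E x.w x.S x.R (n + 1) τ X)
    (hL : LocC x.J x.w x.S x.R (n + 1) U) : IMP x.J E x.w x.S x.R (n + 1) U τ := by
  intro m hm w' q hB ξ hξ ρ hρ u hu hc i hi
  have hI := (hLU x hx.str.good E τ X U hA.pre hL.pre).1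
  have hρ' : mkFam n ρ ∈ famSub n (fun i => Tens E (x.R i)) :=
    mkFam_mem (fun i hi => hρ.1 i (Nat.lt_succ_of_lt hi))
  have hu' : mkFam n u ∈ famSub n U := mkFam_mem (fun i hi => hu.1 i (Nat.lt_succ_of_lt hi))
  have hc' : ∀ i < n, Od (K := x.K) m (Phi x.w x.S w' q i)
      (pd (ev x.w (x.S i)) * (lam x.w (x.S i) ξ + mkFam n ρ i + mkFam n u i)) := by
    intro i hi
    rw [mkFam_lt _ hi, mkFam_lt _ hi]; exact hc i (Nat.lt_succ_of_lt hi)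
  rcases Nat.lt_succ_iff_lt_or_eq.1 hi with h | h
  · have := hI m hm w' q hB.pre ξ hξ _ hρ' _ hu' hc' i h
    rwa [mkFam_lt _ h] at this
  subst h
  obtain ⟨htri, b, f, φ, hch, hb, hlb⟩ := hx.new
  by_contra hne
  obtain ⟨w0, hw0, c, γ, hγ, hγ'⟩ := exists_red_notMem (φ := φ) _ hne
  have hc0 : c ≠ 0 := by
    rintro rfl
    rw [zero_smul] at hγ
    exact hγ' (hγ.eq_zero ▸ zero_mem _)
  have hX : ∀ η ∈ Tens E X, lam x.w (x.S i) η = 0 :=
    fun η hη => (hA.tens_le hL.hw hη).2 i (Nat.lt_succ_self i)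
  refine hγ' (key_probe hLU hb hch hx.str hlb hA.disj hL.pre htri.le hγ
    (Submodule.smul_mem _ _ (sub_mem (hρ.1 i hi) (le_Tens _ _ hw0.1))) ?_).1
  intro η0 hη0
  obtain ⟨η, hη, w'', q'', ζ', h1, e, hζ⟩ := probe_exists hm hA.pre hL.pre hI hB.pre hξ hρ' hu' hc'
    (Submodule.smul_mem _ c⁻¹ hη0)
  refine ⟨τ, X, w'', q'', hA.pre, hX, h1, ?_⟩
  have h2 := hB.shift hi hζ (by omega) (hc i hi)
  rw [← e, ← mul_add] at h2
  have ha := ((TRed.map _ (x.S i)).ev h1.1.red).mem_leadA (self_mem_Lf _)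
  have h3 := mem_of_pd_mul ha (h2.mem_lead
    (W := Subalgebra.toSubmodule (Lf (ev w'' ((x.S i).map (lau x.K).ι)))) (aeval_mem_Lf _ _))
  have h4 := Subalgebra.smul_mem _ (sub_mem h3 (add_mem (Lf_le ha hw0.2)
    (Lf_le ha ((hL.hU i hi).1 (hu.1 i hi))))) c
  convert h4 using 1
  rw [map_add, map_sub, map_smul, hX η hη]
  simp only [smul_sub, smul_add, smul_smul, mul_inv_cancel₀ hc0, one_smul, smul_zero]
  abel

theorem ArcEnd.lam_mem_lead {K : Type} [Field K] [Algebra Z0 K] [Dom K] {J E : Finset ℕ}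
    {w : Vec K} {S : ℕ → Tm K} {R U : ℕ → Submodule K (Tw K)} {τ : Vec K} {w' : Vec (Lau K)}
    {q : ℕ → (Lau K)[X]} (h : ArcEnd J E w S R n U τ w' q) (f : Tm K) :
    Od (K := K) 1 (aeval (ev w' (f.map (lau K).ι)) ((_root_.minpoly K (ev w f)).map (lau K).ι))
      (pd (ev w f) * lam w f τ) ∧
    lam w f τ ∈ leadA (lau K) (Lf (ev w' (f.map (lau K).ι))) := by
  have hd : ((_root_.minpoly K (ev w f)).map (lau K).ι).natDegree < dgr (ev w f) + 1 :=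
    Nat.lt_succ_of_le natDegree_map_le
  have h1 := h.1.od_ev ((TRed.map _ f).poly (RedP.map _ (_root_.minpoly K (ev w f)))
    (dgr (ev w f) + 1)) (by rw [ev_poly _ _ hd, ev_up, ← up_aeval, minpoly.aeval, map_zero])
  rw [ev_poly _ _ hd] at h1
  change Od 1 _ (D1 w (pf w f) τ) at h1
  rw [D1_pf] at h1
  exact ⟨h1, mem_of_pd_mul (((TRed.map _ f).ev h.1.red).mem_leadA (self_mem_Lf _))
    (h1.mem_lead (W := Subalgebra.toSubmodule (Lf (ev w' (f.map (lau K).ι)))) (aeval_mem_Lf _ _))⟩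

theorem imp_one {b : Pt} {f : Tm b.K} {φ : ValExt b.K x.K} (hLU : LUst n)
    (hb : Base (Str n) n b f) (hc : Chain (Str n) n n b x φ) (hx : Str n x) (hlb : LB n b f x φ)
    (hR : x.R n ≤ CC x.J x.w x.S n) : PP x.J x.w x.S n (x.S n) ⊓ x.R n = ⊥ := by
  obtain ⟨U, hL⟩ := hx.good.exists_U
  rw [eq_bot_iff]
  rintro _ ⟨⟨ξ, hξ, rfl⟩, h1⟩
  by_contra h0
  obtain ⟨c, γ, hγ0, hγ⟩ := Red.scale φ (show lam x.w (x.S n) ξ ≠ 0 from h0)
  refine hγ0 ((key_probe (E := ∅) hLU hb hc hx hlb (Finset.disjoint_empty_right _) hL hR hγ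
    (le_Tens _ _ (Submodule.smul_mem _ _ h1)) ?_).2 (hγ.mem_lead (Submodule.smul_mem _ _
      ⟨ξ, VV_monoJ Finset.subset_union_left hξ, rfl⟩)))
  intro η hη
  rw [Finset.union_empty] at hη
  have hA : ArcC x.J ∅ x.w x.S x.R n (c • ξ + η) ⊥ :=
    comm_arcC (add_mem (Submodule.smul_mem _ _ hξ) hη)
  obtain ⟨w', q, h⟩ := arc_exists hA hL (hLU x hx.good _ _ _ U hA hL).1
  refine ⟨_, _, w', q, hA, fun η hη => ?_, h, ?_⟩
  · rw [Tens_empty, Submodule.mem_bot] at hη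
    rw [hη, map_zero]
  · have := (h.lam_mem_lead (x.S n)).2
    rwa [map_add, map_smul] at this

theorem LB.arc {b : Pt} {f : Tm b.K} {φ : ValExt b.K x.K} (hlb : LB n b f x φ) (hJ : b.J ⊆ x.J)
    (hE : Disjoint x.J E) (hw : x.w ∈ base x.K (Vec x.K) x.J) (hR : x.R n ≤ CC x.J x.w x.S n)
    (hl : Lift1 x.J E x.w x.S x.R w' S' R' n)
    (hP : PP (x.J ∪ E) x.w x.S n (x.S n) ≤ lead (lau x.K) (PP (x.J ∪ E) w' S' n (S' n))) :
    LB n b f (x.arc (x.J ∪ E) w' S' R') (φ.comp (lau x.K)) := by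
  haveI : FiniteDimensional (Lau x.K) (R' n) := Submodule.finiteDimensional_of_le hl.le
  refine ⟨?_, ?_, ?_, ?_⟩
  · change S' n = _
    rw [hl.hS, hlb.hS, Tm.map_map]; rfl
  · change lead _ (R' n) ≤ _
    rw [lead_comp, hl.ld]
    exact hlb.tensR hE hJ hR
  · exact (hlb.lb2.trans (lead_mono hl.lf)).trans (lead_lead_le _ _)
  · exact ((hlb.tensP hE hw).trans (lead_mono hP)).trans (lead_lead_le _ _)

theorem lu_all (n : ℕ) : LUst n := by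
  induction n with
  | zero =>
    intro x hx E τ X U hA hL
    refine ⟨fun _ _ _ _ _ _ _ _ _ _ _ _ i hi => absurd hi (Nat.not_lt_zero _), ?_⟩
    intro w' q S' R' h hl
    exact ⟨core_arc hx h hA hL hl (fun i hi => absurd hi (Nat.not_lt_zero _)),
      isStep_of h hl le_rfl (fun i hi => absurd hi (Nat.not_lt_zero _))⟩
  | succ n hLU =>
    intro x hx E τ X U hA hL
    refine ⟨imp_succ hLU hx hA hL, ?_⟩
    intro w' q S' R' h hl
    have hl' : ∀ i < n, Lift1 x.J E x.w x.S x.R w' S' R' i :=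
      fun i hi => hl i (Nat.lt_succ_of_lt hi)
    obtain ⟨h1, h2, h3⟩ := lus hLU hx.str hA.pre hL.pre h.pre hl'
    have hPR : ∀ i < n, PP (x.J ∪ E) w' S' i (S' i) ⊓ R' i = ⊥ := fun i hi => (h1.good.tri i hi).inf
    obtain ⟨htri, b, f, φ, hch, hb, hlb⟩ := hx.new
    have hn := Nat.lt_succ_self n
    have hlb' := hlb.arc hch.sub hA.disj hL.hw htri.le (hl n hn)
      (h.pre.PP_le_lead hA.pre hL.pre hl' hPR h3.le (h.cmp' hl n hn)
        (fun η hη => (hA.tens_le hL.hw hη).2 n hn))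
    have hch' := Chain.step _ _ _ R' hch h2 h1
    have hinf := imp_one hLU hb hch' h1 hlb' (hl n hn).le
    refine ⟨⟨core_arc hx.core h hA hL hl (fun i hi => ?_), h1,
      ⟨(hl n hn).le, hinf, h.tri_sup hA hL hl hPR h3.le, ?_⟩, b, f, _, hch', hb, hlb'⟩,
      ⟨h2.sub, h2.red, fun i hi => (hl i hi).hS, h2.const⟩⟩
    · rcases Nat.lt_succ_iff_lt_or_eq.1 hi with h4 | h4
      · exact hPR i h4
      · rw [h4]; exact hinf
    · haveI : FiniteDimensional x.K (x.R n) := Submodule.finiteDimensional_of_le htri.le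
      have e1 : finrank (Lau x.K) (CC (x.J ∪ E) w' S' n) =
          NJ E ^ 2 * finrank x.K (CC x.J x.w x.S n) := by
        rw [← finrank_CC_union hA.disj hL.hw, ← finrank_lead (φ := lau x.K), CC,
          (h.cmp' hl n hn).lead_CC h.1.mem]; rfl
      have e2 : finrank (Lau x.K) (R' n) = NJ E ^ 2 * finrank x.K (x.R n) := by
        rw [(hl n hn).finrank_R, finrank_Tens (M := Tw x.K) hA.disj _ (htri.le.trans (CC_le n))]
      change _ * finrank (Lau x.K) (CC (x.J ∪ E) w' S' n) ≤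
        NJ (x.J ∪ E) ^ 2 + _ * finrank (Lau x.K) (R' n)
      rw [e1, e2, NJ_union hA.disj]
      have := Nat.mul_le_mul_left (NJ E ^ 2) htri.cost
      nlinarith

end Crest.Agent.R180
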