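import Crest.Agent.R180.FrzA
import Crest.Agent.R180.LU

set_option autoImplicit false

namespace Crest.Agent.R180

open Module Polynomial

section choice
variable {K : Type*} [Field K] {M : Type*} [AddCommGroup M] [Module K M]
  {A : Type*} [AddCommGroup A] [Module K A]

theorem exists_shift {X Z : Submodule K M} [FiniteDimensional K Z]
    (h : finrank K Z < finrank K X) (h0 : M) : ∃ x ∈ X, h0 + x ∉ Z := by
  by_cases h1 : h0 ∈ Z
  · have : ¬ X ≤ Z := fun h2 => absurd (Submodule.finrank_mono h2) (not_le.2 h)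
    obtain ⟨x, hx, hx'⟩ := Set.not_subset.1 this
    exact ⟨x, hx, fun h2 => hx' (by simpa using sub_mem h2 h1)⟩
  · exact ⟨0, zero_mem _, by rwa [add_zero]⟩

theorem exists_surj {N : Submodule K A} [FiniteDimensional K N] {X : Submodule K M}
    (β : A →ₗ[K] M →ₗ[K] K) (h : ∀ b ∈ N, (∀ ξ ∈ X, β b ξ = 0) → b = 0) (y : M) :
    ∃ x ∈ X, ∀ b ∈ N, β b (y + x) = 0 := by
  let T : M →ₗ[K] Dual K N := (β ∘ₗ N.subtype).flip
  have h1 : (X.map T).dualCoannihilator = ⊥ := by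
    rw [eq_bot_iff]
    intro b hb
    rw [Submodule.mem_dualCoannihilator] at hb
    exact Subtype.ext (h b b.2 (fun ξ hξ => hb _ ⟨ξ, hξ, rfl⟩))
  have h2 := Subspace.dualCoannihilator_dualAnnihilator_eq (W := X.map T)
  rw [h1, Submodule.dualAnnihilator_bot] at h2
  obtain ⟨x, hx, e⟩ : T (-y) ∈ X.map T := h2 ▸ Submodule.mem_top
  refine ⟨x, hx, fun b hb => ?_⟩
  have := congrArg (fun l : Dual K N => l ⟨b, hb⟩) e
  simp only [T, LinearMap.flip_apply, LinearMap.comp_apply, Submodule.subtype_apply, map_neg,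
    LinearMap.neg_apply] at this
  rw [map_add, this, add_neg_cancel]

theorem choice [CharZero K] {α : A →ₗ[K] M →ₗ[K] M →ₗ[K] K} {N : Submodule K A}
    {H V X Z : Submodule K M} [FiniteDimensional K N] [FiniteDimensional K V]
    [FiniteDimensional K Z] (hN : Nice α N H V) (hH : H ≤ V) (hX : X ≤ V) {c : ℕ}
    (hc : finrank K V ≤ finrank K X + c)
    (hd : (finrank K N + 1) * c + kp (finrank K N) ≤ finrank K H)
    (hZ : finrank K Z + 1 + c + finrank K N < finrank K V) (g1 g2 : M) :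
    ∃ h1 h2 : M, h1 - g1 ∈ X ∧ h2 - g2 ∈ X ∧ (∀ b ∈ N, (∀ ξ ∈ X, α b h1 ξ = 0) → b = 0) ∧
      (∀ b ∈ N, (∀ ξ ∈ X, (∀ b' ∈ N, α b' h1 ξ = 0) → α b h2 ξ = 0) → b = 0) ∧
      (∀ b ∈ N, α b h1 h2 = 0) ∧ ∀ c1 c2 : K, c1 • h1 + c2 • h2 ∈ Z → c1 = 0 ∧ c2 = 0 := by
  haveI : FiniteDimensional K X := Submodule.finiteDimensional_of_le hX
  unfold kp at hd
  obtain ⟨H1, a1, a2, a3⟩ := hN.restrict hH hX hc
  obtain ⟨x1, hx1, b1⟩ := exists_shift (X := X) (Z := Z) (by omega) g1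
  obtain ⟨k1, hk1, b2, b3⟩ := a3.affine (by nlinarith) _ Z b1
  set h1 := g1 + x1 + k1 with hh1
  let T : M →ₗ[K] Dual K N := (α.flip h1 ∘ₗ N.subtype).flip
  have hT : ∀ ξ, ξ ∈ LinearMap.ker T ↔ ∀ b ∈ N, α b h1 ξ = 0 := fun ξ =>
    ⟨fun h b hb => congrArg (fun l : Dual K N => l ⟨b, hb⟩) (LinearMap.mem_ker.1 h),
      fun h => LinearMap.ext (fun b => h b b.2)⟩
  have c1 := finrank_map_add_inf_ker T X
  have c2 : finrank K (X.map T) ≤ finrank K N :=
    (Submodule.finrank_le _).trans (Subspace.dual_finrank_eq).le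
  obtain ⟨x2, hx2, c3⟩ := exists_surj (α.flip h1) b3 g2
  obtain ⟨H2, d1, d2, d3⟩ := a3.restrict (a1.trans inf_le_right) (X' := X ⊓ LinearMap.ker T)
    inf_le_left (c := finrank K N) (by omega)
  have e1 : finrank K (Z ⊔ K ∙ h1 : Submodule K M) ≤ finrank K Z + 1 :=
    (Submodule.finrank_add_le_finrank_add_finrank _ _).trans (Nat.add_le_add_left
      ((finrank_span_le_card _).trans (by simp)) _)
  obtain ⟨x3, hx3, e2⟩ := exists_shift (X := X ⊓ LinearMap.ker T) (Z := Z ⊔ K ∙ h1) (by omega)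
    (g2 + x2)
  obtain ⟨k2, hk2, e3, e4⟩ := d3.affine (by nlinarith) _ _ e2
  have hk2' := (d1 hk2).2
  refine ⟨h1, g2 + x2 + x3 + k2, ?_, ?_, b3, fun b hb h0 => e4 b hb (fun ξ hξ => ?_),
    fun b hb => ?_, fun c1 c2 h0 => ?_⟩
  · have := add_mem hx1 (a1 hk1).2
    convert this using 1; rw [hh1]; abel
  · have := add_mem (add_mem hx2 hx3.1) hk2'.1
    convert this using 1; abel
  · exact h0 ξ hξ.1 ((hT ξ).1 hξ.2)
  · have := c3 b hb
    rw [LinearMap.flip_apply] at this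
    rw [map_add, map_add, this, (hT _).1 hx3.2 b hb, (hT _).1 hk2'.2 b hb, add_zero, add_zero]
  · have hc2 : c2 = 0 := by
      by_contra h
      apply e3
      have := Submodule.smul_mem _ c2⁻¹ (sub_mem (Submodule.mem_sup_left (T := K ∙ h1) h0)
        (Submodule.mem_sup_right (Submodule.smul_mem _ c1 (Submodule.mem_span_singleton_self h1))))
      rwa [add_sub_cancel_left, smul_smul, inv_mul_cancel₀ h, one_smul] at this
    refine ⟨?_, hc2⟩
    by_contra h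
    rw [hc2, zero_smul, add_zero, Submodule.smul_mem_iff _ h] at h0
    exact b2 h0

end choice

section nc
variable {K : Type} [Field K] [Algebra Z0 K] [Dom K] {J : Finset ℕ} {w : Vec K} {S : ℕ → Tm K}
  {R : ℕ → Submodule K (Tw K)} {n : ℕ}

theorem eps_inv (g y : G) : (mo g * (mo y)⁻¹ : Tw K) = (eps K g y)⁻¹ • ((mo y)⁻¹ * mo g) := by
  have h := mo_comm (K := K) g y
  have h2 : (mo y)⁻¹ * mo g = eps K g y • (mo g * (mo y)⁻¹ : Tw K) := by
    calc ((mo y)⁻¹ * mo g : Tw K) = (mo y)⁻¹ * (mo g * mo y) * (mo y)⁻¹ := by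
          rw [mul_assoc, mul_assoc, mul_inv_cancel₀ (mo_ne_zero y), mul_one]
      _ = _ := by
          rw [h, mul_smul_comm, ← mul_assoc, inv_mul_cancel₀ (mo_ne_zero y), one_mul, smul_mul_assoc]
  rw [h2, smul_smul, inv_mul_cancel₀ (eps_ne_zero _ _), one_smul]

theorem tr_comm_mo (z g y : G) : ∃ c : K, (c = 0 ↔ (z + g ≠ y ∨ eps K g y = 1)) ∧
    tr (mo z * (mo g * (mo y)⁻¹) : Tw K) - tr (mo z * ((mo y)⁻¹ * mo g) : Tw K) = c := by
  refine ⟨_, ?_, rfl⟩
  have e : tr (mo z * ((mo y)⁻¹ * mo g) : Tw K) = eps K g y * tr (mo z * (mo g * (mo y)⁻¹) : Tw K) := by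
    rw [eps_inv, mul_smul_comm, map_smul, smul_eq_mul, mul_inv_cancel_left₀ (eps_ne_zero _ _)]
  rw [e, ← one_sub_mul, mul_eq_zero, ← mul_assoc, mo_mul, smul_mul_assoc, map_smul, tr_mo_mul_inv,
    sub_eq_zero, eq_comm, or_comm]
  simp [cc_ne_zero]

theorem nc_arcC {α : ℕ} (hα : α ∉ J) (hw : w ∈ base K (Vec K) J) (hg : Gen J w)
    (hR : ∀ i < n, R i ≤ CC J w S i)
    (sym : ∀ b ∈ NN J w S R n, ∀ h ∈ VV J w S n, ∀ η ∈ VV J w S n,
      Om w S n b h η + Om w S n b η h = 0)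
    {X : Submodule K (Vec K)} (hX : X ≤ VV J w S n) {h1 h2 : Vec K} (m1 : h1 ∈ VV J w S n)
    (m2 : h2 ∈ VV J w S n)
    (n1 : ∀ b ∈ NN J w S R n, (∀ ξ ∈ X, Al w S n b h1 ξ = 0) → b = 0)
    (n2 : ∀ b ∈ NN J w S R n, (∀ ξ ∈ X, (∀ b' ∈ NN J w S R n, Al w S n b' h1 ξ = 0) →
      Al w S n b h2 ξ = 0) → b = 0)
    (n3 : ∀ b ∈ NN J w S R n, Al w S n b h1 h2 = 0)
    (n4 : ∀ (c1 c2 : K), ∀ g ∈ DJ K J,
      c1 • h1 + c2 • h2 = (fun j => g * w j - w j * g) → c1 = 0 ∧ c2 = 0) :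
    ArcC J {α} w S R n ((mo (gu α) : Tw K) • h1 + (mo (gv α) : Tw K) • h2) X := by
  have hE := disj_single hα
  haveI := charZero_K (K := K)
  have hAl : ∀ b ∈ NN J w S R n, ∀ h ∈ VV J w S n, ∀ η ∈ VV J w S n,
      Om w S n b h η = 2⁻¹ * Al w S n b h η := by
    intro b hb h hh η hη
    have := sym b hb h hh η hη
    rw [Al_apply]; field_simp; linear_combination this
  have hu := mo_mem_DJ (K := K) (gu_mem α)
  have hv := mo_mem_DJ (K := K) (gv_mem α)
  have exp : ∀ b ∈ NN (J ∪ {α}) w S (fun i => Tens {α} (R i)) n, ∀ s ∈ DJ K {α}, ∀ t ∈ DJ K {α},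
      ∀ k ∈ VV J w S n, ∀ ξ ∈ VV J w S n, Om w S n b (s • k) (t • ξ) =
      ∑ z : GJ {α}, tr (mo (z : G) * (s * t)) * (2⁻¹ * Al w S n (cmp K J z b) k ξ) := by
    intro b hb s hs t ht k hk ξ hξ
    conv_lhs => rw [← asm_cmp hE (TT_le_base (NN_le hb))]
    simp only [map_sum, LinearMap.sum_apply]
    refine Finset.sum_congr rfl (fun z _ => ?_)
    rw [Om_smul hE hw (mo_mem_DJ z.2) hs ht (cmp_mem _ _ _) hk.1 hξ.1,
      hAl _ (cmp_mem_NN hE hw hR hb z.2) _ hk _ hξ]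
  have self : ∀ (b : Fam K) (h : Vec K), Al w S n b h h = 0 := fun b h => by rw [Al_apply, sub_self]
  have anti : ∀ (b : Fam K) (h k : Vec K), Al w S n b h k = - Al w S n b k h := fun b h k => by
    rw [Al_apply, Al_apply, neg_sub]
  refine ⟨hE, ?_, hX, fun b hb _ => ?_, fun b hb H => ?_,
    gc_of_indep hα (mem_base_Vec.1 hw) hg (mem_base_Vec.1 m1.1) (mem_base_Vec.1 m2.1) n4⟩
  · rw [← VV_Tens hE hw]
    exact add_mem (smul_mem_Tens (gu_mem α) m1) (smul_mem_Tens (gv_mem α) m2)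
  · simp only [map_add, LinearMap.add_apply]
    rw [exp b hb _ hu _ hu _ m1 _ m1, exp b hb _ hu _ hv _ m1 _ m2, exp b hb _ hv _ hu _ m2 _ m1,
      exp b hb _ hv _ hv _ m2 _ m2]
    simp [self, anti _ h2 h1, fun z : GJ {α} => n3 _ (cmp_mem_NN hE hw hR hb z.2)]
  · have key : ∀ y ∈ GJ {α}, ∀ ξ ∈ X, ∃ c1 c2 : K, (c1 = 0 ↔ y ⟨α, true⟩ = 0) ∧
        (c2 = 0 ↔ y ⟨α, false⟩ = 0) ∧ c1 * Al w S n (cmp K J (y - gu α) b) h1 ξ +
          c2 * Al w S n (cmp K J (y - gv α) b) h2 ξ = 0 := by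
      intro y hy ξ hξ
      have hy' := mo_inv_mem (K := K) hy
      have h0 := H _ (smul_mem_Tens' hy' hξ)
      simp only [map_add, LinearMap.add_apply] at h0
      rw [exp b hb _ hu _ hy' _ m1 _ (hX hξ), exp b hb _ hv _ hy' _ m2 _ (hX hξ),
        exp b hb _ hy' _ hu _ (hX hξ) _ m1, exp b hb _ hy' _ hv _ (hX hξ) _ m2] at h0
      have aux : ∀ g ∈ GJ {α}, ∀ h : Vec K, ∃ c : K, (c = 0 ↔ eps K g y = 1) ∧
          ∑ z : GJ {α}, tr (mo (z : G) * (mo g * (mo y)⁻¹)) * (2⁻¹ * Al w S n (cmp K J z b) h ξ) +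
          ∑ z : GJ {α}, tr (mo (z : G) * ((mo y)⁻¹ * mo g)) * (2⁻¹ * Al w S n (cmp K J z b) ξ h) =
          2⁻¹ * (c * Al w S n (cmp K J (y - g) b) h ξ) := by
        intro g hg' h
        obtain ⟨c, e1, e2⟩ := tr_comm_mo (K := K) (y - g) g y
        refine ⟨c, by simpa using e1, ?_⟩
        rw [← Finset.sum_add_distrib, Finset.sum_eq_single ⟨y - g, sub_mem hy hg'⟩]
        · rw [anti _ ξ, ← e2]; ring
        · intro z _ hz
          obtain ⟨c', e3, e4⟩ := tr_comm_mo (K := K) z g y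
          rw [e3.2 (Or.inl (fun h => hz (Subtype.ext (eq_sub_of_add_eq h))))] at e4
          rw [anti _ ξ]; linear_combination (2⁻¹ * Al w S n (cmp K J z b) h ξ) * e4
        · simp
      obtain ⟨c1, e1, e2⟩ := aux _ (gu_mem α) h1
      obtain ⟨c2, e3, e4⟩ := aux _ (gv_mem α) h2
      refine ⟨c1, c2, e1.trans (eps_gu _ _), e3.trans (eps_gv _ _), ?_⟩
      linear_combination 2 * h0 - 2 * e2 - 2 * e4
    have k1 : ∀ z ∈ GJ {α}, z ⟨α, false⟩ ≠ 0 → cmp K J z b = 0 := by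
      intro z hz h0
      refine n2 _ (cmp_mem_NN hE hw hR hb hz) (fun ξ hξ h3 => ?_)
      obtain ⟨c1, c2, -, e2, e3⟩ := key (z + gv α) (add_mem hz (gv_mem α)) ξ hξ
      rw [h3 _ (cmp_mem_NN hE hw hR hb (sub_mem (add_mem hz (gv_mem α)) (gu_mem α))), mul_zero,
        zero_add, add_sub_cancel_right] at e3
      refine (mul_eq_zero.1 e3).resolve_left (fun h => h0 ?_)
      simpa [gv] using e2.1 h
    have k2 : ∀ z ∈ GJ {α}, z ≠ 0 → cmp K J z b = 0 := by
      intro z hz h0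
      by_cases h3 : z ⟨α, false⟩ = 0
      swap
      · exact k1 z hz h3
      refine n1 _ (cmp_mem_NN hE hw hR hb hz) (fun ξ hξ => ?_)
      obtain ⟨c1, c2, e1, -, e3⟩ := key (z + gu α) (add_mem hz (gu_mem α)) ξ hξ
      rw [k1 _ (sub_mem (add_mem hz (gu_mem α)) (gv_mem α)) (by simp [gu, gv, h3]),
        add_sub_cancel_right] at e3
      simp only [map_zero, LinearMap.zero_apply, mul_zero, add_zero] at e3
      refine (mul_eq_zero.1 e3).resolve_left (fun h => h0 ?_)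
      exact GJ_single_ext hz (zero_mem _) h3 (by simpa [gu] using e1.1 h)
    rw [← asm_cmp hE (TT_le_base (NN_le hb)), Finset.sum_eq_single (0 : GJ {α})]
    · rw [ZeroMemClass.coe_zero, mo_zero, one_smul]; exact cmp_mem _ _ _
    · intro z _ hz
      rw [k2 z z.2 (fun h => hz (Subtype.ext h)), smul_zero]
    · simp

/-- inner variations -/
noncomputable def Inn (J : Finset ℕ) (w : Vec K) : Submodule K (Vec K) :=
  (Subalgebra.toSubmodule (DJ K J)).map
    (LinearMap.pi (fun j => LinearMap.mulRight K (w j) - LinearMap.mulLeft K (w j)))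

instance : FiniteDimensional K (Inn J w) := by unfold Inn; infer_instance

theorem finrank_Inn : finrank K (Inn J w) ≤ NJ J ^ 2 := by
  rw [← finrank_DJ (K := K) J]; exact Submodule.finrank_map_le _ _

theorem lam_tth {w' : Vec (Lau K)} {f : Tm K} {p : K[X]}
    (h : minpoly (Lau K) (ev w' (f.map (lau K).ι)) = p.map (lau K).ι) :
    lam w' (f.map (lau K).ι) (fun j => tth (w' j)) = 0 := by
  rw [lam_apply, ← tth_ev, pia_apply]
  have h1 := tth_aeval (ev w' (f.map (lau K).ι)) (minpoly (Lau K) (ev w' (f.map (lau K).ι)))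
  have h2 : pmap th (minpoly (Lau K) (ev w' (f.map (lau K).ι))) = 0 := by
    ext k; rw [coeff_pmap, h, coeff_map, coeff_zero]; exact th_lC _
  rw [minpoly.aeval, map_zero, h2, map_zero, zero_add] at h1
  rw [← h1, mul_zero]

theorem aeval_const {a' : Tw (Lau K)} {a : Tw K} (hr : Red (lau K) a' a)
    (h : prj (Lf a') (tth a') = 0) {p : K[X]} (hp : aeval a p = 0) :
    aeval a' (p.map (lau K).ι) = 0 := by
  haveI := charZero_K (K := K)
  have h1 : ∀ k, tr (a' ^ k) = (lau K).ι (tr (a ^ k)) := by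
    intro k
    have h2 : th (tr (a' ^ k)) = 0 := by
      rw [← tr_tth, tth_pow]
      cases k with
      | zero => rw [Delk_zero, map_zero]
      | succ k =>
        have := tr_Delk_mul (a := a') (c := 1) (by simp) (tth a') k
        rw [mul_one] at this
        rw [this]
        exact (prj_eq_zero_iff _).1 h _ (mul_mem (one_mem _)
          (Subalgebra.smul_mem _ (pow_mem (self_mem_Lf _) _) _))
    rw [eq_lC_of_th h2, (lau_R.1 (hr.pow k).tr).2]; rfl
  have h2 : ∀ s : K[X], tr (aeval a' (s.map (lau K).ι)) = (lau K).ι (tr (aeval a s)) := by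
    intro s
    induction s using Polynomial.induction_on' with
    | add s t hs ht => simp only [Polynomial.map_add, map_add, hs, ht]
    | monomial k c =>
      simp only [Polynomial.map_monomial, aeval_monomial, ← Algebra.smul_def, map_smul, h1,
        smul_eq_mul, map_mul]
  refine eq_zero_of_tr (Lf a') (aeval_mem_Lf _ _) (fun y hy => ?_)
  obtain ⟨s, -, rfl⟩ := exists_poly_of_mem_Lf hy
  rw [aeval_eq_sum_range (x := a') (p := s), Finset.mul_sum, map_sum]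
  refine Finset.sum_eq_zero (fun k _ => ?_)
  have := h2 (p * X ^ k)
  rw [Polynomial.map_mul, Polynomial.map_pow, map_X, map_mul (aeval a'), map_mul (aeval a), hp,
    zero_mul, map_zero, map_zero, map_pow, aeval_X] at this
  rw [mul_smul_comm, map_smul, this, smul_zero]

end nc

variable {n : ℕ} {x : Pt}

theorem sym_Om (hx : Good n x) (hs : Stable (Good n) n x) :
    ∀ b ∈ NN x.J x.w x.S x.R n, ∀ h ∈ VV x.J x.w x.S n, ∀ η ∈ VV x.J x.w x.S n,
      Om x.w x.S n b h η + Om x.w x.S n b η h = 0 := by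
  intro b hb τ hτ η hη
  obtain ⟨U, hL⟩ := hx.exists_U
  have hA : ArcC x.J ∅ x.w x.S x.R n τ ⊥ := comm_arcC hτ
  obtain ⟨w', q, h⟩ := arc_exists hA hL (lu_all n x hx _ _ _ U hA hL).1
  obtain ⟨R', hl⟩ := h.exists_lift hA.disj hL (S' := fun i => (x.S i).map (lau x.K).ι)
    (fun _ _ => rfl)
  obtain ⟨h1, -, -, h2⟩ := lus0 (lu_all n) hx hs hA hL h hl
  obtain ⟨η', h3, h4⟩ := h.jfact hA hL hl (fun i hi => (h1.tri i hi).inf) h2.le
    (VV_monoJ Finset.subset_union_left hη)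
  rw [Tens_empty, Submodule.mem_bot] at h3
  rw [h3, add_zero] at h4
  obtain ⟨ξ, hξ, e⟩ := (h.lead_VV hl h4).2
  rw [Finset.union_empty] at hξ
  rw [← prF_Sg, ← e]
  exact (mem_NN.1 hb).2.1 ξ hξ

theorem exists_nc (hx : Good n x) (hs : Stable (Good n) n x) {α : ℕ} (hα : α ∉ x.J)
    {X : Submodule x.K (Vec x.K)} (hX : X ≤ VV x.J x.w x.S n) {c : ℕ} (hc : c ≤ NJ x.J)
    (hd : finrank x.K (VV x.J x.w x.S n) ≤ finrank x.K X + c)
    (hn : NiceDim n x ((rr n x + 1) * c + kp (rr n x))) {g1 g2 : Vec x.K}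
    (m1 : g1 ∈ VV x.J x.w x.S n) (m2 : g2 ∈ VV x.J x.w x.S n) :
    ∃ h1 h2 : Vec x.K, h1 - g1 ∈ X ∧ h2 - g2 ∈ X ∧
      ArcC x.J {α} x.w x.S x.R n ((mo (gu α) : Tw x.K) • h1 + (mo (gv α) : Tw x.K) • h2) X := by
  haveI := charZero_K (K := x.K)
  obtain ⟨H, e1, e2, e3⟩ := hn
  obtain ⟨h1, h2, f1, f2, f3, f4, f5, f6⟩ := choice (Z := Inn x.J x.w) e3 e1 hX hd e2 (by
    have a1 := finrank_Inn (J := x.J) (w := x.w)
    have a2 := hx.finrank_V
    have a3 := hx.core.sz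
    unfold kp rr at a3
    omega) g1 g2
  exact ⟨h1, h2, f1, f2, nc_arcC hα hx.core.mem hx.core.gen (fun i hi => (hx.tri i hi).le)
    (sym_Om hx hs) hX (by simpa using add_mem (hX f1) m1) (by simpa using add_mem (hX f2) m2)
    f3 f4 f5 (fun c1 c2 g hg e => f6 c1 c2 ⟨g, hg, e.symm⟩)⟩

theorem exists_fresh (J : Finset ℕ) (B : ℕ) : ∃ α, α ∉ J ∧ B < ell α := by
  refine ⟨J.sup id + B + 1, fun h => ?_, by unfold ell; omega⟩
  have := Finset.le_sup (f := id) h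
  simp only [id] at this
  omega

theorem grow (hx : Good n x) (hs : Stable (Good n) n x) :
    ∃ y φ, Str n y ∧ Chain (Str n) n n x y φ ∧ NJ x.J < NJ y.J := by
  obtain ⟨α, hα, hB⟩ := exists_fresh x.J ((rr n x + 1) * NJ x.J + kp (rr n x))
  obtain ⟨h1, h2, -, -, hA⟩ := exists_nc hx hs hα le_rfl (c := 0) (Nat.zero_le _) le_rfl
    (by simpa using hx.core.nice) (zero_mem _) (zero_mem _)
  obtain ⟨U, hL⟩ := hx.exists_U
  obtain ⟨w', q, h⟩ := arc_exists hA hL (lu_all n x hx _ _ _ U hA hL).1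
  obtain ⟨R', hl⟩ := h.exists_lift hA.disj hL (S' := fun i => (x.S i).map (lau x.K).ι)
    (fun _ _ => rfl)
  obtain ⟨a1, a2, a3, a4⟩ := lus0 (lu_all n) hx hs hA hL h hl
  have hN : NJ (x.J ∪ {α}) = NJ x.J * ell α := by rw [NJ_union hA.disj, NJ_single]
  have : Str n (x.arc (x.J ∪ {α}) w' (fun i => (x.S i).map (lau x.K).ι) R') := by
    refine ⟨a1, ?_, a2⟩
    obtain ⟨H, e1, e2, e3⟩ := hx.core.nice
    obtain ⟨H', e4, e5, e6⟩ := h.nice hA hL hl (fun i hi => (a1.tri i hi).inf) e1 e3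
    refine ⟨H', e4, ?_, e6⟩
    change _ ≤ _ + (rr n x + 1) * (NJ {α} ^ 2 * rr n x -
      rr n (x.arc (x.J ∪ {α}) w' (fun i => (x.S i).map (lau x.K).ι) R')) at e5
    change _ * NJ (x.J ∪ {α}) + _ ≤ finrank (Lau x.K) H'
    rw [← a4] at e5 ⊢
    rw [hN]
    rw [NJ_single] at e5
    generalize rr n x = r at *
    generalize ell α = l at *
    have e7 := Nat.mul_le_mul_left (l ^ 2) e2
    have e8 := Nat.mul_le_mul_left (r + 1) (Nat.sub_le (l ^ 2 * r) r)
    have e9 : (r + 1) * (NJ x.J * l) ≤ l * l := by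
      rw [← mul_assoc]; exact Nat.mul_le_mul_right _ (by omega)
    have e10 : kp r ≤ l * l := (by omega : kp r ≤ l).trans (Nat.le_mul_self l)
    unfold kp at e7
    nlinarith [Nat.zero_le (l ^ 2 * r), Nat.zero_le (l ^ 2 * r ^ 2)]
  refine ⟨_, _, this, Chain.single a3 this, ?_⟩
  change _ < NJ (x.J ∪ {α})
  rw [hN]
  exact lt_mul_of_one_lt_right (NJ_pos _) (by unfold ell; omega)

theorem exists_min {G : Pt → Prop} {na nc : ℕ} (Q : (y : Pt) → ValExt x.K y.K → Prop)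
    (m : (y : Pt) → ValExt x.K y.K → ℕ) (h : ∃ y φ, Chain G na nc x y φ ∧ Q y φ) :
    ∃ y φ, Chain G na nc x y φ ∧ Q y φ ∧ ∀ z ψ, Chain G na nc x z ψ → Q z ψ → m y φ ≤ m z ψ := by
  classical
  have : ∃ k, ∃ y φ, Chain G na nc x y φ ∧ Q y φ ∧ m y φ = k := by
    obtain ⟨y, φ, h1, h2⟩ := h; exact ⟨_, y, φ, h1, h2, rfl⟩
  obtain ⟨y, φ, h1, h2, h3⟩ := Nat.find_spec this
  exact ⟨y, φ, h1, h2, fun z ψ h4 h5 => h3 ▸ Nat.find_min' this ⟨z, ψ, h4, h5, rfl⟩⟩

theorem stabilise (hx : Good (n + 1) x) :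
    ∃ y φ, Str (n + 1) y ∧ Chain (Str n) (n + 1) n x y φ ∧ NJ x.J < NJ y.J := by
  obtain ⟨y, φ, h1, -, h2⟩ := exists_min (G := Good (n + 1)) (na := n + 1) (nc := n)
    (fun _ _ => True) (fun y _ => rr (n + 1) y) ⟨x, _, Chain.refl, trivial⟩
  obtain ⟨z, ψ, h3, h4, h5⟩ := grow (h1.good hx) (fun z ψ hz => h2 _ _ (h1.trans hz) trivial)
  refine ⟨z, _, h3, (h1.mono (fun _ h => h.str) le_rfl le_rfl).trans
    (h4.mono (fun _ h => h.mono (Nat.le_succ _)) le_rfl (Nat.le_succ _)), lt_of_le_of_lt ?_ h5⟩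
  rw [NJ_sdiff h1.sub]
  exact Nat.le_mul_of_pos_right _ (NJ_pos _)

theorem Chain.const {G : Pt → Prop} {na nc : ℕ} {y : Pt} {φ : ValExt x.K y.K}
    (h : Chain G na nc x y φ) {i : ℕ} (hi : i < nc) :
    minpoly y.K (ev y.w (y.S i)) = (minpoly x.K (ev x.w (x.S i))).map φ.ι := by
  induction h with
  | refl => exact Polynomial.map_id.symm
  | step J' w' S' R' _ hs hg ih => exact (hs.const i hi).trans (by rw [ih, Polynomial.map_map]; rfl)

theorem case0 {f : Tm x.K}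
    (H : ∀ y φ, Chain (Str n) n n x y φ → P0 y.J y.w y.S n (f.map φ.ι) = ⊥) {p : x.K[X]}
    (hp : aeval (ev x.w f) p = 0) {y : Pt} {φ : ValExt x.K y.K} (h : Chain (Str n) n n x y φ) :
    aeval (ev y.w (f.map φ.ι)) (p.map φ.ι) = 0 := by
  induction h with
  | refl =>
    change aeval (ev x.w (f.map id)) (p.map (RingHom.id _)) = 0
    rwa [Tm.map_id, Polynomial.map_id]
  | @step y φ J' w' S' R' hc hs hg ih =>
    have h0 := H _ _ (Chain.step J' w' S' R' hc hs hg)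
    have hf : f.map (φ.comp (lau y.K)).ι = (f.map φ.ι).map (lau y.K).ι := by rw [Tm.map_map]; rfl
    change P0 J' w' S' n (f.map (φ.comp (lau y.K)).ι) = ⊥ at h0
    change aeval (ev w' (f.map (φ.comp (lau y.K)).ι)) (p.map ((lau y.K).ι.comp φ.ι)) = 0
    rw [hf] at h0 ⊢
    rw [← Polynomial.map_map]
    refine aeval_const ((TRed.map _ _).ev hs.red) ?_ ih
    have h1 : (fun j => tth (w' j)) ∈ VV J' w' S' n :=
      ⟨mem_base_Vec.2 (fun j => tth_mem (mem_base_Vec.1 hg.good.core.mem j)), fun i hi => by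
        have := hs.const i hi
        rw [hs.hS i hi] at this ⊢
        exact lam_tth this⟩
    have h2 : prj _ (lam w' _ (fun j => tth (w' j))) ∈ P0 J' w' S' n ((f.map φ.ι).map (lau y.K).ι) :=
      ⟨_, ⟨_, h1, rfl⟩, rfl⟩
    rw [h0, Submodule.mem_bot, lam_apply, prj_pia (fun c hc => Lf_comm (self_mem_Lf _) hc),
      ← tth_ev] at h2
    exact h2

end Crest.Agent.R180
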