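import Crest.Agent.R180.FrzB

set_option autoImplicit false

namespace Crest.Agent.R180

open Module Polynomial

variable {n : ℕ} {x : Pt}

theorem map_comp_ι {y z : Pt} (f : Tm x.K) (φ : ValExt x.K y.K) (ψ : ValExt y.K z.K) :
    f.map (φ.comp ψ).ι = (f.map φ.ι).map ψ.ι := by rw [Tm.map_map]; rfl

theorem exists_minAt (hx : Str n x) {f : Tm x.K}
    (h : ∃ y φ, Chain (Str n) n n x y φ ∧ P0 y.J y.w y.S n (f.map φ.ι) ≠ ⊥) :
    ∃ y φ, Chain (Str n) n n x y φ ∧ P0 y.J y.w y.S n (f.map φ.ι) ≠ ⊥ ∧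
      MinAt (Str n) n y (f.map φ.ι) := by
  obtain ⟨y0, φ0, a1, a2, a3⟩ := exists_min _ (fun y φ => NJ y.J / dgr (ev y.w (f.map φ.ι))) h
  obtain ⟨y, φ, b1, ⟨b2, b3⟩, b4⟩ := exists_min (G := Str n) (na := n) (nc := n)
    (fun y φ => P0 y.J y.w y.S n (f.map φ.ι) ≠ ⊥ ∧ NJ y.J / dgr (ev y.w (f.map φ.ι)) =
      NJ y0.J / dgr (ev y0.w (f.map φ0.ι)))
    (fun y φ => dgr (ev y.w (f.map φ.ι)) / finrank y.K (L0f (P0 y.J y.w y.S n (f.map φ.ι))))
    ⟨y0, φ0, a1, a2, rfl⟩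
  refine ⟨y, φ, b1, b2, fun z ψ hz h0 => ?_⟩
  rw [← map_comp_ι] at h0 ⊢
  have c1 := a3 _ _ (b1.trans hz) h0
  have c2 := fun h => b4 _ _ (b1.trans hz) ⟨h0, h⟩
  rw [← b3] at c1 c2
  have dv : ∀ (u : Pt) (g : Tm u.K), Str n u → dgr (ev u.w g) ∣ NJ u.J ∧
      finrank u.K (L0f (P0 u.J u.w u.S n g)) ∣ dgr (ev u.w g) := fun u g hu =>
    ⟨dgr_dvd (ev_mem_DJ hu.good.core.mem g), by
      rw [← finrank_Lf]; exact finrank_dvd_of_le (L0f_le (P0_le g))⟩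
  obtain ⟨⟨e1, h1⟩, g1, h2⟩ := dv y (f.map φ.ι) (b1.good hx)
  obtain ⟨⟨e2, h3⟩, g2, h4⟩ := dv z (f.map (φ.comp ψ).ι) ((b1.trans hz).good hx)
  have p1 := dgr_pos (ev y.w (f.map φ.ι))
  have p2 := dgr_pos (ev z.w (f.map (φ.comp ψ).ι))
  generalize dgr (ev y.w (f.map φ.ι)) = d1 at *
  generalize dgr (ev z.w (f.map (φ.comp ψ).ι)) = d2 at *
  generalize finrank y.K (L0f (P0 y.J y.w y.S n (f.map φ.ι))) = t1 at *
  generalize finrank z.K (L0f (P0 z.J z.w z.S n (f.map (φ.comp ψ).ι))) = t2 at *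
  rw [h1, h3, Nat.mul_div_cancel_left _ p1, Nat.mul_div_cancel_left _ p2] at c1 c2
  rw [h1, h3]
  refine ⟨by nlinarith [Nat.mul_le_mul_left (d1 * d2) c1], fun h5 => ?_⟩
  have h6 : e2 = e1 := Nat.eq_of_mul_eq_mul_left (Nat.mul_pos p1 p2) (by nlinarith)
  have c3 := c2 h6
  subst h2 h4
  rw [Nat.mul_div_cancel_left _ (Nat.pos_of_mul_pos_right p1),
    Nat.mul_div_cancel_left _ (Nat.pos_of_mul_pos_right p2)] at c3
  rw [h6]
  nlinarith [Nat.mul_le_mul_left (t1 * t2 * e1) c3]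

theorem MinAt.trans {G : Pt → Prop} {f : Tm x.K} (h : MinAt G n x f) {y : Pt} {φ : ValExt x.K y.K}
    (hc : Chain G n n x y φ) {l : ℕ} (h0 : NJ y.J = NJ x.J * l)
    (h1 : dgr (ev y.w (f.map φ.ι)) = dgr (ev x.w f) * l)
    (h2 : finrank y.K (L0f (P0 y.J y.w y.S n (f.map φ.ι))) =
      finrank x.K (L0f (P0 x.J x.w x.S n f)) * l) : MinAt G n y (f.map φ.ι) := by
  intro z ψ hz hne
  rw [← map_comp_ι] at hne ⊢
  obtain ⟨a1, a2⟩ := h _ _ (hc.trans hz) hne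
  have hl : 0 < l := Nat.pos_of_mul_pos_left (h0 ▸ NJ_pos y.J)
  rw [h0, h1, h2]
  refine ⟨by nlinarith [Nat.mul_le_mul_right l a1], fun h3 => ?_⟩
  have := a2 (Nat.eq_of_mul_eq_mul_right hl (by nlinarith))
  nlinarith [Nat.mul_le_mul_right l this]

theorem base_of_min (hx : Str n x) {f : Tm x.K} (hm : MinAt (Str n) n x f)
    (h0 : P0 x.J x.w x.S n f ≠ ⊥) : Base (Str n) n x f := by
  have hle : PP x.J x.w x.S n f ≤ Subalgebra.toSubmodule (Lf (ev x.w f)) := by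
    rintro _ ⟨τ, hτ, rfl⟩
    obtain ⟨U, hL⟩ := hx.good.exists_U
    have hA : ArcC x.J ∅ x.w x.S x.R n τ ⊥ := comm_arcC hτ
    obtain ⟨w', q, h⟩ := arc_exists hA hL (lu_all n x hx.good _ _ _ U hA hL).1
    obtain ⟨R', hl⟩ := h.exists_lift hA.disj hL (S' := fun i => (x.S i).map (lau x.K).ι)
      (fun _ _ => rfl)
    obtain ⟨h1, h2, h3⟩ := lus (lu_all n) hx hA hL h hl
    have ha := (TRed.map (lau x.K) f).ev h.1.red
    obtain ⟨_, ⟨s, hs, rfl⟩, hs0⟩ := Submodule.exists_mem_ne_zero_of_ne_bot h0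
    have h4 := h.prj_mem_lead hA hL hl (fun i hi => (h1.good.tri i hi).inf) h3.le (f := f)
      (fun η hη => by rw [Tens_empty, Submodule.mem_bot] at hη; rw [hη, map_zero])
      (x := s) (by rwa [Finset.union_empty])
    have h5 := (hm _ _ (Chain.single h2 h1) (fun h5 => by
      change P0 (x.J ∪ ∅) w' (fun i => (x.S i).map (lau x.K).ι) n (f.map (lau x.K).ι) = ⊥ at h5
      rw [h5, lead_bot, Submodule.mem_bot] at h4
      apply hs0
      rw [← prj_prj _ (Lf_le (ha.mem_leadA (self_mem_Lf _))), h4, map_zero])).1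
    change _ ≤ _ * NJ (x.J ∪ ∅) at h5
    rw [Finset.union_empty] at h5
    have h6 := (h.lam_mem_lead f).2
    rwa [leadA_Lf ha (Nat.le_of_mul_le_mul_right h5 (NJ_pos _))] at h6
  exact ⟨hx.good.core.mem, hle, by rwa [← P0_eq hle], hm⟩

theorem Base.exists_chi {G : Pt → Prop} {f : Tm x.K} (hb : Base G n x f) : ∃ p q, ∀ α ∉ x.J,
    ChiD x.J α (ev x.w f) (PP x.J x.w x.S n f) p q := by
  obtain ⟨p, hp, hp0⟩ := Submodule.exists_mem_ne_zero_of_ne_bot hb.ne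
  obtain ⟨q, hq, hq0, e⟩ := exists_prim hb.le hp hp0
  exact ⟨p, q, fun α hα => ⟨hα, ev_mem_DJ hb.mem f, hb.le, hp, hq, hp0, hq0, e⟩⟩

theorem Base.finrank_le {G : Pt → Prop} {f : Tm x.K} (hb : Base G n x f) :
    finrank x.K (PP x.J x.w x.S n f) ≤ finrank x.K (L0f (PP x.J x.w x.S n f)) ∧
    finrank x.K (L0f (PP x.J x.w x.S n f)) ≤ NJ x.J ∧
    0 < finrank x.K (L0f (PP x.J x.w x.S n f)) := by
  obtain ⟨p, hp, hp0⟩ := Submodule.exists_mem_ne_zero_of_ne_bot hb.ne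
  haveI := fd_L0f hb.le
  have h1 := finrank_Mf (A := L0f (PP x.J x.w x.S n f)) hp0 (fun s hs => ratio_mem_L0f hs hp)
  have h2 := Submodule.finrank_eq_zero.not.2 hb.ne
  refine ⟨by omega, (finrank_mono_alg (L0f_le hb.le)).trans ?_, by omega⟩
  rw [finrank_Lf]
  exact Nat.le_of_dvd (NJ_pos _) (dgr_dvd (ev_mem_DJ hb.mem f))

theorem exists_probe (hx : Str n x) {f : Tm x.K} (hb : Base (Str n) n x f) {α : ℕ} {p q : Tw x.K}
    (hc : ChiD x.J α (ev x.w f) (PP x.J x.w x.S n f) p q) :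
    ∃ τ U w' s, ArcC x.J {α} x.w x.S x.R n τ (VV x.J x.w x.S n ⊓ LinearMap.ker (lam x.w f)) ∧
      LocC x.J x.w x.S x.R n U ∧ ArcEnd x.J {α} x.w x.S x.R n U τ w' s ∧
      lam x.w f τ = chi α p q := by
  obtain ⟨g1, m1, e1⟩ := hc.hp
  obtain ⟨g2, m2, e2⟩ := hc.hq
  have h1 := finrank_map_add_inf_ker (lam x.w f) (VV x.J x.w x.S n)
  obtain ⟨a1, a2, -⟩ := hb.finrank_le
  obtain ⟨h1, h2, b1, b2, hA⟩ := exists_nc hx.good hx.stable hc.hα
    (X := VV x.J x.w x.S n ⊓ LinearMap.ker (lam x.w f)) inf_le_left le_rfl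
    (by unfold PP at a1 a2; omega) hx.big m1 m2
  obtain ⟨U, hL⟩ := hx.good.exists_U
  obtain ⟨w', s, h⟩ := arc_exists hA hL (lu_all n x hx.good _ _ _ U hA hL).1
  refine ⟨_, U, w', s, hA, hL, h, ?_⟩
  have c1 := LinearMap.mem_ker.1 b1.2
  have c2 := LinearMap.mem_ker.1 b2.2
  rw [map_sub, sub_eq_zero] at c1 c2
  rw [map_add, lam_smul hc.disj hb.mem (mo_mem_DJ (gu_mem α)),
    lam_smul hc.disj hb.mem (mo_mem_DJ (gv_mem α)), c1, c2, e1, e2, chi]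

theorem lam_tens_ker {K : Type} [Field K] [Algebra Z0 K] [Dom K] {J E : Finset ℕ} {w : Vec K}
    (hE : Disjoint J E) (hw : w ∈ base K (Vec K) J) {f : Tm K} {V : Submodule K (Vec K)} :
    ∀ η ∈ Tens E (V ⊓ LinearMap.ker (lam w f)), lam w f η = 0 := by
  have : Tens E (V ⊓ LinearMap.ker (lam w f)) ≤ LinearMap.ker (lam w f) :=
    Tens_le_iff.2 (fun z hz ξ hξ => by
      rw [LinearMap.mem_ker, lam_smul hE hw (mo_mem_DJ hz), LinearMap.mem_ker.1 hξ.2, mul_zero])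
  exact fun η hη => this hη

/-- facts about the end point of a maximal probe -/
structure F2 (n : ℕ) (x : Pt) (f : Tm x.K) (α : ℕ) (p q : Tw x.K) (w' : Vec (Lau x.K))
    (S' : ℕ → Tm (Lau x.K)) (R' : ℕ → Submodule (Lau x.K) (Tw (Lau x.K))) : Prop where
  str : Str n (x.arc (x.J ∪ {α}) w' S' R')
  step : IsStep n n x (x.J ∪ {α}) w' S'
  rk : rr n x = rr n (x.arc (x.J ∪ {α}) w' S' R')
  base : Base (Str n) n (x.arc (x.J ∪ {α}) w' S' R') (f.map (lau x.K).ι)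
  cen : leadA (lau x.K) (Cen (x.J ∪ {α}) {ev w' (f.map (lau x.K).ι)}) = C2 x.J α (ev x.w f) p q
  dl : finrank (Lau x.K) (L0f (PP (x.J ∪ {α}) w' S' n (f.map (lau x.K).ι))) =
    finrank x.K (L0f (PP x.J x.w x.S n f)) * ell α
  tens : Subalgebra.toSubmodule (leadA (lau x.K) (L0f (PP (x.J ∪ {α}) w' S' n
    (f.map (lau x.K).ι)))) ≤ Tens {α} (Subalgebra.toSubmodule (L0f (PP x.J x.w x.S n f)))
  prj : ∀ s ∈ Tens {α} (PP x.J x.w x.S n f),
    prj (leadA (lau x.K) (Lf (ev w' (f.map (lau x.K).ι)))) s ∈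
      lead (lau x.K) (PP (x.J ∪ {α}) w' S' n (f.map (lau x.K).ι))

section
variable {f : Tm x.K} {α : ℕ} {p q : Tw x.K} {τ : Vec x.K} {U : ℕ → Submodule x.K (Tw x.K)}
  {w' : Vec (Lau x.K)} {s : ℕ → (Lau x.K)[X]} {S' : ℕ → Tm (Lau x.K)}
  {R' : ℕ → Submodule (Lau x.K) (Tw (Lau x.K))}

theorem probe2 (hx : Str n x) (hb : Base (Str n) n x f)
    (hc : ChiD x.J α (ev x.w f) (PP x.J x.w x.S n f) p q)
    (hA : ArcC x.J {α} x.w x.S x.R n τ (VV x.J x.w x.S n ⊓ LinearMap.ker (lam x.w f)))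
    (hL : LocC x.J x.w x.S x.R n U) (h : ArcEnd x.J {α} x.w x.S x.R n U τ w' s)
    (hτ : lam x.w f τ = chi α p q) (hl : ∀ i < n, Lift1 x.J {α} x.w x.S x.R w' S' R' i) :
    F2 n x f α p q w' S' R' := by
  obtain ⟨h1, h2, h3⟩ := lus (lu_all n) hx hA hL h hl
  have hch := Chain.single h2 h1
  have ha := (TRed.map (lau x.K) f).ev h.1.red
  have haF := ha.mem_leadA (self_mem_Lf _)
  have hcF := (h.lam_mem_lead f).2
  rw [hτ] at hcF
  have hFD := leadA_le_DJ (φ := lau x.K) (Lf_le (ev_mem_DJ h.1.mem (f.map (lau x.K).ι)))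
  have key : ∀ t ∈ Tens {α} (PP x.J x.w x.S n f),
      prj (leadA (lau x.K) (Lf (ev w' (f.map (lau x.K).ι)))) t ∈
        lead (lau x.K) (P0 (x.J ∪ {α}) w' S' n (f.map (lau x.K).ι)) := fun t ht =>
    h.prj_mem_lead hA hL hl (fun i hi => (h1.good.tri i hi).inf) h3.le
      (lam_tens_ker hc.disj hb.mem) (by rwa [← PP_Tens hc.disj hb.mem])
  have hp2 := key p (le_Tens _ _ hc.hp)
  rw [prj_of_mem _ (Lf_le haF (hb.le hc.hp))] at hp2
  have hne : P0 (x.J ∪ {α}) w' S' n (f.map (lau x.K).ι) ≠ ⊥ := by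
    intro h0
    rw [h0, lead_bot] at hp2
    exact hc.p0 hp2
  have hN : NJ (x.J ∪ {α}) = NJ x.J * ell α := by rw [NJ_union hA.disj, NJ_single]
  have hpos := NJ_pos x.J
  have hmin := hb.min _ _ hch hne
  change _ * _ ≤ _ * NJ (x.J ∪ {α}) ∧ (_ * _ = _ * NJ (x.J ∪ {α}) → finrank (Lau x.K)
    (L0f (P0 (x.J ∪ {α}) w' S' n (f.map (lau x.K).ι))) * _ ≤ _ * NJ (x.J ∪ {α})) at hmin
  rw [hN, P0_eq hb.le] at hmin
  have hF : finrank x.K (leadA (lau x.K) (Lf (ev w' (f.map (lau x.K).ι)))) =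
      dgr (ev w' (f.map (lau x.K).ι)) := by rw [finrank_leadA, finrank_Lf]
  have hd : dgr (ev w' (f.map (lau x.K).ι)) = dgr (ev x.w f) * ell α := by
    refine le_antisymm (Nat.le_of_mul_le_mul_right (hmin.1.trans (le_of_eq (by ring))) hpos) ?_
    rw [← hF]
    exact hc.big hFD haF hcF
  have hFT : Subalgebra.toSubmodule (leadA (lau x.K) (Lf (ev w' (f.map (lau x.K).ι)))) ≤
      Tens {α} (Subalgebra.toSubmodule (Lf (ev x.w f))) := by
    have := eq_of_le_alg (A := leadA (lau x.K) (Lf (ev w' (f.map (lau x.K).ι))) ⊓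
      TA hc.disj hc.L_le) inf_le_left (by
        rw [hF, hd]
        exact hc.big (inf_le_left.trans hFD) ⟨haF, le_Tens _ _ (self_mem_Lf _)⟩
          ⟨hcF, Tens_mono subset_rfl hb.le hc.chi_mem⟩)
    intro t ht
    rw [← this] at ht
    exact ht.2
  haveI := fd_L0f (P0_le (J := x.J ∪ {α}) (w := w') (S := S') (n := n) (f.map (lau x.K).ι))
  have hr : ∀ t ∈ Tens {α} (PP x.J x.w x.S n f),
      prj (leadA (lau x.K) (Lf (ev w' (f.map (lau x.K).ι)))) t * p⁻¹ ∈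
        leadA (lau x.K) (L0f (P0 (x.J ∪ {α}) w' S' n (f.map (lau x.K).ι))) := by
    intro t ht
    obtain ⟨s1, h4, h5⟩ := key t ht
    obtain ⟨s2, h6, h7⟩ := hp2
    exact (h5.mul (h7.inv hc.p0)).mem_leadA (ratio_mem_L0f h4 h6)
  have hF0 := leadA_mono (φ := lau x.K) (L0f_le (P0_le (J := x.J ∪ {α}) (w := w') (S := S') (n := n)
    (f.map (lau x.K).ι)))
  have hdim : finrank x.K (leadA (lau x.K) (Lf (ev w' (f.map (lau x.K).ι)))) =
      dgr (ev x.w f) * NJ {α} := by rw [hF, hd, NJ_single]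
  have hlow := F0_lower hc.disj hc.ha hb.le hc.hp hc.p0 haF hFT hdim hF0 hr
  have hup : finrank (Lau x.K) (L0f (P0 (x.J ∪ {α}) w' S' n (f.map (lau x.K).ι))) ≤
      finrank x.K (L0f (PP x.J x.w x.S n f)) * ell α :=
    Nat.le_of_mul_le_mul_right ((hmin.2 (by
      change dgr (ev w' (f.map (lau x.K).ι)) * _ = _
      rw [hd]; ring)).trans (le_of_eq (by ring))) hpos
  have htens := F0_tens hc.disj hc.ha hb.le hc.hp hc.p0 haF hFT hdim hF0 hr (by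
    rwa [finrank_leadA, NJ_single])
  rw [finrank_leadA, NJ_single] at hlow
  have hb' := base_of_min h1 (hb.min.trans hch hN hd (by
    rw [P0_eq hb.le]; exact le_antisymm hup hlow)) hne
  have e : P0 (x.J ∪ {α}) w' S' n (f.map (lau x.K).ι) = PP (x.J ∪ {α}) w' S' n (f.map (lau x.K).ι) :=
    P0_eq hb'.le
  rw [e] at key hup hlow htens
  refine ⟨h1, h2, h3, hb', eq_of_le_alg ?_ ?_, le_antisymm hup hlow, htens, key⟩
  · rintro c ⟨c', hc', hr'⟩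
    obtain ⟨t, ht, ht'⟩ := hcF
    obtain ⟨e1, e2⟩ := mem_Cen_singleton.1 hc'
    exact mem_C2.2 ⟨ha.comm hr' e1, ht'.comm hr' (comm_of_mem_Lf e1 ht), hr'.mem_DJ e2⟩
  · rw [finrank_leadA]
    refine hc.finrank_C2.trans ?_
    have e1 := dgr_mul_Cen (ev_mem_DJ h.1.mem (f.map (lau x.K).ι))
    have e2 := dgr_mul_Cen hc.ha
    rw [hd, hN, mul_pow, ← e2] at e1
    have e5 : 0 < ell α := by unfold ell; omega
    apply Nat.le_of_mul_le_mul_left _ (Nat.mul_pos (dgr_pos (ev x.w f)) e5)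
    rw [e1]; exact le_of_eq (by ring)

theorem F2.F_le (h : F2 n x f α p q w' S' R') :
    leadA (lau x.K) (Lf (ev w' (f.map (lau x.K).ι))) ≤ C2 x.J α (ev x.w f) p q := by
  rw [← h.cen]; exact leadA_mono (Lf_le_Cen (ev_mem_DJ h.base.mem _))

theorem F2.mem_Mh (h : F2 n x f α p q w' S' R')
    (hc : ChiD x.J α (ev x.w f) (PP x.J x.w x.S n f) p q) {m : Tw x.K}
    (hm : m ∈ Mf (leadA (lau x.K) (L0f (PP (x.J ∪ {α}) w' S' n (f.map (lau x.K).ι)))) p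
      ((Tens {α} (PP x.J x.w x.S n f)).map
        (R180.prj (leadA (lau x.K) (Lf (ev w' (f.map (lau x.K).ι))))))) :
    m ∈ Mh x.J α (ev x.w f) (PP x.J x.w x.S n f) p q := by
  have haF := ((TRed.map (lau x.K) f).ev h.step.red).mem_leadA (self_mem_Lf _)
  have h1 : m ∈ leadA (lau x.K) (Lf (ev w' (f.map (lau x.K).ι))) := by
    have := mul_mem (Lf_le haF (inv_mem_Lf (hc.hP hc.hp))) (leadA_mono (L0f_le h.base.le) hm.1)
    rwa [← mul_assoc, inv_mul_cancel₀ hc.p0, one_mul] at this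
  refine R180.mem_Mh.2 ⟨h.F_le h1, h.tens hm.1, fun t ht => ?_⟩
  rw [← tr_mul_prj _ _ h1]
  exact hm.2 _ ⟨t, ht, rfl⟩

theorem F2.exists_p (h : F2 n x f α p q w' S' R')
    (hc : ChiD x.J α (ev x.w f) (PP x.J x.w x.S n f) p q) :
    ∃ p' ∈ PP (x.J ∪ {α}) w' S' n (f.map (lau x.K).ι), Red (lau x.K) p' p := by
  have haF := ((TRed.map (lau x.K) f).ev h.step.red).mem_leadA (self_mem_Lf _)
  have := h.prj p (le_Tens _ _ hc.hp)
  rwa [prj_of_mem _ (Lf_le haF (hc.hP hc.hp))] at this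

theorem F2.dim_prj (h : F2 n x f α p q w' S' R')
    (hc : ChiD x.J α (ev x.w f) (PP x.J x.w x.S n f) p q) :
    finrank x.K (L0f (PP x.J x.w x.S n f)) * ell α ≤
      finrank x.K ((Tens {α} (PP x.J x.w x.S n f)).map
        (R180.prj (leadA (lau x.K) (Lf (ev w' (f.map (lau x.K).ι)))))) +
      finrank x.K (L0f (PP x.J x.w x.S n f)) * finrank x.K (L0f (PP x.J x.w x.S n f)) := by
  haveI : FiniteDimensional (Lau x.K) (L0f (PP (x.J ∪ {α}) w' S' n (f.map (lau x.K).ι))) :=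
    fd_L0f h.base.le
  have h1 := finrank_Mf (A := leadA (lau x.K) (L0f (PP (x.J ∪ {α}) w' S' n (f.map (lau x.K).ι))))
    hc.p0 (W := (Tens {α} (PP x.J x.w x.S n f)).map
        (R180.prj (leadA (lau x.K) (Lf (ev w' (f.map (lau x.K).ι)))))) (by
      rintro _ ⟨t, ht, rfl⟩
      obtain ⟨s1, h4, h5⟩ := h.prj t ht
      obtain ⟨s2, h6, h7⟩ := h.exists_p hc
      exact (h5.mul (h7.inv hc.p0)).mem_leadA (ratio_mem_L0f h4 h6))
  have h2 := (Submodule.finrank_mono (fun m hm => h.mem_Mh hc hm)).trans hc.finrank_Mh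
  rw [finrank_leadA, h.dl] at h1
  omega

end

theorem stepA (hx : Str n x) {f : Tm x.K} (hb : Base (Str n) n x f) :
    ∃ y φ, Chain (Str n) n n x y φ ∧ Str n y ∧ y.S n = f.map φ.ι ∧ Base (Str n) n y (y.S n) ∧
      2 * finrank y.K (L0f (PP y.J y.w y.S n (y.S n))) + 1 ≤
        3 * finrank y.K (PP y.J y.w y.S n (y.S n)) := by
  obtain ⟨p, q, hc⟩ := hb.exists_chi
  obtain ⟨α, hα, hB⟩ := exists_fresh x.J (3 * finrank x.K (L0f (PP x.J x.w x.S n f)))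
  obtain ⟨τ, U, w', s, hA, hL, h, hτ⟩ := exists_probe hx hb (hc α hα)
  obtain ⟨R', hl⟩ := h.exists_lift hA.disj hL
    (S' := fun i => (if i < n then x.S i else f).map (lau x.K).ι) (fun i hi => by rw [if_pos hi])
  have H := probe2 hx hb (hc α hα) hA hL h hτ hl
  have e : (x.arc (x.J ∪ {α}) w' (fun i => (if i < n then x.S i else f).map (lau x.K).ι) R').S n =
      f.map (lau x.K).ι := by
    change (if n < n then x.S n else f).map (lau x.K).ι = _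
    rw [if_neg (lt_irrefl n)]
  refine ⟨_, _, Chain.single H.step H.str, H.str, e, by rw [e]; exact H.base, ?_⟩
  rw [e]
  have h1 := H.dim_prj (hc α hα)
  have h2 := (Submodule.finrank_mono (show (Tens {α} (PP x.J x.w x.S n f)).map (prj _) ≤ _ by
    rintro _ ⟨t, ht, rfl⟩; exact H.prj t ht)).trans (finrank_lead_le _)
  have h3 := H.dl
  have h4 := hb.finrank_le.2.2
  change 2 * finrank (Lau x.K) (L0f (PP (x.J ∪ {α}) w' _ n _)) + 1 ≤
    3 * finrank (Lau x.K) (PP (x.J ∪ {α}) w' _ n _)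
  rw [h3]
  nlinarith [Nat.mul_le_mul_left (finrank x.K (L0f (PP x.J x.w x.S n f))) hB]

end Crest.Agent.R180
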