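import Crest.Agent.R180.Pt

set_option autoImplicit false

/-!
PLAN (helper28).  Build a sequence of stages `t ↦ (n_t, x_t, s_t : ℕ → x_t.K, c_t : ℕ)` with
`St n_t x_t`, `Rl n_t x_t x_{t+1} φ_t`, `n_t ≤ n_{t+1}`, `s_{t+1} i = φ_t.ι (s_t i)` for `i < c_{t+1}'`
(all symbols fixed so far), `s_t 0 = -1`.  Enumerate the countable type `Tm ℕ` (terms whose constants are
symbols; `deriving instance Countable`/Encodable or an explicit injection) as `τ_t`.  At stage t let
`c1 = max c_t (1 + largest symbol of τ_t)`, `f = τ_t.map s_t`; `freeze` gives `y, φ` and `p = minpoly` of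
`f` at `y`; put `s_{t+1} i = φ.ι (s_t i)` for `i < c1`, `s_{t+1} (c1 + k) = p.coeff k` for
`k ≤ deg p`, `s_{t+1} (c1 + deg p + 1) = (p.coeff 0)⁻¹`, `c_{t+1} = c1 + deg p + 2`.
By `trans`/`mono`, `Rl n_t x_t x_{t'} (composite)` for `t ≤ t'` (`Tm.map_map` identifies the terms).
Let `Q` = quotient of the product ring `∀ t, Tw x_t.K` by the `RingCon` "eventually equal", `E τ ∈ Q` the
class of `t ↦ ev x_t.w (τ.map s_t)`, and `D` = range of `E` (a `Subring`; -1 is symbol 0).
Symbols are central; `Σ z_k E(τ)^k = 0` with `z_deg = 1` gives algebraicity over the centre; if the value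
at stage t+1 is 0 then p = X (`minpoly.zero`) and `E τ = 0`, else `p.coeff 0 ≠ 0`
(`minpoly.coeff_zero_ne_zero`) and `E τ` is a unit: `DivisionRing.ofIsUnitOrEqZero`.
Char zero by `charZero_K`.  Infinite dimension: `NJ x_t.J → ∞`; by `Gen` the values of words (terms built
from `v`, `mul` and 1 = (-1)(-1)) span `DJ` (dimension `NJ^2`, `finrank_DJ`), so for every m there are m+1
words independent at some stage, hence at all later stages (`Red.linearIndependent`, `TRed.map`,
`TRed.ev`); a central element of `D` eventually commutes with `w_t`, hence (Gen, `ev_comm`,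
`central_DJ`) is eventually a scalar; so these words are independent over the centre of `D`.
-/

namespace Crest.Agent.R180

open Polynomial

open Filter

/-! ### terms over symbols -/

def Tm.enc : Tm ℕ → ℕ
  | .c a => Nat.pair 0 a
  | .v j => Nat.pair 1 j
  | .add f g => Nat.pair 2 (Nat.pair f.enc g.enc)
  | .mul f g => Nat.pair 3 (Nat.pair f.enc g.enc)

theorem Tm.enc_inj : ∀ f g : Tm ℕ, f.enc = g.enc → f = g := by
  intro f
  induction f with
  | c a => intro g h; cases g <;> simp_all [Tm.enc]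
  | v j => intro g h; cases g <;> simp_all [Tm.enc, Fin.ext_iff]
  | add f1 f2 h1 h2 =>
    intro g h
    cases g with
    | add g1 g2 =>
      simp only [Tm.enc, Nat.pair_eq_pair, true_and] at h
      rw [h1 _ h.1, h2 _ h.2]
    | _ => simp [Tm.enc] at h
  | mul f1 f2 h1 h2 =>
    intro g h
    cases g with
    | mul g1 g2 =>
      simp only [Tm.enc, Nat.pair_eq_pair, true_and] at h
      rw [h1 _ h.1, h2 _ h.2]
    | _ => simp [Tm.enc] at h

instance countable_Tm : Countable (Tm ℕ) := ⟨⟨Tm.enc, Tm.enc_inj⟩⟩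

/-- bound on the symbols -/
def Tm.bd : Tm ℕ → ℕ
  | .c a => a + 1
  | .v _ => 0
  | .add f g => max f.bd g.bd
  | .mul f g => max f.bd g.bd

theorem Tm.map_congr {A : Type} {s s' : ℕ → A} (f : Tm ℕ) (h : ∀ i < f.bd, s i = s' i) :
    f.map s = f.map s' := by
  induction f with
  | c a => simp only [Tm.map]; rw [h a (by simp [Tm.bd])]
  | v j => rfl
  | add f g hf hg =>
    simp only [Tm.map]
    rw [hf (fun i hi => h i (lt_of_lt_of_le hi (le_max_left _ _))),
      hg (fun i hi => h i (lt_of_lt_of_le hi (le_max_right _ _)))]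
  | mul f g hf hg =>
    simp only [Tm.map]
    rw [hf (fun i hi => h i (lt_of_lt_of_le hi (le_max_left _ _))),
      hg (fun i hi => h i (lt_of_lt_of_le hi (le_max_right _ _)))]

/-! ### the abstract end game -/

theorem final_of (D : Type) [DivisionRing D] [CharZero D] (E : Tm ℕ → D)
    (hs : Function.Surjective E) (hadd : ∀ f g, E (.add f g) = E f + E g)
    (hmul : ∀ f g, E (.mul f g) = E f * E g) (hc : ∀ i, E (.c i) ∈ Subring.center D)
    (halg : ∀ f, ∃ d k : ℕ, E f ^ d + ∑ i ∈ Finset.range d, E (.c (k + i)) * E f ^ i = 0)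
    (hind : ∀ m : ℕ, ∃ τ : Fin m → D, ∀ σ : Fin m → D, (∀ i, σ i ∈ Subring.center D) →
      ∑ i, σ i * τ i = 0 → ∀ i, σ i = 0) :
    Countable D ∧ CharZero D ∧
      Algebra.IsAlgebraic (Subring.center D) D ∧
      (∃ x y : D, Algebra.adjoin (Subring.center D) ({x, y} : Set D) = ⊤) ∧
      ¬ FiniteDimensional (Subring.center D) D := by
  refine ⟨hs.countable, inferInstance, ⟨fun a => ?_⟩, ⟨E (.v 0), E (.v 1), ?_⟩, ?_⟩
  · obtain ⟨f, rfl⟩ := hs a
    obtain ⟨d, k, h⟩ := halg f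
    let z : ℕ → Subring.center D := fun i => ⟨E (.c (k + i)), hc _⟩
    have hdeg : (∑ i ∈ Finset.range d, C (z i) * X ^ i).degree < (d : WithBot ℕ) := by
      refine lt_of_le_of_lt (degree_sum_le _ _) ?_
      refine (Finset.sup_lt_iff (WithBot.bot_lt_coe d)).2 ?_
      intro i hi
      exact lt_of_le_of_lt (degree_C_mul_X_pow_le _ _) (WithBot.coe_lt_coe.2 (Finset.mem_range.1 hi))
    refine ⟨X ^ d + ∑ i ∈ Finset.range d, C (z i) * X ^ i, (monic_X_pow_add hdeg).ne_zero, ?_⟩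
    rw [map_add, map_pow, aeval_X, map_sum, ← h]
    congr 1
    apply Finset.sum_congr rfl
    intro i _
    rw [map_mul, map_pow, aeval_X, aeval_C]
    rfl
  · rw [eq_top_iff]
    rintro a -
    obtain ⟨f, rfl⟩ := hs a
    induction f with
    | c i => exact Subalgebra.algebraMap_mem _ (⟨E (.c i), hc i⟩ : Subring.center D)
    | v j =>
      apply Algebra.subset_adjoin
      fin_cases j <;> simp
    | add f g hf hg => rw [hadd]; exact add_mem hf hg
    | mul f g hf hg => rw [hmul]; exact mul_mem hf hg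
  · intro hfd
    obtain ⟨τ, hτ⟩ := hind (Module.finrank (Subring.center D) D + 1)
    have hli : LinearIndependent (Subring.center D) τ := by
      rw [Fintype.linearIndependent_iff]
      intro g hg i
      exact Subtype.ext (hτ (fun i => g i) (fun i => (g i).2) hg i)
    have := hli.fintype_card_le_finrank
    simp at this

/-- eventually zero sequences -/
def evZero (T : ℕ → Type) [∀ t, Ring (T t)] : Ideal (∀ t, T t) where
  carrier := {a | ∀ᶠ t in atTop, a t = 0}
  add_mem' := by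
    intro a b ha hb
    filter_upwards [ha, hb] with t h1 h2
    simp [h1, h2]
  zero_mem' := Eventually.of_forall (fun _ => rfl)
  smul_mem' := by
    intro c a ha
    filter_upwards [ha] with t h1
    simp [h1]

instance (T : ℕ → Type) [∀ t, Ring (T t)] : (evZero T).IsTwoSided :=
  ⟨fun {a} b ha => by
    have ha' : ∀ᶠ t in atTop, a t = 0 := ha
    change ∀ᶠ t in atTop, (a * b) t = 0
    filter_upwards [ha'] with t h1
    simp [h1]⟩

theorem exists_limit (T : ℕ → Type) [∀ t, Ring (T t)] (val : ∀ t, Tm ℕ → T t)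
    (hadd : ∀ t f g, val t (.add f g) = val t f + val t g)
    (hmul : ∀ t f g, val t (.mul f g) = val t f * val t g)
    (h0 : ∀ t, val t (.c 0) = -1) :
    ∃ (D : Type) (_ : Ring D) (E : Tm ℕ → D) (Q : Type) (_ : Ring Q) (ι : D →+* Q)
      (π : (∀ t, T t) →+* Q), Function.Surjective E ∧ Function.Injective ι ∧
      (∀ f, ι (E f) = π (fun t => val t f)) ∧ ∀ a, π a = 0 ↔ ∀ᶠ t in atTop, a t = 0 := by
  let π : (∀ t, T t) →+* ((∀ t, T t) ⧸ evZero T) := Ideal.Quotient.mk (evZero T)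
  let E0 : Tm ℕ → ((∀ t, T t) ⧸ evZero T) := fun f => π (fun t => val t f)
  have e1 : ∀ f g, E0 (.add f g) = E0 f + E0 g := fun f g => by
    simp only [E0, ← map_add]; congr 1; funext t; exact hadd t f g
  have e2 : ∀ f g, E0 (.mul f g) = E0 f * E0 g := fun f g => by
    simp only [E0, ← map_mul]; congr 1; funext t; exact hmul t f g
  have e3 : E0 (.c 0) = -1 := by
    have : (fun t => val t (.c 0)) = -1 := funext h0
    simp only [E0, this, map_neg, map_one]
  let D : Subring ((∀ t, T t) ⧸ evZero T) :=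
    { carrier := Set.range E0
      mul_mem' := by rintro _ _ ⟨f, rfl⟩ ⟨g, rfl⟩; exact ⟨_, e2 f g⟩
      one_mem' := ⟨.mul (.c 0) (.c 0), by rw [e2, e3]; simp⟩
      add_mem' := by rintro _ _ ⟨f, rfl⟩ ⟨g, rfl⟩; exact ⟨_, e1 f g⟩
      zero_mem' := ⟨.add (.c 0) (.mul (.c 0) (.c 0)), by rw [e1, e2, e3]; simp⟩
      neg_mem' := by rintro _ ⟨f, rfl⟩; exact ⟨.mul (.c 0) f, by rw [e2, e3]; simp⟩ }
  refine ⟨D, inferInstance, fun f => ⟨E0 f, f, rfl⟩, _, inferInstance, D.subtype, π, ?_,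
    Subtype.val_injective, fun f => rfl, fun a => Ideal.Quotient.eq_zero_iff_mem⟩
  rintro ⟨_, f, rfl⟩
  exact ⟨f, rfl⟩

theorem limit_ring (T : ℕ → Type) [∀ t, Ring (T t)] [∀ t, CharZero (T t)]
    (val : ∀ t, Tm ℕ → T t)
    (hadd : ∀ t f g, val t (.add f g) = val t f + val t g)
    (hmul : ∀ t f g, val t (.mul f g) = val t f * val t g)
    (h0 : ∀ t, val t (.c 0) = -1)
    (hc : ∀ t i f, val t f * val t (.c i) = val t (.c i) * val t f)
    (F1 : ∀ f, ∃ d k : ℕ, (∀ᶠ t in atTop,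
      val t f ^ d + ∑ i ∈ Finset.range d, val t (.c (k + i)) * val t f ^ i = 0) ∧
      ((∀ᶠ t in atTop, val t f = 0) ∨
        (0 < d ∧ ∃ k', ∀ᶠ t in atTop, val t (.c k) * val t (.c k') = 1)))
    (F2 : ∀ m : ℕ, ∃ τ : Fin m → Tm ℕ, ∀ᶠ t in atTop, ∀ σ : Fin m → Tm ℕ,
      (∀ i j, val t (σ i) * val t (.v j) = val t (.v j) * val t (σ i)) →
      ∑ i, val t (σ i) * val t (τ i) = 0 → ∀ i, val t (σ i) = 0) :
    ∃ (D : Type) (_ : DivisionRing D), Countable D ∧ CharZero D ∧
      Algebra.IsAlgebraic (Subring.center D) D ∧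
      (∃ x y : D, Algebra.adjoin (Subring.center D) ({x, y} : Set D) = ⊤) ∧
      ¬ FiniteDimensional (Subring.center D) D := by
  obtain ⟨D, _, E, Q, _, ι, π, hs, hι, hE, hπ⟩ := exists_limit T val hadd hmul h0
  have hπ' : ∀ a b, π a = π b ↔ ∀ᶠ t in atTop, a t = b t := by
    intro a b
    rw [← sub_eq_zero, ← map_sub, hπ]
    simp only [Pi.sub_apply, sub_eq_zero]
  have e1 : ∀ f g, E (.add f g) = E f + E g := fun f g => by
    apply hι; rw [map_add, hE, hE, hE, ← map_add]; congr 1; funext t; exact hadd t f g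
  have e2 : ∀ f g, E (.mul f g) = E f * E g := fun f g => by
    apply hι; rw [map_mul, hE, hE, hE, ← map_mul]; congr 1; funext t; exact hmul t f g
  have e3 : ∀ i, E (.c i) ∈ Subring.center D := by
    intro i
    rw [Subring.mem_center_iff]
    intro g
    obtain ⟨f, rfl⟩ := hs g
    apply hι
    rw [map_mul, map_mul, hE, hE, ← map_mul, ← map_mul]
    congr 1; funext t; exact hc t i f
  have hcz : CharZero D := by
    refine ⟨fun a b hab => ?_⟩
    have h1 := congrArg ι hab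
    rw [map_natCast, map_natCast, ← map_natCast π, ← map_natCast π, hπ'] at h1
    obtain ⟨t, ht⟩ := h1.exists
    simpa using ht
  have e4 : ∀ f (d k : ℕ), (∀ᶠ t in atTop,
      val t f ^ d + ∑ i ∈ Finset.range d, val t (.c (k + i)) * val t f ^ i = 0) →
      E f ^ d + ∑ i ∈ Finset.range d, E (.c (k + i)) * E f ^ i = 0 := by
    intro f d k h
    apply hι
    simp only [map_add, map_pow, map_sum, map_mul, hE, map_zero]
    simp only [← map_pow, ← map_mul, ← map_sum, ← map_add, hπ]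
    filter_upwards [h] with t ht
    simpa [Finset.sum_apply] using ht
  have hu : ∀ a : D, IsUnit a ∨ a = 0 := by
    intro a
    obtain ⟨f, rfl⟩ := hs a
    obtain ⟨d, k, h1, h2 | ⟨hd, k', h2⟩⟩ := F1 f
    · right
      apply hι
      rw [hE, map_zero, hπ]; exact h2
    · left
      have h3 := e4 f d k h1
      have h4 : E (.c k) * E (.c k') = 1 := by
        apply hι
        rw [map_mul, hE, hE, ← map_mul, map_one, ← map_one π, hπ']
        exact h2
      obtain ⟨d, rfl⟩ : ∃ d', d = d' + 1 := ⟨d - 1, by omega⟩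
      rw [Finset.sum_range_succ', pow_zero, mul_one, add_zero] at h3
      have hz : ∀ i g, g * E (.c i) = E (.c i) * g := fun i => Subring.mem_center_iff.1 (e3 i)
      obtain ⟨b, hb⟩ : ∃ b, b = E f ^ d + ∑ i ∈ Finset.range d, E (.c (k + (i + 1))) * E f ^ i :=
        ⟨_, rfl⟩
      have h5 : b * E f = -E (.c k) := by
        rw [eq_neg_iff_add_eq_zero, ← h3, hb, add_mul, Finset.sum_mul, ← pow_succ, add_assoc]
        simp only [mul_assoc, ← pow_succ]
      have h6 : E f * b = -E (.c k) := by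
        rw [eq_neg_iff_add_eq_zero, ← h3, hb, mul_add, Finset.mul_sum, ← pow_succ', add_assoc]
        simp only [← mul_assoc, hz _ (E f)]
        simp only [mul_assoc, ← pow_succ']
      refine ⟨⟨E f, -(b * E (.c k')), ?_, ?_⟩, rfl⟩
      · rw [mul_neg, ← mul_assoc, h6, neg_mul, neg_neg, h4]
      · rw [neg_mul, mul_assoc, ← hz, ← mul_assoc, h5, neg_mul, neg_neg, h4]
  have hind : ∀ m : ℕ, ∃ τ : Fin m → D, ∀ σ : Fin m → D, (∀ i, σ i ∈ Subring.center D) →
      ∑ i, σ i * τ i = 0 → ∀ i, σ i = 0 := by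
    intro m
    obtain ⟨τ, hτ⟩ := F2 m
    refine ⟨fun i => E (τ i), fun σ h1 h2 i => ?_⟩
    choose σ' hσ using fun i => hs (σ i)
    have a1 : ∀ᶠ t in atTop, ∀ i j, val t (σ' i) * val t (.v j) = val t (.v j) * val t (σ' i) := by
      rw [eventually_all]; intro i
      rw [eventually_all]; intro j
      have := congrArg ι (Subring.mem_center_iff.1 (h1 i) (E (.v j))).symm
      rw [← hσ, map_mul, map_mul, hE, hE, ← map_mul, ← map_mul, hπ'] at this
      exact this
    have a2 : ∀ᶠ t in atTop, ∑ i, val t (σ' i) * val t (τ i) = 0 := by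
      have := congrArg ι h2
      simp only [← hσ, map_sum, map_mul, hE, map_zero] at this
      simp only [← map_mul, ← map_sum, hπ] at this
      filter_upwards [this] with t ht
      simpa [Finset.sum_apply] using ht
    apply hι
    rw [← hσ, hE, map_zero, hπ]
    filter_upwards [hτ, a1, a2] with t h3 h4 h5
    exact h3 σ' h4 h5 i
  haveI : Nontrivial D := inferInstance
  letI : DivisionRing D := DivisionRing.ofIsUnitOrEqZero hu
  exact ⟨D, inferInstance, final_of D E hs e1 e2 e3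
    (fun f => by obtain ⟨d, k, h, -⟩ := F1 f; exact ⟨d, k, e4 f d k h⟩) hind⟩

theorem exists_indep_family {K V ι : Type} [Field K] [AddCommGroup V] [Module K V] (v : ι → V)
    (W : Submodule K V) [FiniteDimensional K W] (h : W ≤ Submodule.span K (Set.range v)) :
    ∀ m ≤ Module.finrank K W, ∃ a : Fin m → ι, LinearIndependent K (fun i => v (a i)) := by
  intro m
  induction m with
  | zero => intro _; exact ⟨Fin.elim0, linearIndependent_empty_type⟩
  | succ m ih =>
    intro hm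
    obtain ⟨a, ha⟩ := ih (by omega)
    have : ∃ i, v i ∉ Submodule.span K (Set.range (fun i => v (a i))) := by
      by_contra hne
      push Not at hne
      have h1 : W ≤ Submodule.span K (Set.range (fun i => v (a i))) :=
        h.trans (Submodule.span_le.2 (by rintro _ ⟨i, rfl⟩; exact hne i))
      haveI : FiniteDimensional K (Submodule.span K (Set.range (fun i => v (a i)))) :=
        FiniteDimensional.span_of_finite K (Set.finite_range _)
      have h2 := Submodule.finrank_mono h1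
      rw [finrank_span_eq_card ha, Fintype.card_fin] at h2
      omega
    obtain ⟨i, hi⟩ := this
    refine ⟨Fin.cons i a, ?_⟩
    have e : (fun j => v ((Fin.cons i a : Fin (m + 1) → ι) j)) =
        Fin.cons (v i) (fun i => v (a i)) := by
      funext j
      refine Fin.cases rfl (fun _ => rfl) j
    rw [e, linearIndependent_finCons]
    exact ⟨ha, hi⟩

/-! ### stages -/

/-- a stage together with an interpretation of the symbols -/
structure Stg (St : ℕ → Pt → Prop) where
  n : ℕ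
  x : Pt
  st : St n x
  s : ℕ → x.K
  c : ℕ
  cpos : 0 < c
  s0 : s 0 = -1

/-- value of a term at a stage -/
noncomputable def Stg.val {St : ℕ → Pt → Prop} (A : Stg St) (f : Tm ℕ) : Tw A.x.K :=
  ev A.x.w (f.map A.s)

/-- order of stages -/
def Stg.Le {St : ℕ → Pt → Prop} (Rl : ℕ → (x y : Pt) → ValExt x.K y.K → Prop) (A B : Stg St)
    (φ : ValExt A.x.K B.x.K) : Prop :=
  A.n ≤ B.n ∧ Rl A.n A.x B.x φ ∧ A.c ≤ B.c ∧ ∀ i < A.c, B.s i = φ.ι (A.s i)

theorem Stg.Le.map_eq {St : ℕ → Pt → Prop} {Rl : ℕ → (x y : Pt) → ValExt x.K y.K → Prop}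
    {A B : Stg St} {φ : ValExt A.x.K B.x.K} (h : Stg.Le Rl A B φ) {f : Tm ℕ} (hf : f.bd ≤ A.c) :
    f.map B.s = (f.map A.s).map φ.ι := by
  rw [Tm.map_map]
  exact Tm.map_congr f (fun i hi => h.2.2.2 i (lt_of_lt_of_le hi hf))

theorem Stg.step {St : ℕ → Pt → Prop} {Rl : ℕ → (x y : Pt) → ValExt x.K y.K → Prop}
    (freeze : ∀ n x, St n x → ∀ f : Tm x.K, ∃ n' y φ, n ≤ n' ∧ St n' y ∧ Rl n x y φ ∧
      NJ x.J < NJ y.J ∧ ∀ z ψ, Rl n' y z ψ →
        aeval (ev z.w ((f.map φ.ι).map ψ.ι))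
          ((minpoly y.K (ev y.w (f.map φ.ι))).map ψ.ι) = 0)
    (A : Stg St) (f : Tm ℕ) :
    ∃ (B : Stg St), (∃ φ : ValExt A.x.K B.x.K, Stg.Le Rl A B φ) ∧ NJ A.x.J < NJ B.x.J ∧
      ∃ d k : ℕ, (∀ (C : Stg St) ψ, Stg.Le Rl B C ψ →
        C.val f ^ d + ∑ i ∈ Finset.range d, C.val (.c (k + i)) * C.val f ^ i = 0) ∧
      ((∀ (C : Stg St) ψ, Stg.Le Rl B C ψ → C.val f = 0) ∨
        (0 < d ∧ ∃ k', ∀ (C : Stg St) ψ, Stg.Le Rl B C ψ →
          C.val (.c k) * C.val (.c k') = 1)) := by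
  obtain ⟨n', y, φ, h1, h2, h3, h4, h5⟩ := freeze A.n A.x A.st (f.map A.s)
  obtain ⟨a, ha⟩ : ∃ a, a = ev y.w ((f.map A.s).map φ.ι) := ⟨_, rfl⟩
  rw [← ha] at h5
  obtain ⟨p, hp⟩ : ∃ p, p = minpoly y.K a := ⟨_, rfl⟩
  rw [← hp] at h5
  have hmon : p.Monic := hp ▸ minpoly.monic (isIntegral_Tw a)
  obtain ⟨c1, hc1⟩ : ∃ c1, c1 = max A.c f.bd := ⟨_, rfl⟩
  have hA : A.c ≤ c1 := hc1 ▸ le_max_left _ _
  have hf : f.bd ≤ c1 := hc1 ▸ le_max_right _ _
  have hpos := A.cpos
  let s' : ℕ → y.K := fun i => if i < c1 then φ.ι (A.s i) else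
    if i = c1 then (p.coeff 0)⁻¹ else p.coeff (i - (c1 + 1))
  have s1 : ∀ i < c1, s' i = φ.ι (A.s i) := fun i hi => if_pos hi
  have s2 : s' c1 = (p.coeff 0)⁻¹ := by simp [s']
  have s3 : ∀ i, s' (c1 + 1 + i) = p.coeff i := by
    intro i
    simp only [s']
    rw [if_neg (by omega), if_neg (by omega)]
    congr 1; omega
  let B : Stg St := ⟨n', y, h2, s', c1 + 1 + p.natDegree + 1, by omega, by
    rw [s1 0 (by omega), A.s0]; simp⟩
  have hv : ∀ (C : Stg St) ψ, Stg.Le Rl B C ψ → aeval (C.val f) (p.map ψ.ι) = 0 := by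
    intro C ψ h
    have e1 : f.map s' = (f.map A.s).map φ.ι := by
      rw [Tm.map_map]
      exact Tm.map_congr f (fun i hi => s1 i (lt_of_lt_of_le hi hf))
    have e2 := h.map_eq (f := f) (by change f.bd ≤ c1 + 1 + p.natDegree + 1; omega)
    change f.map C.s = (f.map s').map ψ.ι at e2
    rw [e1] at e2
    unfold Stg.val
    rw [e2]
    exact h5 C.x ψ h.2.1
  have hcv : ∀ (C : Stg St) ψ, Stg.Le Rl B C ψ → ∀ i < c1 + 1 + p.natDegree + 1,
      C.val (.c i) = algebraMap _ _ (ψ.ι (s' i)) := by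
    intro C ψ h i hi
    have := h.2.2.2 i hi
    change C.s i = ψ.ι (s' i) at this
    rw [← this]; rfl
  refine ⟨B, ⟨φ, h1, h3, by change A.c ≤ c1 + 1 + p.natDegree + 1; omega,
    fun i hi => s1 i (lt_of_lt_of_le hi hA)⟩, h4, p.natDegree, c1 + 1, ?_, ?_⟩
  · intro C ψ h
    have e := hv C ψ h
    rw [aeval_eq_sum_range, hmon.natDegree_map, Finset.sum_range_succ, coeff_map,
      hmon.coeff_natDegree, map_one, one_smul, add_comm] at e
    rw [← e]
    congr 1
    apply Finset.sum_congr rfl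
    intro i hi
    have := Finset.mem_range.1 hi
    rw [hcv C ψ h _ (by omega), s3, coeff_map, Algebra.smul_def]
  · by_cases h0 : a = 0
    · left
      intro C ψ h
      have e := hv C ψ h
      rw [hp, h0, minpoly.zero] at e
      simpa using e
    · right
      refine ⟨hp ▸ minpoly.natDegree_pos (isIntegral_Tw a), c1, fun C ψ h => ?_⟩
      have hne : p.coeff 0 ≠ 0 := hp ▸ minpoly.coeff_zero_ne_zero (isIntegral_Tw a) h0
      have e3 := s3 0
      rw [add_zero] at e3
      rw [hcv C ψ h _ (by omega), hcv C ψ h _ (by omega), s2, e3, ← map_mul, ← map_mul,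
        mul_inv_cancel₀ hne, map_one, map_one]

open Pointwise in
theorem Stg.exists_words {St : ℕ → Pt → Prop} (A : Stg St) (hg : Gen A.x.J A.x.w) {m : ℕ}
    (hm : m ≤ NJ A.x.J) : ∃ τ : Fin m → Tm ℕ, (∀ i, (τ i).bd ≤ 1) ∧
      LinearIndependent A.x.K (fun i => A.val (τ i)) := by
  let v : {f : Tm ℕ // f.bd ≤ 1} → Tw A.x.K := fun f => A.val f.1
  have hone : (1 : Tw A.x.K) ∈ Set.range v :=
    ⟨⟨.mul (.c 0) (.c 0), by simp [Tm.bd]⟩, by simp [v, Stg.val, Tm.map, A.s0]⟩
  have hmul : Set.range v * Set.range v ⊆ Set.range v := by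
    rintro _ ⟨_, ⟨f, rfl⟩, _, ⟨g, rfl⟩, rfl⟩
    exact ⟨⟨.mul f.1 g.1, max_le f.2 g.2⟩, rfl⟩
  have hev : ∀ f : Tm A.x.K, ev A.x.w f ∈ Submodule.span A.x.K (Set.range v) := by
    intro f
    induction f with
    | c a =>
      rw [ev_c, Algebra.algebraMap_eq_smul_one]
      exact Submodule.smul_mem _ _ (Submodule.subset_span hone)
    | v j => exact Submodule.subset_span ⟨⟨.v j, by simp [Tm.bd]⟩, rfl⟩
    | add f g hf hg => exact add_mem hf hg
    | mul f g hf hg =>
      have := Submodule.mul_mem_mul hf hg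
      rw [Submodule.span_mul_span] at this
      exact Submodule.span_mono hmul this
  obtain ⟨a, ha⟩ := exists_indep_family v (Subalgebra.toSubmodule (DJ A.x.K A.x.J))
    (fun d hd => by obtain ⟨f, rfl⟩ := hg d hd; exact hev f) m
    (by rw [finrank_DJ]; nlinarith [NJ_pos A.x.J])
  exact ⟨fun i => (a i).1, fun i => (a i).2, ha⟩

theorem Stg.scalar {St : ℕ → Pt → Prop} (A : Stg St) (hw : ∀ j, A.x.w j ∈ DJ A.x.K A.x.J)
    (hg : Gen A.x.J A.x.w) (f : Tm ℕ) (h : ∀ j, A.val f * A.x.w j = A.x.w j * A.val f) :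
    A.val f = tr (A.val f) • (1 : Tw A.x.K) := by
  apply central_DJ (ev_mem hw _)
  intro g hg'
  obtain ⟨u, hu⟩ := hg _ (mo_mem_DJ hg')
  rw [← hu]
  exact (ev_comm h u).symm

theorem main_of (St : ℕ → Pt → Prop) (Rl : ℕ → (x y : Pt) → ValExt x.K y.K → Prop)
    (refl : ∀ n x, Rl n x x (ValExt.refl x.K))
    (trans : ∀ n x y z φ ψ, Rl n x y φ → Rl n y z ψ → Rl n x z (φ.comp ψ))
    (mono : ∀ n n' x y φ, n ≤ n' → Rl n' x y φ → Rl n x y φ)
    (red : ∀ n x y φ, Rl n x y φ → Red φ y.w x.w)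
    (core : ∀ n x, St n x → (∀ j, x.w j ∈ DJ x.K x.J) ∧ Gen x.J x.w)
    (start : ∃ x, St 0 x)
    (freeze : ∀ n x, St n x → ∀ f : Tm x.K, ∃ n' y φ, n ≤ n' ∧ St n' y ∧ Rl n x y φ ∧
      NJ x.J < NJ y.J ∧ ∀ z ψ, Rl n' y z ψ →
        aeval (ev z.w ((f.map φ.ι).map ψ.ι))
          ((minpoly y.K (ev y.w (f.map φ.ι))).map ψ.ι) = 0) :
    ∃ (D : Type) (_ : DivisionRing D), Countable D ∧ CharZero D ∧
      Algebra.IsAlgebraic (Subring.center D) D ∧
      (∃ x y : D, Algebra.adjoin (Subring.center D) ({x, y} : Set D) = ⊤) ∧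
      ¬ FiniteDimensional (Subring.center D) D := by
  obtain ⟨x0, hx0⟩ := start
  obtain ⟨τ, hτ⟩ : ∃ τ : ℕ → Tm ℕ, Function.Surjective τ :=
    haveI : Nonempty (Tm ℕ) := ⟨.c 0⟩
    exists_surjective_nat (Tm ℕ)
  choose nx h1 h2 h3 using Stg.step (St := St) (Rl := Rl) freeze
  let A : ℕ → Stg St := fun t =>
    Nat.rec ⟨0, x0, hx0, fun _ => -1, 1, one_pos, rfl⟩ (fun t a => nx a (τ t)) t
  have hA : ∀ t, A (t + 1) = nx (A t) (τ t) := fun _ => rfl
  have hle : ∀ t t', t ≤ t' → ∃ φ, Stg.Le Rl (A t) (A t') φ := by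
    intro t t' h
    induction t', h using Nat.le_induction with
    | base => exact ⟨ValExt.refl _, le_rfl, refl _ _, le_rfl, fun _ _ => rfl⟩
    | succ t' _ ih =>
      obtain ⟨φ, a1, a2, a3, a4⟩ := ih
      obtain ⟨ψ, b1, b2, b3, b4⟩ : ∃ ψ, Stg.Le Rl (A t') (A (t' + 1)) ψ := h1 (A t') (τ t')
      refine ⟨φ.comp ψ, a1.trans b1, trans _ _ _ _ _ _ a2 (mono _ _ _ _ _ a1 b2), a3.trans b3,
        fun i hi => ?_⟩
      rw [b4 i (lt_of_lt_of_le hi a3), a4 i hi]; rfl
  have hN : ∀ t, t ≤ NJ (A t).x.J := by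
    intro t
    induction t with
    | zero => exact Nat.zero_le _
    | succ t ih => exact lt_of_le_of_lt ih (h2 (A t) (τ t))
  haveI : ∀ t, CharZero (Tw (A t).x.K) := fun t =>
    haveI : CharZero (A t).x.K := charZero_K
    charZero_of_injective_algebraMap (algebraMap (A t).x.K (Tw (A t).x.K)).injective
  refine limit_ring (fun t => Tw (A t).x.K) (fun t => (A t).val) (fun _ _ _ => rfl)
    (fun _ _ _ => rfl) (fun t => ?_) (fun t i f => ?_) (fun f => ?_) (fun m => ?_)
  · simp [Stg.val, Tm.map, (A t).s0]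
  · exact (Algebra.commutes ((A t).s i) _).symm
  · obtain ⟨t, rfl⟩ := hτ f
    obtain ⟨d, k, e1, e2⟩ := h3 (A t) (τ t)
    refine ⟨d, k, ?_, ?_⟩
    · filter_upwards [eventually_ge_atTop (t + 1)] with t' ht'
      obtain ⟨ψ, hψ⟩ := hle _ _ ht'
      exact e1 _ ψ hψ
    · rcases e2 with e2 | ⟨hd, k', e2⟩
      · left
        filter_upwards [eventually_ge_atTop (t + 1)] with t' ht'
        obtain ⟨ψ, hψ⟩ := hle _ _ ht'
        exact e2 _ ψ hψ
      · refine Or.inr ⟨hd, k', ?_⟩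
        filter_upwards [eventually_ge_atTop (t + 1)] with t' ht'
        obtain ⟨ψ, hψ⟩ := hle _ _ ht'
        exact e2 _ ψ hψ
  · obtain ⟨u, hu1, hu2⟩ := (A m).exists_words (core _ _ (A m).st).2 (hN m)
    refine ⟨u, ?_⟩
    filter_upwards [eventually_ge_atTop m] with t ht σ hσ h0 i
    obtain ⟨φ, hφ⟩ := hle _ _ ht
    have hli : LinearIndependent (A t).x.K (fun i => (A t).val (u i)) := by
      refine Red.linearIndependent (φ := φ) (fun i => ?_) hu2
      unfold Stg.val
      rw [hφ.map_eq ((hu1 i).trans (A m).cpos)]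
      exact (TRed.map φ _).ev (red _ _ _ _ hφ.2.1)
    have hsc := fun i => (A t).scalar (core _ _ (A t).st).1 (core _ _ (A t).st).2 (σ i) (hσ i)
    have h4 : tr ((A t).val (σ i)) = 0 := by
      refine Fintype.linearIndependent_iff.1 hli (fun i => tr ((A t).val (σ i))) ?_ i
      rw [← h0]
      apply Finset.sum_congr rfl
      intro i _
      conv_rhs => rw [hsc i]
      rw [smul_mul_assoc, one_mul]
    rw [hsc i, h4, zero_smul]

end Crest.Agent.R180
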