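import Crest.Agent.R180.FrzC
import Crest.Agent.R180.Limit

set_option autoImplicit false

namespace Crest.Agent.R180

open Module Polynomial

section gen
variable {K : Type*} [Field K] {M : Type*} [AddCommGroup M] [Module K M]
  {A : Type*} [AddCommGroup A] [Module K A]

theorem Nice.of_comp {α : A →ₗ[K] M →ₗ[K] M →ₗ[K] K} {N : Submodule K A} {H X : Submodule K M}
    {σ σ' : A →ₗ[K] A} (h : Nice (α ∘ₗ σ) (N.comap σ) H X) (hσ : ∀ b, σ (σ' b) = b) :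
    Nice α N H X := by
  intro s b k hb h1 h2 h3
  refine h s (fun a => σ' (b a)) k (LinearIndependent.of_comp σ ?_) (fun a => ?_) h2 (fun ξ hξ => ?_)
  · simpa [Function.comp_def, hσ] using hb
  · rw [Submodule.mem_comap, hσ]; exact h1 a
  · simpa [hσ] using h3 ξ hξ

theorem exists_ginv (f : M →ₗ[K] A) : ∃ g : A →ₗ[K] M, ∀ x, f (g (f x)) = f x := by
  obtain ⟨g0, h0⟩ := f.rangeRestrict.exists_rightInverse_of_surjective f.range_rangeRestrict
  obtain ⟨g, hg⟩ := g0.exists_extend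
  refine ⟨g, fun x => ?_⟩
  have h1 := congrArg (fun l => l ⟨f x, x, rfl⟩) hg
  have h2 := congrArg (fun l => (l ⟨f x, x, rfl⟩ : A)) h0
  simp only [LinearMap.comp_apply, Submodule.subtype_apply] at h1
  rw [h1]; exact h2

end gen

section alg
variable {K : Type} [Field K]

/-- scaling of one component -/
noncomputable def scl (n : ℕ) (c : K) : Fam K →ₗ[K] Fam K :=
  LinearMap.id + (c - 1) • (Finsupp.lsingle n ∘ₗ Finsupp.lapply n)

theorem scl_self (n : ℕ) (c : K) (b : Fam K) : scl n c b n = c • b n := by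
  simp [scl, sub_smul]

theorem scl_ne {n i : ℕ} (h : i ≠ n) (c : K) (b : Fam K) : scl n c b i = b i := by
  simp [scl, Finsupp.single_eq_of_ne h]

theorem scl_scl (n : ℕ) {c c' : K} (h : c * c' = 1) (b : Fam K) : scl n c (scl n c' b) = b := by
  ext1 i
  by_cases hi : i = n
  · rw [hi, scl_self, scl_self, smul_smul, h, one_smul]
  · rw [scl_ne hi, scl_ne hi]

variable [Algebra Z0 K]

theorem tr_ad_mul {γ χ e : Tw K} (h : χ * e = e * χ) : tr ((γ * χ - χ * γ) * e) = 0 := by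
  rw [sub_mul, map_sub, mul_assoc γ, h, mul_assoc χ, tr_comm χ, mul_assoc, sub_self]

theorem tr_orbit {χ b g1 g2 g : Tw K} (hb : χ * b = b * χ)
    (hg : g * χ - χ * g = g1 * χ - χ * g1) :
    tr (g2 * b * (g1 * χ - χ * g1)) - tr (g1 * b * (g2 * χ - χ * g2)) =
      - tr ((g2 * χ - χ * g2) * (b * g + g * b)) := by
  have h1 : χ * (g - g1) = (g - g1) * χ := by
    rw [mul_sub, sub_mul, sub_eq_sub_iff_sub_eq_sub, ← neg_sub (g * χ), hg, neg_sub]
  have h2 := tr_ad_mul (γ := g2) (χ := χ) (e := b * (g - g1) + (g - g1) * b) (by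
    rw [mul_add, add_mul, ← mul_assoc, hb, mul_assoc, h1, ← mul_assoc χ, h1, mul_assoc _ χ, hb]
    simp only [mul_assoc])
  have h3 : b * g + g * b = (b * (g - g1) + (g - g1) * b) + (b * g1 + g1 * b) := by noncomm_ring
  have h4 : tr (g2 * b * (g1 * χ)) = tr (χ * g2 * (b * g1)) := by
    rw [← mul_assoc, tr_comm]; simp only [mul_assoc]
  have h5 : g2 * b * (χ * g1) = g2 * χ * (b * g1) := by
    rw [mul_assoc, ← mul_assoc b, ← hb]; simp only [mul_assoc]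
  rw [h3, mul_add, map_add, h2, zero_add, tr_comm (g1 * b), mul_add, map_add, mul_sub, map_sub, h4,
    h5, sub_mul _ _ (b * g1), map_sub]
  ring

variable [Dom K]

/-- the residue form -/
noncomputable def AlH (w : Vec K) (S : ℕ → Tm K) (n : ℕ) (g : Tw K →ₗ[K] Tw K) :
    Fam K →ₗ[K] Vec K →ₗ[K] Vec K →ₗ[K] K where
  toFun b := Al w S n b - (trB K).flip.compl₁₂
    ((LinearMap.mulLeft K (b n) + LinearMap.mulRight K (b n)) ∘ₗ g ∘ₗ lam w (S n)) (lam w (S n))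
  map_add' _ _ := by ext; simp [mul_add, add_mul]; ring
  map_smul' _ _ := by ext; simp [mul_add, mul_sub]

theorem AlH_apply (w : Vec K) (S : ℕ → Tm K) (n : ℕ) (g : Tw K →ₗ[K] Tw K) (b : Fam K)
    (h ξ : Vec K) : AlH w S n g b h ξ = Al w S n b h ξ -
      tr (lam w (S n) ξ * (b n * g (lam w (S n) h) + g (lam w (S n) h) * b n)) := rfl

theorem VV_succ {J : Finset ℕ} {w : Vec K} {S : ℕ → Tm K} {n : ℕ} :
    VV J w S (n + 1) = VV J w S n ⊓ LinearMap.ker (lam w (S n)) := by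
  ext ξ
  constructor
  · exact fun h => ⟨VV_anti (Nat.le_succ n) h, h.2 n (Nat.lt_succ_self n)⟩
  · refine fun h => ⟨h.1.1, fun i hi => ?_⟩
    rcases Nat.lt_succ_iff_lt_or_eq.1 hi with h1 | h1
    · exact h.1.2 i h1
    · rw [h1]; exact h.2

theorem Om_congr {w : Vec K} {S : ℕ → Tm K} {n : ℕ} {b b' : Fam K} (h : ∀ i < n, b i = b' i)
    (ξ η : Vec K) : Om w S n b ξ η = Om w S n b' ξ η := by
  rw [Om_apply, Om_apply, prF_comm, prF_congr _ h, prF_comm]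

theorem Al_congr {w : Vec K} {S : ℕ → Tm K} {n : ℕ} {b b' : Fam K} (h : ∀ i < n, b i = b' i)
    (ξ η : Vec K) : Al w S n b ξ η = Al w S n b' ξ η := by
  rw [Al_apply, Al_apply, Om_congr h, Om_congr h]

theorem perp_of_C2 {J : Finset ℕ} {α : ℕ} {a p q y e : Tw K} (hy : y ∈ Cen (J ∪ {α}) {a})
    (hc : chi α p q ∈ Cen (J ∪ {α}) {a}) (h : ∀ c ∈ C2 J α a p q, tr (y * c) = 0)
    (he : chi α p q * e = e * chi α p q) : tr (y * e) = 0 := by
  rw [← tr_mul_prj _ _ hy]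
  have := mem_Cen_singleton.1 (prj_mem (Cen (J ∪ {α}) {a}) e)
  exact h _ (mem_C2.2 ⟨this.1, by rw [← prj_mul_left _ hc, ← prj_mul_right _ hc, he], this.2⟩)

theorem gam_aux {a χ y γ : Tw K} {a' y' g' : Tw (Lau K)} (ha : Red (lau K) a' a)
    (hχ : Od (K := K) 1 (aeval a' ((minpoly K a).map (lau K).ι)) (pd a * χ))
    (hy : Red (lau K) y' y) (e : y' = g' * a' - a' * g') {t : Lau K} {t0 : K}
    (ht : (lau K).R t t0) (hγ : Red (lau K) ((ep K * t) • g') γ) :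
    a * γ = γ * a ∧ γ * χ - χ * γ = t0 • pia a y := by
  have h1 : a * γ = γ * a := by
    have e1 := (hγ.mul ha).sub (ha.mul hγ)
    rw [smul_mul_assoc, mul_smul_comm, ← smul_sub, ← e] at e1
    have e2 := hy.smul_zero (c := ep K * t) (by simpa using (lau K).mul R_ep ht)
    exact (sub_eq_zero.1 (e1.uniq e2)).symm
  refine ⟨h1, ?_⟩
  obtain ⟨c', e1, hc⟩ := hχ
  have e2 := ((RedP.map (lau K) (minpoly K a)).Del ha hy).smul ht
  have e3 := (hγ.mul hc).sub (hc.mul hγ)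
  rw [e, Del_ad, e1, pow_one, mul_smul_comm, smul_mul_assoc, ← smul_sub, smul_smul,
    mul_comm t] at e2
  rw [smul_mul_assoc, mul_smul_comm, ← smul_sub] at e3
  have e4 := e3.uniq e2
  rw [Del_minpoly, ← mul_assoc, ← comm_of_mem_Lf h1 (pd_mem_Lf a), mul_assoc, mul_assoc, ← mul_sub,
    ← mul_smul_comm] at e4
  exact mul_left_cancel₀ (pd_ne_zero a) e4

theorem gam {J : Finset ℕ} {a χ y : Tw K} {a' y' : Tw (Lau K)} (ha : Red (lau K) a' a)
    (ha' : a' ∈ DJ (Lau K) J)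
    (hχ : Od (K := K) 1 (aeval a' ((minpoly K a).map (lau K).ι)) (pd a * χ))
    (hC : ∀ c ∈ DJ K J, a * c = c * a → χ * c = c * χ → c ∈ leadA (lau K) (Cen J {a'}))
    (hy : Red (lau K) y' y) (hy' : y' ∈ DJ (Lau K) J) (h0 : pia a' y' = 0) :
    ∃ g' γ, y' = g' * a' - a' * g' ∧ Red (lau K) (ep K • g') γ ∧ a * γ = γ * a ∧
      γ * χ - χ * γ = pia a y := by
  obtain ⟨g', hg, hp, e⟩ := exists_ad ha' hy' h0
  have : ∃ γ, Red (lau K) (ep K • g') γ := by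
    by_cases hg0 : g' = 0
    · exact ⟨0, by rw [hg0, smul_zero]; exact Red.zero _⟩
    obtain ⟨c, γ, hγ0, hγ⟩ := Red.scale (lau K) hg0
    have hc0 : c ≠ 0 := by
      rintro rfl
      rw [zero_smul] at hγ
      exact hγ0 hγ.eq_zero
    rcases (lau K).total (ep K * c⁻¹) with ⟨t, ht⟩ | ht
    · refine ⟨t • γ, ?_⟩
      have := hγ.smul ht
      rwa [smul_smul, mul_assoc, inv_mul_cancel₀ hc0, mul_one] at this
    · exfalso
      obtain ⟨h1, h2⟩ := gam_aux ha hχ hy e ht (γ := γ) (by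
        rwa [mul_inv, inv_inv, mul_inv_cancel_left₀ ep_ne_zero])
      rw [zero_smul, sub_eq_zero] at h2
      refine hγ0 (eq_zero_of_tr (leadA (lau K) (Cen J {a'}))
        (hC _ (hγ.mem_DJ (Subalgebra.smul_mem _ hg _)) h1 h2.symm) ?_)
      rintro z ⟨z', hz, hz'⟩
      have := (hγ.mul hz').tr
      rw [smul_mul_assoc, map_smul, hp _ (mem_Cen_singleton.1 hz).1, smul_zero] at this
      exact (lau K).uniq this (lau K).R_zero
  obtain ⟨γ, hγ⟩ := this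
  obtain ⟨h1, h2⟩ := gam_aux ha hχ hy e (lau K).R_one (γ := γ) (by rwa [mul_one])
  exact ⟨g', γ, e, hγ, h1, by rwa [one_smul] at h2⟩

theorem mem_Qf_of_perp {J : Finset ℕ} {a : Tw K} (ha : a ∈ DJ K J) {P : Submodule K (Tw K)}
    (hP : P ≤ Subalgebra.toSubmodule (Lf a)) {p : Tw K} (hp : p ∈ P) (hp0 : p ≠ 0) {c : Tw K}
    (hc : c ∈ Cen J {a}) (h : ∀ ρ ∈ Rb J a P, tr (c * ρ) = 0) : p * c ∈ L0f P := by
  have h1 : c ∈ Qf P p⁻¹ := dperp (trB K) (Subalgebra.toSubmodule (Cen J {a})) (trB_nondeg _)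
    ((Qf_le hP (inv_mem_Lf (hP hp))).trans (Lf_le_Cen ha)) hc (fun b hb hb' => by
      rw [trB_apply, tr_comm]
      exact h b (by rw [Rb_eq_perpIn hP hp hp0]; exact ⟨hb, hb'⟩))
  obtain ⟨l, hl, e⟩ := mem_Qf.1 h1
  rwa [← e, mul_inv_cancel_left₀ hp0]

end alg

variable {n : ℕ} {x : Pt} {α : ℕ} {p q : Tw x.K} {τ : Vec x.K} {U : ℕ → Submodule x.K (Tw x.K)}
  {w' : Vec (Lau x.K)} {s : ℕ → (Lau x.K)[X]} {S' : ℕ → Tm (Lau x.K)}
  {R' : ℕ → Submodule (Lau x.K) (Tw (Lau x.K))}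

/-- all data of the freezing arc -/
structure FB (n : ℕ) (x : Pt) (α : ℕ) (p q : Tw x.K) (τ : Vec x.K)
    (U : ℕ → Submodule x.K (Tw x.K)) (w' : Vec (Lau x.K)) (s : ℕ → (Lau x.K)[X])
    (S' : ℕ → Tm (Lau x.K)) (R' : ℕ → Submodule (Lau x.K) (Tw (Lau x.K))) : Prop where
  hx : Str n x
  hb : Base (Str n) n x (x.S n)
  hc : ChiD x.J α (ev x.w (x.S n)) (PP x.J x.w x.S n (x.S n)) p q
  hA : ArcC x.J {α} x.w x.S x.R n τ (VV x.J x.w x.S n ⊓ LinearMap.ker (lam x.w (x.S n)))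
  hL : LocC x.J x.w x.S x.R n U
  h : ArcEnd x.J {α} x.w x.S x.R n U τ w' s
  hτ : lam x.w (x.S n) τ = chi α p q
  hl : ∀ i < n, Lift1 x.J {α} x.w x.S x.R w' S' R' i
  hS : S' n = (x.S n).map (lau x.K).ι
  hR : R' n = Rb (x.J ∪ {α}) (ev w' ((x.S n).map (lau x.K).ι))
    (PP (x.J ∪ {α}) w' S' n ((x.S n).map (lau x.K).ι))

namespace FB

theorem f2 (H : FB n x α p q τ U w' s S' R') : F2 n x (x.S n) α p q w' S' R' :=
  probe2 H.hx H.hb H.hc H.hA H.hL H.h H.hτ H.hl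

theorem red (H : FB n x α p q τ U w' s S' R') :
    Red (lau x.K) (ev w' ((x.S n).map (lau x.K).ι)) (ev x.w (x.S n)) :=
  (TRed.map _ _).ev H.h.1.red

theorem gam (H : FB n x α p q τ U w' s S' R') {ξ' : Vec (Lau x.K)}
    (hξ' : ξ' ∈ VV (x.J ∪ {α}) w' S' (n + 1)) {ξ : Vec x.K} (hξ : Red (lau x.K) ξ' ξ) :
    ∃ g' γ, D1 w' ((x.S n).map (lau x.K).ι) ξ' = g' * ev w' ((x.S n).map (lau x.K).ι) -
      ev w' ((x.S n).map (lau x.K).ι) * g' ∧ Red (lau x.K) (ep x.K • g') γ ∧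
      ev x.w (x.S n) * γ = γ * ev x.w (x.S n) ∧
      γ * chi α p q - chi α p q * γ = lam x.w (x.S n) ξ :=
  R180.gam H.red (ev_mem_DJ H.h.1.mem _) (H.hτ ▸ (H.h.lam_mem_lead _).1)
    (fun c hc h1 h2 => by rw [H.f2.cen]; exact mem_C2.2 ⟨h1, h2, hc⟩)
    ((TRed.map _ _).D1 H.h.1.red hξ) (D1_mem_DJ H.h.1.mem hξ'.1 _) (by
      have := hξ'.2 n (Nat.lt_succ_self n)
      rwa [H.hS] at this)

theorem mult (H : FB n x α p q τ U w' s S' R') {b : Fam x.K}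
    (hb : b ∈ lead (lau x.K) ((NN (x.J ∪ {α}) w' S' R' (n + 1)).comap (scl n (ep x.K)))) :
    mkFam n b ∈ NN x.J x.w x.S x.R n ∧
      b n ∈ Mh x.J α (ev x.w (x.S n)) (PP x.J x.w x.S n (x.S n)) p q ∧ ∀ i, n < i → b i = 0 := by
  obtain ⟨b', h1, h2⟩ := hb
  obtain ⟨h3, h4, h5⟩ := mem_NN.1 h1
  have hn := Nat.lt_succ_self n
  have hcen : b' n ∈ Cen (x.J ∪ {α}) {ev w' ((x.S n).map (lau x.K).ι)} := by
    have := h3.1 n hn
    rwa [scl_self, Submodule.smul_mem_iff _ ep_ne_zero, CC, H.hS] at this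
  have hsum : ∀ ξ' ∈ base (Lau x.K) (Vec (Lau x.K)) (x.J ∪ {α}),
      prF _ n (mkFam n b') (Lam w' S' n ξ') +
        ep x.K * tr (b' n * D1 w' ((x.S n).map (lau x.K).ι) ξ') = 0 := by
    intro ξ' hξ'
    have := h4 ξ' hξ'
    rw [prF_succ, scl_self, Lam_lt _ hn, H.hS, smul_mul_assoc, map_smul, lam_apply,
      tr_mul_pia (mem_Cen_singleton.1 hcen).1] at this
    rw [← this, prF_apply, prF_apply]
    congr 1
    refine Finset.sum_congr rfl (fun i hi => ?_)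
    have hi := Finset.mem_range.1 hi
    rw [mkFam_lt _ hi, scl_ne hi.ne, Lam_lt _ hi, Lam_lt _ (Nat.lt_succ_of_lt hi)]
  have hM : b n ∈ Mh x.J α (ev x.w (x.S n)) (PP x.J x.w x.S n (x.S n)) p q := by
    obtain ⟨p', hp', hp⟩ := H.f2.exists_p H.hc
    refine H.f2.mem_Mh H.hc ⟨(hp.mul (h2 n)).mem_leadA (mem_Qf_of_perp (ev_mem_DJ H.h.1.mem _)
      H.f2.base.le hp' (hp.ne_zero H.hc.p0) hcen (fun ρ hρ => ?_)), ?_⟩
    · have := h5 n hn ρ (by rwa [H.hR])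
      rw [scl_self, smul_mul_assoc, map_smul, smul_eq_zero] at this
      exact this.resolve_left ep_ne_zero
    · rintro _ ⟨t, ht, rfl⟩
      obtain ⟨_, ⟨ξ', hξ', rfl⟩, h7⟩ := H.f2.prj t ht
      have h8 := ((h2 n).mul h7).tr
      have h9 := hsum ξ' hξ'.1
      rw [Lam_eq_zero_iff.2 hξ'.2, map_zero, zero_add] at h9
      rw [lam_apply, tr_mul_pia (mem_Cen_singleton.1 hcen).1,
        (mul_eq_zero.1 h9).resolve_left ep_ne_zero] at h8
      exact (lau x.K).uniq h8 (lau x.K).R_zero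
  refine ⟨?_, hM, fun i hi => ?_⟩
  swap
  · have := h2 i
    rw [← scl_ne hi.ne' (ep x.K), h3.2 i hi] at this
    exact this.eq_zero
  have hr : Red (lau x.K) (mkFam n b') (mkFam n b) := Red.mkFam (fun i _ => h2 i)
  have hD : ∀ ξ, (lau x.K).R (tr (b' n * D1 w' ((x.S n).map (lau x.K).ι) (upV (lau x.K) ξ)))
      (tr (b n * lam x.w (x.S n) ξ)) := fun ξ => by
    rw [lam_apply, tr_mul_pia (mem_C2.1 (mem_Mh.1 hM).1).1]
    exact ((h2 n).mul ((TRed.map _ _).D1 H.h.1.red (Red.upV _ ξ))).tr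
  have k1 : mkFam n b ∈ NN (x.J ∪ {α}) x.w x.S (fun i => Tens {α} (x.R i)) n := by
    refine mem_NN.2 ⟨?_, fun ξ hξ => ?_, fun i hi ρ hρ => ?_⟩
    · rw [← lead_TT (H.h.cmp' H.hl) H.h.1.mem]
      exact hr.mem_lead (mkFam_mem (fun i hi => by
        rw [← scl_ne hi.ne (ep x.K)]; exact h3.1 i (Nat.lt_succ_of_lt hi)))
    · have := (lau x.K).add (hr.prF (n := n) (Red.Lam (H.h.cmp' H.hl) (Red.upV _ ξ)))
        ((lau x.K).mul R_ep (hD ξ))
      rw [hsum _ (upV_mem hξ), zero_mul, add_zero] at this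
      exact (lau x.K).uniq this (lau x.K).R_zero
    · rw [← (H.hl i hi).ld] at hρ
      obtain ⟨ρ', h6, h7⟩ := hρ
      have := ((h2 i).mul h7).tr
      rw [← scl_ne hi.ne (ep x.K), h5 i (Nat.lt_succ_of_lt hi) ρ' h6] at this
      rw [mkFam_lt _ hi]
      exact (lau x.K).uniq this (lau x.K).R_zero
  have k2 := H.hA.a3 _ k1 (fun η hη => by
    have hη' := H.hA.tens_le H.hL.hw hη
    obtain ⟨y, e, hy⟩ := H.h.od_Lam H.hl hη'
    have h6 := hsum _ (upV_mem (φ := lau x.K) hη'.1)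
    rw [e, map_smul, pow_one, smul_eq_mul, ← mul_add] at h6
    have h7 := (lau x.K).add (hr.prF (n := n) hy) (hD η)
    rw [(mul_eq_zero.1 h6).resolve_left ep_ne_zero, prF_Sg,
      lam_tens_ker H.hc.disj H.hL.hw η hη, mul_zero, map_zero, add_zero] at h7
    exact (lau x.K).uniq h7 (lau x.K).R_zero)
  rw [← cmp_zero_of_mem k2]
  exact cmp_mem_NN H.hA.disj H.hL.hw H.hL.hR k1 (zero_mem _)

theorem red_Om (H : FB n x α p q τ U w' s S' R') {b' : Fam (Lau x.K)}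
    (hb' : b' ∈ (NN (x.J ∪ {α}) w' S' R' (n + 1)).comap (scl n (ep x.K))) {b : Fam x.K}
    (hb : Red (lau x.K) b' b) {h' ξ' : Vec (Lau x.K)} (hh' : h' ∈ VV (x.J ∪ {α}) w' S' (n + 1))
    {h ξ : Vec x.K} (hh : Red (lau x.K) h' h) (hξ : Red (lau x.K) ξ' ξ) {g' : Tw (Lau x.K)}
    {γ : Tw x.K} (e : D1 w' ((x.S n).map (lau x.K).ι) ξ' = g' * ev w' ((x.S n).map (lau x.K).ι) -
      ev w' ((x.S n).map (lau x.K).ι) * g') (hγ : Red (lau x.K) (ep x.K • g') γ)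
    (hγ' : ev x.w (x.S n) * γ = γ * ev x.w (x.S n)) :
    (lau x.K).R (Om w' S' (n + 1) (scl n (ep x.K) b') h' ξ')
      (Om x.w x.S n b h ξ + tr (γ * b n * lam x.w (x.S n) h)) := by
  have hn := Nat.lt_succ_self n
  have hcen : b' n ∈ Cen (x.J ∪ {α}) {ev w' ((x.S n).map (lau x.K).ι)} := by
    have := (NN_le hb').1 n hn
    rwa [scl_self, Submodule.smul_mem_iff _ ep_ne_zero, CC, H.hS] at this
  have h0 := hh'.2 n hn
  rw [H.hS] at h0
  have hc := H.red.comm (hb n) (mem_Cen_singleton.1 hcen).1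
  rw [Om_succ, Om_congr (fun i hi => scl_ne hi.ne _ _), scl_self, H.hS, psi_formula e h0,
    smul_mul_assoc, map_smul, tr_mul_pia (mem_Cen_singleton.1 hcen).1, mul_add, map_add, smul_add,
    ← map_smul _ _ (_ * (_ * g')), ← mul_smul_comm, ← mul_smul_comm, lam_apply,
    tr_mul_pia (by rw [← mul_assoc, hγ', mul_assoc, hc, mul_assoc]), mul_assoc γ, tr_comm γ,
    mul_assoc (b n)]
  refine (lau x.K).add (Red.Om (H.h.cmp' H.hl) hb hh hξ) ?_
  have := (lau x.K).add ((lau x.K).mul R_ep ((hb n).mul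
    ((TRed.map _ (x.S n)).D2 H.h.1.red hh hξ)).tr)
    ((hb n).mul (((TRed.map _ (x.S n)).D1 H.h.1.red hh).mul hγ)).tr
  rwa [zero_mul, zero_add] at this

theorem red_Al (H : FB n x α p q τ U w' s S' R') {Γ : Tw x.K →ₗ[x.K] Tw x.K}
    (hΓ : ∀ γ, Γ (γ * chi α p q - chi α p q * γ) * chi α p q -
      chi α p q * Γ (γ * chi α p q - chi α p q * γ) = γ * chi α p q - chi α p q * γ) :
    ∀ b' ∈ (NN (x.J ∪ {α}) w' S' R' (n + 1)).comap (scl n (ep x.K)),
      ∀ h' ∈ VV (x.J ∪ {α}) w' S' (n + 1), ∀ ξ' ∈ VV (x.J ∪ {α}) w' S' (n + 1), ∀ b h ξ,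
      Red (lau x.K) b' b → Red (lau x.K) h' h → Red (lau x.K) ξ' ξ →
      (lau x.K).R ((Al w' S' (n + 1) ∘ₗ scl n (ep x.K)) b' h' ξ')
        (AlH x.w x.S n Γ b h ξ) := by
  intro b' hb' h' hh' ξ' hξ' b h ξ hb hh hξ
  obtain ⟨g1, γ1, a1, a2, a3, a4⟩ := H.gam hh' hh
  obtain ⟨g2, γ2, b1, b2, b3, b4⟩ := H.gam hξ' hξ
  have := (Red_scalar.2 (H.red_Om hb' hb hh' hh hξ b1 b2 b3)).sub
    (Red_scalar.2 (H.red_Om hb' hb hξ' hξ hh a1 a2 a3))
  have e := tr_orbit (g2 := γ2) (mem_C2.1 (mem_Mh.1 (H.mult (hb.mem_lead hb')).2.1).1).2.1 (hΓ γ1)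
  rw [a4, b4] at e
  rw [LinearMap.comp_apply, Al_apply]
  convert Red_scalar.1 this using 1
  rw [AlH_apply, Al_apply]
  linear_combination -e

theorem surj (H : FB n x α p q τ U w' s S' R') {y : Tw x.K}
    (hy : y ∈ Tens {α} (PP x.J x.w x.S n (x.S n))) :
    ∃ ξ ∈ lead (lau x.K) (VV (x.J ∪ {α}) w' S' n), lam x.w (x.S n) ξ = y := by
  rw [PP_Tens H.hc.disj H.hL.hw] at hy
  obtain ⟨η, hη, rfl⟩ := hy
  obtain ⟨η', h1, h2⟩ := H.h.jfact H.hA H.hL H.hl (fun i hi => (H.f2.str.good.tri i hi).inf)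
    H.f2.rk.le hη
  exact ⟨_, h2, by rw [map_add, lam_tens_ker H.hc.disj H.hL.hw η' h1, add_zero]⟩

theorem exists_H (H : FB n x α p q τ U w' s S' R') :
    ∃ H0 ≤ lead (lau x.K) (VV (x.J ∪ {α}) w' S' n) ⊓ LinearMap.ker (lam x.w (x.S n)),
      ell α ^ 2 ≤ finrank x.K H0 ∧ Nice (Al x.w x.S n) (NN x.J x.w x.S x.R n) H0
        (lead (lau x.K) (VV (x.J ∪ {α}) w' S' n) ⊓ LinearMap.ker (lam x.w (x.S n))) := by
  obtain ⟨H1, e1, e2, e3⟩ := H.hx.big
  haveI : FiniteDimensional x.K H1 := Submodule.finiteDimensional_of_le e1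
  have e4 := nice_Tens H.hc.disj H.hL.hw (NN_le.trans TT_le_base) (e1.trans VV_le) VV_le e3
  have e5 : Tens {α} H1 ≤ Tens {α} (VV x.J x.w x.S n) := Tens_mono subset_rfl e1
  have e6 : lead (lau x.K) (VV (x.J ∪ {α}) w' S' n) ≤ Tens {α} (VV x.J x.w x.S n) := by
    rw [VV_Tens H.hc.disj H.hL.hw]; exact lead_VV_le (H.h.cmp' H.hl)
  have d1 := H.h.finrank_VV H.hc.disj H.hL H.hl (fun i hi => (H.f2.str.good.tri i hi).inf)
  have d2 := finrank_map_add_inf_ker (lam x.w (x.S n)) (lead (lau x.K) (VV (x.J ∪ {α}) w' S' n))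
  have d3 : finrank x.K ((lead (lau x.K) (VV (x.J ∪ {α}) w' S' n)).map (lam x.w (x.S n))) ≤
      NJ {α} ^ 2 * NJ x.J := by
    refine (Submodule.finrank_mono (t := Tens {α} (PP x.J x.w x.S n (x.S n))) ?_).trans
      ((finrank_Tens_le _ _).trans (Nat.mul_le_mul_left _
        (H.hb.finrank_le.1.trans H.hb.finrank_le.2.1)))
    rw [PP_Tens H.hc.disj H.hL.hw]
    exact Submodule.map_mono (lead_VV_le (H.h.cmp' H.hl))
  rw [finrank_lead] at d2
  obtain ⟨H0, a1, a2, a3⟩ := e4.restrict e5 (inf_le_left.trans e6)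
    (X' := lead (lau x.K) (VV (x.J ∪ {α}) w' S' n) ⊓ LinearMap.ker (lam x.w (x.S n)))
    (c := NJ {α} ^ 2 * (rr n x + NJ x.J)) (by
      rw [finrank_Tens (K := x.K) (M := Vec x.K) H.hc.disj _ VV_le, mul_add]
      exact (fun {a b c d e f g : ℕ} (h1 : a + b = c + d) (h2 : e + f = a) (h3 : e ≤ g) =>
        (by omega : c ≤ f + (b + g))) d1 d2 d3)
  refine ⟨H0, a1.trans inf_le_right, ?_, a3⟩
  rw [finrank_Tens (K := x.K) (M := Vec x.K) H.hc.disj _ (e1.trans VV_le), NJ_single] at a2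
  have a4 := Nat.mul_le_mul_left (ell α ^ 2) e2
  unfold kp rr at *
  nlinarith [Nat.zero_le (ell α ^ 2 * finrank x.K (NN x.J x.w x.S x.R n)),
    Nat.zero_le (ell α ^ 2 * finrank x.K (NN x.J x.w x.S x.R n) ^ 2)]

theorem dim_Y (H : FB n x α p q τ U w' s S' R') :
    finrank x.K (lead (lau x.K) (VV (x.J ∪ {α}) w' S' n) ⊓ LinearMap.ker
      (prj (C2 x.J α (ev x.w (x.S n)) p q) ∘ₗ lam x.w (x.S n)) : Submodule x.K (Vec x.K)) ≤
    finrank x.K (lead (lau x.K) (VV (x.J ∪ {α}) w' S' (n + 1))) +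
      finrank x.K (L0f (PP x.J x.w x.S n (x.S n))) * finrank x.K (L0f (PP x.J x.w x.S n (x.S n))) := by
  have d1 := finrank_map_add_inf_ker (prj (C2 x.J α (ev x.w (x.S n)) p q) ∘ₗ lam x.w (x.S n))
    (lead (lau x.K) (VV (x.J ∪ {α}) w' S' n))
  have d2 := finrank_map_add_inf_ker (lam w' (S' n)) (VV (x.J ∪ {α}) w' S' n)
  have d3 := H.f2.dim_prj H.hc
  have d4 : finrank (Lau x.K) ((VV (x.J ∪ {α}) w' S' n).map
      (lam w' ((x.S n).map (lau x.K).ι))) ≤ _ := H.f2.base.finrank_le.1.trans H.f2.dl.le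
  have d5 := (Submodule.finrank_mono (show (Tens {α} (PP x.J x.w x.S n (x.S n))).map
      (prj (leadA (lau x.K) (Lf (ev w' ((x.S n).map (lau x.K).ι))))) ≤
      ((lead (lau x.K) (VV (x.J ∪ {α}) w' S' n)).map (prj (C2 x.J α (ev x.w (x.S n)) p q) ∘ₗ
        lam x.w (x.S n))).map (prj (leadA (lau x.K) (Lf (ev w' ((x.S n).map (lau x.K).ι))))) by
    rintro _ ⟨y, hy, rfl⟩
    obtain ⟨ξ, h1, rfl⟩ := H.surj hy
    exact ⟨_, ⟨ξ, h1, rfl⟩, prj_prj _ H.f2.F_le _⟩)).trans (Submodule.finrank_map_le _ _)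
  rw [← VV_succ, H.hS] at d2
  rw [finrank_lead] at d1 ⊢
  omega

theorem nice (H : FB n x α p q τ U w' s S' R') {d I : ℕ}
    (hd : finrank x.K (L0f (PP x.J x.w x.S n (x.S n))) = d)
    (hc : 2 * d + 1 ≤ 3 * finrank x.K (PP x.J x.w x.S n (x.S n)))
    (hI : I = kp (rr n x + d * d) + (rr n x + d * d + 1) * (d * d))
    (h1 : d * (I * d) < ell α) (h2 : (rr n x ^ 2 + 2) * I ≤ ell α) :
    rr (n + 1) (x.arc (x.J ∪ {α}) w' S' R') ≤ rr n x + d * d ∧
    NiceDim (n + 1) (x.arc (x.J ∪ {α}) w' S' R') (kp (rr n x + d * d)) := by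
  have hσ : ∀ b, scl n (ep x.K) (scl n (ep x.K)⁻¹ b) = b := scl_scl n (mul_inv_cancel₀ ep_ne_zero)
  have hσ' : ∀ b, scl n (ep x.K)⁻¹ (scl n (ep x.K) b) = b := scl_scl n (inv_mul_cancel₀ ep_ne_zero)
  set N' := (NN (x.J ∪ {α}) w' S' R' (n + 1)).comap (scl n (ep x.K)) with hN'
  haveI : FiniteDimensional (Lau x.K) N' := (finrank_le_of_inj (scl n (ep x.K)) N'
    (NN (x.J ∪ {α}) w' S' R' (n + 1)) (fun _ h => h) (fun b _ h => by rw [← hσ' b, h, map_zero])).1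
  have r1 := (finrank_le_of_inj (scl n (ep x.K)⁻¹) (NN (x.J ∪ {α}) w' S' R' (n + 1)) N'
    (fun b h => by rwa [hN', Submodule.mem_comap, hσ]) (fun b _ h => by rw [← hσ b, h, map_zero])).2
  have r2 : finrank x.K (lead (lau x.K) N') ≤ rr n x + d * d := by
    refine (Submodule.finrank_mono (t := NN x.J x.w x.S x.R n ⊔
      (Mh x.J α (ev x.w (x.S n)) (PP x.J x.w x.S n (x.S n)) p q).map (Finsupp.lsingle n))
      (fun b hb => ?_)).trans ((Submodule.finrank_add_le_finrank_add_finrank _ _).trans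
        (Nat.add_le_add_left ((Submodule.finrank_map_le _ _).trans (hd ▸ H.hc.finrank_Mh)) _))
    obtain ⟨a1, a2, a3⟩ := H.mult hb
    have : b = mkFam n b + Finsupp.lsingle (R := x.K) n (b n) := by
      ext1 i
      rcases lt_trichotomy i n with h | h | h
      · simp [mkFam_lt _ h, Finsupp.single_eq_of_ne h.ne]
      · simp [h, mkFam_ge _ le_rfl]
      · simp [mkFam_ge _ h.le, Finsupp.single_eq_of_ne h.ne', a3 i h]
    rw [this]
    exact Submodule.add_mem_sup a1 ⟨_, a2, rfl⟩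
  refine ⟨r1.trans (by rwa [finrank_lead] at r2), ?_⟩
  obtain ⟨Γ, hΓ⟩ := exists_ginv (LinearMap.mulRight x.K (chi α p q) - LinearMap.mulLeft x.K (chi α p q))
  have hΓ' : ∀ γ, Γ (γ * chi α p q - chi α p q * γ) * chi α p q -
      chi α p q * Γ (γ * chi α p q - chi α p q * γ) = γ * chi α p q - chi α p q * γ := hΓ
  obtain ⟨g, hg, hk⟩ := H.hc.kks (by rwa [hd]) (I := I) (by rwa [hd])
  choose h0 m0 l0 using fun i => H.surj (hg i).2
  obtain ⟨H0, b1, b2, b3⟩ := H.exists_H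
  haveI : FiniteDimensional x.K H0 := Submodule.finiteDimensional_of_le (b1.trans inf_le_left)
  obtain ⟨k, c1, c2, c3⟩ := b3.family (I := I)
    (h2.trans ((Nat.le_self_pow two_ne_zero _).trans b2)) h0
  have l1 : ∀ i, lam x.w (x.S n) (h0 i + k i) = g i * chi α p q - chi α p q * g i := fun i => by
    rw [map_add, l0, LinearMap.mem_ker.1 (b1 (c1 i)).2, add_zero]
  set Y := lead (lau x.K) (VV (x.J ∪ {α}) w' S' n) ⊓ LinearMap.ker
      (prj (C2 x.J α (ev x.w (x.S n)) p q) ∘ₗ lam x.w (x.S n)) with hY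
  have mY : ∀ ξ, ξ ∈ Y ↔ ξ ∈ lead (lau x.K) (VV (x.J ∪ {α}) w' S' n) ∧
      ∀ c ∈ C2 x.J α (ev x.w (x.S n)) p q, tr (lam x.w (x.S n) ξ * c) = 0 := fun ξ =>
    and_congr Iff.rfl (prj_eq_zero_iff _)
  have n1 : Nice (AlH x.w x.S n Γ) (lead (lau x.K) N')
      (Submodule.span x.K (Set.range (fun i => h0 i + k i))) Y := by
    refine nice_of_family _ (fun β hβ H1 => ?_)
    have z1 := c3 (fun i => mkFam n (β i)) (fun i => (H.mult (hβ i)).1) (fun ξ hξ => by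
      have := H1 ξ ((mY ξ).2 ⟨hξ.1, fun c _ => by
        rw [LinearMap.mem_ker.1 hξ.2, zero_mul, map_zero]⟩)
      simp only [AlH_apply, LinearMap.mem_ker.1 hξ.2, zero_mul, map_zero, sub_zero] at this
      rw [← this]
      exact Finset.sum_congr rfl (fun i _ => Al_congr (fun j hj => mkFam_lt _ hj) _ _))
    have z2 : ∀ i, ∀ j < n, β i j = 0 := fun i j hj => by
      rw [← mkFam_lt (β i) hj, z1 i]; rfl
    have z3 := hk (fun i => β i n) (fun i => (H.mult (hβ i)).2.1) (fun y hy hy' => by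
      obtain ⟨ξ, h3, rfl⟩ := H.surj hy
      have := H1 ξ ((mY ξ).2 ⟨h3, hy'⟩)
      rw [← neg_eq_zero, ← Finset.sum_neg_distrib] at this
      rw [← this]
      refine Finset.sum_congr rfl (fun i _ => ?_)
      have e1 := hΓ' (g i)
      have e2 := (mem_C2.1 (mem_Mh.1 (H.mult (hβ i)).2.1).1).2.1
      rw [AlH_apply, Al_congr (b' := 0) (z2 i), l1, map_zero, LinearMap.zero_apply,
        LinearMap.zero_apply, zero_sub, neg_neg]
      generalize Γ (g i * chi α p q - chi α p q * g i) = g' at e1 ⊢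
      have e3 : chi α p q * (g' - g i) = (g' - g i) * chi α p q := by
        rw [mul_sub, sub_mul, sub_eq_sub_iff_sub_eq_sub, ← neg_sub (g' * _), e1, neg_sub]
      have e4 := perp_of_C2 (H.hc.tens_le hy) (H.hc.tens_le H.hc.chi_mem) hy'
        (e := β i n * (g' - g i) + (g' - g i) * β i n) (by
          rw [mul_add, add_mul, ← mul_assoc, e2, mul_assoc, e3, ← mul_assoc (chi α p q), e3,
            mul_assoc _ (chi α p q), e2]
          simp only [mul_assoc])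
      rw [show β i n * g' + g' * β i n = (β i n * (g' - g i) + (g' - g i) * β i n) +
        (β i n * g i + g i * β i n) by noncomm_ring, mul_add _ (_ + _), map_add tr (_ * (_ + _)), e4,
        zero_add])
    intro i
    ext1 j
    rcases lt_trichotomy j n with h | h | h
    · exact z2 i j h
    · rw [h]; exact z3 i
    · exact (H.mult (hβ i)).2.2 j h
  obtain ⟨H2, f1, f2, f3⟩ := n1.restrict (Submodule.span_le.2 (by
    rintro _ ⟨i, rfl⟩
    exact (mY _).2 ⟨add_mem (m0 i) (b1 (c1 i)).1, fun c hc => by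
      rw [l1]; exact tr_ad_mul (mem_C2.1 hc).2.1⟩))
    (X' := lead (lau x.K) (VV (x.J ∪ {α}) w' S' (n + 1))) (by
      rintro ξ ⟨ξ', h3, h4⟩
      obtain ⟨-, γ, -, -, -, e⟩ := H.gam h3 h4
      exact (mY _).2 ⟨h4.mem_lead (VV_anti (Nat.le_succ n) h3), fun c hc => by
        rw [← e]; exact tr_ad_mul (mem_C2.1 hc).2.1⟩) (hd ▸ H.dim_Y)
  haveI : FiniteDimensional x.K H2 := Submodule.finiteDimensional_of_le (f1.trans inf_le_right)
  obtain ⟨H', g1, g2, g3⟩ := f3.lift le_rfl (f1.trans inf_le_right) (H.red_Al hΓ')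
  refine ⟨H', g1, ?_, g3.of_comp hσ⟩
  change _ ≤ finrank (Lau x.K) H'
  rw [finrank_span_eq_card c2, Fintype.card_fin] at f2
  rw [g2]
  exact Nat.le_of_add_le_add_right (hI.ge.trans (f2.trans (Nat.add_le_add_left
    (Nat.mul_le_mul_right (d * d) (Nat.succ_le_succ r2)) _)))

theorem good (H : FB n x α p q τ U w' s S' R') {d I : ℕ}
    (hd : finrank x.K (L0f (PP x.J x.w x.S n (x.S n))) = d)
    (hc : 2 * d + 1 ≤ 3 * finrank x.K (PP x.J x.w x.S n (x.S n)))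
    (hI : I = kp (rr n x + d * d) + (rr n x + d * d + 1) * (d * d))
    (h1 : d * (I * d) < ell α) (h2 : (rr n x ^ 2 + 2) * I ≤ ell α) (h3 : I + 2 ^ (n + 2) < ell α) :
    Good (n + 1) (x.arc (x.J ∪ {α}) w' S' R') := by
  obtain ⟨a1, H', a2, a3, a4⟩ := H.nice hd hc hI h1 h2
  have F := H.f2
  have hN : NJ (x.J ∪ {α}) = NJ x.J * ell α := by rw [NJ_union H.hc.disj, NJ_single]
  have hk : kp (rr (n + 1) (x.arc (x.J ∪ {α}) w' S' R')) ≤ kp (rr n x + d * d) := by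
    unfold kp; nlinarith
  obtain ⟨p', hp', hp⟩ := F.exists_p H.hc
  have hp0 := hp.ne_zero H.hc.p0
  have ha := ev_mem_DJ H.h.1.mem ((x.S n).map (lau x.K).ι)
  have hP : PP (x.J ∪ {α}) w' S' n ((x.S n).map (lau x.K).ι) ≤ _ := F.base.le
  have hpos := NJ_pos x.J
  have h4 : 4 ≤ 2 ^ (n + 2) := by rw [pow_add]; have := Nat.two_pow_pos n; omega
  refine ⟨⟨F.base.mem, F.str.good.core.gen, ?_, H', a2, hk.trans a3, a4⟩, F.str, ⟨?_, ?_, ?_, ?_⟩,
    _, S' n, _, Chain.refl, by rw [H.hS]; exact F.base, (Tm.map_id _).symm, ?_, ?_, ?_⟩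
  · change 2 * NJ (x.J ∪ {α}) + _ + 2 < NJ (x.J ∪ {α}) ^ 2
    have : ell α ≤ NJ (x.J ∪ {α}) := by rw [hN]; exact Nat.le_mul_of_pos_left _ hpos
    nlinarith
  · change R' n ≤ CC _ w' S' n
    rw [H.hR, CC, H.hS]; exact Rb_le _ _ _
  · change PP _ w' S' n (S' n) ⊓ R' n = ⊥
    rw [H.hR, H.hS, eq_bot_iff, ← Qf_inf_Rb (J := x.J ∪ {α}) hP hp' hp0]
    exact inf_le_inf_right _ (le_Qf hP hp' hp0)
  · change CC _ w' S' n ≤ PP _ w' S' n (S' n) ⊔ R' n ⊔ LL w' S' n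
    rw [H.hR, CC, LL, H.hS, ← Qf_sup_Rb ha hP hp' hp0]
    exact sup_le ((Qf_le hP (hP hp')).trans le_sup_right) (le_sup_right.trans le_sup_left)
  · change _ * finrank (Lau x.K) (CC (x.J ∪ {α}) w' S' n) ≤ NJ (x.J ∪ {α}) ^ 2 +
      _ * finrank (Lau x.K) (R' n)
    have e := finrank_Rb ha hP hp' hp0
    rw [F.dl] at e
    rw [H.hR, CC, H.hS, hN]
    change _ * finrank (Lau x.K) (Cen _ _) ≤ _
    rw [← e, mul_add, add_comm]
    refine Nat.add_le_add_right ?_ _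
    calc 2 ^ (n + 2) * (finrank x.K (L0f (PP x.J x.w x.S n (x.S n))) * ell α)
        ≤ ell α * ((NJ x.J * NJ x.J) * ell α) := Nat.mul_le_mul (by omega)
          (Nat.mul_le_mul_right _ (H.hb.finrank_le.2.1.trans (Nat.le_mul_self _)))
      _ = _ := by ring
  · change lead (ValExt.refl _) (R' n) ≤ _
    rw [lead_refl, H.hR, H.hS]; exact le_Tens _ _
  · change _ ≤ lead (ValExt.refl _) (R' n ⊓ LL w' S' n)
    rw [lead_refl, H.hR, LL, H.hS]
  · rw [lead_refl, Finset.sdiff_self, Tens_empty]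

end FB

theorem stepB (hx : Str n x) (hb : Base (Str n) n x (x.S n))
    (hc : 2 * finrank x.K (L0f (PP x.J x.w x.S n (x.S n))) + 1 ≤
      3 * finrank x.K (PP x.J x.w x.S n (x.S n))) :
    ∃ y φ, Chain (Str n) n n x y φ ∧ Good (n + 1) y ∧ y.S n = (x.S n).map φ.ι := by
  obtain ⟨p, q, h1⟩ := hb.exists_chi
  obtain ⟨d, hd⟩ : ∃ d, finrank x.K (L0f (PP x.J x.w x.S n (x.S n))) = d := ⟨_, rfl⟩
  obtain ⟨I, hI⟩ : ∃ I, I = kp (rr n x + d * d) + (rr n x + d * d + 1) * (d * d) := ⟨_, rfl⟩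
  obtain ⟨α, hα, hB⟩ := exists_fresh x.J (d * (I * d) + (rr n x ^ 2 + 2) * I + (I + 2 ^ (n + 2)))
  obtain ⟨τ, U, w', s, hA, hL, h, hτ⟩ := exists_probe hx hb (h1 α hα)
  obtain ⟨R', hl⟩ := h.exists_lift hA.disj hL (S' := fun i => (x.S i).map (lau x.K).ι)
    (fun _ _ => rfl)
  have H : FB n x α p q τ U w' s (fun i => (x.S i).map (lau x.K).ι) (Function.update R' n
      (Rb (x.J ∪ {α}) (ev w' ((x.S n).map (lau x.K).ι))
        (PP (x.J ∪ {α}) w' (fun i => (x.S i).map (lau x.K).ι) n ((x.S n).map (lau x.K).ι)))) :=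
    ⟨hx, hb, h1 α hα, hA, hL, h, hτ, fun i hi => ⟨rfl, by
      rw [Function.update_of_ne hi.ne]; exact (hl i hi).le, by
      rw [Function.update_of_ne hi.ne]; exact (hl i hi).ld, by
      rw [Function.update_of_ne hi.ne]; exact (hl i hi).lf⟩, rfl, Function.update_self _ _ _⟩
  exact ⟨_, _, Chain.single H.f2.step H.f2.str,
    H.good hd (hd ▸ hc) hI (lt_of_le_of_lt ((Nat.le_add_right _ _).trans (Nat.le_add_right _ _)) hB)
      (((Nat.le_add_left _ _).trans (Nat.le_add_right _ _)).trans hB.le)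
      (lt_of_le_of_lt (Nat.le_add_left _ _) hB), rfl⟩

theorem freeze (hx : Str n x) (f : Tm x.K) : ∃ n' y φ, n ≤ n' ∧ Str n' y ∧
    Chain (Str n) n n x y φ ∧ NJ x.J < NJ y.J ∧ ∀ z ψ, Chain (Str n') n' n' y z ψ →
      aeval (ev z.w ((f.map φ.ι).map ψ.ι)) ((minpoly y.K (ev y.w (f.map φ.ι))).map ψ.ι) = 0 := by
  by_cases h : ∃ y φ, Chain (Str n) n n x y φ ∧ P0 y.J y.w y.S n (f.map φ.ι) ≠ ⊥
  · obtain ⟨y1, φ1, a1, a2, a3⟩ := exists_minAt hx h
    obtain ⟨y2, φ2, b1, b2, b3, b4, b5⟩ := stepA (a1.good hx) (base_of_min (a1.good hx) a3 a2)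
    obtain ⟨y3, φ3, c1, c2, c3⟩ := stepB b2 b4 b5
    obtain ⟨y4, φ4, d1, d2, d3⟩ := stabilise c2
    have hc := (a1.trans b1).trans c1
    have e : y4.S n = f.map (((φ1.comp φ2).comp φ3).comp φ4).ι := by
      rw [d2.hS n (Nat.lt_succ_self n), c3, b3, map_comp_ι, map_comp_ι, map_comp_ι]
    refine ⟨n + 1, y4, _, Nat.le_succ n, d1, hc.trans (d2.mono (fun _ h => h) (Nat.le_succ n) le_rfl),
      lt_of_le_of_lt ?_ d3, fun z ψ hz => ?_⟩
    · rw [NJ_sdiff hc.sub]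
      exact Nat.le_mul_of_pos_right _ (NJ_pos _)
    · rw [← e, ← hz.const (Nat.lt_succ_self n), ← hz.hS n (Nat.lt_succ_self n)]
      exact minpoly.aeval _ _
  · obtain ⟨y, φ, a1, a2, a3⟩ := grow hx.good hx.stable
    refine ⟨n, y, φ, le_rfl, a1, a2, a3, fun z ψ hz => case0 (fun z ψ hz => ?_)
      (minpoly.aeval _ _) hz⟩
    by_contra h0
    exact h ⟨z, _, a2.trans hz, by rwa [map_comp_ι]⟩

theorem NN_zero {K : Type} [Field K] [Algebra Z0 K] [Dom K] {J : Finset ℕ} {w : Vec K}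
    {S : ℕ → Tm K} {R : ℕ → Submodule K (Tw K)} : NN J w S R 0 = ⊥ := by
  rw [eq_bot_iff]
  intro b hb
  ext1 i
  exact (NN_le hb).2 i (Nat.zero_le i)

theorem start : ∃ x, Good 0 x := by
  let x : Pt :=
    { K := Z0, J := {0}, w := ![mo (gu 0), mo (gv 0)], S := fun _ => .c 0, R := fun _ => ⊥ }
  have hr : rr 0 x = 0 := by unfold rr; rw [NN_zero, finrank_bot]
  have hN : NJ x.J = 5 := NJ_single 0
  refine ⟨x, mem_base_Vec.2 (fun j => ?_), gen_uv 0, by rw [hr, hN]; decide,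
    VV x.J x.w x.S 0, le_rfl, ?_, ?_⟩
  · fin_cases j
    · exact mo_mem_DJ (gu_mem 0)
    · exact mo_mem_DJ (gv_mem 0)
  · have : VV x.J x.w x.S 0 = base x.K (Vec x.K) x.J :=
      le_antisymm VV_le (fun ξ hξ => ⟨hξ, fun i hi => absurd hi (Nat.not_lt_zero i)⟩)
    rw [this, finrank_base_Vec, hr, hN]; decide
  · rw [NN_zero]
    exact nice_of_basis (ι := Fin 0) (fun i => i.elim0) bot_le (fun _ _ _ a => a.elim0)

theorem main : ∃ (D : Type) (_ : DivisionRing D), Countable D ∧ CharZero D ∧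
      Algebra.IsAlgebraic (Subring.center D) D ∧
      (∃ x y : D, Algebra.adjoin (Subring.center D) ({x, y} : Set D) = ⊤) ∧
      ¬ FiniteDimensional (Subring.center D) D := by
  refine main_of Str (fun n => Chain (Str n) n n) (fun _ _ => Chain.refl)
    (fun _ _ _ _ _ _ => Chain.trans) (fun _ _ _ _ _ hn h => h.mono (fun _ h => h.mono hn) hn hn)
    (fun _ _ _ _ => Chain.red)
    (fun _ _ h => ⟨mem_base_Vec.1 h.good.core.mem, h.good.core.gen⟩) ?_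
    (fun _ _ hx f => freeze hx f)
  obtain ⟨x, hx⟩ := start
  obtain ⟨y, -, h, -⟩ := grow hx (fun y _ _ => by
    unfold rr; rw [NN_zero, finrank_bot]; exact Nat.zero_le _)
  exact ⟨y, h⟩

end Crest.Agent.R180
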