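import Crest.Agent.R180.LU0
import Crest.Agent.R180.Key

set_option autoImplicit false

namespace Crest.Agent.R180

open Module Polynomial

/-- the point at the end of an arc -/
@[reducible] noncomputable def Pt.arc (x : Pt) (J' : Finset ℕ) (w' : Vec (Lau x.K))
    (S' : ℕ → Tm (Lau x.K)) (R' : ℕ → Submodule (Lau x.K) (Tw (Lau x.K))) : Pt :=
  { K := Lau x.K, J := J', w := w', S := S', R := R' }

structure IsStep (na nc : ℕ) (x : Pt) (J' : Finset ℕ) (w' : Vec (Lau x.K))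
    (S' : ℕ → Tm (Lau x.K)) : Prop where
  sub : x.J ⊆ J'
  red : Red (lau x.K) w' x.w
  hS : ∀ i < na, S' i = (x.S i).map (lau x.K).ι
  const : ∀ i < nc, minpoly (Lau x.K) (ev w' (S' i)) =
    (minpoly x.K (ev x.w (x.S i))).map (lau x.K).ι

/-- chains of arcs -/
inductive Chain (G : Pt → Prop) (na nc : ℕ) (b : Pt) : (y : Pt) → ValExt b.K y.K → Prop
  | refl : Chain G na nc b b (ValExt.refl b.K)
  | step {y : Pt} {φ : ValExt b.K y.K} (J' : Finset ℕ) (w' : Vec (Lau y.K))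
      (S' : ℕ → Tm (Lau y.K)) (R' : ℕ → Submodule (Lau y.K) (Tw (Lau y.K))) :
      Chain G na nc b y φ → IsStep na nc y J' w' S' → G (y.arc J' w' S' R') →
      Chain G na nc b (y.arc J' w' S' R') (φ.comp (lau y.K))

section chain
variable {G G' : Pt → Prop} {na nc na' nc' : ℕ} {x y z : Pt} {φ : ValExt x.K y.K}

theorem Chain.trans {ψ : ValExt y.K z.K} (h1 : Chain G na nc x y φ) (h2 : Chain G na nc y z ψ) :
    Chain G na nc x z (φ.comp ψ) := by
  induction h2 with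
  | refl => rw [ValExt.comp_refl]; exact h1
  | step J' w' S' R' _ hs hG ih =>
    rw [← ValExt.comp_assoc]; exact Chain.step J' w' S' R' ih hs hG

theorem Chain.mono (h : Chain G na nc x y φ) (hG : ∀ z, G z → G' z) (ha : na' ≤ na)
    (hc : nc' ≤ nc) : Chain G' na' nc' x y φ := by
  induction h with
  | refl => exact Chain.refl
  | step J' w' S' R' _ hs hg ih =>
    exact Chain.step J' w' S' R' ih ⟨hs.sub, hs.red, fun i hi => hs.hS i (by omega),
      fun i hi => hs.const i (by omega)⟩ (hG _ hg)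

theorem Chain.red (h : Chain G na nc x y φ) : Red φ y.w x.w := by
  induction h with
  | refl => exact fun j => Red_refl_Tw.2 rfl
  | step J' w' S' R' _ hs hg ih => exact fun j => (hs.red j).comp_Tw (ih j)

theorem Chain.sub (h : Chain G na nc x y φ) : x.J ⊆ y.J := by
  induction h with
  | refl => exact subset_rfl
  | step J' w' S' R' _ hs hg ih => exact ih.trans hs.sub

theorem Chain.good (h : Chain G na nc x y φ) (hx : G x) : G y := by
  cases h with
  | refl => exact hx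
  | step J' w' S' R' _ hs hg => exact hg

theorem Chain.hS (h : Chain G na nc x y φ) : ∀ i < na, y.S i = (x.S i).map φ.ι := by
  induction h with
  | refl => exact fun i _ => (Tm.map_id _).symm
  | step J' w' S' R' _ hs hg ih =>
    intro i hi
    change S' i = _
    rw [hs.hS i hi, ih i hi, Tm.map_map]; rfl

theorem Chain.single {J' : Finset ℕ} {w' : Vec (Lau x.K)} {S' : ℕ → Tm (Lau x.K)}
    {R' : ℕ → Submodule (Lau x.K) (Tw (Lau x.K))} (hs : IsStep na nc x J' w' S')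
    (hG : G (x.arc J' w' S' R')) : Chain G na nc x (x.arc J' w' S' R') (lau x.K) := by
  have := Chain.step J' w' S' R' Chain.refl hs hG
  rwa [ValExt.refl_comp] at this

end chain

noncomputable def rr (n : ℕ) (x : Pt) : ℕ := finrank x.K (NN x.J x.w x.S x.R n)

def kp (r : ℕ) : ℕ := 2 * r ^ 2 + 2 * r + 2

def NiceDim (n : ℕ) (x : Pt) (k : ℕ) : Prop :=
  ∃ H ≤ VV x.J x.w x.S n, k ≤ finrank x.K H ∧
    Nice (Al x.w x.S n) (NN x.J x.w x.S x.R n) H (VV x.J x.w x.S n)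

structure Core (n : ℕ) (x : Pt) : Prop where
  mem : x.w ∈ base x.K (Vec x.K) x.J
  gen : Gen x.J x.w
  sz : 2 * NJ x.J + kp (rr n x) + 2 < NJ x.J ^ 2
  nice : NiceDim n x (kp (rr n x))

def Stable (G : Pt → Prop) (n : ℕ) (x : Pt) : Prop :=
  ∀ y φ, Chain G n (n - 1) x y φ → rr n x ≤ rr n y

structure Str' (G : Pt → Prop) (n : ℕ) (x : Pt) : Prop where
  good : G x
  big : NiceDim n x ((rr n x + 1) * NJ x.J + kp (rr n x))
  stable : Stable G n x

structure Tri (i : ℕ) (x : Pt) : Prop where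
  le : x.R i ≤ CC x.J x.w x.S i
  inf : PP x.J x.w x.S i (x.S i) ⊓ x.R i = ⊥
  sup : CC x.J x.w x.S i ≤ PP x.J x.w x.S i (x.S i) ⊔ x.R i ⊔ LL x.w x.S i
  cost : 2 ^ (i + 2) * finrank x.K (CC x.J x.w x.S i) ≤
    NJ x.J ^ 2 + 2 ^ (i + 2) * finrank x.K (x.R i)

def MinAt (G : Pt → Prop) (n : ℕ) (b : Pt) (f : Tm b.K) : Prop :=
  ∀ y φ, Chain G n n b y φ → P0 y.J y.w y.S n (f.map φ.ι) ≠ ⊥ →
    dgr (ev y.w (f.map φ.ι)) * NJ b.J ≤ dgr (ev b.w f) * NJ y.J ∧
    (dgr (ev y.w (f.map φ.ι)) * NJ b.J = dgr (ev b.w f) * NJ y.J →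
      finrank y.K (L0f (P0 y.J y.w y.S n (f.map φ.ι))) * NJ b.J ≤
        finrank b.K (L0f (P0 b.J b.w b.S n f)) * NJ y.J)

structure Base (G : Pt → Prop) (n : ℕ) (b : Pt) (f : Tm b.K) : Prop where
  mem : b.w ∈ base b.K (Vec b.K) b.J
  le : PP b.J b.w b.S n f ≤ Subalgebra.toSubmodule (Lf (ev b.w f))
  ne : PP b.J b.w b.S n f ≠ ⊥
  min : MinAt G n b f

structure LB (n : ℕ) (b : Pt) (f : Tm b.K) (x : Pt) (φ : ValExt b.K x.K) : Prop where
  hS : x.S n = f.map φ.ι
  lb1 : lead φ (x.R n) ≤ Tens (x.J \ b.J) (Rb b.J (ev b.w f) (PP b.J b.w b.S n f))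
  lb2 : Rb b.J (ev b.w f) (PP b.J b.w b.S n f) ⊓ Subalgebra.toSubmodule (Lf (ev b.w f)) ≤
    lead φ (x.R n ⊓ LL x.w x.S n)
  jj : Tens (x.J \ b.J) (PP b.J b.w b.S n f) ≤ lead φ (PP x.J x.w x.S n (x.S n))

def New (G : Pt → Prop) (n : ℕ) (x : Pt) : Prop :=
  Tri n x ∧ ∃ (b : Pt) (f : Tm b.K) (φ : ValExt b.K x.K), Chain G n n b x φ ∧ Base G n b f ∧
    LB n b f x φ

def Good : ℕ → Pt → Prop
  | 0 => Core 0
  | n + 1 => fun x => Core (n + 1) x ∧ Str' (Good n) n x ∧ New (Str' (Good n) n) n x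

def Str (n : ℕ) : Pt → Prop := Str' (Good n) n

variable {n : ℕ} {x : Pt}

theorem Good.core (h : Good n x) : Core n x := by
  cases n with
  | zero => exact h
  | succ n => exact h.1

theorem Good.str (h : Good (n + 1) x) : Str n x := h.2.1

theorem Good.new (h : Good (n + 1) x) : New (Str n) n x := h.2.2

theorem Good.mono {m : ℕ} (h : Good m x) (hn : n ≤ m) : Good n x := by
  induction hn with
  | refl => exact h
  | step _ ih => exact ih h.str.good

theorem Str.mono {m : ℕ} (h : Str m x) (hn : n ≤ m) : Str n x := by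
  rcases eq_or_lt_of_le hn with rfl | h1
  · exact h
  · exact (h.good.mono h1).str

theorem Good.tri (h : Good n x) : ∀ i < n, Tri i x := fun _ hi => (h.mono hi).new.1

theorem Good.locC (h : Good n x) {U : ℕ → Submodule x.K (Tw x.K)}
    (hU : IsU x.J x.w x.S x.R n U) : LocC x.J x.w x.S x.R n U :=
  ⟨h.core.mem, fun i hi => (h.tri i hi).le, fun i hi => (h.tri i hi).inf, hU⟩

theorem Good.exists_U (h : Good n x) : ∃ U, LocC x.J x.w x.S x.R n U := by
  obtain ⟨U, hU⟩ := exists_IsU (fun i hi => (h.tri i hi).sup)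
  exact ⟨U, h.locC hU⟩

theorem Good.finrank_V (h : Good n x) : 3 * NJ x.J ^ 2 ≤ 2 * finrank x.K (VV x.J x.w x.S n) := by
  have key : ∀ k ≤ n, 2 ^ (k + 1) * ∑ i ∈ Finset.range k, finrank x.K (CC x.J x.w x.S i) +
      NJ x.J ^ 2 ≤ 2 ^ k * NJ x.J ^ 2 + 2 ^ (k + 1) * ∑ i ∈ Finset.range k, finrank x.K (x.R i) := by
    intro k
    induction k with
    | zero => simp
    | succ k ih =>
      intro hk
      have h1 := ih (by omega)
      have h2 := (h.tri k hk).cost
      rw [Finset.sum_range_succ, Finset.sum_range_succ]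
      simp only [pow_succ, mul_add] at h1 h2 ⊢
      nlinarith
  have h1 := key n le_rfl
  have h2 := finrank_VV h.core.mem (fun i hi => (h.tri i hi).le) (fun i hi => (h.tri i hi).inf)
  have h3 : 2 * ∑ i ∈ Finset.range n, finrank x.K (CC x.J x.w x.S i) ≤
      NJ x.J ^ 2 + 2 * ∑ i ∈ Finset.range n, finrank x.K (x.R i) := by
    apply Nat.le_of_mul_le_mul_left _ (pow_pos two_pos n)
    rw [pow_succ] at h1
    nlinarith
  omega

theorem comm_arcC {K : Type} [Field K] [Algebra Z0 K] [Dom K] {J : Finset ℕ} {w : Vec K}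
    {S : ℕ → Tm K} {R : ℕ → Submodule K (Tw K)} {τ : Vec K} (hτ : τ ∈ VV J w S n) :
    ArcC J ∅ w S R n τ ⊥ where
  disj := Finset.disjoint_empty_right _
  mem := by rwa [Finset.union_empty]
  le := bot_le
  a2 b hb h0 := by
    have := TT_le_base (NN_le hb)
    rw [Finset.union_empty] at this
    rw [cmp_zero_of_mem this] at h0
    simp [h0]
  a3 b hb _ := by
    have := TT_le_base (NN_le hb)
    rwa [Finset.union_empty] at this
  gc := by
    rw [Finset.union_empty]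
    exact fun d hd => Algebra.subset_adjoin (Or.inl hd)

theorem NJ_empty : NJ ∅ = 1 := rfl

theorem core_arc {E : Finset ℕ} {τ : Vec x.K} {X : Submodule x.K (Vec x.K)}
    {U : ℕ → Submodule x.K (Tw x.K)} {w' : Vec (Lau x.K)} {q : ℕ → (Lau x.K)[X]}
    {S' : ℕ → Tm (Lau x.K)} {R' : ℕ → Submodule (Lau x.K) (Tw (Lau x.K))}
    (hx : Core n x) (h : ArcEnd x.J E x.w x.S x.R n U τ w' q) (hA : ArcC x.J E x.w x.S x.R n τ X)
    (hL : LocC x.J x.w x.S x.R n U) (hl : ∀ i < n, Lift1 x.J E x.w x.S x.R w' S' R' i)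
    (hPR : ∀ i < n, PP (x.J ∪ E) w' S' i (S' i) ⊓ R' i = ⊥) :
    Core n (x.arc (x.J ∪ E) w' S' R') := by
  have hr : rr n (x.arc (x.J ∪ E) w' S' R') ≤ rr n x := h.rank_le hA hL hl
  have hE := NJ_pos E
  refine ⟨h.1.mem, h.1.gen hA hx.gen, ?_, ?_⟩
  · have h1 := hx.sz
    have h2 : NJ x.J ≤ NJ (x.J ∪ E) := by rw [NJ_union hA.disj]; exact Nat.le_mul_of_pos_right _ hE
    have h3 : kp (rr n (x.arc (x.J ∪ E) w' S' R')) ≤ kp (rr n x) := by
      unfold kp; nlinarith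
    have h4 : 2 ≤ NJ x.J := by
      by_contra h5
      have : NJ x.J ≤ 1 := by omega
      nlinarith
    change 2 * NJ (x.J ∪ E) + _ + 2 < NJ (x.J ∪ E) ^ 2
    nlinarith
  · obtain ⟨H, h1, h2, h3⟩ := hx.nice
    obtain ⟨H', h4, h5, h6⟩ := h.nice hA hL hl hPR h1 h3
    refine ⟨H', h4, ?_, h6⟩
    change _ ≤ _ + (rr n x + 1) * (NJ E ^ 2 * rr n x - rr n (x.arc (x.J ∪ E) w' S' R')) at h5
    change _ ≤ finrank (Lau x.K) H'
    generalize rr n (x.arc (x.J ∪ E) w' S' R') = r' at *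
    generalize rr n x = r at *
    obtain ⟨e, he⟩ : ∃ e, NJ E ^ 2 = e + 1 := ⟨NJ E ^ 2 - 1, by have := pow_pos hE 2; omega⟩
    obtain ⟨t, rfl⟩ := Nat.exists_eq_add_of_le hr
    rw [he, show (e + 1) * (r' + t) - r' = e * (r' + t) + t by
      rw [add_mul, one_mul]; omega] at h5
    unfold kp at h2 ⊢
    nlinarith [Nat.mul_le_mul_left (e + 1) h2, Nat.zero_le (e * r'), Nat.zero_le (e * t),
      Nat.zero_le (e * r' * r'), Nat.zero_le (e * t * t), Nat.zero_le (e * r' * t),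
      Nat.zero_le (r' * t), Nat.zero_le (t * t)]

end Crest.Agent.R180
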