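import Crest.Agent.R180.KeyDefs

set_option autoImplicit false

/-! Polynomial curves, generic independence and the derivative argument (helper3). -/

namespace Crest.Agent.R180

open Module Polynomial

section PC
variable {K : Type} [Field K]

/-- polynomial curves in a vector space -/
inductive PC {M : Type} [AddCommGroup M] [Module K M] : (K → M) → Prop
  | const (m : M) : PC (fun _ => m)
  | add {u v : K → M} : PC u → PC v → PC (fun t => u t + v t)
  | tmul {u : K → M} : PC u → PC (fun t => t • u t)

variable {M : Type} [AddCommGroup M] [Module K M]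

theorem PC.map {M' : Type} [AddCommGroup M'] [Module K M'] (f : M →ₗ[K] M') {u : K → M}
    (h : PC u) : PC (fun t => f (u t)) := by
  induction h with
  | const m => exact PC.const _
  | add _ _ h1 h2 => simp only [map_add]; exact h1.add h2
  | tmul _ h1 => simp only [map_smul]; exact h1.tmul

theorem PC.poly {u : K → K} (h : PC u) : ∃ q : K[X], ∀ t, q.eval t = u t := by
  induction h with
  | const m => exact ⟨C m, fun t => by simp⟩
  | add _ _ h1 h2 =>
    obtain ⟨q1, h1⟩ := h1
    obtain ⟨q2, h2⟩ := h2
    exact ⟨q1 + q2, fun t => by simp [h1, h2]⟩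
  | tmul _ h1 =>
    obtain ⟨q1, h1⟩ := h1
    exact ⟨X * q1, fun t => by simp [h1]⟩

theorem PC.mul {A : Type} [Ring A] [Algebra K A] {u v : K → A} (hu : PC u) (hv : PC v) :
    PC (fun t => u t * v t) := by
  induction hu with
  | const m => exact hv.map (LinearMap.mulLeft K m)
  | add _ _ h1 h2 => simp only [add_mul]; exact h1.add h2
  | tmul _ h1 => simp only [smul_mul_assoc]; exact h1.tmul

theorem PC.pow {A : Type} [Ring A] [Algebra K A] {u : K → A} (hu : PC u) (n : ℕ) :
    PC (fun t => u t ^ n) := by
  induction n with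
  | zero => simp only [pow_zero]; exact PC.const _
  | succ n ih => simp only [pow_succ]; exact ih.mul hu

theorem PC.line (x y : M) : PC (fun t : K => x + t • y) := (PC.const x).add (PC.const y).tmul

/-- generic independence -/
theorem exists_indep [Infinite K] {ι : Type} [Fintype ι] {v : ι → K → M} (hv : ∀ i, PC (v i))
    (h0 : LinearIndependent K (fun i => v i 0)) :
    ∃ t : K, t ≠ 0 ∧ LinearIndependent K (fun i => v i t) := by
  classical
  obtain ⟨g, hg⟩ := LinearMap.exists_leftInverse_of_injective
    (Fintype.linearCombination K (fun i => v i 0))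
    (LinearMap.ker_eq_bot.2 h0.fintypeLinearCombination_injective)
  have hg' : ∀ i, g (v i 0) = Pi.single i 1 := by
    intro i
    have := LinearMap.congr_fun hg (Pi.single i 1)
    simpa [Fintype.linearCombination_apply_single] using this
  choose Q hQ using fun i j => ((hv i).map ((LinearMap.proj j) ∘ₗ g)).poly
  have hdet : ∀ t, (Matrix.of Q).det.eval t = (Matrix.of fun i j => g (v i t) j).det := by
    intro t
    rw [← Polynomial.coe_evalRingHom, RingHom.map_det]
    congr 1
    ext i j
    simpa using hQ i j t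
  have hne : (Matrix.of Q).det ≠ 0 := by
    intro h
    have := hdet 0
    rw [h, eval_zero] at this
    have h1 : (Matrix.of fun i j => g (v i 0) j) = 1 := by
      ext i j
      rw [Matrix.of_apply, hg', Matrix.one_apply, Pi.single_apply]
      simp only [eq_comm]
    rw [h1, Matrix.det_one] at this
    exact zero_ne_one this
  have hne' : X * (Matrix.of Q).det ≠ 0 := mul_ne_zero X_ne_zero hne
  obtain ⟨t, ht⟩ := (X * (Matrix.of Q).det).exists_eval_ne_zero_of_natDegree_lt_card hne'
    (lt_of_lt_of_le (Cardinal.natCast_lt_aleph0) (Cardinal.aleph0_le_mk K))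
  rw [eval_mul, eval_X, hdet] at ht
  refine ⟨t, left_ne_zero_of_mul ht, ?_⟩
  have := Matrix.linearIndependent_rows_of_det_ne_zero (right_ne_zero_of_mul ht)
  exact LinearIndependent.of_comp g this

end PC

variable {K : Type} [Field K] [Algebra Z0 K]

theorem infinite_K : Infinite K :=
  haveI : CharZero K := charZero_K
  inferInstance

theorem pow_expand (θ γ : Tw K) (j : ℕ) : ∃ R : K → Tw K, PC R ∧
    ∀ t : K, (θ + t • γ) ^ j = θ ^ j + t • (Delk θ j γ + t • R t) := by
  induction j with
  | zero => exact ⟨fun _ => 0, PC.const _, fun t => by simp [Delk_zero]⟩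
  | succ j ih =>
    obtain ⟨R, hR, h⟩ := ih
    refine ⟨fun t => R t * θ + (Delk θ j γ + t • R t) * γ,
      (hR.mul (PC.const _)).add (((PC.const _).add hR.tmul).mul (PC.const _)), fun t => ?_⟩
    rw [pow_succ, h, Delk_succ, pow_succ]
    simp only [add_mul, mul_add, smul_add, smul_mul_assoc, mul_smul_comm]
    abel

theorem aeval_expand (θ γ : Tw K) (q : K[X]) : ∃ R : K → Tw K, PC R ∧
    ∀ t : K, aeval (θ + t • γ) q = aeval θ q + t • (Del θ q γ + t • R t) := by
  induction q using Polynomial.induction_on' with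
  | add p q hp hq =>
    obtain ⟨R, hR, h⟩ := hp
    obtain ⟨R', hR', h'⟩ := hq
    refine ⟨fun t => R t + R' t, hR.add hR', fun t => ?_⟩
    simp only [map_add, h, h', LinearMap.add_apply, smul_add]
    abel
  | monomial k c =>
    obtain ⟨R, hR, h⟩ := pow_expand θ γ k
    refine ⟨fun t => c • R t, hR.map (c • LinearMap.id), fun t => ?_⟩
    rw [Del_monomial, aeval_monomial, aeval_monomial, ← Algebra.smul_def, ← Algebra.smul_def, h]
    simp only [LinearMap.smul_apply, smul_add, smul_smul, mul_comm c, mul_assoc]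

theorem card_le_of_indep {ι : Type} [Fintype ι] {v : ι → Tw K} (hv : LinearIndependent K v)
    {A : Subalgebra K (Tw K)} [FiniteDimensional K A] (h : ∀ i, v i ∈ A) :
    Fintype.card ι ≤ finrank K A := by
  have : LinearIndependent K (fun i => (⟨v i, h i⟩ : A)) :=
    LinearIndependent.of_comp A.val.toLinearMap hv
  exact this.fintype_card_le_finrank

theorem dgr_le_finrank {A : Subalgebra K (Tw K)} [FiniteDimensional K A] {x : Tw K} (hx : x ∈ A) :
    dgr x ≤ finrank K A := by
  rw [← finrank_Lf]
  have : FiniteDimensional K (Subalgebra.toSubmodule A) := ‹FiniteDimensional K A›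
  exact Submodule.finrank_mono (s := Subalgebra.toSubmodule (Lf x))
    (t := Subalgebra.toSubmodule A) (Lf_le hx)

theorem indep_pow (θ : Tw K) : LinearIndependent K (fun i : Fin (dgr θ) => θ ^ (i : ℕ)) :=
  linearIndependent_pow (K := K) θ

/-- the degree does not drop generically -/
theorem exists_dgr_le (θ η : Tw K) : ∃ t : K, t ≠ 0 ∧ dgr θ ≤ dgr (θ + t • η) := by
  have : Infinite K := infinite_K
  obtain ⟨t, ht, h⟩ := exists_indep (ι := Fin (dgr θ))
    (v := fun i t => (θ + t • η) ^ (i : ℕ)) (fun i => (PC.line θ η).pow _)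
    (by
      have e : θ + (0 : K) • η = θ := by rw [zero_smul, add_zero]
      show LinearIndependent K (fun i : Fin (dgr θ) => (θ + (0 : K) • η) ^ (i : ℕ))
      rw [e]; exact indep_pow θ)
  refine ⟨t, ht, ?_⟩
  have := card_le_of_indep h (A := Lf (θ + t • η)) (fun i => pow_mem (self_mem_Lf _) _)
  rwa [Fintype.card_fin, finrank_Lf] at this

variable [Dom K]

/-- the derivative argument -/
theorem pia_mem_Lf {θ γ : Tw K} (h : ∀ t : K, t ≠ 0 → dgr (θ + t • γ) ≤ dgr θ) :
    pia θ γ ∈ Lf θ := by
  have : Infinite K := infinite_K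
  obtain ⟨R, hR, hE⟩ := aeval_expand θ γ (minpoly K θ)
  rw [pia_apply]
  refine mul_mem (inv_mem_Lf (pd_mem_Lf θ)) ?_
  by_contra hD
  obtain ⟨t, ht, hi⟩ := exists_indep (ι := Option (Fin (dgr θ)))
    (v := fun i t => Option.elim i (Del θ (minpoly K θ) γ + t • R t)
      (fun i => (θ + t • γ) ^ (i : ℕ)))
    (by
      rintro (_ | i)
      · exact (PC.const _).add hR.tmul
      · exact (PC.line θ γ).pow _)
    (by
      rw [linearIndependent_option]
      constructor
      · simp only [Function.comp_def, Option.elim, zero_smul, add_zero]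
        exact indep_pow θ
      · intro hm
        apply hD
        have hle : Submodule.span K (Set.range ((fun i : Option (Fin (dgr θ)) =>
            Option.elim i (Del θ (minpoly K θ) γ + (0 : K) • R 0)
              (fun i => (θ + (0 : K) • γ) ^ (i : ℕ))) ∘ some)) ≤
            Subalgebra.toSubmodule (Lf θ) := by
          rw [Submodule.span_le]
          rintro _ ⟨i, rfl⟩
          simpa using pow_mem (self_mem_Lf θ) _
        simpa using hle hm)
  have := card_le_of_indep hi (A := Lf (θ + t • γ)) (by
    rintro (_ | i)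
    · have h1 := aeval_mem_Lf (θ + t • γ) (minpoly K θ)
      rw [hE, minpoly.aeval, zero_add] at h1
      have h2 := Subalgebra.smul_mem _ h1 t⁻¹
      rwa [smul_smul, inv_mul_cancel₀ ht, one_smul] at h2
    · exact pow_mem (self_mem_Lf _) _)
  rw [Fintype.card_option, Fintype.card_fin, finrank_Lf] at this
  have := h t ht
  omega

/-- primitive elements in commutative subspaces -/
theorem exists_prim_sub {A : Subalgebra K (Tw K)} [FiniteDimensional K A]
    {Y : Submodule K (Tw K)} (hY : Y ≤ Subalgebra.toSubmodule A)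
    (hc : ∀ x ∈ Y, ∀ y ∈ Y, x * y = y * x) : ∃ θ ∈ Y, ∀ y ∈ Y, y ∈ Lf θ := by
  have hb : BddAbove (dgr '' (Y : Set (Tw K))) := by
    refine ⟨finrank K A, ?_⟩
    rintro _ ⟨y, hy, rfl⟩
    exact dgr_le_finrank (hY hy)
  obtain ⟨θ, hθ, hm⟩ := Nat.sSup_mem (s := dgr '' (Y : Set (Tw K))) ⟨_, 0, Y.zero_mem, rfl⟩ hb
  refine ⟨θ, hθ, fun y hy => ?_⟩
  have := pia_mem_Lf (θ := θ) (γ := y) (fun t _ => by
    rw [hm]
    exact le_csSup hb ⟨_, Y.add_mem hθ (Y.smul_mem t hy), rfl⟩)
  rwa [pia_of_comm (hc θ hθ y hy)] at this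

end Crest.Agent.R180
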