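import Crest.Agent.R180.KeyA

set_option autoImplicit false

/-! Auxiliary lemmas for `Key.lean` (helper3). -/

namespace Crest.Agent.R180

open Module Polynomial

variable {K : Type} [Field K] [Algebra Z0 K] [Dom K]

theorem mul_mem_Tens {E : Finset ℕ} {W : Submodule K (Tw K)} {z w : Tw K} (hz : z ∈ DJ K E)
    (hw : w ∈ W) : z * w ∈ Tens E W := by
  induction hz using DJ_induction with
  | h0 => simp
  | hadd a b _ _ ha hb => rw [add_mul]; exact add_mem ha hb
  | hm g c hg =>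
    rw [smul_mul_assoc]
    exact Submodule.smul_mem _ _ (smul_mem_Tens (M := Tw K) hg hw)

theorem DJ_mem_Tens {E : Finset ℕ} (A : Subalgebra K (Tw K)) {z : Tw K} (hz : z ∈ DJ K E) :
    z ∈ Tens E (Subalgebra.toSubmodule A) := by
  have := mul_mem_Tens (W := Subalgebra.toSubmodule A) hz A.one_mem
  rwa [mul_one] at this

theorem tr_mul_Tens {J E : Finset ℕ} (h : Disjoint J E) {W : Submodule K (Tw K)}
    (hW : W ≤ Subalgebra.toSubmodule (DJ K J)) {c : Tw K} (hc : c ∈ DJ K J)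
    (h0 : ∀ w ∈ W, tr (c * w) = 0) {x : Tw K} (hx : x ∈ Tens E W) : tr (c * x) = 0 := by
  induction hx using Tens_induction with
  | h0 => simp
  | hadd a b _ _ ha hb => rw [mul_add, map_add, ha, hb, add_zero]
  | hm z hz w hw =>
    rw [smul_eq_mul, ← mul_assoc, ← mo_comm_DJ h hz hc, mul_assoc,
      tr_mo_mul_of_disj h hz (mul_mem hc (hW hw)), h0 w hw, ite_self]

theorem comm_Tens {J E : Finset ℕ} (h : Disjoint J E) {W : Submodule K (Tw K)}
    {c : Tw K} (hc : c ∈ DJ K J) (h0 : ∀ w ∈ W, c * w = w * c) {x : Tw K} (hx : x ∈ Tens E W) :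
    c * x = x * c := by
  induction hx using Tens_induction with
  | h0 => simp
  | hadd a b _ _ ha hb => rw [mul_add, add_mul, ha, hb]
  | hm z hz w hw =>
    rw [smul_eq_mul, ← mul_assoc, ← mo_comm_DJ h hz hc, mul_assoc, h0 w hw, mul_assoc]

theorem prj_TA {J E : Finset ℕ} (h : Disjoint J E) {A : Subalgebra K (Tw K)} (hA : A ≤ DJ K J)
    {x : Tw K} (hx : x ∈ DJ K J) : prj (TA h hA) x = prj A x := by
  have := fd_of_le hA
  have := fd_of_le (TA_le h hA)
  refine prj_eq _ (le_Tens E _ (prj_mem A x)) fun y hy => ?_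
  rw [← sub_eq_zero, ← map_sub, ← sub_mul]
  refine tr_mul_Tens h (W := Subalgebra.toSubmodule A) hA (sub_mem (hA (prj_mem A x)) hx)
    (fun w hw => ?_) hy
  rw [sub_mul, map_sub, tr_prj_mul A x hw, sub_self]

theorem prj_DJ_mem {E : Finset ℕ} {a : Tw K}
    {P : Submodule K (Tw K)} (hP : P ≤ Subalgebra.toSubmodule (Lf a))
    {p : Tw K} (hp : p ∈ P) (hp0 : p ≠ 0) {F F0 : Subalgebra K (Tw K)} [FiniteDimensional K F]
    (haF : a ∈ F) (hr : ∀ x ∈ Tens E P, prj F x * p⁻¹ ∈ F0) {m : Tw K} (hm : m ∈ DJ K E) :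
    prj F m ∈ F0 := by
  have := hr _ (mul_mem_Tens hm hp)
  rwa [prj_mul_right F (Lf_le haF (hP hp)), mul_assoc, mul_inv_cancel₀ hp0, mul_one] at this

theorem lower_sub {E : Finset ℕ} {a : Tw K}
    {P : Submodule K (Tw K)} (hP : P ≤ Subalgebra.toSubmodule (Lf a))
    {F : Subalgebra K (Tw K)} [FiniteDimensional K F] (haF : a ∈ F)
    (hF : Subalgebra.toSubmodule F ≤ Tens E (Subalgebra.toSubmodule (Lf a)))
    (hdim : finrank K F = dgr a * NJ E) (S : Submodule K (Tw K)) [FiniteDimensional K S]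
    (hS : ∀ z ∈ GJ E, ∀ c ∈ L0f P, prj F (mo z) * c ∈ S) :
    finrank K (L0f P) * NJ E ≤ finrank K S := by
  obtain ⟨e, l, hl, he, hsp, -⟩ := exists_basis_over (L0f_le hP : L0f P ≤ Lf a)
  rw [finrank_Lf] at he
  let Ψ : (Fin e → S) →ₗ[K] Tw K :=
    ∑ k, (LinearMap.mulRight K (l k) ∘ₗ S.subtype) ∘ₗ LinearMap.proj k
  have hΨ : ∀ c, Ψ c = ∑ k, (c k : Tw K) * l k := by
    intro c; simp [Ψ, LinearMap.sum_apply]
  have h1 : ∀ x ∈ Tens E (Subalgebra.toSubmodule (Lf a)), prj F x ∈ LinearMap.range Ψ := by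
    intro x hx
    induction hx using Tens_induction with
    | h0 => simp
    | hadd a b _ _ ha hb => rw [map_add]; exact add_mem ha hb
    | hm z hz w hw =>
      obtain ⟨c, hc, rfl⟩ := hsp w hw
      refine ⟨fun k => ⟨prj F (mo z) * c k, hS z hz _ (hc k)⟩, ?_⟩
      rw [hΨ, smul_eq_mul, prj_mul_right F (Lf_le haF hw), Finset.mul_sum]
      simp only [mul_assoc]
  have h2 : Subalgebra.toSubmodule F ≤ LinearMap.range Ψ := by
    intro x hx
    have := h1 x (hF hx)
    rwa [prj_of_mem F hx] at this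
  have h3 : finrank K F ≤ e * finrank K S := by
    refine le_trans (Submodule.finrank_mono h2) ((LinearMap.finrank_range_le Ψ).trans ?_)
    rw [Module.finrank_pi_fintype]
    simp
  have he0 : 0 < e := by
    have := dgr_pos a
    rw [← he] at this
    exact Nat.pos_of_mul_pos_right this
  rw [hdim, ← he, mul_assoc] at h3
  exact Nat.le_of_mul_le_mul_left h3 he0

/-- the commuting monomials -/
noncomputable def ug (E : Finset ℕ) (f : ∀ α : E, ZMod (ell α)) : GJ E :=
  (GJequiv E).symm fun α => (f α, 0)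

theorem ug_inj (E : Finset ℕ) : Function.Injective (ug E) := by
  intro f g h
  have := (GJequiv E).symm.injective h
  funext α
  exact (Prod.ext_iff.1 (congrFun this α)).1

theorem ug_true (E : Finset ℕ) (f : ∀ α : E, ZMod (ell α)) (α : ℕ) :
    (ug E f : G) ⟨α, true⟩ = 0 := by
  by_cases h : α ∈ E
  · have := congrFun ((GJequiv E).apply_symm_apply fun α => (f α, 0)) ⟨α, h⟩
    exact (Prod.ext_iff.1 this).2
  · exact (ug E f).2 _ h

theorem ug_comm (E : Finset ℕ) (f g : ∀ α : E, ZMod (ell α)) :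
    (mo (ug E f : G) : Tw K) * mo (ug E g : G) = mo (ug E g : G) * mo (ug E f : G) := by
  rw [mo_comm]
  have : eps K (ug E f : G) (ug E g : G) = 1 := by
    rw [eps_eq_one_iff, Bf_eq_zero_of_disj _ _ fun α => Or.inl (ug_true E f α),
      Bf_eq_zero_of_disj _ _ fun α => Or.inl (ug_true E g α)]
  rw [this, one_smul]

theorem finrank_ge_of_ug {J E : Finset ℕ} (hJE : Disjoint J E) {a : Tw K} (ha : a ∈ DJ K J)
    {B : Subalgebra K (Tw K)} [FiniteDimensional K B] (haB : a ∈ B)
    (hu : ∀ f, (mo (ug E f : G) : Tw K) ∈ B) : dgr a * NJ E ≤ finrank K B := by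
  classical
  let Ψ : ((∀ α : E, ZMod (ell α)) → Lf a) →ₗ[K] Tw K :=
    ∑ f, (LinearMap.mulLeft K (mo (ug E f : G)) ∘ₗ (Lf a).val.toLinearMap) ∘ₗ LinearMap.proj f
  have hΨ : ∀ c, Ψ c = ∑ f, mo (ug E f : G) * (c f : Tw K) := by
    intro c; simp [Ψ, LinearMap.sum_apply]
  have hinj : Function.Injective Ψ := by
    rw [← LinearMap.ker_eq_bot, LinearMap.ker_eq_bot']
    intro c hc
    funext f
    apply Subtype.ext
    have := congrArg (cmpT J (ug E f : G)) hc
    rw [hΨ, map_sum, map_zero, Finset.sum_eq_single f] at this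
    · rwa [cmpT_smul hJE (ug E f).2 (ug E f).2 (Lf_le ha (c f).2), if_pos rfl] at this
    · intro g _ hg
      rw [cmpT_smul hJE (ug E f).2 (ug E g).2 (Lf_le ha (c g).2), if_neg]
      intro h
      exact hg (ug_inj E (Subtype.ext h)).symm
    · simp
  have hle : LinearMap.range Ψ ≤ Subalgebra.toSubmodule B := by
    rintro _ ⟨c, rfl⟩
    rw [hΨ]
    exact B.sum_mem fun f _ => B.mul_mem (hu f) (Lf_le haB (c f).2)
  have : FiniteDimensional K (Subalgebra.toSubmodule B) := ‹FiniteDimensional K B›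
  have h1 := Submodule.finrank_mono hle
  rw [LinearMap.finrank_range_of_inj hinj, Module.finrank_pi_fintype] at h1
  simp only [Finset.sum_const, Finset.card_univ, smul_eq_mul, finrank_Lf, Fintype.card_pi,
    ZMod.card] at h1
  rw [Finset.prod_coe_sort E ell] at h1
  rw [mul_comm]
  exact h1

/-- Step 0 -/
theorem exists_big {J E : Finset ℕ} (hJE : Disjoint J E) {a : Tw K} (ha : a ∈ DJ K J)
    {p : Tw K} (hp : p ∈ Lf a) (hp0 : p ≠ 0) :
    ∃ (l : K) (z : Tw K), z ∈ DJ K E ∧ dgr a * NJ E ≤ dgr (l • a + z * p) := by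
  let U : Submodule K (Tw K) := Submodule.span K (Set.range fun f => (mo (ug E f : G) : Tw K))
  have hU : ∀ x ∈ U, x ∈ DJ K E := by
    intro x hx
    have : U ≤ Subalgebra.toSubmodule (DJ K E) := by
      rw [Submodule.span_le]
      rintro _ ⟨f, rfl⟩
      exact mo_mem_DJ (ug E f).2
    exact this hx
  have hUc : ∀ x ∈ U, ∀ y ∈ U, x * y = y * x := by
    intro x hx y hy
    induction hx using Submodule.span_induction with
    | mem x hx =>
      obtain ⟨f, rfl⟩ := hx
      induction hy using Submodule.span_induction with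
      | mem y hy => obtain ⟨g, rfl⟩ := hy; exact ug_comm E f g
      | zero => simp
      | add y y' _ _ h1 h2 => rw [mul_add, add_mul, h1, h2]
      | smul c y _ h1 => rw [mul_smul_comm, smul_mul_assoc, h1]
    | zero => simp
    | add x x' _ _ h1 h2 => rw [mul_add, add_mul, h1, h2]
    | smul c x _ h1 => rw [mul_smul_comm, smul_mul_assoc, h1]
  have hpJ : p ∈ DJ K J := Lf_le ha hp
  let Y : Submodule K (Tw K) :=
    { carrier := {y | ∃ (l : K), ∃ z ∈ U, y = l • a + z * p}
      add_mem' := by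
        rintro _ _ ⟨l, z, hz, rfl⟩ ⟨l', z', hz', rfl⟩
        exact ⟨l + l', z + z', U.add_mem hz hz', by rw [add_smul, add_mul]; abel⟩
      zero_mem' := ⟨0, 0, U.zero_mem, by simp⟩
      smul_mem' := by
        rintro c _ ⟨l, z, hz, rfl⟩
        exact ⟨c * l, c • z, U.smul_mem c hz, by rw [smul_add, smul_smul, smul_mul_assoc]⟩ }
  have hY : Y ≤ Subalgebra.toSubmodule (DJ K (J ∪ E)) := by
    rintro _ ⟨l, z, hz, rfl⟩
    exact (DJ K (J ∪ E)).add_mem
      (Subalgebra.smul_mem _ (DJ_mono Finset.subset_union_left ha) _)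
      (mul_mem (DJ_mono Finset.subset_union_right (hU z hz)) (DJ_mono Finset.subset_union_left hpJ))
  obtain ⟨θ, ⟨l, z, hz, rfl⟩, hθ⟩ := exists_prim_sub hY (by
    rintro _ ⟨l, z, hz, rfl⟩ _ ⟨l', z', hz', rfl⟩
    have c1 : Commute a p := Lf_comm (self_mem_Lf a) hp
    have c2 : Commute a z := (DJ_comm hJE ha (hU z hz)).symm
    have c3 : Commute a z' := (DJ_comm hJE ha (hU z' hz')).symm
    have c4 : Commute p z := (DJ_comm hJE hpJ (hU z hz)).symm
    have c5 : Commute p z' := (DJ_comm hJE hpJ (hU z' hz')).symm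
    have c6 : Commute z z' := hUc z hz z' hz'
    refine Commute.eq (Commute.add_left (Commute.smul_left (Commute.add_right
      ((Commute.refl a).smul_right _) (c3.mul_right c1)) _) (Commute.add_right
      (Commute.smul_right (c2.mul_right c1).symm _)
      (Commute.mul_left (c6.mul_right c4.symm) (c5.mul_right (Commute.refl p))))))
  refine ⟨l, z, hU z hz, ?_⟩
  rw [← finrank_Lf (l • a + z * p)]
  have haθ : a ∈ Lf (l • a + z * p) := hθ a ⟨1, 0, U.zero_mem, by simp⟩
  refine finrank_ge_of_ug hJE ha haθ fun f => ?_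
  have h1 := hθ (mo (ug E f : G) * p) ⟨0, _, Submodule.subset_span ⟨f, rfl⟩, by simp⟩
  have h2 := mul_mem h1 (inv_mem_Lf (Lf_le haθ hp))
  rwa [mul_assoc, mul_inv_cancel₀ hp0, mul_one] at h2

omit [Dom K] in
theorem dgr_smul {x : Tw K} {t : K} (ht : t ≠ 0) : dgr (t • x) = dgr x := by
  rw [← finrank_Lf, ← finrank_Lf]
  have : Lf (t • x) = Lf x := by
    apply le_antisymm
    · exact Lf_le (Subalgebra.smul_mem _ (self_mem_Lf x) _)
    · apply Lf_le
      have := Subalgebra.smul_mem _ (self_mem_Lf (t • x)) t⁻¹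
      rwa [smul_smul, inv_mul_cancel₀ ht, one_smul] at this
  rw [this]

theorem tr_mul_eq_zero_of_comm {E : Finset ℕ} {y : Tw K} (hy : ∀ m ∈ DJ K E, y * m = m * y)
    {z : G} (hz : z ∈ GJ E) (hz0 : z ≠ 0) : tr (y * (mo z)⁻¹) = 0 := by
  have h1 : prj (DJ K E) y = tr (prj (DJ K E) y) • (1 : Tw K) := by
    refine central_DJ (prj_mem _ y) fun g hg => ?_
    rw [← prj_mul_left _ (mo_mem_DJ hg), ← prj_mul_right _ (mo_mem_DJ hg), hy _ (mo_mem_DJ hg)]
  rw [← tr_prj_mul (DJ K E) y (mo_inv_mem hz), h1, smul_mul_assoc, one_mul, mo_inv, map_smul,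
    map_smul, tr_mo, if_neg (neg_ne_zero.2 hz0)]
  simp

end Crest.Agent.R180
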