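import Crest.Agent.R180.Pi

set_option autoImplicit false

namespace Crest.Agent.R180

open Module Polynomial

variable {K : Type} [Field K] [Algebra Z0 K] [Dom K]

/-- field of ratios -/
noncomputable def L0f (P : Submodule K (Tw K)) : Subalgebra K (Tw K) :=
  Algebra.adjoin K {z | ∃ x ∈ P, ∃ y ∈ P, z = x * y⁻¹}

/-- bulk complement -/
noncomputable def Rb (J : Finset ℕ) (a : Tw K) (P : Submodule K (Tw K)) : Submodule K (Tw K) where
  carrier := {c | c ∈ Cen J {a} ∧ ∀ x ∈ P, ∀ l ∈ L0f P, tr (c * (x⁻¹ * l)) = 0}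
  add_mem' := fun ha hb => ⟨add_mem ha.1 hb.1, fun x hx l hl => by
    rw [add_mul, map_add, ha.2 x hx l hl, hb.2 x hx l hl, add_zero]⟩
  zero_mem' := ⟨zero_mem _, fun x _ l _ => by simp⟩
  smul_mem' := fun c _ hy => ⟨Subalgebra.smul_mem _ hy.1 _, fun x hx l hl => by
    rw [smul_mul_assoc, map_smul, hy.2 x hx l hl, smul_zero]⟩

theorem ratio_mem_L0f {P : Submodule K (Tw K)} {x y : Tw K} (hx : x ∈ P) (hy : y ∈ P) :
    x * y⁻¹ ∈ L0f P := Algebra.subset_adjoin ⟨x, hx, y, hy, rfl⟩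

theorem L0f_le {P : Submodule K (Tw K)} {A : Subalgebra K (Tw K)} [FiniteDimensional K A]
    (h : P ≤ Subalgebra.toSubmodule A) : L0f P ≤ A := by
  apply Algebra.adjoin_le
  rintro _ ⟨x, hx, y, hy, rfl⟩
  exact A.mul_mem (h hx) (inv_mem_of_fd A (h hy))

theorem L0f_le_of {P : Submodule K (Tw K)} {A : Subalgebra K (Tw K)} [FiniteDimensional K A]
    {p : Tw K} (hp0 : p ≠ 0) (h : ∀ x ∈ P, x * p⁻¹ ∈ A) : L0f P ≤ A := by
  apply Algebra.adjoin_le
  rintro _ ⟨x, hx, y, hy, rfl⟩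
  have : x * y⁻¹ = (x * p⁻¹) * (y * p⁻¹)⁻¹ := by
    rw [mul_inv_rev, inv_inv, mul_assoc, ← mul_assoc p⁻¹, inv_mul_cancel₀ hp0, one_mul]
  rw [this]
  exact A.mul_mem (h x hx) (inv_mem_of_fd A (h y hy))

theorem fd_L0f {a : Tw K} {P : Submodule K (Tw K)} (hP : P ≤ Subalgebra.toSubmodule (Lf a)) :
    FiniteDimensional K (L0f P) :=
  Submodule.finiteDimensional_of_le (S₁ := Subalgebra.toSubmodule (L0f P))
    (S₂ := Subalgebra.toSubmodule (Lf a)) (L0f_le hP)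

theorem Rb_le (J : Finset ℕ) (a : Tw K) (P : Submodule K (Tw K)) :
    Rb J a P ≤ Subalgebra.toSubmodule (Cen J {a}) := fun _ h => h.1

instance (J : Finset ℕ) (a : Tw K) (P : Submodule K (Tw K)) : FiniteDimensional K (Rb J a P) :=
  Submodule.finiteDimensional_of_le (Rb_le J a P)

theorem mem_Rb {J : Finset ℕ} {a : Tw K} {P : Submodule K (Tw K)}
    (hP : P ≤ Subalgebra.toSubmodule (Lf a)) {p : Tw K} (hp : p ∈ P) (hp0 : p ≠ 0) {c : Tw K} :
    c ∈ Rb J a P ↔ c ∈ Cen J {a} ∧ ∀ l ∈ L0f P, tr (c * (p⁻¹ * l)) = 0 := by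
  refine ⟨fun h => ⟨h.1, h.2 p hp⟩, fun h => ⟨h.1, fun x hx l hl => ?_⟩⟩
  have : x⁻¹ * l = p⁻¹ * (p * x⁻¹ * l) := by
    rw [← mul_assoc, ← mul_assoc, inv_mul_cancel₀ hp0, one_mul]
  rw [this]
  exact h.2 _ (mul_mem (ratio_mem_L0f hp hx) hl)

/-- `Q = p L0` -/
noncomputable def Qf (P : Submodule K (Tw K)) (p : Tw K) : Submodule K (Tw K) :=
  (Subalgebra.toSubmodule (L0f P)).map (LinearMap.mulLeft K p)

theorem mem_Qf {P : Submodule K (Tw K)} {p x : Tw K} : x ∈ Qf P p ↔ ∃ l ∈ L0f P, p * l = x :=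
  Iff.rfl

theorem finrank_Qf (P : Submodule K (Tw K)) {p : Tw K} (hp0 : p ≠ 0) :
    finrank K (Qf P p) = finrank K (L0f P) :=
  (Submodule.equivMapOfInjective _ (mul_right_injective₀ hp0) _).finrank_eq.symm

theorem Qf_le {a : Tw K} {P : Submodule K (Tw K)} (hP : P ≤ Subalgebra.toSubmodule (Lf a))
    {p : Tw K} (hp : p ∈ Lf a) : Qf P p ≤ Subalgebra.toSubmodule (Lf a) := by
  rintro _ ⟨l, hl, rfl⟩
  exact (Lf a).mul_mem hp (L0f_le hP hl)

theorem le_Qf {a : Tw K} {P : Submodule K (Tw K)} (hP : P ≤ Subalgebra.toSubmodule (Lf a))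
    {p : Tw K} (hp : p ∈ P) (hp0 : p ≠ 0) : P ≤ Qf P p := by
  intro x hx
  refine ⟨x * p⁻¹, ratio_mem_L0f hx hp, ?_⟩
  rw [LinearMap.mulLeft_apply, ← mul_assoc, Lf_comm (hP hp) (hP hx), mul_assoc,
    mul_inv_cancel₀ hp0, mul_one]

theorem Rb_eq_perpIn {J : Finset ℕ} {a : Tw K} {P : Submodule K (Tw K)}
    (hP : P ≤ Subalgebra.toSubmodule (Lf a)) {p : Tw K} (hp : p ∈ P) (hp0 : p ≠ 0) :
    Rb J a P = perpIn (trB K) (Subalgebra.toSubmodule (Cen J {a})) (Qf P p⁻¹) := by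
  ext c
  rw [mem_Rb hP hp hp0, mem_perpIn]
  constructor
  · rintro ⟨h1, h2⟩; exact ⟨h1, by rintro _ ⟨l, hl, rfl⟩; exact h2 l hl⟩
  · rintro ⟨h1, h2⟩; exact ⟨h1, fun l hl => h2 _ ⟨l, hl, rfl⟩⟩

theorem finrank_Rb {J : Finset ℕ} {a : Tw K} (ha : a ∈ DJ K J) {P : Submodule K (Tw K)}
    (hP : P ≤ Subalgebra.toSubmodule (Lf a)) {p : Tw K} (hp : p ∈ P) (hp0 : p ≠ 0) :
    finrank K (Rb J a P) + finrank K (L0f P) = finrank K (Cen J {a}) := by
  rw [Rb_eq_perpIn hP hp hp0, ← finrank_Qf P (inv_ne_zero hp0)]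
  exact finrank_perpIn _ _ (trB_nondeg _)
    ((Qf_le hP (inv_mem_Lf (hP hp))).trans (Lf_le_Cen ha))

theorem Qf_inf_Rb {J : Finset ℕ} {a : Tw K} {P : Submodule K (Tw K)}
    (hP : P ≤ Subalgebra.toSubmodule (Lf a)) {p : Tw K} (hp : p ∈ P) (hp0 : p ≠ 0) :
    Qf P p ⊓ Rb J a P = ⊥ := by
  haveI := fd_L0f hP
  rw [eq_bot_iff]
  rintro _ ⟨⟨l, hl, rfl⟩, h2⟩
  have : l = 0 := by
    apply eq_zero_of_tr (L0f P) hl
    intro y hy
    have := h2.2 p hp y hy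
    rwa [LinearMap.mulLeft_apply, Lf_comm (hP hp) (L0f_le hP hl), mul_assoc, ← mul_assoc p,
      mul_inv_cancel₀ hp0, one_mul] at this
  simp [this]

theorem Qf_sup_Rb {J : Finset ℕ} {a : Tw K} (ha : a ∈ DJ K J) {P : Submodule K (Tw K)}
    (hP : P ≤ Subalgebra.toSubmodule (Lf a)) {p : Tw K} (hp : p ∈ P) (hp0 : p ≠ 0) :
    Qf P p ⊔ Rb J a P = Subalgebra.toSubmodule (Cen J {a}) := by
  have hQ : Qf P p ≤ Subalgebra.toSubmodule (Cen J {a}) := (Qf_le hP (hP hp)).trans (Lf_le_Cen ha)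
  haveI : FiniteDimensional K (Qf P p) := Submodule.finiteDimensional_of_le hQ
  apply Submodule.eq_of_le_of_finrank_eq (sup_le hQ (Rb_le _ _ _))
  have := Submodule.finrank_sup_add_finrank_inf_eq (Qf P p) (Rb J a P)
  rw [Qf_inf_Rb hP hp hp0, finrank_bot, finrank_Qf P hp0, add_zero, add_comm,
    finrank_Rb ha hP hp hp0] at this
  exact this

/-- `Tens` of a subalgebra as a subalgebra -/
noncomputable def TA {J E : Finset ℕ} (h : Disjoint J E) {A : Subalgebra K (Tw K)}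
    (hA : A ≤ DJ K J) : Subalgebra K (Tw K) :=
  (Tens E (Subalgebra.toSubmodule A)).toSubalgebra (le_Tens _ _ A.one_mem) (by
    intro x y hx hy
    induction hx using Tens_induction with
    | h0 => simp
    | hadd a b _ _ ha hb => rw [add_mul]; exact add_mem ha hb
    | hm z hz w hw =>
      induction hy using Tens_induction with
      | h0 => simp
      | hadd a b _ _ ha hb => rw [mul_add]; exact add_mem ha hb
      | hm z' hz' w' hw' =>
        have : (mo z : Tw K) • w * (mo z' : Tw K) • w' =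
            cc K z z' • ((mo (z + z') : Tw K) • (w * w')) := by
          simp only [smul_eq_mul]
          rw [← smul_mul_assoc, ← mo_mul, mul_assoc, ← mul_assoc w, ← mo_comm_DJ h hz' (hA hw)]
          simp only [mul_assoc]
        rw [this]
        exact Submodule.smul_mem _ _ (smul_mem_Tens (add_mem hz hz') (A.mul_mem hw hw')))

theorem mem_TA {J E : Finset ℕ} (h : Disjoint J E) {A : Subalgebra K (Tw K)}
    (hA : A ≤ DJ K J) {x : Tw K} : x ∈ TA h hA ↔ x ∈ Tens E (Subalgebra.toSubmodule A) := Iff.rfl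

theorem TA_le {J E : Finset ℕ} (h : Disjoint J E) {A : Subalgebra K (Tw K)}
    (hA : A ≤ DJ K J) : TA h hA ≤ DJ K (J ∪ E) :=
  fun _ hx => Tens_le_base (M := Tw K) (J := J) hA hx

theorem Cen_Tens {J E : Finset ℕ} (h : Disjoint J E) {a : Tw K} (ha : a ∈ DJ K J) :
    Tens E (Subalgebra.toSubmodule (Cen J {a})) = Subalgebra.toSubmodule (Cen (J ∪ E) {a}) := by
  apply le_antisymm
  · rw [Tens_le_iff]
    intro z hz x hx
    obtain ⟨h1, h2⟩ := mem_Cen_singleton.1 hx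
    refine mem_Cen_singleton.2 ⟨?_, mul_mem (mo_mem_DJ (GJ_mono Finset.subset_union_right hz))
      (DJ_mono Finset.subset_union_left h2)⟩
    rw [smul_eq_mul, ← mul_assoc, ← mo_comm_DJ h hz ha, mul_assoc, h1, mul_assoc]
  · intro x hx
    obtain ⟨h1, h2⟩ := mem_Cen_singleton.1 hx
    apply mem_Tens_of_cmp h h2
    intro z hz
    refine mem_Cen_singleton.2 ⟨?_, prJ_mem _ _⟩
    rw [cmp_Tw, ← cmpT_mul_left h hz ha, h1, cmpT_mul_right h hz ha h2]

end Crest.Agent.R180
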