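import Crest.Agent.R180.Ext

set_option autoImplicit false

namespace Crest.Agent.R180

open Module Polynomial

variable {K : Type} [Field K] [Algebra Z0 K] [Dom K]

theorem Od.succ_Vec {m : ℕ} {x : Vec (Lau K)} (h : Od (K := K) m x (0 : Vec K)) :
    ∃ a : Vec K, Od (K := K) (m + 1) x a := by
  choose a ha using fun j => (Od_Vec.1 h j).succ_Tw
  exact ⟨a, Od_Vec.2 ha⟩

theorem Od.mkFam {m n : ℕ} {c' : ℕ → Tw (Lau K)} {c : ℕ → Tw K}
    (h : ∀ i < n, Od (K := K) m (c' i) (c i)) : Od (K := K) m (mkFam n c') (mkFam n c) := by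
  rw [Od_iff, ← map_smul]
  exact Red.mkFam (fun i hi => Od_iff.1 (h i hi))

theorem Od.mul_left {m : ℕ} {x y : Tw (Lau K)} {a b : Tw K} (h1 : Red (lau K) x a)
    (h2 : Od (K := K) m y b) : Od (K := K) m (x * y) (a * b) := by
  rw [Od_iff] at h2 ⊢
  rw [← mul_smul_comm]; exact h1.mul h2

theorem Od.mem_lead {M' M : Type} [AddCommGroup M] [Module K M] [AddCommGroup M']
    [Module (Lau K) M'] [RedMod K (Lau K) M' M] {m : ℕ} {x : M'} {a : M} (h : Od (K := K) m x a)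
    {W : Submodule (Lau K) M'} (hx : x ∈ W) : a ∈ lead (lau K) W :=
  (Od_iff.1 h).mem_lead (W.smul_mem _ hx)

section
variable (J E : Finset ℕ) (w : Vec K) (S : ℕ → Tm K) (R : ℕ → Submodule K (Tw K))
  (w' : Vec (Lau K)) (S' : ℕ → Tm (Lau K)) (R' : ℕ → Submodule (Lau K) (Tw (Lau K)))

/-- lifted data for the `i`-th constraint -/
structure Lift1 (i : ℕ) : Prop where
  hS : S' i = (S i).map (lau K).ι
  le : R' i ≤ CC (J ∪ E) w' S' i
  ld : lead (lau K) (R' i) = Tens E (R i)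
  lf : R i ⊓ LL w S i ≤ lead (lau K) (R' i ⊓ LL w' S' i)

end

variable {J E : Finset ℕ} {w : Vec K} {S : ℕ → Tm K} {R : ℕ → Submodule K (Tw K)} {n : ℕ}
  {U : ℕ → Submodule K (Tw K)} {τ : Vec K} {X : Submodule K (Vec K)}
  {w' : Vec (Lau K)} {q : ℕ → (Lau K)[X]} {S' : ℕ → Tm (Lau K)}
  {R' : ℕ → Submodule (Lau K) (Tw (Lau K))}

theorem ArcEnd.minpoly (h : ArcEnd J E w S R n U τ w' q) {i : ℕ} (hi : i < n) :
    minpoly (Lau K) (ev w' ((S i).map (lau K).ι)) = pt w S q i := by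
  symm
  apply minpoly.unique_of_degree_le_degree_minpoly _ _ (h.1.degree_pt hi).1 (h.2 i hi)
  rw [degree_eq_natDegree (h.1.degree_pt hi).1.ne_zero, (h.1.degree_pt hi).2,
    degree_eq_natDegree (minpoly.ne_zero (isIntegral_Tw _))]
  exact_mod_cast ((TRed.map _ (S i)).ev h.1.red).dgr_le

theorem ArcEnd.cmp (h : ArcEnd J E w S R n U τ w' q) {i : ℕ} (hi : i < n) :
    Cmp (lau K) w' ((S i).map (lau K).ι) w (S i) :=
  ⟨h.1.red, TRed.map _ _, by rw [h.minpoly hi]; exact h.1.redP hi⟩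

theorem ArcEnd.cmp' (h : ArcEnd J E w S R n U τ w' q)
    (hl : ∀ i < n, Lift1 J E w S R w' S' R' i) : ∀ i < n, Cmp (lau K) w' (S' i) w (S i) :=
  fun i hi => by rw [(hl i hi).hS]; exact h.cmp hi

theorem exists_lift1 (hE : Disjoint J E) (hw : w ∈ base K (Vec K) J)
    (hw' : w' ∈ base (Lau K) (Vec (Lau K)) (J ∪ E)) {f : Tm K} {f' : Tm (Lau K)}
    (hc : Cmp (lau K) w' f' w f) {R0 : Submodule K (Tw K)}
    (hR : R0 ≤ Subalgebra.toSubmodule (Cen J {ev w f})) :
    ∃ R1 ≤ Subalgebra.toSubmodule (Cen (J ∪ E) {ev w' f'}), lead (lau K) R1 = Tens E R0 ∧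
      R0 ⊓ Subalgebra.toSubmodule (Lf (ev w f)) ≤
        lead (lau K) (R1 ⊓ Subalgebra.toSubmodule (Lf (ev w' f'))) := by
  haveI : FiniteDimensional K R0 := Submodule.finiteDimensional_of_le hR
  obtain ⟨W1, h1, h2, h3⟩ := exists_compl_in (show R0 ⊓ Subalgebra.toSubmodule (Lf (ev w f)) ≤
    Tens E R0 from inf_le_left.trans (le_Tens _ _))
  haveI : FiniteDimensional K W1 := Submodule.finiteDimensional_of_le h1
  obtain ⟨A, a1, a2, a3⟩ := exists_lift (φ := lau K)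
    (U := R0 ⊓ Subalgebra.toSubmodule (Lf (ev w f)))
    (W := Subalgebra.toSubmodule (Lf (ev w' f'))) (by rw [hc.lead_LL]; exact inf_le_right)
  obtain ⟨B, b1, b2, b3⟩ := exists_lift (φ := lau K) (U := W1)
    (W := Subalgebra.toSubmodule (Cen (J ∪ E) {ev w' f'})) (by
      rw [hc.lead_CC hw', ← Cen_Tens hE (ev_mem_DJ hw _)]
      exact h1.trans (Tens_mono subset_rfl hR))
  refine ⟨A ⊔ B, sup_le (a1.trans (Lf_le_Cen (ev_mem_DJ hw' _))) b1, ?_, ?_⟩
  · symm
    apply Submodule.eq_of_le_of_finrank_le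
    · rw [← h3, ← a3, ← b3]; exact lead_sup_ge _ _
    · have e1 := Submodule.finrank_sup_add_finrank_inf_eq
        (R0 ⊓ Subalgebra.toSubmodule (Lf (ev w f))) W1
      rw [h2, h3, finrank_bot, ← a3, ← b3, finrank_lead, finrank_lead] at e1
      rw [finrank_lead]
      exact (Submodule.finrank_add_le_finrank_add_finrank A B).trans (by omega)
  · rw [← a3]; exact lead_mono (le_inf le_sup_left a1)

theorem ArcEnd.exists_lift (h : ArcEnd J E w S R n U τ w' q) (hE : Disjoint J E)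
    (hL : LocC J w S R n U) (hS : ∀ i < n, S' i = (S i).map (lau K).ι) :
    ∃ R', ∀ i < n, Lift1 J E w S R w' S' R' i := by
  have : ∀ i, ∃ R1, i < n → (R1 ≤ CC (J ∪ E) w' S' i ∧ lead (lau K) R1 = Tens E (R i) ∧
      R i ⊓ LL w S i ≤ lead (lau K) (R1 ⊓ LL w' S' i)) := by
    intro i
    by_cases hi : i < n
    · obtain ⟨R1, h1⟩ := exists_lift1 hE hL.hw h.1.mem (f' := S' i) (by
        rw [hS i hi]; exact h.cmp hi) (hL.hR i hi)
      exact ⟨R1, fun _ => h1⟩
    · exact ⟨⊥, fun h => absurd h hi⟩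
  choose R' hR' using this
  exact ⟨R', fun i hi => ⟨hS i hi, (hR' i hi).1, (hR' i hi).2.1, (hR' i hi).2.2⟩⟩

theorem Bas.od_ev (h : Bas J E w S R n U τ w' q) {F' : Tm (Lau K)} {F : Tm K}
    (hF : TRed (lau K) F' F) (h0 : ev (upV (lau K) w) F' = 0) :
    Od (K := K) 1 (ev w' F') (D1 w F τ) := by
  obtain ⟨τ', e, hτ⟩ := h.fo
  have := R180.shift hF (Red.upV _ w) hτ one_pos (c := 0) (by rw [h0]; exact Od.zero 1)
  rwa [← e, add_sub_cancel, zero_add] at this

theorem Bas.gen (h : Bas J E w S R n U τ w' q) (hA : ArcC J E w S R n τ X) (hg : Gen J w) :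
    Gen (J ∪ E) w' := by
  apply gen_of_lead (φ := lau K) h.mem
  intro d hd
  have hd' := hA.gc hd
  clear hd
  induction hd' using Algebra.adjoin_induction with
  | mem x hx =>
    rcases hx with hx | ⟨f, hf, rfl⟩
    · obtain ⟨f, rfl⟩ := hg x hx
      exact ⟨1, _, by rw [one_smul]; exact (TRed.map _ f).ev h.red⟩
    · exact ⟨_, _, Od_iff.1 (h.od_ev (TRed.map _ f) (by rw [ev_up, hf, map_zero]))⟩
  | algebraMap c => exact ⟨1, .c ((lau K).ι c), by
      rw [one_smul]; exact Red.algebraMap ((lau K).R_ι c)⟩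
  | add x y _ _ hx hy =>
    obtain ⟨c, f, hf⟩ := hx
    obtain ⟨e, g, hg⟩ := hy
    refine ⟨1, .add (.mul (.c c) f) (.mul (.c e) g), ?_⟩
    simpa [← Algebra.smul_def] using hf.add hg
  | mul x y _ _ hx hy =>
    obtain ⟨c, f, hf⟩ := hx
    obtain ⟨e, g, hg⟩ := hy
    refine ⟨c * e, .mul f g, ?_⟩
    rw [ev_mul, ← smul_mul_smul_comm]
    exact hf.mul hg

theorem ArcEnd.lam_eq (h : ArcEnd J E w S R n U τ w' q) {i : ℕ} (hi : i < n) (ζ : Vec (Lau K)) :
    lam w' ((S i).map (lau K).ι) ζ =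
      (pd (ev w' ((S i).map (lau K).ι)))⁻¹ * D1 w' (Ft w S q i) ζ := by
  rw [h.1.D1_Ft hi, ← h.minpoly hi, lam_apply, pia_apply]

theorem ArcEnd.od_Lam (h : ArcEnd J E w S R n U τ w' q)
    (hl : ∀ i < n, Lift1 J E w S R w' S' R' i) {η : Vec K} (hη : η ∈ VV (J ∪ E) w S n) :
    Od (K := K) 1 (Lam w' S' n (upV (lau K) η)) (Sg w S n τ η) := by
  have e : Sg w S n τ η = mkFam n (fun i => psi w (S i) τ η + psi w (S i) η τ) := by
    rw [Sg_apply, Psi_apply, Psi_apply, ← map_add]; rfl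
  rw [e, Lam_apply]
  apply Od.mkFam
  intro i hi
  rw [(hl i hi).hS, h.lam_eq hi]
  have := Od.mul_left (h.cmp hi).pd_inv (h.1.D1_up hi (hη.2 i hi))
  rwa [← mul_assoc, inv_mul_cancel₀ (pd_ne_zero _), one_mul] at this

theorem ArcEnd.lead_NN (h : ArcEnd J E w S R n U τ w' q) (hA : ArcC J E w S R n τ X)
    (hL : LocC J w S R n U) (hl : ∀ i < n, Lift1 J E w S R w' S' R' i) :
    lead (lau K) (NN (J ∪ E) w' S' R' n) ≤ NN J w S R n := by
  intro b hb
  have h1 := lead_NN_le (R := fun i => Tens E (R i)) (h.cmp' hl) h.1.mem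
    (fun i hi => (hl i hi).ld.ge) hb
  have h2 := hA.a3 b h1 (fun η hη => by
    obtain ⟨b', h3, h4⟩ := hb
    have hη' := hA.tens_le hL.hw hη
    obtain ⟨y, e, hy⟩ := h.od_Lam hl hη'
    have h5 := h4.prF (n := n) hy
    have h6 := (mem_NN.1 h3).2.1 _ (upV_mem (φ := lau K) hη'.1)
    rw [e, map_smul, smul_eq_zero] at h6
    rw [h6.resolve_left (pow_ne_zero _ ep_ne_zero), prF_Sg] at h5
    exact (lau K).uniq h5 (lau K).R_zero)
  rw [← cmp_zero_of_mem h2]
  exact cmp_mem_NN hA.disj hL.hw hL.hR h1 (zero_mem _)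

theorem ArcEnd.rank_le (h : ArcEnd J E w S R n U τ w' q) (hA : ArcC J E w S R n τ X)
    (hL : LocC J w S R n U) (hl : ∀ i < n, Lift1 J E w S R w' S' R' i) :
    finrank (Lau K) (NN (J ∪ E) w' S' R' n) ≤ finrank K (NN J w S R n) := by
  rw [← finrank_lead (φ := lau K)]
  exact Submodule.finrank_mono (h.lead_NN hA hL hl)

theorem ArcEnd.span (h : ArcEnd J E w S R n U τ w' q) (hA : ArcC J E w S R n τ X)
    (hL : LocC J w S R n U) (hl : ∀ i < n, Lift1 J E w S R w' S' R' i) :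
    TT (J ∪ E) w S n ≤ lead (lau K) ((base (Lau K) (Vec (Lau K)) (J ∪ E)).map (Lam w' S' n)) ⊔
      famSub n (fun i => Tens E (R i)) ⊔ famSub n U := by
  intro c hc
  obtain ⟨η, hη, h1⟩ := hA.primal3 hL hc
  have hη' := hA.tens_le hL.hw hη
  have h2 := (h.od_Lam hl hη').mem_lead
    (W := (base (Lau K) (Vec (Lau K)) (J ∪ E)).map (Lam w' S' n)) ⟨_, upV_mem hη'.1, rfl⟩
  have h3 : WW J E w S R n U ≤ lead (lau K) ((base (Lau K) (Vec (Lau K)) (J ∪ E)).map
      (Lam w' S' n)) ⊔ famSub n (fun i => Tens E (R i)) ⊔ famSub n U := by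
    refine sup_le_sup_right (sup_le_sup_right ?_ _) _
    rintro _ ⟨ξ, hξ, rfl⟩
    exact (Red.Lam (h.cmp' hl) (Red.upV _ ξ)).mem_lead ⟨_, upV_mem hξ, rfl⟩
  simpa using sub_mem (h3 h1) (Submodule.mem_sup_left (Submodule.mem_sup_left h2))

theorem ArcEnd.lead_VV (h : ArcEnd J E w S R n U τ w' q)
    (hl : ∀ i < n, Lift1 J E w S R w' S' R' i) {η : Vec K}
    (hη : η ∈ lead (lau K) (VV (J ∪ E) w' S' n)) :
    η ∈ VV (J ∪ E) w S n ∧ Sg w S n τ η ∈ (base K (Vec K) (J ∪ E)).map (Lam w S n) := by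
  have h1 := lead_VV_le (h.cmp' hl) hη
  refine ⟨h1, ?_⟩
  obtain ⟨η', h2, h3⟩ := hη
  obtain ⟨ζ, ζ', e, hζ⟩ := Od.succ_Vec (m := 0) (x := η' - upV (lau K) η)
    (Od_zero_iff.2 (by simpa using h3.sub (Red.upV _ η)))
  have hζ' : ζ' ∈ base (Lau K) (Vec (Lau K)) (J ∪ E) := by
    have := sub_mem h2.1 (upV_mem (φ := lau K) h1.1)
    rwa [e, Submodule.smul_mem_iff _ (pow_ne_zero _ ep_ne_zero)] at this
  have h4 := (h.od_Lam hl h1).add (Od.of_red (m := 1) (Red.Lam (h.cmp' hl) hζ))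
  rw [← map_smul, ← map_add, ← e, add_sub_cancel, Lam_eq_zero_iff.2 h2.2] at h4
  have h5 := h4.uniq (Od.zero 1)
  exact ⟨-ζ, neg_mem (hζ.mem_base_Vec hζ'), by rw [map_neg, neg_eq_of_add_eq_zero_left h5]⟩

theorem ArcEnd.sum_CC (h : ArcEnd J E w S R n U τ w' q)
    (hl : ∀ i < n, Lift1 J E w S R w' S' R' i) :
    ∑ i ∈ Finset.range n, finrank (Lau K) (CC (J ∪ E) w' S' i) = finrank K (TT (J ∪ E) w S n) := by
  rw [← lead_TT (h.cmp' hl) h.1.mem, finrank_lead, TT, finrank_famSub (fun _ _ => inferInstance)]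

theorem Lift1.finrank_R {i : ℕ} (hl : Lift1 J E w S R w' S' R' i) :
    finrank (Lau K) (R' i) = finrank K (Tens E (R i)) := by
  haveI : FiniteDimensional (Lau K) (R' i) := Submodule.finiteDimensional_of_le hl.le
  rw [← hl.ld, finrank_lead]

theorem ArcEnd.finrank_VV (h : ArcEnd J E w S R n U τ w' q) (hE : Disjoint J E)
    (hL : LocC J w S R n U) (hl : ∀ i < n, Lift1 J E w S R w' S' R' i)
    (hPR : ∀ i < n, PP (J ∪ E) w' S' i (S' i) ⊓ R' i = ⊥) :
    finrank (Lau K) (VV (J ∪ E) w' S' n) + NJ E ^ 2 * finrank K (NN J w S R n) =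
      NJ E ^ 2 * finrank K (VV J w S n) + finrank (Lau K) (NN (J ∪ E) w' S' R' n) := by
  have h1 := R180.finrank_VV h.1.mem (fun i hi => (hl i hi).le) hPR
  have h2 := congrArg (NJ E ^ 2 * ·) (R180.finrank_VV hL.hw hL.hR hL.hPR)
  rw [h.sum_CC hl, finrank_TT_union hE hL.hw, TT, finrank_famSub (fun _ _ => inferInstance),
    Finset.sum_congr rfl (fun i hi => (hl i (Finset.mem_range.1 hi)).finrank_R),
    sum_finrank_Tens_R hE hL.hR, NJ_union hE] at h1
  simp only [mul_add] at h2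
  nlinarith

theorem ArcEnd.nice (h : ArcEnd J E w S R n U τ w' q) (hA : ArcC J E w S R n τ X)
    (hL : LocC J w S R n U) (hl : ∀ i < n, Lift1 J E w S R w' S' R' i)
    (hPR : ∀ i < n, PP (J ∪ E) w' S' i (S' i) ⊓ R' i = ⊥) {H : Submodule K (Vec K)}
    (hH : H ≤ VV J w S n) (hN : Nice (Al w S n) (NN J w S R n) H (VV J w S n)) :
    ∃ H' ≤ VV (J ∪ E) w' S' n, NJ E ^ 2 * finrank K H ≤ finrank (Lau K) H' +
      (finrank K (NN J w S R n) + 1) * (NJ E ^ 2 * finrank K (NN J w S R n) -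
        finrank (Lau K) (NN (J ∪ E) w' S' R' n)) ∧
      Nice (Al w' S' n) (NN (J ∪ E) w' S' R' n) H' (VV (J ∪ E) w' S' n) := by
  haveI : FiniteDimensional K H := Submodule.finiteDimensional_of_le hH
  have h1 := nice_Tens hA.disj hL.hw (NN_le.trans TT_le_base) (hH.trans VV_le) VV_le hN
  have h0 : Tens E H ≤ VV (J ∪ E) w S n := VV_Tens hA.disj hL.hw ▸ Tens_mono subset_rfl hH
  rw [VV_Tens hA.disj hL.hw] at h1
  obtain ⟨H1, h2, h3, h4⟩ := h1.restrict h0 (lead_VV_le (h.cmp' hl))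
    (c := NJ E ^ 2 * finrank K (NN J w S R n) - finrank (Lau K) (NN (J ∪ E) w' S' R' n)) (by
      rw [finrank_lead, finrank_VV_union hA.disj hL.hw]
      have := h.finrank_VV hA.disj hL hl hPR
      omega)
  haveI : FiniteDimensional K H1 := Submodule.finiteDimensional_of_le (h2.trans inf_le_left)
  obtain ⟨H', h5, h6, h7⟩ := h4.lift (α' := Al w' S' n) (h.lead_NN hA hL hl)
    (h2.trans inf_le_right) (fun _ _ _ _ _ _ _ _ _ r1 r2 r3 => r1.Al (h.cmp' hl) r2 r3)
  refine ⟨H', h5, ?_, h7⟩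
  rw [h6, ← finrank_Tens hA.disj H (hH.trans VV_le)]
  exact h3

section stable
variable (h : ArcEnd J E w S R n U τ w' q) (hA : ArcC J E w S R n τ X)
  (hL : LocC J w S R n U) (hl : ∀ i < n, Lift1 J E w S R w' S' R' i)
  (hPR : ∀ i < n, PP (J ∪ E) w' S' i (S' i) ⊓ R' i = ⊥)
  (hr : finrank K (NN J w S R n) ≤ finrank (Lau K) (NN (J ∪ E) w' S' R' n))
include h hA hL hl hPR hr

theorem ArcEnd.mem_lead_VV {η : Vec K} (hη : η ∈ VV (J ∪ E) w S n)
    (h1 : Sg w S n τ η ∈ WW J E w S R n U) : η ∈ lead (lau K) (VV (J ∪ E) w' S' n) := by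
  haveI : FiniteDimensional K (WW J E w S R n U) :=
    Submodule.finiteDimensional_of_le (WW_le hA.disj hL)
  haveI : FiniteDimensional K (famSub n U) := Submodule.finiteDimensional_of_le (famU_le hL.hw hL.hU)
  haveI : FiniteDimensional K (ImR (J ∪ E) w S (fun i => Tens E (R i)) n) :=
    Submodule.finiteDimensional_of_le (le_sup_left.trans (WW_le hA.disj hL))
  have e : lead (lau K) (VV (J ∪ E) w' S' n) =
      VV (J ∪ E) w S n ⊓ (WW J E w S R n U).comap (Sg w S n τ) := by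
    apply eq_inf_comap_of_dim (T := TT (J ∪ E) w S n)
    · intro c hc
      obtain ⟨ξ, hξ, h4⟩ := hA.primal3 hL hc
      have := sub_mem (Submodule.mem_sup_right (S := (VV (J ∪ E) w S n).map (Sg w S n τ)) h4)
        (Submodule.mem_sup_left (Submodule.mem_map_of_mem (f := Sg w S n τ)
          (hA.tens_le hL.hw hξ)))
      rwa [add_sub_cancel_right] at this
    · intro ξ hξ
      obtain ⟨h2, h3⟩ := h.lead_VV hl hξ
      exact ⟨h2, Submodule.mem_sup_left (Submodule.mem_sup_left h3)⟩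
    · have h5 := finrank_ImR_union_le hA.disj hL.hw hL.hR hL.hPR
      have h6 := congrArg (NJ E ^ 2 * ·) (finrank_NN hL.hw hL.hR)
      have h7 := h.finrank_VV hA.disj hL hl hPR
      rw [finrank_famU hL.hw hL.hR hL.hPR hL.hU, finrank_TT_union hA.disj hL.hw, TT,
        finrank_famSub (fun _ _ => inferInstance), finrank_VV_union hA.disj hL.hw, finrank_lead]
      simp only [mul_add] at h6
      omega
  rw [e]; exact ⟨hη, h1⟩

theorem ArcEnd.jfact {η : Vec K} (hη : η ∈ VV (J ∪ E) w S n) :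
    ∃ η' ∈ Tens E X, η + η' ∈ lead (lau K) (VV (J ∪ E) w' S' n) := by
  obtain ⟨η', h1, h2⟩ := hA.primal3 hL (Sg_mem hL.hw' hA.mem hη)
  exact ⟨η', h1, h.mem_lead_VV hA hL hl hPR hr (add_mem hη (hA.tens_le hL.hw h1))
    (by rwa [map_add])⟩

theorem ArcEnd.dir1 : lead (lau K) (ImR (J ∪ E) w' S' R' n) ⊓ famSub n U = ⊥ := by
  haveI : FiniteDimensional K (famSub n U) := Submodule.finiteDimensional_of_le (famU_le hL.hw hL.hU)
  haveI : FiniteDimensional (Lau K) (ImR (J ∪ E) w' S' R' n) :=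
    Submodule.finiteDimensional_of_le (ImR_le h.1.mem (fun i hi => (hl i hi).le))
  apply inf_eq_bot_of_dim (T := TT (J ∪ E) w S n)
  · refine (h.span hA hL hl).trans (sup_le_sup_right (sup_le (lead_mono le_sup_left) ?_) _)
    exact ((famSub_mono (fun i hi => (hl i hi).ld.ge)).trans (famSub_lead_le _)).trans
      (lead_mono le_sup_right)
  · have h3 := finrank_NN h.1.mem (fun i hi => (hl i hi).le)
    rw [h.sum_CC hl] at h3
    rw [finrank_lead, finrank_famU hL.hw hL.hR hL.hPR hL.hU]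
    omega

theorem ArcEnd.dir2 : lead (lau K) ((base (Lau K) (Vec (Lau K)) (J ∪ E)).map (Lam w' S' n)) ⊓
      famSub n (fun i => Tens E (R i)) = ⊥ := by
  haveI : FiniteDimensional K (famSub n U) := Submodule.finiteDimensional_of_le (famU_le hL.hw hL.hU)
  have hfd : ∀ i < n, FiniteDimensional K (Tens E (R i)) :=
    fun i hi => Submodule.finiteDimensional_of_le (Tens_R_le hA.disj hL.hw hL.hR i hi)
  haveI := fd_famSub (W := fun i => Tens E (R i)) hfd
  apply inf_eq_bot_of_dim3 (h.span hA hL hl)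
  have h3 := finrank_NN h.1.mem (fun i hi => (hl i hi).le)
  have h4 := finrank_ImR (fun i hi => (hl i hi).le) hPR
  have h5 := finrank_map_add_inf_ker (Lam w' S' n) (base (Lau K) (Vec (Lau K)) (J ∪ E))
  rw [← VV_eq, finrank_base_Vec] at h5
  rw [h.sum_CC hl] at h3
  rw [finrank_lead, finrank_famSub (W := fun i => Tens E (R i)) hfd,
    ← Finset.sum_congr rfl (fun i hi => (hl i (Finset.mem_range.1 hi)).finrank_R),
    finrank_famU hL.hw hL.hR hL.hPR hL.hU]
  omega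

theorem ArcEnd.const : ∀ i < n, q i = 0 := by
  haveI : CharZero K := charZero_K
  have hθ : (fun j => tth (w' j)) ∈ base (Lau K) (Vec (Lau K)) (J ∪ E) :=
    mem_base_Vec.2 (fun j => tth_mem (mem_base_Vec.1 h.1.mem j))
  have e1 : ∀ i < n, lam w' (S' i) (fun j => tth (w' j)) = -((pd (ev w' ((S i).map (lau K).ι)))⁻¹ *
      aeval (ev w' ((S i).map (lau K).ι)) (pmap th (q i))) := by
    intro i hi
    have h1 := congrArg tth (h.2 i hi)
    have h2 : pmap th ((_root_.minpoly K (ev w (S i))).map (lau K).ι) = 0 := by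
      ext1 k; rw [coeff_pmap, coeff_map]; exact th_lC _
    rw [Phi, tth_aeval, map_zero, tth_ev, ← h.1.D1_Ft hi, pt, pmap_add, h2, zero_add] at h1
    rw [(hl i hi).hS, h.lam_eq hi, eq_neg_of_add_eq_zero_right h1, mul_neg]
  have key : ∀ m : ℕ, ∀ i < n, ∀ k < (m : ℤ), pmap (lcf k) (q i) = 0 := by
    intro m
    induction m with
    | zero => exact fun i hi k hk => h.1.two i hi k (by omega)
    | succ m ih =>
      have e2 : ∀ i k, pmap (lcf k) (pmap th (q i)) = (k : K) • pmap (lcf k) (q i) := by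
        intro i k; ext j; simp [coeff_pmap, lcf_th]
      have h3 : Od (K := K) m (Lam w' S' n (fun j => tth (w' j))) (mkFam n (fun i =>
          -((m : K) • ((pd (ev w (S i)))⁻¹ * aeval (ev w (S i)) (pmap (lcf m) (q i)))))) := by
        rw [Lam_apply]
        apply Od.mkFam
        intro i hi
        obtain ⟨r, e3, hr⟩ := poly_scale (m := m) (q := pmap th (q i))
          (fun k hk => by rw [e2, ih i hi k hk, smul_zero])
        rw [e1 i hi, e3, map_smul, mul_smul_comm, ← smul_neg]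
        apply Od.of_red
        have := ((h.cmp hi).pd_inv.mul (hr.aeval (h.cmp hi).ev)).neg
        rwa [e2, map_smul, mul_smul_comm, Int.cast_natCast] at this
      have h4 := h3.mem_lead (W := (base (Lau K) (Vec (Lau K)) (J ∪ E)).map (Lam w' S' n))
        ⟨_, hθ, rfl⟩
      have h5 : ∀ i, ∃ u ρ : Tw K, i < n → u ∈ U i ∧ ρ ∈ R i ∧ u + ρ =
          -((m : K) • ((pd (ev w (S i)))⁻¹ * aeval (ev w (S i)) (pmap (lcf m) (q i)))) := by
        intro i
        by_cases hi : i < n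
        · obtain ⟨u, hu, ρ, hρ, e⟩ := Submodule.mem_sup.1 (neg_mem (Submodule.smul_mem _ (m : K)
            (mem_Wp.1 (h.1.var i hi m)).2))
          exact ⟨u, ρ, fun _ => ⟨hu, hρ.1, e⟩⟩
        · exact ⟨0, 0, fun h => absurd h hi⟩
      choose u ρ h6 using h5
      have hρ : mkFam n ρ ∈ famSub n (fun i => Tens E (R i)) :=
        mkFam_mem (fun i hi => le_Tens _ _ (h6 i hi).2.1)
      have e4 : mkFam n (fun i => -((m : K) • ((pd (ev w (S i)))⁻¹ *
          aeval (ev w (S i)) (pmap (lcf m) (q i))))) = mkFam n u + mkFam n ρ := by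
        ext1 i
        rw [Finsupp.add_apply, mkFam_apply, mkFam_apply, mkFam_apply]
        split_ifs with hi
        · exact (h6 i hi).2.2.symm
        · simp
      have h7 : mkFam n u ∈ lead (lau K) (ImR (J ∪ E) w' S' R' n) ⊓ famSub n U := by
        refine ⟨?_, mkFam_mem (fun i hi => (h6 i hi).1)⟩
        rw [e4] at h4
        have := sub_mem (lead_mono le_sup_left h4) ((((famSub_mono
          (fun i hi => (hl i hi).ld.ge)).trans (famSub_lead_le _)).trans
            (lead_mono le_sup_right)) hρ)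
        rwa [add_sub_cancel_right] at this
      rw [h.dir1 hA hL hl hPR hr, Submodule.mem_bot] at h7
      have h8 : _ ∈ _ ⊓ famSub n (fun i => Tens E (R i)) := ⟨h4, by rw [e4, h7, zero_add]; exact hρ⟩
      rw [h.dir2 hA hL hl hPR hr, Submodule.mem_bot] at h8
      intro i hi k hk
      rcases lt_or_eq_of_le (show k ≤ m by push_cast at hk; omega) with h9 | h9
      · exact ih i hi k h9
      by_cases hm : m = 0
      · exact h.1.two i hi k (by omega)
      have := congrArg (fun b => b i) h8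
      simp only [mkFam_lt _ hi, Finsupp.zero_apply, neg_eq_zero, smul_eq_zero, Nat.cast_eq_zero, hm,
        mul_eq_zero, inv_eq_zero, pd_ne_zero, false_or] at this
      rw [h9]
      exact eq_zero_of_degree_lt (mem_Wp.1 (h.1.var i hi m)).1 this
  intro i hi
  ext1 j
  apply Lau.ext'
  intro k
  rw [← coeff_pmap, key (k + 1).toNat i hi k (by omega)]; simp

theorem ArcEnd.PP_le_lead {f : Tm K} {f' : Tm (Lau K)} (hc : Cmp (lau K) w' f' w f)
    (hX : ∀ η ∈ Tens E X, lam w f η = 0) :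
    PP (J ∪ E) w S n f ≤ lead (lau K) (PP (J ∪ E) w' S' n f') := by
  rintro _ ⟨η, hη, rfl⟩
  obtain ⟨η', h1, ξ, h2, h3⟩ := h.jfact hA hL hl hPR hr hη
  have := hc.lam h3
  rw [map_add, hX η' h1, add_zero] at this
  exact this.mem_lead ⟨ξ, h2, rfl⟩

theorem ArcEnd.prj_mem_lead {f : Tm K} (hX : ∀ η ∈ Tens E X, lam w f η = 0) {x : Tw K}
    (hx : x ∈ PP (J ∪ E) w S n f) :
    prj (leadA (lau K) (Lf (ev w' (f.map (lau K).ι)))) x ∈
      lead (lau K) (P0 (J ∪ E) w' S' n (f.map (lau K).ι)) := by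
  obtain ⟨η, hη, rfl⟩ := hx
  obtain ⟨η', h1, ξ, h2, h3⟩ := h.jfact hA hL hl hPR hr hη
  have h4 := ((TRed.map _ f).D1 h.1.red h3).prj (Lf (ev w' (f.map (lau K).ι)))
  have ha := ((TRed.map _ f).ev h.1.red).mem_leadA (self_mem_Lf _)
  rw [← prj_pia (a := ev w' (f.map (lau K).ι)) (fun c hc => Lf_comm (self_mem_Lf _) hc),
    ← prj_pia (a := ev w f) (fun c hc => leadA_comm (fun _ hx _ hy => Lf_comm hx hy) _ ha _ hc),
    ← lam_apply, ← lam_apply, map_add, hX η' h1, add_zero] at h4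
  exact h4.mem_lead ⟨_, ⟨ξ, h2, rfl⟩, rfl⟩

end stable

theorem ArcEnd.tri_sup (h : ArcEnd J E w S R (n + 1) U τ w' q) (hA : ArcC J E w S R (n + 1) τ X)
    (hL : LocC J w S R (n + 1) U) (hl : ∀ i < n + 1, Lift1 J E w S R w' S' R' i)
    (hPR : ∀ i < n, PP (J ∪ E) w' S' i (S' i) ⊓ R' i = ⊥)
    (hr : finrank K (NN J w S R n) ≤ finrank (Lau K) (NN (J ∪ E) w' S' R' n)) :
    CC (J ∪ E) w' S' n ≤ PP (J ∪ E) w' S' n (S' n) ⊔ R' n ⊔ LL w' S' n := by
  have h1 : ∀ i, ∃ U' : Submodule (Lau K) (Tw (Lau K)), i < n + 1 → U' ≤ LL w' S' i ∧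
      lead (lau K) U' = U i := by
    intro i
    by_cases hi : i < n + 1
    · haveI : FiniteDimensional K (U i) := Submodule.finiteDimensional_of_le (hL.hU i hi).1
      obtain ⟨U', h1, -, h2⟩ := R180.exists_lift (φ := lau K) (U := U i) (W := LL w' S' i)
        (by rw [LL, (h.cmp' hl i hi).lead_LL]; exact (hL.hU i hi).1)
      exact ⟨U', fun _ => ⟨h1, h2⟩⟩
    · exact ⟨⊥, fun h => absurd h hi⟩
  choose U' hU' using h1
  have h2 : ImR (J ∪ E) w' S' R' (n + 1) ⊔ famSub (n + 1) U' = TT (J ∪ E) w' S' (n + 1) := by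
    apply eq_of_le_of_lead_le (φ := lau K) (sup_le (ImR_le h.1.mem (fun i hi => (hl i hi).le))
      (famSub_mono (fun i hi => (hU' i hi).1.trans (LL_le_CC h.1.mem i))))
    rw [lead_TT (h.cmp' hl) h.1.mem]
    refine (h.span hA hL hl).trans (le_trans (sup_le_sup (sup_le (lead_mono le_sup_left) ?_) ?_)
      (lead_sup_ge _ _))
    · exact ((famSub_mono (fun i hi => (hl i hi).ld.ge)).trans (famSub_lead_le _)).trans
        (lead_mono le_sup_right)
    · exact (famSub_mono (fun i hi => (hU' i hi).2.ge)).trans (famSub_lead_le _)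
  have h3 : ImR (J ∪ E) w' S' R' n ⊓ famSub n U' = ⊥ := by
    apply eq_bot_of_lead (φ := lau K)
    rw [eq_bot_iff, ← h.pre.dir1 hA.pre hL.pre (fun i hi => hl i (Nat.lt_succ_of_lt hi)) hPR hr]
    refine (lead_inf_le _ _).trans (inf_le_inf_left _ ((lead_famSub_le _).trans
      (famSub_mono (fun i hi => (hU' i (Nat.lt_succ_of_lt hi)).2.le))))
  intro c hc
  have h4 : Finsupp.single n c ∈ TT (J ∪ E) w' S' (n + 1) :=
    single_mem_famSub (Nat.lt_succ_self n) hc
  rw [← h2] at h4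
  obtain ⟨x, hx, u, hu, e⟩ := Submodule.mem_sup.1 h4
  obtain ⟨_, ⟨ξ, hξ, rfl⟩, ρ, hρ, rfl⟩ := Submodule.mem_sup.1 hx
  have e1 : ∀ i < n + 1, lam w' (S' i) ξ + ρ i + u i = Finsupp.single n c i := by
    intro i hi
    rw [← e, Finsupp.add_apply, Finsupp.add_apply, Lam_lt _ hi]
  have h5 : mkFam n u ∈ ImR (J ∪ E) w' S' R' n ⊓ famSub n U' := by
    refine ⟨?_, mkFam_mem (fun i hi => hu.1 i (Nat.lt_succ_of_lt hi))⟩
    have : mkFam n u = -(Lam w' S' n ξ + mkFam n ρ) := by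
      ext1 i
      rw [Finsupp.neg_apply, Finsupp.add_apply, Lam_apply, mkFam_apply, mkFam_apply, mkFam_apply]
      split_ifs with hi
      · have := e1 i (Nat.lt_succ_of_lt hi)
        rw [Finsupp.single_eq_of_ne hi.ne] at this
        exact eq_neg_of_add_eq_zero_right this
      · simp
    rw [this]
    exact neg_mem (Submodule.add_mem_sup ⟨ξ, hξ, rfl⟩
      (mkFam_mem (fun i hi => hρ.1 i (Nat.lt_succ_of_lt hi))))
  rw [h3, Submodule.mem_bot] at h5
  have h6 : ξ ∈ VV (J ∪ E) w' S' n := mem_VV_of_mem_R hPR hξ (fun i hi => by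
    have h7 := e1 i (Nat.lt_succ_of_lt hi)
    have h8 := congrArg (fun b => b i) h5
    simp only [mkFam_lt _ hi, Finsupp.zero_apply] at h8
    rw [Finsupp.single_eq_of_ne hi.ne, h8, add_zero] at h7
    rw [eq_neg_of_add_eq_zero_left h7]
    exact neg_mem (hρ.1 i (Nat.lt_succ_of_lt hi)))
  have h7 := e1 n (Nat.lt_succ_self n)
  rw [Finsupp.single_eq_same] at h7
  rw [← h7]
  exact Submodule.add_mem_sup (Submodule.add_mem_sup ⟨ξ, h6, rfl⟩ (hρ.1 n (Nat.lt_succ_self n)))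
    ((hU' n (Nat.lt_succ_self n)).1 (hu.1 n (Nat.lt_succ_self n)))

end Crest.Agent.R180
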