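import Crest.Agent.R180.Pt

set_option autoImplicit false

namespace Crest.Agent.R180

open Module Polynomial

/-- Laurent series -/
def Lau (K : Type) [Field K] : Type := HahnSeries ℤ K

variable {K : Type} [Field K]

noncomputable instance : Field (Lau K) := inferInstanceAs (Field (HahnSeries ℤ K))

/-- coefficient -/
def lcf (n : ℤ) : Lau K →+ K where
  toFun x := HahnSeries.coeff x n
  map_zero' := rfl
  map_add' x y := HahnSeries.coeff_add (x := x) (y := y) (a := n)

variable (K) in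
noncomputable def lC : K →+* Lau K := HahnSeries.C

variable (K) in
noncomputable def ep : Lau K := HahnSeries.single (1 : ℤ) (1 : K)

theorem Lau.ext' {x y : Lau K} (h : ∀ n, lcf n x = lcf n y) : x = y := HahnSeries.ext (funext h)

theorem lcf_lC (n : ℤ) (c : K) : lcf n (lC K c) = if n = 0 then c else 0 := by
  change (HahnSeries.single (0 : ℤ) c).coeff n = _
  rw [HahnSeries.coeff_single]; congr

theorem lcf_lC_mul (n : ℤ) (c : K) (x : Lau K) : lcf n (lC K c * x) = c * lcf n x :=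
  HahnSeries.coeff_single_zero_mul (x := x)

theorem lcf_ep_mul (n : ℤ) (x : Lau K) : lcf (n + 1) (ep K * x) = lcf n x := by
  have := HahnSeries.coeff_single_mul_add (r := (1 : K)) (x := x) (a := n) (b := 1)
  rw [one_mul] at this
  exact this

theorem ep_ne_zero : ep K ≠ 0 := HahnSeries.single_ne_zero one_ne_zero

theorem lcf_ep_pow_mul (m : ℕ) (n : ℤ) (x : Lau K) : lcf (n + m) (ep K ^ m * x) = lcf n x := by
  induction m generalizing n with
  | zero => simp
  | succ m ih =>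
    rw [pow_succ', mul_assoc, Nat.cast_succ, ← add_assoc, lcf_ep_mul, ih]

theorem lcf_inv_mul (m : ℕ) (n : ℤ) (x : Lau K) : lcf n ((ep K ^ m)⁻¹ * x) = lcf (n + m) x := by
  rw [← lcf_ep_pow_mul m, ← mul_assoc, mul_inv_cancel₀ (pow_ne_zero _ ep_ne_zero), one_mul]

theorem lcf_ep_pow_mul_lC (m : ℕ) (n : ℤ) (c : K) :
    lcf n (ep K ^ m * lC K c) = if n = m then c else 0 := by
  have := lcf_ep_pow_mul m (n - m) (lC K c)
  rw [sub_add_cancel, lcf_lC] at this
  rw [this]; simp only [sub_eq_zero]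

theorem lau_mul {x y : Lau K} (hx : ∀ n < 0, lcf n x = 0) (hy : ∀ n < 0, lcf n y = 0) :
    (∀ n < 0, lcf n (x * y) = 0) ∧ lcf 0 (x * y) = lcf 0 x * lcf 0 y := by
  have key : ∀ n, lcf n (x * y) = ∑ ij ∈ Finset.addAntidiagonal
      (HahnSeries.isPWO_support x) (HahnSeries.isPWO_support y) n, lcf ij.1 x * lcf ij.2 y :=
    fun n => HahnSeries.coeff_mul (x := x) (y := y)
  constructor
  · intro n hn
    rw [key]
    apply Finset.sum_eq_zero
    intro ij hij
    have := (Finset.mem_addAntidiagonal.1 hij).2.2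
    by_cases h : ij.1 < 0
    · rw [hx _ h, zero_mul]
    · rw [hy ij.2 (by omega), mul_zero]
  · rw [key]
    apply Finset.sum_eq_single (0, 0)
    · intro ij hij hne
      have := (Finset.mem_addAntidiagonal.1 hij).2.2
      by_cases h : ij.1 < 0
      · rw [hx _ h, zero_mul]
      · rw [hy ij.2, mul_zero]
        by_contra h'
        apply hne
        ext <;> simp <;> omega
    · intro h
      by_contra h'
      apply h
      exact Finset.mem_addAntidiagonal.2 ⟨left_ne_zero_of_mul h', right_ne_zero_of_mul h', rfl⟩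

theorem order_inv' {x : HahnSeries ℤ K} (hx : x ≠ 0) : x⁻¹.order = -x.order := by
  have := HahnSeries.order_mul hx (inv_ne_zero hx)
  rw [mul_inv_cancel₀ hx, HahnSeries.order_one] at this
  omega

/-- Euler derivation -/
noncomputable def th : Lau K →+ Lau K where
  toFun x := (⟨fun n => (n : K) * HahnSeries.coeff x n,
    (HahnSeries.isPWO_support x).mono (fun _ h => right_ne_zero_of_mul h)⟩ : HahnSeries ℤ K)
  map_zero' := by apply Lau.ext'; intro n; exact mul_zero _
  map_add' x y := by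
    apply Lau.ext'; intro n
    rw [map_add]
    change (n : K) * lcf n (x + y) = n * lcf n x + n * lcf n y
    rw [map_add, mul_add]

theorem lcf_th (n : ℤ) (x : Lau K) : lcf n (th x) = n * lcf n x := rfl

theorem th_mul (x y : Lau K) : th (x * y) = th x * y + x * th y := by
  apply Lau.ext'
  intro n
  have h1 : lcf n (x * y) = _ := HahnSeries.coeff_mul (x := x) (y := y)
  have h2 : lcf n (th x * y) = _ := HahnSeries.coeff_mul_left' (x := th x) (y := y)
    (HahnSeries.isPWO_support x) (fun _ h => right_ne_zero_of_mul h)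
  have h3 : lcf n (x * th y) = _ := HahnSeries.coeff_mul_right' (x := x) (y := th y)
    (HahnSeries.isPWO_support y) (fun _ h => right_ne_zero_of_mul h)
  rw [map_add, lcf_th, h1, h2, h3, Finset.mul_sum, ← Finset.sum_add_distrib]
  apply Finset.sum_congr rfl
  intro ij hij
  have := (Finset.mem_addAntidiagonal.1 hij).2.2
  change (n : K) * (lcf ij.1 x * lcf ij.2 y) = lcf ij.1 (th x) * lcf ij.2 y +
    lcf ij.1 x * lcf ij.2 (th y)
  rw [lcf_th, lcf_th, ← this]; push_cast; ring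

theorem th_lC (c : K) : th (lC K c) = 0 := by
  apply Lau.ext'; intro n
  rw [lcf_th, lcf_lC]; split_ifs with h <;> simp [h]

theorem eq_lC_of_th [CharZero K] {x : Lau K} (h : th x = 0) : x = lC K (lcf 0 x) := by
  apply Lau.ext'; intro n
  rw [lcf_lC]; split_ifs with h0
  · rw [h0]
  · have := congrArg (lcf n) h
    rw [lcf_th, map_zero] at this
    exact (mul_eq_zero.1 this).resolve_left (by exact_mod_cast h0)

theorem exists_min_lcf {ι : Type*} [Finite ι] (c : ι → Lau K) (h : ∃ i, c i ≠ 0) :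
    ∃ m : ℤ, (∃ i, lcf m (c i) ≠ 0) ∧ ∀ i, ∀ j < m, lcf j (c i) = 0 := by
  classical
  haveI := Fintype.ofFinite ι
  obtain ⟨i, hi, hmin⟩ := Finset.exists_min_image (Finset.univ.filter (fun i => c i ≠ 0))
    (fun i => HahnSeries.order (c i)) (by obtain ⟨i, hi⟩ := h; exact ⟨i, by simpa using hi⟩)
  refine ⟨HahnSeries.order (c i), ⟨i, ?_⟩, fun k j hj => ?_⟩
  · exact fun h0 => (Finset.mem_filter.1 hi).2 (HahnSeries.coeff_order_eq_zero.1 h0)
  · by_cases hk : c k = 0
    · rw [hk, map_zero]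
    · exact HahnSeries.coeff_eq_zero_of_lt_order (hj.trans_le (hmin k (by simpa using hk)))

theorem lau_limit (c : ℕ → Lau K) (m0 : ℕ)
    (h : ∀ m ≥ m0, ∀ j < (m : ℤ), lcf j (c (m + 1)) = lcf j (c m)) :
    ∃ x : Lau K, ∀ m ≥ m0, ∀ j < (m : ℤ), lcf j x = lcf j (c m) := by
  have stab : ∀ m ≥ m0, ∀ k, ∀ j < (m : ℤ), lcf j (c (m + k)) = lcf j (c m) := by
    intro m hm k j hj
    induction k with
    | zero => rfl
    | succ k ih => rw [← add_assoc, h (m + k) (by omega) j (by push_cast; omega), ih]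
  let f : ℤ → K := fun j => lcf j (c (max m0 (j + 1).toNat))
  have hf : ∀ m ≥ m0, ∀ j < (m : ℤ), f j = lcf j (c m) := by
    intro m hm j hj
    obtain ⟨k, hk⟩ : ∃ k, m = max m0 (j + 1).toNat + k := Nat.exists_eq_add_of_le (by omega)
    rw [hk, stab _ (le_max_left _ _) k j (by omega)]
  refine ⟨HahnSeries.ofSuppBddBelow f ⟨min (HahnSeries.order (c m0)) m0, ?_⟩, hf⟩
  intro j hj
  by_contra hlt
  apply hj
  rw [hf m0 le_rfl j (by omega)]
  exact HahnSeries.coeff_eq_zero_of_lt_order (by omega)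

variable [Algebra Z0 K]

noncomputable instance : Algebra Z0 (Lau K) := ((lC K).comp (algebraMap Z0 K)).toAlgebra

variable (K) in
/-- the `ε`-adic place -/
noncomputable def lau : ValExt K (Lau K) where
  ι := lC K
  R x a := (∀ n < 0, lcf n x = 0) ∧ lcf 0 x = a
  ι_alg _ := rfl
  R_ι c := ⟨fun n hn => by rw [lcf_lC, if_neg hn.ne], by rw [lcf_lC, if_pos rfl]⟩
  add := fun ⟨h1, h2⟩ ⟨h3, h4⟩ => ⟨fun n hn => by rw [map_add, h1 n hn, h3 n hn, add_zero],
    by rw [map_add, h2, h4]⟩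
  mul := fun ⟨h1, h2⟩ ⟨h3, h4⟩ => ⟨(lau_mul h1 h3).1, by rw [(lau_mul h1 h3).2, h2, h4]⟩
  uniq := fun ⟨_, h2⟩ ⟨_, h4⟩ => h2.symm.trans h4
  total x := by
    by_cases h : 0 ≤ HahnSeries.order x
    · exact Or.inl ⟨_, fun n hn => HahnSeries.coeff_eq_zero_of_lt_order (hn.trans_le h), rfl⟩
    · have hx : x ≠ 0 := by rintro rfl; exact h (le_of_eq HahnSeries.order_zero.symm)
      have h2 : 0 < HahnSeries.order x⁻¹ := by
        have := order_inv' (K := K) hx
        change 0 < HahnSeries.order (@Inv.inv (HahnSeries ℤ K) _ x)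
        omega
      exact Or.inr ⟨fun n hn => HahnSeries.coeff_eq_zero_of_lt_order (hn.trans h2),
        HahnSeries.coeff_eq_zero_of_lt_order h2⟩
  inv := by
    rintro x a ⟨h1, h2⟩ ha
    have hx : x ≠ 0 := by rintro rfl; exact ha (by rw [← h2, map_zero])
    have h3 : HahnSeries.order x ≤ 0 :=
      HahnSeries.order_le_of_coeff_ne_zero (fun h => ha (h2.symm.trans h))
    have h4 : 0 ≤ HahnSeries.order x⁻¹ := by
      have := order_inv' (K := K) hx
      change 0 ≤ HahnSeries.order (@Inv.inv (HahnSeries ℤ K) _ x)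
      omega
    have h5 : ∀ n < 0, lcf n x⁻¹ = 0 :=
      fun n hn => HahnSeries.coeff_eq_zero_of_lt_order (hn.trans_le h4)
    refine ⟨h5, ?_⟩
    have := (lau_mul h1 h5).2
    rw [mul_inv_cancel₀ hx, ← map_one (lC K), lcf_lC, if_pos rfl, h2] at this
    exact (eq_inv_of_mul_eq_one_right this.symm)

theorem lau_ι : (lau K).ι = lC K := rfl

theorem lau_R {x : Lau K} {a : K} : (lau K).R x a ↔ (∀ n < 0, lcf n x = 0) ∧ lcf 0 x = a := Iff.rfl

theorem lau_R_inv_mul {m : ℕ} {x : Lau K} {a : K} :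
    (lau K).R ((ep K ^ m)⁻¹ * x) a ↔ (∀ j < (m : ℤ), lcf j x = 0) ∧ lcf m x = a := by
  rw [lau_R]
  simp only [lcf_inv_mul, zero_add]
  refine and_congr ⟨fun h j hj => ?_, fun h j hj => h _ (by omega)⟩ Iff.rfl
  have := h (j - m) (by omega)
  rwa [sub_add_cancel] at this

theorem R_ep_pow {m : ℕ} (hm : 0 < m) : (lau K).R (ep K ^ m) 0 := by
  have h := fun n => lcf_ep_pow_mul_lC m n (1 : K)
  simp only [map_one, mul_one] at h
  exact ⟨fun n hn => by rw [h, if_neg (by omega)], by rw [h, if_neg (by omega)]⟩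

theorem R_ep : (lau K).R (ep K) 0 := by simpa using R_ep_pow (K := K) one_pos

instance [Dom K] : Dom (Lau K) := Dom.transfer (lau K)

/-- coefficients of elements of `Tw (Lau K)` -/
noncomputable def tcf (n : ℤ) : Tw (Lau K) →+ Tw K where
  toFun x := (co K).symm ((co (Lau K) x).mapRange (lcf n) (map_zero _))
  map_zero' := by simp
  map_add' x y := by apply Tw.ext'; intro g; simp

theorem co_tcf (n : ℤ) (x : Tw (Lau K)) (g : G) : co K (tcf n x) g = lcf n (co (Lau K) x g) := by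
  simp [tcf]

theorem Red_inv_smul {m : ℕ} {x : Tw (Lau K)} {a : Tw K} :
    Red (lau K) ((ep K ^ m)⁻¹ • x) a ↔ (∀ j < (m : ℤ), tcf j x = 0) ∧ tcf m x = a := by
  rw [Red_Tw]
  simp only [map_smul, Finsupp.smul_apply, smul_eq_mul, lau_R_inv_mul]
  constructor
  · intro h
    exact ⟨fun j hj => Tw.ext' (fun g => by rw [co_tcf, (h g).1 j hj]; simp),
      Tw.ext' (fun g => by rw [co_tcf, (h g).2])⟩
  · rintro ⟨h1, h2⟩ g
    exact ⟨fun j hj => by rw [← co_tcf, h1 j hj]; simp, by rw [← co_tcf, h2]⟩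

theorem tw_eq_zero {x : Tw (Lau K)} (h : ∀ j, tcf j x = 0) : x = 0 :=
  Tw.ext' (fun g => Lau.ext' (fun n => by rw [← co_tcf, h n]; simp))

/-- `x = ε^m a + ...` -/
def Od {M' M : Type} [AddCommGroup M] [Module K M] [AddCommGroup M'] [Module (Lau K) M']
    [RedMod K (Lau K) M' M] (m : ℕ) (x : M') (a : M) : Prop :=
  ∃ y, x = ep K ^ m • y ∧ Red (lau K) y a

section gen
variable {M' M : Type} [AddCommGroup M] [Module K M] [AddCommGroup M'] [Module (Lau K) M']
  [RedMod K (Lau K) M' M]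

theorem Od_iff {m : ℕ} {x : M'} {a : M} :
    Od (K := K) m x a ↔ Red (lau K) ((ep K ^ m)⁻¹ • x) a := by
  have h0 : ep K ^ m ≠ 0 := pow_ne_zero _ ep_ne_zero
  constructor
  · rintro ⟨y, rfl, h⟩; rwa [smul_smul, inv_mul_cancel₀ h0, one_smul]
  · intro h; exact ⟨_, by rw [smul_smul, mul_inv_cancel₀ h0, one_smul], h⟩

theorem Od_zero_iff {x : M'} {a : M} : Od (K := K) 0 x a ↔ Red (lau K) x a := by
  simp [Od_iff]

theorem Od.add {m : ℕ} {x y : M'} {a b : M} (h1 : Od (K := K) m x a) (h2 : Od (K := K) m y b) :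
    Od (K := K) m (x + y) (a + b) := by
  rw [Od_iff] at *
  rw [smul_add]; exact h1.add h2

theorem Od.sub {m : ℕ} {x y : M'} {a b : M} (h1 : Od (K := K) m x a) (h2 : Od (K := K) m y b) :
    Od (K := K) m (x - y) (a - b) := by
  rw [Od_iff] at *
  rw [smul_sub]; exact h1.sub h2

theorem Od.uniq {m : ℕ} {x : M'} {a b : M} (h1 : Od (K := K) m x a) (h2 : Od (K := K) m x b) :
    a = b := (Od_iff.1 h1).uniq (Od_iff.1 h2)

theorem Od.of_red {m : ℕ} {y : M'} {a : M} (h : Red (lau K) y a) :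
    Od (K := K) m (ep K ^ m • y) a := ⟨y, rfl, h⟩

theorem Od.lower {m k : ℕ} {x : M'} {a : M} (h : Od (K := K) m x a) (hk : k < m) :
    Od (K := K) k x (0 : M) := by
  obtain ⟨y, rfl, h⟩ := h
  obtain ⟨d, rfl⟩ := Nat.exists_eq_add_of_lt hk
  exact ⟨ep K ^ (d + 1) • y, by rw [smul_smul, ← pow_add, add_assoc],
    Red.smul_zero (R_ep_pow (Nat.succ_pos _)) h⟩

theorem Od.zero (m : ℕ) : Od (K := K) m (0 : M') (0 : M) := ⟨0, by simp, Red.zero _⟩

end gen

theorem Od_Tw {m : ℕ} {x : Tw (Lau K)} {a : Tw K} :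
    Od (K := K) m x a ↔ (∀ j < (m : ℤ), tcf j x = 0) ∧ tcf m x = a := by
  rw [Od_iff, Red_inv_smul]

theorem Od.succ_Tw {m : ℕ} {x : Tw (Lau K)} (h : Od (K := K) m x (0 : Tw K)) :
    ∃ a : Tw K, Od (K := K) (m + 1) x a := by
  rw [Od_Tw] at h
  refine ⟨_, Od_Tw.2 ⟨fun j hj => ?_, rfl⟩⟩
  rcases lt_or_eq_of_le (show j ≤ m by push_cast at hj; omega) with h1 | h1
  · exact h.1 j h1
  · rw [h1, h.2]

theorem eq_zero_of_Od {x : Tw (Lau K)} {m0 : ℕ} (h : ∀ m ≥ m0, ∃ a : Tw K, Od (K := K) m x a) :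
    x = 0 := by
  apply tw_eq_zero
  intro j
  obtain ⟨a, ha⟩ := h (max m0 (j + 1).toNat) (le_max_left _ _)
  exact (Od_Tw.1 ha).1 j (by omega)

theorem Od_Vec {m : ℕ} {x : Vec (Lau K)} {a : Vec K} :
    Od (K := K) m x a ↔ ∀ j, Od (K := K) m (x j) (a j) := by
  simp only [Od_iff]; rfl

theorem tw_limit {J : Finset ℕ} (s : ℕ → Tw (Lau K)) (m0 : ℕ) (hs : ∀ m, s m ∈ DJ (Lau K) J)
    (h : ∀ m ≥ m0, ∃ a : Tw K, Od (K := K) m (s (m + 1) - s m) a) :
    ∃ x ∈ DJ (Lau K) J, ∀ m ≥ m0, ∃ a : Tw K, Od (K := K) m (x - s m) a := by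
  have h1 : ∀ g : G, ∃ x : Lau K, ∀ m ≥ m0, ∀ j < (m : ℤ), lcf j x = lcf j (co _ (s m) g) := by
    intro g
    apply lau_limit (fun m => co _ (s m) g) m0
    intro m hm j hj
    obtain ⟨a, ha⟩ := h m hm
    have := congrArg (fun y => co K y g) ((Od_Tw.1 ha).1 j hj)
    simp only [co_tcf, map_sub, Finsupp.sub_apply, map_zero, Finsupp.zero_apply] at this
    exact sub_eq_zero.1 this
  choose c hc using h1
  let x := (DJequiv (K := Lau K) J).symm (fun g => c g)
  refine ⟨x, x.2, fun m hm => ⟨_, Od_Tw.2 ⟨fun j hj => ?_, rfl⟩⟩⟩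
  apply Tw.ext'
  intro g
  simp only [co_tcf, map_sub, Finsupp.sub_apply, map_zero, Finsupp.zero_apply]
  by_cases hg : g ∈ GJ J
  · have : co _ (x : Tw (Lau K)) g = c g :=
      congrFun ((DJequiv (K := Lau K) J).apply_symm_apply (fun g => c g)) ⟨g, hg⟩
    rw [this, hc g m hm j hj, sub_self]
  · rw [x.2 g hg, hs m g hg, sub_self]

theorem vec_limit {J : Finset ℕ} (s : ℕ → Vec (Lau K)) (m0 : ℕ)
    (hs : ∀ m j, s m j ∈ DJ (Lau K) J)
    (h : ∀ m ≥ m0, ∃ a : Vec K, Od (K := K) m (s (m + 1) - s m) a) :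
    ∃ x : Vec (Lau K), (∀ j, x j ∈ DJ (Lau K) J) ∧
      ∀ m ≥ m0, ∃ a : Vec K, Od (K := K) m (x - s m) a := by
  choose x h1 h2 using fun j => tw_limit (fun m => s m j) m0 (fun m => hs m j)
    (fun m hm => by obtain ⟨a, ha⟩ := h m hm; exact ⟨a j, Od_Vec.1 ha j⟩)
  refine ⟨x, h1, fun m hm => ?_⟩
  choose a ha using fun j => h2 j m hm
  exact ⟨a, Od_Vec.2 ha⟩

/-- Euler derivation on `Tw` -/
noncomputable def tth : Tw (Lau K) →+ Tw (Lau K) where
  toFun x := (co _).symm ((co (Lau K) x).mapRange th (map_zero _))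
  map_zero' := by simp
  map_add' x y := by apply Tw.ext'; intro g; simp

theorem co_tth (x : Tw (Lau K)) (g : G) : co _ (tth x) g = th (co (Lau K) x g) := by
  simp [tth]

theorem tth_mul (x y : Tw (Lau K)) : tth (x * y) = tth x * y + x * tth y := by
  apply Tw.ext'
  intro k
  rw [co_tth, map_add, Finsupp.add_apply, co_mul, co_mul x, co_mul' _ _ k (s := (co _ x).support)
    (fun g hg => by
      rw [Finsupp.mem_support_iff] at hg ⊢
      intro h; apply hg; rw [co_tth, h, map_zero]), map_sum, ← Finset.sum_add_distrib]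
  apply Finset.sum_congr rfl
  intro g _
  have : th (cc (Lau K) g (k - g)) = 0 := by rw [← ι_cc (lau K)]; exact th_lC _
  rw [th_mul, th_mul, this, co_tth, co_tth]; ring

theorem tth_smul (c : Lau K) (x : Tw (Lau K)) : tth (c • x) = th c • x + c • tth x := by
  apply Tw.ext'; intro g
  simp [co_tth, th_mul]

theorem tth_up (x : Tw K) : tth (up (lau K) x) = 0 := by
  apply Tw.ext'; intro g
  rw [co_tth, co_up]; exact th_lC _

theorem tth_one : tth (1 : Tw (Lau K)) = 0 := by
  rw [← map_one (up (lau K)), tth_up]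

theorem tr_tth (x : Tw (Lau K)) : tr (tth x) = th (tr x) := co_tth x 0

theorem tth_mem {J : Finset ℕ} {x : Tw (Lau K)} (h : x ∈ DJ (Lau K) J) :
    tth x ∈ DJ (Lau K) J := fun g hg => by rw [co_tth, h g hg, map_zero]

theorem tth_ev (w : Vec (Lau K)) (f : Tm K) :
    tth (ev w (f.map (lau K).ι)) = D1 w (f.map (lau K).ι) (fun j => tth (w j)) := by
  induction f with
  | c a => simp only [Tm.map, ev_c, D1_c]; rw [← up_algebraMap, tth_up]
  | v j => rfl
  | add f g hf hg => simp [Tm.map, hf, hg]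
  | mul f g hf hg => simp [Tm.map, hf, hg, tth_mul]

theorem tth_pow (a : Tw (Lau K)) (k : ℕ) : tth (a ^ k) = Delk a k (tth a) := by
  induction k with
  | zero => simp [tth_one, Delk_zero]
  | succ k ih => rw [pow_succ, tth_mul, ih, Delk_succ]

/-- coefficientwise image of a polynomial -/
noncomputable def pmap {A B : Type} [Ring A] [Ring B] (f : A →+ B) (q : A[X]) : B[X] :=
  q.sum (fun k c => monomial k (f c))

theorem coeff_pmap {A B : Type} [Ring A] [Ring B] (f : A →+ B) (q : A[X]) (k : ℕ) :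
    (pmap f q).coeff k = f (q.coeff k) := by
  unfold pmap
  rw [coeff_sum, Polynomial.sum, Finset.sum_eq_single k]
  · simp
  · intro b _ hb; simp [coeff_monomial, hb]
  · intro h; simp [notMem_support_iff.1 h]

theorem degree_pmap_le {A B : Type} [Ring A] [Ring B] (f : A →+ B) (q : A[X]) :
    (pmap f q).degree ≤ q.degree := by
  rw [degree_le_iff_coeff_zero]
  intro m hm
  rw [coeff_pmap, coeff_eq_zero_of_degree_lt hm, map_zero]

theorem tth_aeval (a : Tw (Lau K)) (q : (Lau K)[X]) :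
    tth (aeval a q) = aeval a (pmap th q) + Del a q (tth a) := by
  have h1 : (pmap th q).natDegree < q.natDegree + 1 :=
    Nat.lt_succ_of_le (natDegree_le_natDegree (degree_pmap_le _ _))
  rw [aeval_eq_sum_range' (Nat.lt_succ_self _), aeval_eq_sum_range' h1,
    Del_eq_sum _ _ (Nat.lt_succ_self _), map_sum, ← Finset.sum_add_distrib]
  apply Finset.sum_congr rfl
  intro k _
  rw [tth_smul, coeff_pmap, tth_pow]

end Crest.Agent.R180
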