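import Crest.Agent.R180.Lau
import Crest.Agent.R180.KeyDefs

set_option autoImplicit false

namespace Crest.Agent.R180

open Module Polynomial

variable {K : Type} [Field K]

/-- truncation -/
noncomputable def mkFam (n : ℕ) : (ℕ → Tw K) →ₗ[K] Fam K :=
  ∑ i ∈ Finset.range n, Finsupp.lsingle i ∘ₗ LinearMap.proj i

theorem mkFam_apply (n : ℕ) (c : ℕ → Tw K) (i : ℕ) : mkFam n c i = if i < n then c i else 0 := by
  simp [mkFam, LinearMap.sum_apply, Finsupp.finsetSum_apply, Finsupp.single_apply]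

theorem mkFam_lt {n : ℕ} (c : ℕ → Tw K) {i : ℕ} (h : i < n) : mkFam n c i = c i := by
  rw [mkFam_apply, if_pos h]

theorem mkFam_ge {n : ℕ} (c : ℕ → Tw K) {i : ℕ} (h : n ≤ i) : mkFam n c i = 0 := by
  rw [mkFam_apply, if_neg (not_lt.2 h)]

/-- direct sum of the first `n` subspaces -/
def famSub (n : ℕ) (W : ℕ → Submodule K (Tw K)) : Submodule K (Fam K) where
  carrier := {b | (∀ i < n, b i ∈ W i) ∧ ∀ i, n ≤ i → b i = 0}
  add_mem' := fun ha hb => ⟨fun i hi => add_mem (ha.1 i hi) (hb.1 i hi),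
    fun i hi => by simp [ha.2 i hi, hb.2 i hi]⟩
  zero_mem' := ⟨fun i _ => zero_mem _, fun _ _ => rfl⟩
  smul_mem' := fun c _ hb => ⟨fun i hi => Submodule.smul_mem _ _ (hb.1 i hi),
    fun i hi => by simp [hb.2 i hi]⟩

theorem mem_famSub {n : ℕ} {W : ℕ → Submodule K (Tw K)} {b : Fam K} :
    b ∈ famSub n W ↔ (∀ i < n, b i ∈ W i) ∧ ∀ i, n ≤ i → b i = 0 := Iff.rfl

theorem mkFam_mem {n : ℕ} {W : ℕ → Submodule K (Tw K)} {c : ℕ → Tw K} (h : ∀ i < n, c i ∈ W i) :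
    mkFam n c ∈ famSub n W :=
  ⟨fun i hi => by rw [mkFam_lt _ hi]; exact h i hi, fun _ hi => mkFam_ge _ hi⟩

theorem fam_ext {n : ℕ} {W W' : ℕ → Submodule K (Tw K)} {b c : Fam K} (hb : b ∈ famSub n W)
    (hc : c ∈ famSub n W') (h : ∀ i < n, b i = c i) : b = c := by
  ext1 i
  by_cases hi : i < n
  · exact h i hi
  · rw [hb.2 i (not_lt.1 hi), hc.2 i (not_lt.1 hi)]

theorem single_mem_famSub {n : ℕ} {W : ℕ → Submodule K (Tw K)} {i : ℕ} (hi : i < n) {c : Tw K}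
    (hc : c ∈ W i) : Finsupp.single i c ∈ famSub n W := by
  constructor
  · intro j _
    rw [Finsupp.single_apply]; split_ifs with h
    · exact h ▸ hc
    · exact zero_mem _
  · intro j hj
    rw [Finsupp.single_apply, if_neg (by omega)]

theorem famSub_mono {n : ℕ} {W W' : ℕ → Submodule K (Tw K)} (h : ∀ i < n, W i ≤ W' i) :
    famSub n W ≤ famSub n W' := fun _ hb => ⟨fun i hi => h i hi (hb.1 i hi), hb.2⟩

theorem famSub_le_succ (n : ℕ) (W : ℕ → Submodule K (Tw K)) : famSub n W ≤ famSub (n + 1) W :=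
  fun b hb => ⟨fun i hi => by
    rcases Nat.lt_succ_iff_lt_or_eq.1 hi with h | h
    · exact hb.1 i h
    · rw [hb.2 i h.ge]; exact zero_mem _, fun i hi => hb.2 i (by omega)⟩

noncomputable def famEquiv (n : ℕ) (W : ℕ → Submodule K (Tw K)) :
    famSub n W ≃ₗ[K] (∀ i : Fin n, W i) where
  toFun b i := ⟨b.1 i, b.2.1 i i.2⟩
  map_add' _ _ := rfl
  map_smul' _ _ := rfl
  invFun c := ⟨mkFam n (fun i => if h : i < n then (c ⟨i, h⟩ : Tw K) else 0),
    mkFam_mem (fun i hi => by simp only [dif_pos hi]; exact (c ⟨i, hi⟩).2)⟩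
  left_inv b := by
    apply Subtype.ext
    apply fam_ext (mkFam_mem (W := fun _ => ⊤) (fun _ _ => Submodule.mem_top)) b.2
    intro i hi
    rw [mkFam_lt _ hi, dif_pos hi]
  right_inv c := by
    funext i
    apply Subtype.ext
    simp only
    rw [mkFam_lt _ i.2, dif_pos i.2]

theorem fd_famSub {n : ℕ} {W : ℕ → Submodule K (Tw K)} (h : ∀ i < n, FiniteDimensional K (W i)) :
    FiniteDimensional K (famSub n W) := by
  haveI : ∀ i : Fin n, FiniteDimensional K (W i) := fun i => h i i.2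
  exact (famEquiv n W).symm.finiteDimensional

theorem finrank_famSub {n : ℕ} {W : ℕ → Submodule K (Tw K)}
    (h : ∀ i < n, FiniteDimensional K (W i)) :
    finrank K (famSub n W) = ∑ i ∈ Finset.range n, finrank K (W i) := by
  haveI : ∀ i : Fin n, FiniteDimensional K (W i) := fun i => h i i.2
  rw [(famEquiv n W).finrank_eq, Module.finrank_pi_fintype,
    Finset.sum_range (fun i => finrank K (W i))]

variable [Algebra Z0 K]

variable (K) in
/-- trace pairing of families -/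
noncomputable def prF (n : ℕ) : Fam K →ₗ[K] Fam K →ₗ[K] K :=
  ∑ i ∈ Finset.range n, (trB K).compl₁₂ (Finsupp.lapply i) (Finsupp.lapply i)

theorem prF_apply (n : ℕ) (b c : Fam K) :
    prF K n b c = ∑ i ∈ Finset.range n, tr (b i * c i) := by
  simp [prF, LinearMap.sum_apply]

theorem prF_comm (n : ℕ) (b c : Fam K) : prF K n b c = prF K n c b := by
  simp only [prF_apply, tr_comm (b _)]

theorem prF_single {n i : ℕ} (hi : i < n) (b : Fam K) (c : Tw K) :
    prF K n b (Finsupp.single i c) = tr (b i * c) := by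
  rw [prF_apply, Finset.sum_eq_single i]
  · simp
  · intro j _ hj; simp [Finsupp.single_apply, hj.symm]
  · intro h; exact absurd (Finset.mem_range.2 hi) h

theorem prF_congr {n : ℕ} (b : Fam K) {c c' : Fam K} (h : ∀ i < n, c i = c' i) :
    prF K n b c = prF K n b c' := by
  rw [prF_apply, prF_apply]
  exact Finset.sum_congr rfl (fun i hi => by rw [h i (Finset.mem_range.1 hi)])

theorem prF_succ {n : ℕ} (b c : Fam K) :
    prF K (n + 1) b c = prF K n b c + tr (b n * c n) := by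
  rw [prF_apply, prF_apply, Finset.sum_range_succ]

variable [Dom K]

/-- projected derivative -/
noncomputable def lam (w : Vec K) (f : Tm K) : Vec K →ₗ[K] Tw K := pia (ev w f) ∘ₗ D1 w f

theorem lam_apply (w ξ : Vec K) (f : Tm K) : lam w f ξ = pia (ev w f) (D1 w f ξ) := rfl

/-- tangent space -/
noncomputable def VV (J : Finset ℕ) (w : Vec K) (S : ℕ → Tm K) (n : ℕ) : Submodule K (Vec K) where
  carrier := {ξ | ξ ∈ base K (Vec K) J ∧ ∀ i < n, lam w (S i) ξ = 0}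
  add_mem' := fun ha hb => ⟨add_mem ha.1 hb.1, fun i hi => by simp [ha.2 i hi, hb.2 i hi]⟩
  zero_mem' := ⟨zero_mem _, fun i _ => by simp⟩
  smul_mem' := fun c _ hb => ⟨Submodule.smul_mem _ _ hb.1, fun i hi => by simp [hb.2 i hi]⟩

noncomputable def PP (J : Finset ℕ) (w : Vec K) (S : ℕ → Tm K) (n : ℕ) (f : Tm K) :
    Submodule K (Tw K) := (VV J w S n).map (lam w f)

noncomputable def P0 (J : Finset ℕ) (w : Vec K) (S : ℕ → Tm K) (n : ℕ) (f : Tm K) :
    Submodule K (Tw K) := (PP J w S n f).map (prj (Lf (ev w f)))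

noncomputable def CC (J : Finset ℕ) (w : Vec K) (S : ℕ → Tm K) (i : ℕ) : Submodule K (Tw K) :=
  Subalgebra.toSubmodule (Cen J {ev w (S i)})

noncomputable def LL (w : Vec K) (S : ℕ → Tm K) (i : ℕ) : Submodule K (Tw K) :=
  Subalgebra.toSubmodule (Lf (ev w (S i)))

noncomputable def TT (J : Finset ℕ) (w : Vec K) (S : ℕ → Tm K) (n : ℕ) : Submodule K (Fam K) :=
  famSub n (CC J w S)

noncomputable def Lam (w : Vec K) (S : ℕ → Tm K) (n : ℕ) : Vec K →ₗ[K] Fam K :=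
  mkFam n ∘ₗ LinearMap.pi (fun i => lam w (S i))

noncomputable def ImR (J : Finset ℕ) (w : Vec K) (S : ℕ → Tm K) (R : ℕ → Submodule K (Tw K))
    (n : ℕ) : Submodule K (Fam K) := (base K (Vec K) J).map (Lam w S n) ⊔ famSub n R

/-- obstruction space -/
noncomputable def NN (J : Finset ℕ) (w : Vec K) (S : ℕ → Tm K) (R : ℕ → Submodule K (Tw K))
    (n : ℕ) : Submodule K (Fam K) := perpIn (prF K n) (TT J w S n) (ImR J w S R n)

noncomputable def pf (w : Vec K) (f : Tm K) : Tm K :=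
  Tm.poly (minpoly K (ev w f)) f (dgr (ev w f) + 1)

noncomputable def psi (w : Vec K) (f : Tm K) : Vec K →ₗ[K] Vec K →ₗ[K] Tw K :=
  (D2 w (pf w f)).compr₂ (LinearMap.mulLeft K (pd (ev w f))⁻¹)

theorem psi_apply (w ξ η : Vec K) (f : Tm K) :
    psi w f ξ η = (pd (ev w f))⁻¹ * D2 w (pf w f) ξ η := rfl

noncomputable def Psi (w : Vec K) (S : ℕ → Tm K) (n : ℕ) : Vec K →ₗ[K] Vec K →ₗ[K] Fam K :=
  ∑ i ∈ Finset.range n, (psi w (S i)).compr₂ (Finsupp.lsingle i)

theorem Psi_apply (w ξ η : Vec K) (S : ℕ → Tm K) (n : ℕ) :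
    Psi w S n ξ η = mkFam n (fun i => psi w (S i) ξ η) := by
  simp [Psi, mkFam, LinearMap.sum_apply]

/-- second order form -/
noncomputable def Om (w : Vec K) (S : ℕ → Tm K) (n : ℕ) :
    Fam K →ₗ[K] Vec K →ₗ[K] Vec K →ₗ[K] K where
  toFun b := (Psi w S n).compr₂ (prF K n b)
  map_add' _ _ := by ext; simp
  map_smul' _ _ := by ext; simp

theorem Om_apply (w ξ η : Vec K) (S : ℕ → Tm K) (n : ℕ) (b : Fam K) :
    Om w S n b ξ η = prF K n b (Psi w S n ξ η) := rfl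

theorem Om_eq_sum (w ξ η : Vec K) (S : ℕ → Tm K) (n : ℕ) (b : Fam K) :
    Om w S n b ξ η = ∑ i ∈ Finset.range n, tr (b i * psi w (S i) ξ η) := by
  rw [Om_apply, prF_apply, Psi_apply]
  exact Finset.sum_congr rfl (fun i hi => by rw [mkFam_lt _ (Finset.mem_range.1 hi)])

noncomputable def Al (w : Vec K) (S : ℕ → Tm K) (n : ℕ) :
    Fam K →ₗ[K] Vec K →ₗ[K] Vec K →ₗ[K] K where
  toFun b := Om w S n b - (Om w S n b).flip
  map_add' _ _ := by ext; simp; ring
  map_smul' _ _ := by ext; simp; ring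

theorem Al_apply (w ξ η : Vec K) (S : ℕ → Tm K) (n : ℕ) (b : Fam K) :
    Al w S n b ξ η = Om w S n b ξ η - Om w S n b η ξ := rfl

noncomputable def Sg (w : Vec K) (S : ℕ → Tm K) (n : ℕ) (τ : Vec K) : Vec K →ₗ[K] Fam K :=
  Psi w S n τ + (Psi w S n).flip τ

theorem Sg_apply (w τ η : Vec K) (S : ℕ → Tm K) (n : ℕ) :
    Sg w S n τ η = Psi w S n τ η + Psi w S n η τ := rfl

theorem Sg_lt (w τ η : Vec K) (S : ℕ → Tm K) {n i : ℕ} (hi : i < n) :
    Sg w S n τ η i = psi w (S i) τ η + psi w (S i) η τ := by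
  rw [Sg_apply, Finsupp.add_apply, Psi_apply, Psi_apply, mkFam_lt _ hi, mkFam_lt _ hi]

theorem prF_Sg (w τ η : Vec K) (S : ℕ → Tm K) (n : ℕ) (b : Fam K) :
    prF K n b (Sg w S n τ η) = Om w S n b τ η + Om w S n b η τ := by
  rw [Sg_apply, map_add]; rfl

section basic
variable {J : Finset ℕ} {w : Vec K} {S : ℕ → Tm K} {R : ℕ → Submodule K (Tw K)} {n : ℕ}

theorem mem_VV {ξ : Vec K} :
    ξ ∈ VV J w S n ↔ ξ ∈ base K (Vec K) J ∧ ∀ i < n, lam w (S i) ξ = 0 := Iff.rfl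

theorem VV_le : VV J w S n ≤ base K (Vec K) J := fun _ h => h.1

theorem VV_anti {m : ℕ} (h : n ≤ m) : VV J w S m ≤ VV J w S n :=
  fun _ hξ => ⟨hξ.1, fun i hi => hξ.2 i (hi.trans_le h)⟩

theorem VV_monoJ {J' : Finset ℕ} (h : J ⊆ J') : VV J w S n ≤ VV J' w S n :=
  fun _ hξ => ⟨base_mono h hξ.1, hξ.2⟩

instance : FiniteDimensional K (VV J w S n) := Submodule.finiteDimensional_of_le VV_le
instance (f : Tm K) : FiniteDimensional K (PP J w S n f) := by unfold PP; infer_instance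
instance (f : Tm K) : FiniteDimensional K (P0 J w S n f) := by unfold P0; infer_instance
instance (i : ℕ) : FiniteDimensional K (CC J w S i) := by unfold CC; infer_instance
instance (i : ℕ) : FiniteDimensional K (LL w S i) := by unfold LL; infer_instance
instance : FiniteDimensional K (TT J w S n) := fd_famSub (fun _ _ => inferInstance)
instance : FiniteDimensional K (NN J w S R n) := Submodule.finiteDimensional_of_le (perpIn_le _ _ _)

theorem Lam_apply (ξ : Vec K) : Lam w S n ξ = mkFam n (fun i => lam w (S i) ξ) := rfl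

theorem Lam_lt (ξ : Vec K) {i : ℕ} (hi : i < n) : Lam w S n ξ i = lam w (S i) ξ := by
  rw [Lam_apply, mkFam_lt _ hi]

theorem Lam_mem_top (ξ : Vec K) : Lam w S n ξ ∈ famSub n (fun _ => ⊤) :=
  mkFam_mem (fun _ _ => Submodule.mem_top)

theorem Lam_eq_zero_iff {ξ : Vec K} : Lam w S n ξ = 0 ↔ ∀ i < n, lam w (S i) ξ = 0 := by
  constructor
  · intro h i hi; rw [← Lam_lt ξ hi, h]; rfl
  · intro h
    exact fam_ext (Lam_mem_top ξ) (zero_mem (famSub n (fun _ => ⊤))) (fun i hi => by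
      rw [Lam_lt ξ hi, h i hi]; rfl)

theorem VV_eq : VV J w S n = base K (Vec K) J ⊓ LinearMap.ker (Lam w S n) := by
  ext ξ
  rw [mem_VV, Submodule.mem_inf, LinearMap.mem_ker, Lam_eq_zero_iff]

theorem ev_mem_DJ (hw : w ∈ base K (Vec K) J) (f : Tm K) : ev w f ∈ DJ K J :=
  ev_mem (mem_base_Vec.1 hw) f

theorem D1_mem_DJ (hw : w ∈ base K (Vec K) J) {ξ : Vec K} (hξ : ξ ∈ base K (Vec K) J) (f : Tm K) :
    D1 w f ξ ∈ DJ K J := D1_mem (mem_base_Vec.1 hw) (mem_base_Vec.1 hξ) f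

theorem lam_mem (hw : w ∈ base K (Vec K) J) {ξ : Vec K} (hξ : ξ ∈ base K (Vec K) J) (f : Tm K) :
    lam w f ξ ∈ Cen J {ev w f} := pia_mem_Cen (ev_mem_DJ hw f) (D1_mem_DJ hw hξ f)

theorem PP_le (hw : w ∈ base K (Vec K) J) (f : Tm K) :
    PP J w S n f ≤ Subalgebra.toSubmodule (Cen J {ev w f}) := by
  rintro _ ⟨ξ, hξ, rfl⟩; exact lam_mem hw hξ.1 f

theorem P0_le (f : Tm K) : P0 J w S n f ≤ Subalgebra.toSubmodule (Lf (ev w f)) := by
  rintro _ ⟨ξ, _, rfl⟩; exact prj_mem _ _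

theorem P0_eq {f : Tm K} (h : PP J w S n f ≤ Subalgebra.toSubmodule (Lf (ev w f))) :
    P0 J w S n f = PP J w S n f := by
  ext x
  constructor
  · rintro ⟨y, hy, rfl⟩; rwa [prj_of_mem _ (h hy)]
  · intro hx; exact ⟨x, hx, prj_of_mem _ (h hx)⟩

theorem CC_le (i : ℕ) : CC J w S i ≤ Subalgebra.toSubmodule (DJ K J) := Cen_le _ _

theorem LL_le_CC (hw : w ∈ base K (Vec K) J) (i : ℕ) : LL w S i ≤ CC J w S i :=
  Lf_le_Cen (ev_mem_DJ hw _)

theorem Lam_mem (hw : w ∈ base K (Vec K) J) {ξ : Vec K} (hξ : ξ ∈ base K (Vec K) J) :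
    Lam w S n ξ ∈ TT J w S n := mkFam_mem (fun _ _ => lam_mem hw hξ _)

theorem famSub_le_base {W : ℕ → Submodule K (Tw K)}
    (h : ∀ i < n, W i ≤ Subalgebra.toSubmodule (DJ K J)) : famSub n W ≤ base K (Fam K) J := by
  intro b hb
  rw [mem_base_Fam]
  intro i
  by_cases hi : i < n
  · exact h i hi (hb.1 i hi)
  · rw [hb.2 i (not_lt.1 hi)]; exact zero_mem _

theorem TT_le_base : TT J w S n ≤ base K (Fam K) J := famSub_le_base (fun i _ => CC_le i)

theorem ImR_le (hw : w ∈ base K (Vec K) J) (hR : ∀ i < n, R i ≤ CC J w S i) :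
    ImR J w S R n ≤ TT J w S n :=
  sup_le (by rintro _ ⟨ξ, hξ, rfl⟩; exact Lam_mem hw hξ) (famSub_mono hR)

theorem prF_nondeg : ∀ b ∈ TT J w S n, (∀ c ∈ TT J w S n, prF K n b c = 0) → b = 0 := by
  intro b hb h
  refine fam_ext hb (zero_mem (TT J w S n)) (fun i hi => ?_)
  apply eq_zero_of_tr (Cen J {ev w (S i)}) (hb.1 i hi)
  intro y hy
  rw [← prF_single hi]
  exact h _ (single_mem_famSub hi hy)

theorem NN_le : NN J w S R n ≤ TT J w S n := perpIn_le _ _ _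

theorem mem_NN {b : Fam K} : b ∈ NN J w S R n ↔ b ∈ TT J w S n ∧
    (∀ ξ ∈ base K (Vec K) J, prF K n b (Lam w S n ξ) = 0) ∧
      ∀ i < n, ∀ ρ ∈ R i, tr (b i * ρ) = 0 := by
  constructor
  · rintro ⟨h1, h2⟩
    refine ⟨h1, fun ξ hξ => h2 _ (Submodule.mem_sup_left ⟨ξ, hξ, rfl⟩), fun i hi ρ hρ => ?_⟩
    rw [← prF_single hi]
    exact h2 _ (Submodule.mem_sup_right (single_mem_famSub hi hρ))
  · rintro ⟨h1, h2, h3⟩
    refine ⟨h1, fun c hc => ?_⟩
    obtain ⟨_, ⟨ξ, hξ, rfl⟩, ρ, hρ, rfl⟩ := Submodule.mem_sup.1 hc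
    rw [map_add, h2 ξ hξ, zero_add, prF_apply]
    exact Finset.sum_eq_zero (fun i hi => h3 i (Finset.mem_range.1 hi) _
      (hρ.1 i (Finset.mem_range.1 hi)))

theorem NN_le_succ : NN J w S R n ≤ NN J w S R (n + 1) := by
  intro b hb
  obtain ⟨h1, h2, h3⟩ := mem_NN.1 hb
  refine mem_NN.2 ⟨famSub_le_succ _ _ h1, fun ξ hξ => ?_, fun i hi ρ hρ => ?_⟩
  · rw [prF_succ, h1.2 n le_rfl, zero_mul, map_zero, add_zero, ← h2 ξ hξ]
    exact prF_congr _ (fun i hi => by rw [Lam_lt _ hi, Lam_lt _ (Nat.lt_succ_of_lt hi)])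
  · rcases Nat.lt_succ_iff_lt_or_eq.1 hi with h | h
    · exact h3 i h ρ hρ
    · rw [h1.2 i h.ge, zero_mul, map_zero]

theorem mem_NN_of_succ {b : Fam K} (hb : b ∈ NN J w S R (n + 1)) (h0 : b n = 0) :
    b ∈ NN J w S R n := by
  obtain ⟨h1, h2, h3⟩ := mem_NN.1 hb
  refine mem_NN.2 ⟨⟨fun i hi => h1.1 i (Nat.lt_succ_of_lt hi), fun i hi => ?_⟩, fun ξ hξ => ?_,
    fun i hi => h3 i (Nat.lt_succ_of_lt hi)⟩
  · rcases eq_or_lt_of_le hi with h | h
    · rw [← h, h0]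
    · exact h1.2 i h
  · have := h2 ξ hξ
    rw [prF_succ, h0, zero_mul, map_zero, add_zero] at this
    rw [← this]
    exact prF_congr _ (fun i hi => by rw [Lam_lt _ hi, Lam_lt _ (Nat.lt_succ_of_lt hi)])

theorem Om_succ (b : Fam K) (ξ η : Vec K) :
    Om w S (n + 1) b ξ η = Om w S n b ξ η + tr (b n * psi w (S n) ξ η) := by
  rw [Om_eq_sum, Om_eq_sum, Finset.sum_range_succ]

theorem Om_succ_of {b : Fam K} (h : b n = 0) (ξ η : Vec K) :
    Om w S (n + 1) b ξ η = Om w S n b ξ η := by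
  rw [Om_succ, h, zero_mul, map_zero, add_zero]

theorem mem_VV_of_mem_R (hPR : ∀ i < n, PP J w S i (S i) ⊓ R i = ⊥) {ξ : Vec K}
    (hξ : ξ ∈ base K (Vec K) J) (h : ∀ i < n, lam w (S i) ξ ∈ R i) : ξ ∈ VV J w S n := by
  have : ∀ k ≤ n, ξ ∈ VV J w S k := by
    intro k
    induction k with
    | zero => exact fun _ => ⟨hξ, fun i hi => absurd hi (Nat.not_lt_zero _)⟩
    | succ k ih =>
      intro hk
      have h1 := ih (by omega)
      refine ⟨hξ, fun i hi => ?_⟩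
      rcases Nat.lt_succ_iff_lt_or_eq.1 hi with h2 | h2
      · exact h1.2 i h2
      · subst h2
        have : lam w (S i) ξ ∈ PP J w S i (S i) ⊓ R i := ⟨⟨ξ, h1, rfl⟩, h i hk⟩
        rwa [hPR i hk] at this
  exact this n le_rfl

theorem finrank_ImR (hR : ∀ i < n, R i ≤ CC J w S i)
    (hPR : ∀ i < n, PP J w S i (S i) ⊓ R i = ⊥) :
    finrank K (ImR J w S R n) + finrank K (VV J w S n) =
      2 * NJ J ^ 2 + ∑ i ∈ Finset.range n, finrank K (R i) := by
  have hfd : ∀ i < n, FiniteDimensional K (R i) :=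
    fun i hi => Submodule.finiteDimensional_of_le (hR i hi)
  haveI := fd_famSub hfd
  have h1 := Submodule.finrank_sup_add_finrank_inf_eq ((base K (Vec K) J).map (Lam w S n))
    (famSub n R)
  have h2 : (base K (Vec K) J).map (Lam w S n) ⊓ famSub n R = ⊥ := by
    rw [eq_bot_iff]
    rintro _ ⟨⟨ξ, hξ, rfl⟩, h⟩
    exact Lam_eq_zero_iff.2 (mem_VV_of_mem_R hPR hξ
      (fun i hi => by rw [← Lam_lt ξ hi]; exact h.1 i hi)).2
  have h3 := finrank_map_add_inf_ker (Lam w S n) (base K (Vec K) J)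
  rw [h2, finrank_bot, finrank_famSub hfd] at h1
  rw [← VV_eq, finrank_base_Vec] at h3
  unfold ImR
  omega

theorem finrank_NN (hw : w ∈ base K (Vec K) J) (hR : ∀ i < n, R i ≤ CC J w S i) :
    finrank K (NN J w S R n) + finrank K (ImR J w S R n) =
      ∑ i ∈ Finset.range n, finrank K (CC J w S i) := by
  rw [← finrank_famSub (fun _ _ => inferInstance)]
  exact finrank_perpIn _ _ prF_nondeg (ImR_le hw hR)

theorem finrank_VV (hw : w ∈ base K (Vec K) J) (hR : ∀ i < n, R i ≤ CC J w S i)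
    (hPR : ∀ i < n, PP J w S i (S i) ⊓ R i = ⊥) :
    finrank K (VV J w S n) + ∑ i ∈ Finset.range n, finrank K (CC J w S i) =
      2 * NJ J ^ 2 + finrank K (NN J w S R n) + ∑ i ∈ Finset.range n, finrank K (R i) := by
  have h1 := finrank_ImR hR hPR
  have h2 := finrank_NN hw hR
  omega

/-- a choice of complements -/
def IsU (J : Finset ℕ) (w : Vec K) (S : ℕ → Tm K) (R : ℕ → Submodule K (Tw K)) (n : ℕ)
    (U : ℕ → Submodule K (Tw K)) : Prop :=
  ∀ i < n, U i ≤ LL w S i ∧ (PP J w S i (S i) ⊔ R i) ⊓ U i = ⊥ ∧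
    CC J w S i ≤ PP J w S i (S i) ⊔ R i ⊔ U i

theorem exists_IsU (h : ∀ i < n, CC J w S i ≤ PP J w S i (S i) ⊔ R i ⊔ LL w S i) :
    ∃ U, IsU J w S R n U := by
  choose U h1 h2 h3 using fun i => exists_compl_le (PP J w S i (S i) ⊔ R i) (LL w S i)
  exact ⟨U, fun i hi => ⟨h1 i, h2 i, h3 i ▸ h i hi⟩⟩

theorem TT_le_sup (hw : w ∈ base K (Vec K) J) (hR : ∀ i < n, R i ≤ CC J w S i)
    {U : ℕ → Submodule K (Tw K)} (hU : IsU J w S R n U) :
    TT J w S n ≤ ImR J w S R n ⊔ famSub n U := by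
  have key : ∀ k j, j + k = n → ∀ b ∈ TT J w S n, (∀ i < j, b i = 0) →
      b ∈ ImR J w S R n ⊔ famSub n U := by
    intro k
    induction k with
    | zero =>
      intro j hj b hb h0
      have : b = 0 := fam_ext hb (zero_mem (TT J w S n)) (fun i hi => h0 i (by omega))
      rw [this]; exact zero_mem _
    | succ k ih =>
      intro j hj b hb h0
      have hjn : j < n := by omega
      obtain ⟨x, hx, u, hu, e⟩ := Submodule.mem_sup.1 ((hU j hjn).2.2 (hb.1 j hjn))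
      obtain ⟨_, ⟨η, hη, rfl⟩, ρ, hρ, rfl⟩ := Submodule.mem_sup.1 hx
      have h1 : Lam w S n η + Finsupp.single j ρ ∈ ImR J w S R n :=
        Submodule.add_mem_sup ⟨η, hη.1, rfl⟩ (single_mem_famSub hjn hρ)
      have h2 : Finsupp.single j u ∈ famSub n U := single_mem_famSub hjn hu
      have h3 := ih (j + 1) (by omega) (b - (Lam w S n η + Finsupp.single j ρ + Finsupp.single j u))
        (sub_mem hb (add_mem (ImR_le hw hR h1)
          (single_mem_famSub hjn (LL_le_CC hw j ((hU j hjn).1 hu))))) (by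
          intro i hi
          simp only [Finsupp.sub_apply, Finsupp.add_apply, Lam_lt η (show i < n by omega)]
          rcases Nat.lt_succ_iff_lt_or_eq.1 hi with h | h
          · rw [h0 i h, hη.2 i h, Finsupp.single_eq_of_ne h.ne, Finsupp.single_eq_of_ne h.ne]; simp
          · subst h; simp [← e])
      simpa using add_mem h3 (Submodule.add_mem_sup h1 h2)
  exact fun b hb => key n 0 (by omega) b hb (fun i hi => absurd hi (Nat.not_lt_zero _))

theorem ImR_inf_U (hPR : ∀ i < n, PP J w S i (S i) ⊓ R i = ⊥)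
    {U : ℕ → Submodule K (Tw K)} (hU : IsU J w S R n U) :
    ImR J w S R n ⊓ famSub n U = ⊥ := by
  rw [eq_bot_iff]
  rintro b ⟨h1, h2⟩
  obtain ⟨_, ⟨ξ, hξ, rfl⟩, ρ, hρ, rfl⟩ := Submodule.mem_sup.1 h1
  have key : ∀ k ≤ n, ξ ∈ VV J w S k ∧ ∀ i < k, ρ i = 0 := by
    intro k
    induction k with
    | zero => exact fun _ => ⟨⟨hξ, fun i hi => absurd hi (Nat.not_lt_zero _)⟩,
        fun i hi => absurd hi (Nat.not_lt_zero _)⟩
    | succ k ih =>
      intro hk
      obtain ⟨h3, h4⟩ := ih (by omega)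
      have h5 : lam w (S k) ξ + ρ k ∈ (PP J w S k (S k) ⊔ R k) ⊓ U k := by
        refine ⟨Submodule.add_mem_sup ⟨ξ, h3, rfl⟩ (hρ.1 k hk), ?_⟩
        have := h2.1 k hk
        rwa [Finsupp.add_apply, Lam_lt ξ (show k < n from hk)] at this
      rw [(hU k hk).2.1, Submodule.mem_bot] at h5
      have h6 : lam w (S k) ξ ∈ PP J w S k (S k) ⊓ R k :=
        ⟨⟨ξ, h3, rfl⟩, by rw [eq_neg_of_add_eq_zero_left h5]; exact neg_mem (hρ.1 k hk)⟩
      rw [hPR k hk, Submodule.mem_bot] at h6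
      rw [h6, zero_add] at h5
      refine ⟨⟨hξ, fun i hi => ?_⟩, fun i hi => ?_⟩
      · rcases Nat.lt_succ_iff_lt_or_eq.1 hi with h | h
        · exact h3.2 i h
        · rw [h, h6]
      · rcases Nat.lt_succ_iff_lt_or_eq.1 hi with h | h
        · exact h4 i h
        · rw [h, h5]
  obtain ⟨h3, h4⟩ := key n le_rfl
  rw [Submodule.mem_bot, Lam_eq_zero_iff.2 h3.2, zero_add]
  exact fam_ext hρ (zero_mem (famSub n R)) h4

theorem famU_le (hw : w ∈ base K (Vec K) J) {U : ℕ → Submodule K (Tw K)} (hU : IsU J w S R n U) :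
    famSub n U ≤ TT J w S n := famSub_mono (fun i hi => (hU i hi).1.trans (LL_le_CC hw i))

theorem finrank_famU (hw : w ∈ base K (Vec K) J) (hR : ∀ i < n, R i ≤ CC J w S i)
    (hPR : ∀ i < n, PP J w S i (S i) ⊓ R i = ⊥) {U : ℕ → Submodule K (Tw K)}
    (hU : IsU J w S R n U) : finrank K (famSub n U) = finrank K (NN J w S R n) := by
  haveI : FiniteDimensional K (famSub n U) := Submodule.finiteDimensional_of_le (famU_le hw hU)
  haveI : FiniteDimensional K (ImR J w S R n) := Submodule.finiteDimensional_of_le (ImR_le hw hR)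
  have h1 := Submodule.finrank_sup_add_finrank_inf_eq (ImR J w S R n) (famSub n U)
  rw [ImR_inf_U hPR hU, finrank_bot,
    le_antisymm (sup_le (ImR_le hw hR) (famU_le hw hU)) (TT_le_sup hw hR hU)] at h1
  have h2 := finrank_NN hw hR
  rw [← finrank_famSub (fun _ _ => inferInstance)] at h2
  unfold TT at h1
  omega

theorem psi_formula {f : Tm K} {ξ η : Vec K} {g : Tw K}
    (hg : D1 w f η = g * ev w f - ev w f * g) (hξ : lam w f ξ = 0) :
    psi w f ξ η = pia (ev w f) (D2 w f ξ η + D1 w f ξ * g) := by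
  rw [psi_apply, pf, D2_poly w ξ η f (N := dgr (ev w f) + 1) (Nat.lt_succ_self _) hg,
    Del_minpoly _ (D1 w f ξ),
    ← lam_apply, hξ, mul_zero, zero_mul, sub_zero, pia_apply]

theorem psi_mem_DJ (hw : w ∈ base K (Vec K) J) {ξ η : Vec K} (hξ : ξ ∈ base K (Vec K) J)
    (hη : η ∈ base K (Vec K) J) (f : Tm K) : psi w f ξ η ∈ DJ K J :=
  mul_mem (Lf_le (ev_mem_DJ hw f) (inv_mem_Lf (pd_mem_Lf _)))
    (D2_mem (mem_base_Vec.1 hw) (mem_base_Vec.1 hξ) (mem_base_Vec.1 hη) _)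

theorem psi_mem (hw : w ∈ base K (Vec K) J) {ξ η : Vec K} (hξ : ξ ∈ base K (Vec K) J)
    (hη : η ∈ base K (Vec K) J) {f : Tm K} (h1 : lam w f ξ = 0) (h2 : lam w f η = 0) :
    psi w f ξ η ∈ Cen J {ev w f} := by
  obtain ⟨g, -, -, hg⟩ := exists_ad (ev_mem_DJ hw f) (D1_mem_DJ hw hη f) h2
  refine mem_Cen_singleton.2 ⟨?_, psi_mem_DJ hw hξ hη f⟩
  rw [psi_formula hg h1, pia_comm]

theorem Psi_mem (hw : w ∈ base K (Vec K) J) {ξ η : Vec K} (hξ : ξ ∈ VV J w S n)
    (hη : η ∈ VV J w S n) : Psi w S n ξ η ∈ TT J w S n := by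
  rw [Psi_apply]
  exact mkFam_mem (fun i hi => psi_mem hw hξ.1 hη.1 (hξ.2 i hi) (hη.2 i hi))

theorem Sg_mem (hw : w ∈ base K (Vec K) J) {ξ η : Vec K} (hξ : ξ ∈ VV J w S n)
    (hη : η ∈ VV J w S n) : Sg w S n ξ η ∈ TT J w S n :=
  add_mem (Psi_mem hw hξ hη) (Psi_mem hw hη hξ)

theorem ad_mem_VV (hw : w ∈ base K (Vec K) J) {g : Tw K} (hg : g ∈ DJ K J) :
    (fun j => g * w j - w j * g) ∈ VV J w S n :=
  ⟨mem_base_Vec.2 (fun j => sub_mem (mul_mem hg (mem_base_Vec.1 hw j))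
    (mul_mem (mem_base_Vec.1 hw j) hg)), fun i _ => by rw [lam_apply, D1_ad, pia_ad]⟩

end basic

end Crest.Agent.R180
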