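import Crest.Agent.R180.Perp

set_option autoImplicit false

namespace Crest.Agent.R180

open Module

variable {K : Type*} [Field K] {M : Type*} [AddCommGroup M] [Module K M]
  {A : Type*} [AddCommGroup A] [Module K A]

/-- the map `N ⊗ H → X^*` is injective -/
def Nice (α : A →ₗ[K] M →ₗ[K] M →ₗ[K] K) (N : Submodule K A) (H X : Submodule K M) : Prop :=
  ∀ (s : ℕ) (b : Fin s → A) (h : Fin s → M), LinearIndependent K b → (∀ a, b a ∈ N) →
    (∀ a, h a ∈ H) → (∀ ξ ∈ X, ∑ a, α (b a) (h a) ξ = 0) → ∀ a, h a = 0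

variable {α : A →ₗ[K] M →ₗ[K] M →ₗ[K] K}

theorem Nice.mono {N N' : Submodule K A} {H H' X X' : Submodule K M} (h : Nice α N H X)
    (hN : N' ≤ N) (hH : H' ≤ H) (hX : X ≤ X') : Nice α N' H' X' :=
  fun s b k hb h1 h2 h3 => h s b k hb (fun a => hN (h1 a)) (fun a => hH (h2 a))
    (fun ξ hξ => h3 ξ (hX hξ))

theorem Nice.single {N : Submodule K A} {H X : Submodule K M} (hN : Nice α N H X) {h : M}
    (hH : h ∈ H) (h0 : h ≠ 0) {b : A} (hb : b ∈ N) (H0 : ∀ ξ ∈ X, α b h ξ = 0) : b = 0 := by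
  by_contra hb0
  apply h0
  exact hN 1 (fun _ => b) (fun _ => h) (linearIndependent_unique_iff.2 hb0) (fun _ => hb)
    (fun _ => hH) (by simpa using H0) 0

theorem nice_of_basis {N : Submodule K A} {H X : Submodule K M} {ι : Type*} [Fintype ι]
    (b : ι → A) (hb : N ≤ Submodule.span K (Set.range b))
    (H0 : ∀ h : ι → M, (∀ a, h a ∈ H) → (∀ ξ ∈ X, ∑ a, α (b a) (h a) ξ = 0) → ∀ a, h a = 0) :
    Nice α N H X := by
  intro s b' h hb' h1 h2 h3
  choose m hm using fun a => (Submodule.mem_span_range_iff_exists_fun K).1 (hb (h1 a))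
  have key := H0 (fun a => ∑ a', m a' a • h a')
    (fun a => Submodule.sum_mem _ (fun a' _ => Submodule.smul_mem _ _ (h2 a'))) (by
      intro ξ hξ
      rw [← h3 ξ hξ]
      simp only [← hm, map_sum, map_smul, LinearMap.sum_apply, LinearMap.smul_apply]
      rw [Finset.sum_comm])
  intro a'
  rw [← Module.forall_dual_apply_eq_zero_iff K]
  intro l
  refine Fintype.linearIndependent_iff.1 hb' (fun a => l (h a)) ?_ a'
  simp only [← hm, Finset.smul_sum, smul_smul]
  rw [Finset.sum_comm]
  apply Finset.sum_eq_zero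
  intro a _
  rw [← Finset.sum_smul]
  have := congrArg l (key a)
  simp only [map_sum, map_smul, smul_eq_mul, map_zero] at this
  simp only [mul_comm (l _), this, zero_smul]

theorem nice_of_family {N : Submodule K A} {X : Submodule K M} {ι : Type*} [Fintype ι]
    (h : ι → M)
    (H0 : ∀ β : ι → A, (∀ i, β i ∈ N) → (∀ ξ ∈ X, ∑ i, α (β i) (h i) ξ = 0) → ∀ i, β i = 0) :
    Nice α N (Submodule.span K (Set.range h)) X := by
  intro s b k hb h1 h2 h3
  choose m hm using fun a => (Submodule.mem_span_range_iff_exists_fun K).1 (h2 a)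
  have key := H0 (fun i => ∑ a, m a i • b a)
    (fun i => Submodule.sum_mem _ (fun a _ => Submodule.smul_mem _ _ (h1 a))) (by
      intro ξ hξ
      rw [← h3 ξ hξ]
      simp only [← hm, map_sum, map_smul, LinearMap.sum_apply, LinearMap.smul_apply]
      rw [Finset.sum_comm])
  intro a
  rw [← hm]
  apply Finset.sum_eq_zero
  intro i _
  rw [Fintype.linearIndependent_iff.1 hb (fun a => m a i) (key i) a, zero_smul]

theorem exists_fin_basis (N : Submodule K A) [FiniteDimensional K N] :
    ∃ b : Fin (finrank K N) → A, LinearIndependent K b ∧ (∀ a, b a ∈ N) ∧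
      N ≤ Submodule.span K (Set.range b) := by
  let B := Module.finBasis K N
  refine ⟨fun a => B a, ?_, fun a => (B a).2, ?_⟩
  · exact B.linearIndependent.map' N.subtype (Submodule.ker_subtype N)
  · intro x hx
    rw [Submodule.mem_span_range_iff_exists_fun]
    refine ⟨fun a => B.repr ⟨x, hx⟩ a, ?_⟩
    have := congrArg Subtype.val (B.sum_repr ⟨x, hx⟩)
    rw [Submodule.coe_sum] at this
    exact this

theorem finrank_iSup_le {ι : Type*} [Fintype ι] (W : ι → Submodule K M)
    [∀ i, FiniteDimensional K (W i)] :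
    finrank K (⨆ i, W i : Submodule K M) ≤ ∑ i, finrank K (W i) := by
  classical
  have : ∀ s : Finset ι, finrank K (⨆ i ∈ s, W i : Submodule K M) ≤ ∑ i ∈ s, finrank K (W i) := by
    intro s
    induction s using Finset.induction with
    | empty => simp
    | insert a s ha ih =>
      rw [Finset.iSup_insert, Finset.sum_insert ha]
      exact (Submodule.finrank_add_le_finrank_add_finrank _ _).trans (by omega)
  have h := this Finset.univ
  have e : (⨆ i ∈ Finset.univ, W i : Submodule K M) = ⨆ i, W i := by simp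
  rwa [e] at h

/-- components of a space of tuples -/
theorem exists_comp_space {r : ℕ} (Kk : Submodule K (Fin r → M)) [FiniteDimensional K Kk] :
    ∃ Y : Submodule K M, FiniteDimensional K Y ∧ finrank K Y ≤ r * finrank K Kk ∧
      ∀ k ∈ Kk, ∀ a, k a ∈ Y := by
  refine ⟨⨆ a, Kk.map (LinearMap.proj a), inferInstance, ?_, ?_⟩
  · refine (finrank_iSup_le _).trans ?_
    refine (Finset.sum_le_card_nsmul _ _ (finrank K Kk)
      (fun a _ => Submodule.finrank_map_le _ _)).trans ?_
    simp
  · intro k hk a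
    exact Submodule.mem_iSup_of_mem a (Submodule.mem_map_of_mem hk)

/-- the pairing attached to a family -/
def nicePsi (α : A →ₗ[K] M →ₗ[K] M →ₗ[K] K) {r : ℕ} (b : Fin r → A) :
    (Fin r → M) →ₗ[K] M →ₗ[K] K := ∑ a, α (b a) ∘ₗ LinearMap.proj a

theorem nicePsi_apply {r : ℕ} (b : Fin r → A) (h : Fin r → M) (ξ : M) :
    nicePsi α b h ξ = ∑ a, α (b a) (h a) ξ := by
  simp [nicePsi, LinearMap.sum_apply]

theorem finrank_le_of_inj {M' : Type*} [AddCommGroup M'] [Module K M'] (f : M →ₗ[K] M')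
    (W : Submodule K M) (W' : Submodule K M') [FiniteDimensional K W']
    (h1 : ∀ x ∈ W, f x ∈ W') (h2 : ∀ x ∈ W, f x = 0 → x = 0) :
    FiniteDimensional K W ∧ finrank K W ≤ finrank K W' := by
  let g : W →ₗ[K] W' := f.restrict h1
  have hg : Function.Injective g := by
    rw [← LinearMap.ker_eq_bot, LinearMap.ker_eq_bot']
    intro x hx
    exact Subtype.ext (h2 x x.2 (congrArg Subtype.val hx))
  exact ⟨FiniteDimensional.of_injective g hg, LinearMap.finrank_le_finrank_of_injective hg⟩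

/-- restriction to a subspace of small codimension -/
theorem Nice.restrict {N : Submodule K A} {H X X' : Submodule K M} [FiniteDimensional K N]
    [FiniteDimensional K X] (hN : Nice α N H X) (hH : H ≤ X) (hX : X' ≤ X) {c : ℕ}
    (hc : finrank K X ≤ finrank K X' + c) :
    ∃ H' : Submodule K M, H' ≤ H ⊓ X' ∧ finrank K H ≤ finrank K H' + (finrank K N + 1) * c ∧
      Nice α N H' X' := by
  haveI : FiniteDimensional K X' := Submodule.finiteDimensional_of_le hX
  haveI : FiniteDimensional K H := Submodule.finiteDimensional_of_le hH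
  obtain ⟨b, hb1, hb2, hb3⟩ := exists_fin_basis N
  obtain ⟨U, hU1, hU2, hU3⟩ := exists_compl_in hX
  haveI : FiniteDimensional K U := Submodule.finiteDimensional_of_le hU1
  have hU : finrank K U ≤ c := by
    have := Submodule.finrank_sup_add_finrank_inf_eq X' U
    rw [hU2, hU3, finrank_bot] at this
    omega
  let Kk : Submodule K (Fin (finrank K N) → M) :=
    Submodule.pi Set.univ (fun _ => H) ⊓ LinearMap.ker ((nicePsi α b).compl₂ X'.subtype)
  obtain ⟨hfd, hKk⟩ := finrank_le_of_inj ((nicePsi α b).compl₂ U.subtype) Kk ⊤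
    (fun _ _ => Submodule.mem_top) (by
      intro k hk hk0
      funext a
      refine hN _ b k hb1 hb2 (fun a => hk.1 a (Set.mem_univ _)) ?_ a
      intro ξ hξ
      rw [← hU3] at hξ
      obtain ⟨x, hx, u, hu, rfl⟩ := Submodule.mem_sup.1 hξ
      rw [← nicePsi_apply, map_add]
      have h1 : nicePsi α b k x = 0 := LinearMap.congr_fun hk.2 ⟨x, hx⟩
      have h2 : nicePsi α b k u = 0 := LinearMap.congr_fun hk0 ⟨u, hu⟩
      rw [h1, h2, add_zero])
  rw [finrank_top, Subspace.dual_finrank_eq] at hKk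
  obtain ⟨Y, hY1, hY2, hY3⟩ := exists_comp_space Kk
  obtain ⟨H', h1, h2, h3⟩ := exists_compl_in (inf_le_right : Y ⊓ (H ⊓ X') ≤ H ⊓ X')
  haveI : FiniteDimensional K H' := Submodule.finiteDimensional_of_le (h1.trans inf_le_left)
  refine ⟨H', h1, ?_, ?_⟩
  · have e1 := Submodule.finrank_sup_add_finrank_inf_eq (Y ⊓ (H ⊓ X')) H'
    rw [h2, h3, finrank_bot] at e1
    have e2 := Submodule.finrank_sup_add_finrank_inf_eq H X'
    have e3 : finrank K (H ⊔ X' : Submodule K M) ≤ finrank K X :=
      Submodule.finrank_mono (sup_le hH hX)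
    have e4 : finrank K (Y ⊓ (H ⊓ X') : Submodule K M) ≤ finrank K Y :=
      Submodule.finrank_mono inf_le_left
    have e5 : finrank K N * finrank K Kk ≤ finrank K N * c :=
      Nat.mul_le_mul_left _ (hKk.trans hU)
    nlinarith
  · apply nice_of_basis b hb3
    intro h hh h0 a
    have hk : h ∈ Kk := ⟨fun a _ => (h1 (hh a)).1, by
      ext ⟨ξ, hξ⟩
      simp only [LinearMap.compl₂_apply, Submodule.coe_subtype, LinearMap.zero_apply]
      rw [nicePsi_apply]; exact h0 ξ hξ⟩
    have : h a ∈ Y ⊓ (H ⊓ X') ⊓ H' := ⟨⟨hY3 h hk a, h1 (hh a)⟩, hh a⟩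
    rwa [h2] at this

theorem Nice.exists_bad {N : Submodule K A} {H X : Submodule K M} [FiniteDimensional K N]
    (hN : Nice α N H X) {I : ℕ} (h0 : Fin I → M) :
    ∃ Y : Submodule K M, FiniteDimensional K Y ∧ finrank K Y ≤ finrank K N ^ 2 * I ∧
      ∀ k : Fin I → M, (∀ i, k i ∈ H) → (∀ c : Fin I → K, ∑ i, c i • k i ∈ Y → ∀ i, c i = 0) →
        ∀ β : Fin I → A, (∀ i, β i ∈ N) → (∀ ξ ∈ X, ∑ i, α (β i) (h0 i + k i) ξ = 0) →
          ∀ i, β i = 0 := by
  obtain ⟨b, hb1, hb2, hb3⟩ := exists_fin_basis N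
  let Φ : (Fin I → N) →ₗ[K] Dual K X :=
    ∑ i, ((α.flip (h0 i)).compl₂ X.subtype) ∘ₗ N.subtype ∘ₗ LinearMap.proj i
  let Kk : Submodule K (Fin (finrank K N) → M) :=
    Submodule.pi Set.univ (fun _ => H) ⊓
      (LinearMap.range Φ).comap ((nicePsi α b).compl₂ X.subtype)
  obtain ⟨hfd, hKk⟩ := finrank_le_of_inj ((nicePsi α b).compl₂ X.subtype) Kk (LinearMap.range Φ)
    (fun _ h => h.2) (by
      intro k hk hk0
      funext a
      refine hN _ b k hb1 hb2 (fun a => hk.1 a (Set.mem_univ _)) ?_ a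
      intro ξ hξ
      rw [← nicePsi_apply]
      exact LinearMap.congr_fun hk0 ⟨ξ, hξ⟩)
  have hΦ : finrank K (LinearMap.range Φ) ≤ I * finrank K N := by
    refine (LinearMap.finrank_range_le Φ).trans ?_
    rw [Module.finrank_pi_fintype]; simp
  obtain ⟨Y, hY1, hY2, hY3⟩ := exists_comp_space Kk
  refine ⟨Y, hY1, by nlinarith, ?_⟩
  intro k hk hind β hβ hz
  choose m hm using fun i => (Submodule.mem_span_range_iff_exists_fun K).1 (hb3 (hβ i))
  have hκ : (fun a => ∑ i, m i a • k i) ∈ Kk := by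
    refine ⟨fun a _ => Submodule.sum_mem _ (fun i _ => Submodule.smul_mem _ _ (hk i)), ?_⟩
    refine ⟨fun i => ⟨-β i, neg_mem (hβ i)⟩, ?_⟩
    ext ⟨ξ, hξ⟩
    have := hz ξ hξ
    simp only [map_add, LinearMap.add_apply, Finset.sum_add_distrib] at this
    simp only [Φ, LinearMap.sum_apply, LinearMap.coe_comp, Submodule.coe_subtype,
      LinearMap.coe_proj, Function.comp_apply, Function.eval, map_neg, LinearMap.neg_apply,
      LinearMap.compl₂_apply, LinearMap.flip_apply, nicePsi_apply, Finset.sum_neg_distrib]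
    rw [neg_eq_of_add_eq_zero_right this]
    simp only [← hm, map_sum, map_smul, LinearMap.sum_apply, LinearMap.smul_apply]
    rw [Finset.sum_comm]
  intro i
  rw [← hm]
  apply Finset.sum_eq_zero
  intro a _
  rw [hind (fun i => m i a) (hY3 _ hκ a) i, zero_smul]

/-- affine choice of a nice vector avoiding a subspace -/
theorem Nice.affine [CharZero K] {N : Submodule K A} {H X : Submodule K M} [FiniteDimensional K N]
    (hN : Nice α N H X) (hH : finrank K N ^ 2 < finrank K H) (h0 : M) (Z : Submodule K M)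
    (hZ : h0 ∉ Z) :
    ∃ k ∈ H, h0 + k ∉ Z ∧ ∀ b ∈ N, (∀ ξ ∈ X, α b (h0 + k) ξ = 0) → b = 0 := by
  obtain ⟨Y, hY1, hY2, hY3⟩ := hN.exists_bad (fun _ : Fin 1 => h0)
  obtain ⟨k, hk, hkY⟩ : ∃ k ∈ H, k ∉ Y := by
    by_contra hne
    push Not at hne
    have := Submodule.finrank_mono (show H ≤ Y from hne)
    omega
  have key : ∀ k ∈ H, k ∉ Y → ∀ b ∈ N, (∀ ξ ∈ X, α b (h0 + k) ξ = 0) → b = 0 := by
    intro k hk hkY b hb hz
    refine hY3 (fun _ => k) (fun _ => hk) ?_ (fun _ => b) (fun _ => hb) (by simpa using hz) 0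
    intro c hc i
    by_contra hc0
    apply hkY
    have hi : i = 0 := Subsingleton.elim _ _
    subst hi
    simp only [Finset.univ_unique, Fin.default_eq_zero, Finset.sum_singleton] at hc
    exact (Submodule.smul_mem_iff _ hc0).1 hc
  by_cases h1 : h0 + k ∈ Z
  · refine ⟨(2 : K) • k, Submodule.smul_mem _ _ hk, ?_, key _ (Submodule.smul_mem _ _ hk) ?_⟩
    · intro h2
      apply hZ
      have := sub_mem (Submodule.smul_mem Z (2 : K) h1) h2
      convert this using 1
      module
    · rwa [Submodule.smul_mem_iff _ two_ne_zero]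
  · exact ⟨k, hk, h1, key k hk hkY⟩

theorem Nice.family {N : Submodule K A} {H X : Submodule K M} [FiniteDimensional K N]
    [FiniteDimensional K H]
    (hN : Nice α N H X) {I : ℕ} (hH : (finrank K N ^ 2 + 2) * I ≤ finrank K H) (h0 : Fin I → M) :
    ∃ k : Fin I → M, (∀ i, k i ∈ H) ∧ LinearIndependent K (fun i => h0 i + k i) ∧
      ∀ β : Fin I → A, (∀ i, β i ∈ N) → (∀ ξ ∈ X, ∑ i, α (β i) (h0 i + k i) ξ = 0) →
          ∀ i, β i = 0 := by
  obtain ⟨Y, hY1, hY2, hY3⟩ := hN.exists_bad h0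
  haveI : FiniteDimensional K (Submodule.span K (Set.range h0)) :=
    FiniteDimensional.span_of_finite K (Set.finite_range _)
  have h00 : finrank K (Submodule.span K (Set.range h0)) ≤ I := by
    have := finrank_range_le_card (R := K) h0
    rwa [Fintype.card_fin] at this
  obtain ⟨H', h1, h2, h3⟩ :=
    exists_compl_in (inf_le_right : (Y ⊔ Submodule.span K (Set.range h0)) ⊓ H ≤ H)
  haveI : FiniteDimensional K H' := Submodule.finiteDimensional_of_le h1
  have hI : I ≤ finrank K H' := by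
    have e1 := Submodule.finrank_sup_add_finrank_inf_eq
      ((Y ⊔ Submodule.span K (Set.range h0)) ⊓ H) H'
    rw [h2, h3, finrank_bot] at e1
    have e2 := Submodule.finrank_add_le_finrank_add_finrank Y (Submodule.span K (Set.range h0))
    have e3 : finrank K ((Y ⊔ Submodule.span K (Set.range h0)) ⊓ H : Submodule K M) ≤
      finrank K (Y ⊔ Submodule.span K (Set.range h0) : Submodule K M) :=
      Submodule.finrank_mono inf_le_left
    nlinarith
  obtain ⟨b, hb1, hb2, -⟩ := exists_fin_basis H'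
  let k : Fin I → M := fun i => b (Fin.castLE hI i)
  have hk : LinearIndependent K k := hb1.comp _ (Fin.castLE_injective hI)
  have key : ∀ c : Fin I → K, ∑ i, c i • k i ∈ Y ⊔ Submodule.span K (Set.range h0) →
      ∀ i, c i = 0 := by
    intro c hc
    have hm : ∑ i, c i • k i ∈ H' := Submodule.sum_mem _ (fun i _ => Submodule.smul_mem _ _ (hb2 _))
    have : ∑ i, c i • k i ∈ (Y ⊔ Submodule.span K (Set.range h0)) ⊓ H ⊓ H' := ⟨⟨hc, h1 hm⟩, hm⟩
    rw [h2] at this
    exact Fintype.linearIndependent_iff.1 hk c this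
  refine ⟨k, fun i => h1 (hb2 _), ?_, hY3 k (fun i => h1 (hb2 _))
    (fun c hc => key c (Submodule.mem_sup_left hc))⟩
  rw [Fintype.linearIndependent_iff]
  intro c hc
  apply key c
  apply Submodule.mem_sup_right
  simp only [smul_add, Finset.sum_add_distrib] at hc
  rw [eq_neg_of_add_eq_zero_right hc]
  exact neg_mem (Submodule.sum_mem _ (fun i _ => Submodule.smul_mem _ _
    (Submodule.subset_span ⟨i, rfl⟩)))

end Crest.Agent.R180
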