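import Crest.Agent.R180.Alg

set_option autoImplicit false

namespace Crest.Agent.R180

open Module Polynomial

variable {K : Type} [Field K] [Algebra Z0 K]

/-- divided difference of `X^k` -/
noncomputable def Delk (a : Tw K) : ℕ → (Tw K →ₗ[K] Tw K)
  | 0 => 0
  | k + 1 => LinearMap.mulRight K a ∘ₗ Delk a k + LinearMap.mulLeft K (a ^ k)

theorem Delk_zero (a y : Tw K) : Delk a 0 y = 0 := rfl
theorem Delk_succ (a y : Tw K) (k : ℕ) : Delk a (k + 1) y = Delk a k y * a + a ^ k * y := rfl

theorem Delk_ad (a g : Tw K) (k : ℕ) : Delk a k (g * a - a * g) = g * a ^ k - a ^ k * g := by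
  induction k with
  | zero => simp [Delk_zero]
  | succ k ih => rw [Delk_succ, ih, pow_succ]; noncomm_ring

theorem ad_Delk (a y : Tw K) (k : ℕ) :
    a * Delk a k y - Delk a k y * a = a ^ k * y - y * a ^ k := by
  induction k with
  | zero => simp [Delk_zero]
  | succ k ih =>
    have h : a * a ^ k = a ^ k * a := by rw [← pow_succ, ← pow_succ']
    have : a * (Delk a k y * a + a ^ k * y) - (Delk a k y * a + a ^ k * y) * a =
      (a * Delk a k y - Delk a k y * a) * a + (a * a ^ k) * y - a ^ k * y * a := by noncomm_ring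
    rw [Delk_succ, this, ih, h, pow_succ]; noncomm_ring

theorem Delk_mul_right {a c : Tw K} (h : a * c = c * a) (y : Tw K) (k : ℕ) :
    Delk a k (y * c) = Delk a k y * c := by
  induction k with
  | zero => simp [Delk_zero]
  | succ k ih => rw [Delk_succ, Delk_succ, ih, add_mul, mul_assoc, ← h]; simp only [mul_assoc]

theorem Delk_mul_left {a c : Tw K} (h : a * c = c * a) (y : Tw K) (k : ℕ) :
    Delk a k (c * y) = c * Delk a k y := by
  induction k with
  | zero => simp [Delk_zero]
  | succ k ih =>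
    rw [Delk_succ, Delk_succ, ih, mul_add, ← mul_assoc, ((Commute.pow_left h k).eq)]
    simp only [mul_assoc]

theorem Delk_mem {A : Subalgebra K (Tw K)} {a y : Tw K} (ha : a ∈ A) (hy : y ∈ A) (k : ℕ) :
    Delk a k y ∈ A := by
  induction k with
  | zero => exact zero_mem _
  | succ k ih => exact add_mem (mul_mem ih ha) (mul_mem (pow_mem ha k) hy)

theorem tr_Delk_mul {a c : Tw K} (h : a * c = c * a) (y : Tw K) (k : ℕ) :
    tr (Delk a (k + 1) y * c) = tr (y * (c * (((k + 1 : ℕ) : K) • a ^ k))) := by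
  induction k generalizing c with
  | zero => simp [Delk_succ, Delk_zero]
  | succ k ih =>
    have h' : a * (a * c) = (a * c) * a := by rw [mul_assoc, ← h]
    rw [Delk_succ, add_mul, map_add, mul_assoc, ih h', mul_assoc (a ^ (k + 1)), tr_comm (a ^ (k + 1)),
      mul_assoc y, ← map_add, ← mul_add]
    congr 2
    rw [h, mul_assoc, ← mul_add, mul_smul_comm, ← pow_succ']
    congr 1
    push_cast
    module

/-- divided difference of a polynomial -/
noncomputable def Del (a : Tw K) : K[X] →ₗ[K] Tw K →ₗ[K] Tw K :=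
  Polynomial.lsum (fun k => LinearMap.toSpanSingleton K _ (Delk a k))

theorem Del_monomial (a : Tw K) (k : ℕ) (c : K) : Del a (monomial k c) = c • Delk a k := by
  simp [Del, Polynomial.lsum_apply, Polynomial.sum_monomial_index]

theorem Del_eq_sum (a : Tw K) (p : K[X]) {N : ℕ} (h : p.natDegree < N) (y : Tw K) :
    Del a p y = ∑ k ∈ Finset.range N, p.coeff k • Delk a k y := by
  conv_lhs => rw [p.as_sum_range' N h]
  simp only [map_sum, Del_monomial, LinearMap.sum_apply, LinearMap.smul_apply]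

theorem Del_ad (a g : Tw K) (p : K[X]) :
    Del a p (g * a - a * g) = g * aeval a p - aeval a p * g := by
  induction p using Polynomial.induction_on' with
  | add p q hp hq => simp only [map_add, LinearMap.add_apply, hp, hq]; noncomm_ring
  | monomial k c =>
    rw [Del_monomial, LinearMap.smul_apply, Delk_ad, aeval_monomial, ← Algebra.smul_def]
    simp [smul_sub]

theorem ad_Del (a y : Tw K) (p : K[X]) :
    a * Del a p y - Del a p y * a = aeval a p * y - y * aeval a p := by
  induction p using Polynomial.induction_on' with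
  | add p q hp hq =>
    simp only [map_add, LinearMap.add_apply, mul_add, add_mul]
    rw [add_sub_add_comm, add_sub_add_comm, hp, hq]
  | monomial k c =>
    rw [Del_monomial, LinearMap.smul_apply, aeval_monomial, ← Algebra.smul_def]
    simp only [mul_smul_comm, smul_mul_assoc, ← smul_sub, ad_Delk]

theorem Del_mul_right {a c : Tw K} (h : a * c = c * a) (y : Tw K) (p : K[X]) :
    Del a p (y * c) = Del a p y * c := by
  simp only [Del_eq_sum a p (Nat.lt_succ_self _), Delk_mul_right h, Finset.sum_mul, smul_mul_assoc]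

theorem Del_mul_left {a c : Tw K} (h : a * c = c * a) (y : Tw K) (p : K[X]) :
    Del a p (c * y) = c * Del a p y := by
  simp only [Del_eq_sum a p (Nat.lt_succ_self _), Delk_mul_left h, Finset.mul_sum, mul_smul_comm]

theorem Del_mem {A : Subalgebra K (Tw K)} {a y : Tw K} (ha : a ∈ A) (hy : y ∈ A) (p : K[X]) :
    Del a p y ∈ A := by
  rw [Del_eq_sum a p (Nat.lt_succ_self _)]
  exact Subalgebra.sum_mem _ (fun k _ => Subalgebra.smul_mem _ (Delk_mem ha hy k) _)

theorem tr_Del_mul {a c : Tw K} (h : a * c = c * a) (y : Tw K) (p : K[X]) :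
    tr (Del a p y * c) = tr (y * (c * aeval a (derivative p))) := by
  induction p using Polynomial.induction_on' with
  | add p q hp hq => simp only [map_add, LinearMap.add_apply, mul_add, add_mul, hp, hq]
  | monomial k c =>
    rw [Del_monomial, LinearMap.smul_apply, derivative_monomial, aeval_monomial, ← Algebra.smul_def]
    cases k with
    | zero => simp [Delk_zero]
    | succ k =>
      rw [smul_mul_assoc, map_smul, tr_Delk_mul h, Nat.add_sub_cancel, mul_smul]
      simp only [mul_smul_comm, map_smul]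

theorem isIntegral_Tw (a : Tw K) : IsIntegral K a := by
  obtain ⟨J, hJ⟩ := exists_DJ a
  exact IsIntegral.of_mem_of_fg (DJ K J)
    ((Submodule.fg_iff_finiteDimensional _).2 inferInstance) a hJ

/-- the subalgebra generated by `a` -/
noncomputable def Lf (a : Tw K) : Subalgebra K (Tw K) := Algebra.adjoin K {a}

theorem self_mem_Lf (a : Tw K) : a ∈ Lf a := Algebra.subset_adjoin rfl

theorem Lf_le {a : Tw K} {A : Subalgebra K (Tw K)} (h : a ∈ A) : Lf a ≤ A :=
  Algebra.adjoin_le (Set.singleton_subset_iff.2 h)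

theorem mem_Lf {a y : Tw K} : y ∈ Lf a ↔ ∃ q : K[X], aeval a q = y := by
  unfold Lf; rw [Algebra.adjoin_singleton_eq_range_aeval]; rfl

theorem aeval_mem_Lf (a : Tw K) (q : K[X]) : aeval a q ∈ Lf a := mem_Lf.2 ⟨q, rfl⟩

theorem aeval_mem {A : Subalgebra K (Tw K)} {a : Tw K} (h : a ∈ A) (q : K[X]) : aeval a q ∈ A :=
  Lf_le h (aeval_mem_Lf a q)

theorem comm_of_mem_Lf {a c y : Tw K} (h : a * c = c * a) (hy : y ∈ Lf a) : y * c = c * y := by
  have : Lf a ≤ Subalgebra.centralizer K {c} := by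
    apply Lf_le
    rw [Subalgebra.mem_centralizer_iff]
    rintro g rfl; exact h.symm
  exact ((Subalgebra.mem_centralizer_iff K).1 (this hy) c rfl).symm

theorem Lf_comm {a x y : Tw K} (hx : x ∈ Lf a) (hy : y ∈ Lf a) : x * y = y * x :=
  comm_of_mem_Lf (comm_of_mem_Lf rfl hy).symm hx

instance (a : Tw K) : FiniteDimensional K (Lf a) := by
  obtain ⟨J, hJ⟩ := exists_DJ a
  exact fd_of_le (Lf_le hJ)

instance (a : Tw K) : FiniteDimensional K (Subalgebra.toSubmodule (Lf a)) :=
  (inferInstance : FiniteDimensional K (Lf a))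

/-- degree -/
noncomputable def dgr (a : Tw K) : ℕ := (minpoly K a).natDegree

theorem dgr_pos (a : Tw K) : 0 < dgr a := minpoly.natDegree_pos (isIntegral_Tw a)

theorem finrank_Lf (a : Tw K) : finrank K (Lf a) = dgr a := by
  have h : Subalgebra.toSubmodule (Lf a) =
      Submodule.span K (Set.range fun i : Fin (minpoly K a).natDegree => a ^ (i : ℕ)) := by
    apply le_antisymm
    · intro y hy
      obtain ⟨q, hq⟩ := mem_Lf.1 hy
      exact (isIntegral_Tw a).mem_span_pow ⟨q, hq.symm⟩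
    · rw [Submodule.span_le]
      rintro _ ⟨i, rfl⟩
      exact pow_mem (self_mem_Lf a) _
  change finrank K (Subalgebra.toSubmodule (Lf a)) = _
  rw [h, finrank_span_eq_card (linearIndependent_pow a), Fintype.card_fin]; rfl

theorem exists_poly_of_mem_Lf {a y : Tw K} (hy : y ∈ Lf a) :
    ∃ q : K[X], q.degree < dgr a ∧ aeval a q = y := by
  obtain ⟨q, rfl⟩ := mem_Lf.1 hy
  have hm := minpoly.monic (isIntegral_Tw a)
  refine ⟨q %ₘ minpoly K a, (degree_modByMonic_lt _ hm).trans_le degree_le_natDegree, ?_⟩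
  conv_rhs => rw [← modByMonic_add_div q (minpoly K a)]
  simp

theorem eq_zero_of_degree_lt {a : Tw K} {q : K[X]} (h : q.degree < dgr a) (h0 : aeval a q = 0) :
    q = 0 := by
  by_contra hq
  have := minpoly.degree_le_of_ne_zero K a hq h0
  rw [degree_eq_natDegree (minpoly.ne_zero (isIntegral_Tw a))] at this
  exact absurd h (not_lt.2 this)

/-- derivative of the minimal polynomial -/
noncomputable def pd (a : Tw K) : Tw K := aeval a (derivative (minpoly K a))

theorem pd_mem_Lf (a : Tw K) : pd a ∈ Lf a := aeval_mem_Lf _ _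

theorem pd_ne_zero (a : Tw K) : pd a ≠ 0 := by
  haveI : CharZero K := charZero_K
  intro h
  have h0 := minpoly.ne_zero (isIntegral_Tw a)
  have := eq_zero_of_degree_lt (a := a) (q := derivative (minpoly K a))
    (by have := degree_derivative_lt h0; rwa [degree_eq_natDegree h0] at this) h
  exact (dgr_pos a).ne' (natDegree_eq_zero_of_derivative_eq_zero this)

variable [Dom K]

theorem Cen_singleton (J : Finset ℕ) (a : Tw K) : Cen J (Lf a : Set (Tw K)) = Cen J {a} := by
  ext x
  rw [mem_Cen, mem_Cen]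
  constructor
  · rintro ⟨h1, h2⟩; exact ⟨fun g hg => h1 g (by rw [hg]; exact self_mem_Lf a), h2⟩
  · rintro ⟨h1, h2⟩; exact ⟨fun g hg => comm_of_mem_Lf (h1 a rfl) hg, h2⟩

theorem mem_Cen_singleton {J : Finset ℕ} {a x : Tw K} :
    x ∈ Cen J {a} ↔ a * x = x * a ∧ x ∈ DJ K J := by
  rw [mem_Cen]; simp

theorem Lf_le_Cen {J : Finset ℕ} {a : Tw K} (h : a ∈ DJ K J) : Lf a ≤ Cen J {a} :=
  Lf_le (mem_Cen_singleton.2 ⟨rfl, h⟩)

theorem dgr_mul_Cen {J : Finset ℕ} {a : Tw K} (h : a ∈ DJ K J) :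
    dgr a * finrank K (Cen J {a}) = NJ J ^ 2 := by
  rw [← Cen_singleton, ← finrank_Lf, finrank_mul_Cen (Lf_le h)]

theorem dgr_dvd {J : Finset ℕ} {a : Tw K} (h : a ∈ DJ K J) : dgr a ∣ NJ J := by
  rw [← Nat.pow_dvd_pow_iff (two_ne_zero), ← dgr_mul_Cen h, sq]
  apply Nat.mul_dvd_mul_left
  rw [← finrank_Lf]
  exact finrank_dvd_of_le (Lf_le_Cen h)

theorem inv_mem_Lf {a y : Tw K} (h : y ∈ Lf a) : y⁻¹ ∈ Lf a := inv_mem_of_fd _ h

/-- projection onto the centraliser of `a` -/
noncomputable def pia (a : Tw K) : Tw K →ₗ[K] Tw K :=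
  LinearMap.mulLeft K (pd a)⁻¹ ∘ₗ Del a (minpoly K a)

theorem pia_apply (a y : Tw K) : pia a y = (pd a)⁻¹ * Del a (minpoly K a) y := rfl

theorem Del_minpoly (a y : Tw K) : Del a (minpoly K a) y = pd a * pia a y := by
  rw [pia_apply, ← mul_assoc, mul_inv_cancel₀ (pd_ne_zero a), one_mul]

theorem Del_minpoly_comm (a y : Tw K) :
    a * Del a (minpoly K a) y = Del a (minpoly K a) y * a := by
  have h := ad_Del a y (minpoly K a)
  rwa [minpoly.aeval, zero_mul, mul_zero, sub_self, sub_eq_zero] at h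

theorem pia_comm (a y : Tw K) : a * pia a y = pia a y * a := by
  rw [pia_apply, ← mul_assoc, ← comm_of_mem_Lf rfl (inv_mem_Lf (pd_mem_Lf a)), mul_assoc,
    Del_minpoly_comm, mul_assoc]

theorem tr_pia_mul {a c : Tw K} (h : a * c = c * a) (y : Tw K) :
    tr (pia a y * c) = tr (y * c) := by
  have h2 := comm_of_mem_Lf rfl (inv_mem_Lf (pd_mem_Lf a))
  rw [pia_apply, mul_assoc, tr_comm, mul_assoc, tr_Del_mul]
  · change tr (y * (c * (pd a)⁻¹ * pd a)) = _
    rw [mul_assoc, inv_mul_cancel₀ (pd_ne_zero a), mul_one]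
  · rw [← mul_assoc, h, mul_assoc, ← h2, mul_assoc]

theorem tr_mul_pia {a c : Tw K} (h : a * c = c * a) (y : Tw K) :
    tr (c * pia a y) = tr (c * y) := by rw [tr_comm, tr_pia_mul h, tr_comm]

theorem pia_mem {A : Subalgebra K (Tw K)} {a y : Tw K} (ha : a ∈ A) (hy : y ∈ A) :
    pia a y ∈ A :=
  mul_mem (Lf_le ha (inv_mem_Lf (pd_mem_Lf a))) (Del_mem ha hy _)

theorem pia_mem_Cen {J : Finset ℕ} {a y : Tw K} (ha : a ∈ DJ K J) (hy : y ∈ DJ K J) :
    pia a y ∈ Cen J {a} := mem_Cen_singleton.2 ⟨pia_comm a y, pia_mem ha hy⟩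

theorem pia_eq_prj {J : Finset ℕ} {a y : Tw K} (ha : a ∈ DJ K J) (hy : y ∈ DJ K J) :
    pia a y = prj (Cen J {a}) y :=
  (prj_eq _ (pia_mem_Cen ha hy) (fun _ hc => tr_pia_mul (mem_Cen_singleton.1 hc).1 y)).symm

theorem exists_DJ₂ (x y : Tw K) : ∃ J, x ∈ DJ K J ∧ y ∈ DJ K J := by
  obtain ⟨J, hJ⟩ := exists_DJ x
  obtain ⟨J', hJ'⟩ := exists_DJ y
  exact ⟨J ∪ J', DJ_mono Finset.subset_union_left hJ, DJ_mono Finset.subset_union_right hJ'⟩

theorem pia_of_comm {a y : Tw K} (h : a * y = y * a) : pia a y = y := by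
  obtain ⟨J, h1, h2⟩ := exists_DJ₂ a y
  rw [pia_eq_prj h1 h2, prj_of_mem _ (mem_Cen_singleton.2 ⟨h, h2⟩)]

theorem pia_mul_right {a c : Tw K} (h : a * c = c * a) (y : Tw K) :
    pia a (y * c) = pia a y * c := by
  rw [pia_apply, pia_apply, Del_mul_right h, mul_assoc]

theorem pia_mul_left {a c : Tw K} (h : a * c = c * a) (y : Tw K) :
    pia a (c * y) = c * pia a y := by
  rw [pia_apply, pia_apply, Del_mul_left h, ← mul_assoc,
    comm_of_mem_Lf h (inv_mem_Lf (pd_mem_Lf a)), mul_assoc]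

theorem pia_ad (a g : Tw K) : pia a (g * a - a * g) = 0 := by
  rw [pia_apply, Del_ad, minpoly.aeval]; simp

theorem prj_pia {A : Subalgebra K (Tw K)} [FiniteDimensional K A] {a : Tw K}
    (h : ∀ c ∈ A, a * c = c * a) (y : Tw K) : prj A (pia a y) = prj A y :=
  prj_congr A (fun c hc => tr_pia_mul (h c hc) y)

theorem exists_ad {J : Finset ℕ} {a y : Tw K} (ha : a ∈ DJ K J) (hy : y ∈ DJ K J)
    (h : pia a y = 0) : ∃ g ∈ DJ K J, (∀ c, a * c = c * a → tr (g * c) = 0) ∧
      y = g * a - a * g := by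
  have : y ∈ (Subalgebra.toSubmodule (DJ K J)).map
      (LinearMap.mulRight K a - LinearMap.mulLeft K a) := by
    apply dperp (trB K) (Subalgebra.toSubmodule (DJ K J)) (trB_nondeg _) _ hy
    · intro b hb h0
      have hc : a * b = b * a := by
        rw [← sub_eq_zero]
        apply eq_zero_of_tr (DJ K J) (sub_mem (mul_mem ha hb) (mul_mem hb ha))
        intro g hg
        have := h0 _ (Submodule.mem_map_of_mem hg)
        simp only [LinearMap.sub_apply, LinearMap.mulRight_apply, LinearMap.mulLeft_apply,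
          trB_apply, mul_sub, map_sub] at this
        rw [sub_mul, map_sub, mul_assoc a, tr_comm a, mul_assoc, mul_assoc, this]
      rw [trB_apply, ← tr_mul_pia hc, h, mul_zero, map_zero]
    · rintro _ ⟨g, hg, rfl⟩
      exact sub_mem ((DJ K J).mul_mem hg ha) ((DJ K J).mul_mem ha hg)
  obtain ⟨g, hg, e⟩ := this
  refine ⟨g - pia a g, sub_mem hg (pia_mem ha hg), ?_, ?_⟩
  · intro c hc
    rw [sub_mul, map_sub, tr_pia_mul hc, sub_self]
  · rw [← e, sub_mul, mul_sub, pia_comm]
    simp

end Crest.Agent.R180
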