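import Crest.Agent.R180.Calc

set_option autoImplicit false

namespace Crest.Agent.R180

/-- `w` generates `DJ J` -/
def Gen {K : Type} [Field K] [Algebra Z0 K] (J : Finset ℕ) (w : Vec K) : Prop :=
  ∀ d ∈ DJ K J, ∃ f : Tm K, ev w f = d

/-- a stage of the construction -/
structure Pt where
  K : Type
  [fld : Field K]
  [alg : Algebra Z0 K]
  [dom : Dom K]
  J : Finset ℕ
  w : Vec K
  S : ℕ → Tm K
  R : ℕ → Submodule K (Tw K)

attribute [instance] Pt.fld Pt.alg Pt.dom

end Crest.Agent.R180
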