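import Crest.Agent.R180.Val

set_option autoImplicit false

namespace Crest.Agent.R180

open Module Polynomial

variable {K K' K'' : Type} [Field K] [Field K'] [Field K''] [Algebra Z0 K] [Algebra Z0 K']
  [Algebra Z0 K''] {φ : ValExt K K'}

noncomputable instance : RedMod K K' (Tw K') (Tw K) where
  red φ x a := Red φ (co K' x) (co K a)
  zero φ := Red.zero φ
  add h1 h2 := by rw [map_add, map_add]; exact h1.add h2
  smul h1 h2 := by rw [map_smul, map_smul]; exact h2.smul h1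
  scale φ x hx := by
    obtain ⟨c, a, ha, h⟩ := Red.scale φ ((LinearEquiv.map_ne_zero_iff (co K')).2 hx)
    exact ⟨c, (co K).symm a, (LinearEquiv.map_ne_zero_iff _).2 ha, by simpa using h⟩
  lift φ l := by
    obtain ⟨l', hl⟩ := Red.lift (M' := G →₀ K') φ (l ∘ₗ (co K).symm.toLinearMap)
    exact ⟨l' ∘ₗ (co K').toLinearMap, fun x a h => by simpa using hl _ _ h⟩

theorem Red_Tw {x : Tw K'} {a : Tw K} : Red φ x a ↔ ∀ g, φ.R (co K' x g) (co K a g) := Iff.rfl

theorem ι_cc (φ : ValExt K K') (g h : G) : φ.ι (cc K g h) = cc K' g h := φ.ι_alg _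

theorem R_cc (φ : ValExt K K') (g h : G) : φ.R (cc K' g h) (cc K g h) := ι_cc φ g h ▸ φ.R_ι _

variable (φ) in
theorem Red.mo (g : G) : Red φ (mo g : Tw K') (mo g : Tw K) := by
  intro h
  change φ.R _ _
  rw [co_mo_apply, co_mo_apply]
  split_ifs
  · exact φ.R_one
  · exact φ.R_zero

variable (φ) in
theorem Red.one : Red φ (1 : Tw K') (1 : Tw K) := Red.mo φ 0

theorem co_mul' (x y : Tw K) (k : G) {s : Finset G} (hs : (co K x).support ⊆ s) :
    co K (x * y) k = ∑ g ∈ s, co K x g * (cc K g (k - g) * co K y (k - g)) := by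
  rw [co_mul]
  apply Finset.sum_subset hs
  intro g _ hg
  rw [Finsupp.notMem_support_iff.1 hg, zero_mul]

theorem Red.mul {x y : Tw K'} {a b : Tw K} (h1 : Red φ x a) (h2 : Red φ y b) :
    Red φ (x * y) (a * b) := by
  classical
  rw [Red_Tw] at h1 h2 ⊢
  intro k
  rw [co_mul' x y k (Finset.subset_union_left (s₂ := (co K a).support)),
    co_mul' a b k (Finset.subset_union_right (s₁ := (co K' x).support))]
  exact Red_scalar.1 (Red.sum (fun g _ =>
    Red_scalar.2 (φ.mul (h1 g) (φ.mul (R_cc φ _ _) (h2 _)))))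

theorem Red.pow {x : Tw K'} {a : Tw K} (h : Red φ x a) (k : ℕ) : Red φ (x ^ k) (a ^ k) := by
  induction k with
  | zero => simpa using Red.one φ
  | succ k ih => rw [pow_succ, pow_succ]; exact ih.mul h

theorem Red.tr {x : Tw K'} {a : Tw K} (h : Red φ x a) : φ.R (tr x) (tr a) := h 0

theorem Red.mem_DJ {x : Tw K'} {a : Tw K} (h : Red φ x a) {J : Finset ℕ} (hx : x ∈ DJ K' J) :
    a ∈ DJ K J := by
  intro g hg
  have := Red_Tw.1 h g
  rw [hx g hg] at this
  exact φ.uniq this φ.R_zero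

theorem Red.comm {x y : Tw K'} {a b : Tw K} (h1 : Red φ x a) (h2 : Red φ y b)
    (h : x * y = y * x) : a * b = b * a := (h1.mul h2).uniq (h ▸ h2.mul h1)

theorem Red.algebraMap {c : K'} {c' : K} (h : φ.R c c') :
    Red φ (algebraMap K' (Tw K') c) (algebraMap K (Tw K) c') := by
  rw [Algebra.algebraMap_eq_smul_one, Algebra.algebraMap_eq_smul_one]
  exact (Red.one φ).smul h

theorem Dom.transfer (φ : ValExt K K') [Dom K] : Dom K' := ⟨fun x y h => by
  by_contra hne
  push Not at hne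
  obtain ⟨c, a, ha, h1⟩ := Red.scale φ hne.1
  obtain ⟨d, b, hb, h2⟩ := Red.scale φ hne.2
  have := h1.mul h2
  rw [smul_mul_smul_comm, h, smul_zero] at this
  exact mul_ne_zero ha hb this.eq_zero⟩

theorem Red_refl_Tw {x a : Tw K} : Red (ValExt.refl K) x a ↔ x = a :=
  ⟨fun h => Tw.ext' h, by rintro rfl g; rfl⟩

theorem Red.comp_Tw {ψ : ValExt K' K''} {x : Tw K''} {y : Tw K'} {a : Tw K} (h1 : Red ψ x y)
    (h2 : Red φ y a) : Red (φ.comp ψ) x a := fun g => ⟨_, h1 g, h2 g⟩

theorem lead_refl (W : Submodule K (Tw K)) : lead (ValExt.refl K) W = W := by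
  ext a
  exact ⟨fun ⟨x, h1, h2⟩ => Red_refl_Tw.1 h2 ▸ h1, fun h => ⟨a, h, Red_refl_Tw.2 rfl⟩⟩

theorem lead_lead_le (ψ : ValExt K' K'') (W : Submodule K'' (Tw K'')) :
    lead φ (lead ψ W) ≤ lead (φ.comp ψ) W :=
  fun _ ⟨_, ⟨x, h1, h2⟩, h3⟩ => ⟨x, h1, h2.comp_Tw h3⟩

theorem lead_comp (ψ : ValExt K' K'') (W : Submodule K'' (Tw K'')) [FiniteDimensional K'' W] :
    lead (φ.comp ψ) W = lead φ (lead ψ W) := by
  symm
  apply Submodule.eq_of_le_of_finrank_eq (lead_lead_le ψ W)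
  rw [finrank_lead, finrank_lead, finrank_lead]

variable (φ) in
/-- base change of elements -/
noncomputable def up : Tw K →+* Tw K' where
  toFun x := (co K').symm ((co K x).mapRange φ.ι (map_zero _))
  map_zero' := by simp
  map_add' x y := by
    apply Tw.ext'; intro g; simp
  map_one' := by
    apply Tw.ext'; intro g
    simp only [LinearEquiv.apply_symm_apply, Finsupp.mapRange_apply, ← mo_zero, co_mo_apply]
    split_ifs <;> simp
  map_mul' x y := by
    apply Tw.ext'; intro g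
    rw [co_mul' _ _ g (s := (co K x).support) (by
      rw [LinearEquiv.apply_symm_apply]; exact Finsupp.support_mapRange)]
    simp only [LinearEquiv.apply_symm_apply, Finsupp.mapRange_apply, co_mul, map_sum, map_mul, ι_cc]

theorem co_up (x : Tw K) (g : G) : co K' (up φ x) g = φ.ι (co K x g) := by
  simp [up]

variable (φ) in
theorem Red.up (x : Tw K) : Red φ (up φ x) x := fun g => by
  change φ.R _ _
  rw [co_up]; exact φ.R_ι _

theorem up_smul (c : K) (x : Tw K) : up φ (c • x) = φ.ι c • up φ x := by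
  apply Tw.ext'; intro g; simp [co_up]

theorem up_mo (g : G) : up φ (mo g : Tw K) = mo g := by
  apply Tw.ext'; intro h
  rw [co_up, co_mo_apply, co_mo_apply]; split_ifs <;> simp

theorem up_mem_DJ {J : Finset ℕ} {x : Tw K} (h : x ∈ DJ K J) : up φ x ∈ DJ K' J := by
  intro g hg; rw [co_up, h g hg, map_zero]

theorem up_algebraMap (c : K) : up φ (algebraMap K (Tw K) c) = algebraMap K' (Tw K') (φ.ι c) := by
  rw [Algebra.algebraMap_eq_smul_one, Algebra.algebraMap_eq_smul_one, up_smul, map_one]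

theorem tr_up (x : Tw K) : tr (up φ x) = φ.ι (tr x) := co_up x 0

theorem up_aeval (a : Tw K) (p : K[X]) : up φ (aeval a p) = aeval (up φ a) (p.map φ.ι) := by
  induction p using Polynomial.induction_on' with
  | add p q hp hq => simp [hp, hq]
  | monomial k c => simp [aeval_monomial, up_algebraMap]

theorem lead_DJ (J : Finset ℕ) : lead φ (Subalgebra.toSubmodule (DJ K' J)) =
    Subalgebra.toSubmodule (DJ K J) :=
  le_antisymm (fun _ ⟨_, h1, h2⟩ => h2.mem_DJ h1) (fun a h => ⟨_, up_mem_DJ h, Red.up φ a⟩)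

variable (φ) in
/-- leading terms of a subalgebra -/
noncomputable def leadA (A : Subalgebra K' (Tw K')) : Subalgebra K (Tw K) :=
  (lead φ (Subalgebra.toSubmodule A)).toSubalgebra ⟨1, A.one_mem, Red.one φ⟩
    (fun _ _ ⟨_, h1, h2⟩ ⟨_, h3, h4⟩ => ⟨_, A.mul_mem h1 h3, h2.mul h4⟩)

theorem mem_leadA {A : Subalgebra K' (Tw K')} {a : Tw K} :
    a ∈ leadA φ A ↔ ∃ x ∈ A, Red φ x a := Iff.rfl

theorem Red.mem_leadA {A : Subalgebra K' (Tw K')} {x : Tw K'} {a : Tw K} (h : Red φ x a)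
    (hx : x ∈ A) : a ∈ leadA φ A := ⟨x, hx, h⟩

theorem leadA_toSubmodule (A : Subalgebra K' (Tw K')) :
    Subalgebra.toSubmodule (leadA φ A) = lead φ (Subalgebra.toSubmodule A) := rfl

instance (A : Subalgebra K' (Tw K')) [h : FiniteDimensional K' A] :
    FiniteDimensional K (leadA φ A) :=
  haveI : FiniteDimensional K' (Subalgebra.toSubmodule A) := h
  (inferInstance : FiniteDimensional K (lead φ (Subalgebra.toSubmodule A)))

theorem finrank_leadA (A : Subalgebra K' (Tw K')) [h : FiniteDimensional K' A] :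
    finrank K (leadA φ A) = finrank K' A :=
  haveI : FiniteDimensional K' (Subalgebra.toSubmodule A) := h
  finrank_lead (φ := φ) (Subalgebra.toSubmodule A)

theorem leadA_mono {A B : Subalgebra K' (Tw K')} (h : A ≤ B) : leadA φ A ≤ leadA φ B :=
  fun _ ⟨x, h1, h2⟩ => ⟨x, h h1, h2⟩

theorem leadA_le_DJ {A : Subalgebra K' (Tw K')} {J : Finset ℕ} (h : A ≤ DJ K' J) :
    leadA φ A ≤ DJ K J := fun _ ⟨_, h1, h2⟩ => h2.mem_DJ (h h1)

theorem leadA_comm {A : Subalgebra K' (Tw K')} (h : ∀ x ∈ A, ∀ y ∈ A, x * y = y * x) :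
    ∀ x ∈ leadA φ A, ∀ y ∈ leadA φ A, x * y = y * x :=
  fun _ ⟨_, h1, h2⟩ _ ⟨_, h3, h4⟩ => h2.comm h4 (h _ h1 _ h3)

theorem leadA_comp (ψ : ValExt K' K'') (A : Subalgebra K'' (Tw K'')) [h : FiniteDimensional K'' A] :
    leadA (φ.comp ψ) A = leadA φ (leadA ψ A) := by
  haveI : FiniteDimensional K'' (Subalgebra.toSubmodule A) := h
  apply Subalgebra.toSubmodule_injective
  exact lead_comp ψ _

variable (φ) in
/-- reduction of polynomials -/
def RedP (q : K'[X]) (p : K[X]) : Prop := ∀ k, φ.R (q.coeff k) (p.coeff k)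

variable (φ) in
theorem RedP.map (p : K[X]) : RedP φ (p.map φ.ι) p := fun k => by
  rw [coeff_map]; exact φ.R_ι _

theorem RedP.add {q q' : K'[X]} {p p' : K[X]} (h : RedP φ q p) (h' : RedP φ q' p') :
    RedP φ (q + q') (p + p') := fun k => by
  rw [coeff_add, coeff_add]; exact φ.add (h k) (h' k)

theorem RedP.smul {c : K'} {c' : K} {q : K'[X]} {p : K[X]} (hc : φ.R c c') (h : RedP φ q p) :
    RedP φ (c • q) (c' • p) := fun k => by
  rw [coeff_smul, coeff_smul]; exact φ.mul hc (h k)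

theorem RedP.derivative {q : K'[X]} {p : K[X]} (h : RedP φ q p) :
    RedP φ (derivative q) (derivative p) := fun k => by
  rw [coeff_derivative, coeff_derivative]
  refine φ.mul (h _) ?_
  have := φ.R_ι ((k : K) + 1)
  simpa using this

theorem RedP.aeval {q : K'[X]} {p : K[X]} (h : RedP φ q p) {x : Tw K'} {a : Tw K}
    (hx : Red φ x a) : Red φ (aeval x q) (aeval a p) := by
  rw [aeval_eq_sum_range' (n := q.natDegree + p.natDegree + 1) (by omega),
    aeval_eq_sum_range' (n := q.natDegree + p.natDegree + 1) (by omega)]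
  exact Red.sum (fun k _ => (hx.pow k).smul (h k))

theorem Red.Delk {x y : Tw K'} {a b : Tw K} (hx : Red φ x a) (hy : Red φ y b) (k : ℕ) :
    Red φ (Delk x k y) (Delk a k b) := by
  induction k with
  | zero => exact Red.zero φ
  | succ k ih => exact (ih.mul hx).add ((hx.pow k).mul hy)

theorem RedP.Del {q : K'[X]} {p : K[X]} (h : RedP φ q p) {x y : Tw K'} {a b : Tw K}
    (hx : Red φ x a) (hy : Red φ y b) : Red φ (Del x q y) (Del a p b) := by
  rw [Del_eq_sum (N := q.natDegree + p.natDegree + 1) _ _ (by omega),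
    Del_eq_sum (N := q.natDegree + p.natDegree + 1) _ _ (by omega)]
  exact Red.sum (fun k _ => (hx.Delk hy k).smul (h k))

theorem Red.dgr_le {x : Tw K'} {a : Tw K} (h : Red φ x a) : dgr a ≤ dgr x := by
  rw [← finrank_Lf, ← finrank_Lf, ← finrank_leadA (φ := φ)]
  exact finrank_mono_alg (Lf_le (h.mem_leadA (self_mem_Lf x)))

theorem leadA_Lf {x : Tw K'} {a : Tw K} (h : Red φ x a) (hd : dgr x ≤ dgr a) :
    leadA φ (Lf x) = Lf a := by
  symm
  apply eq_of_le_alg (Lf_le (h.mem_leadA (self_mem_Lf x)))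
  rw [finrank_leadA, finrank_Lf, finrank_Lf]; exact hd

variable [Dom K] [Dom K']

theorem Red.inv {x : Tw K'} {a : Tw K} (h : Red φ x a) (ha : a ≠ 0) : Red φ x⁻¹ a⁻¹ := by
  have hx := h.ne_zero ha
  obtain ⟨c, b, hb, h1⟩ := Red.scale φ (inv_ne_zero hx)
  have h2 := h1.mul h
  rw [smul_mul_assoc, inv_mul_cancel₀ hx] at h2
  have h3 := h2.tr
  rw [map_smul, tr_one, smul_eq_mul, mul_one] at h3
  have h4 : b * a = R180.tr (b * a) • (1 : Tw K) := h2.uniq ((Red.one φ).smul h3)
  have h5 : R180.tr (b * a) ≠ 0 := by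
    intro h0
    rw [h0, zero_smul] at h4
    exact mul_ne_zero hb ha h4
  have hc : c ≠ 0 := by
    rintro rfl
    exact h5 (φ.uniq h3 φ.R_zero)
  have h6 := h1.smul (φ.inv h3 h5)
  rw [smul_smul, inv_mul_cancel₀ hc, one_smul] at h6
  convert h6 using 1
  symm
  apply eq_inv_of_mul_eq_one_left
  rw [smul_mul_assoc]
  conv_lhs => rw [h4]
  simp only [map_smul, tr_one, smul_eq_mul, mul_one]
  rw [smul_smul, inv_mul_cancel₀ h5, one_smul]

theorem up_inv (x : Tw K) : up φ x⁻¹ = (up φ x)⁻¹ := map_inv₀ (up φ) x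

theorem Red.prj (A : Subalgebra K' (Tw K')) [FiniteDimensional K' A] {x : Tw K'} {a : Tw K}
    (h : Red φ x a) : Red φ (prj A x) (prj (leadA φ A) a) := by
  have key : ∀ (c : K') (c' : K) (b : Tw K), φ.R c c' → Red φ (c • R180.prj A x) b →
      b = c' • R180.prj (leadA φ A) a := by
    intro c c' b hc hb
    rw [← map_smul]
    symm
    apply prj_eq _ (hb.mem_leadA (A.smul_mem (prj_mem A x) c))
    rintro y ⟨y', hy', hy⟩
    have h1 := (hb.mul hy).tr
    have h2 := ((h.smul hc).mul hy).tr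
    rw [smul_mul_assoc, map_smul, tr_prj_mul A x hy'] at h1
    rw [smul_mul_assoc, map_smul] at h2
    exact φ.uniq h1 h2
  by_cases h0 : R180.prj A x = 0
  · have := key 1 1 0 φ.R_one (by rw [h0, _root_.smul_zero]; exact Red.zero φ)
    rw [one_smul] at this
    rw [h0, ← this]; exact Red.zero φ
  obtain ⟨c, b, hb, h1⟩ := Red.scale φ h0
  have hc : c ≠ 0 := by
    rintro rfl
    rw [zero_smul] at h1; exact hb h1.eq_zero
  have fin : ∀ e : K, φ.R c⁻¹ e → Red φ (R180.prj A x) (R180.prj (leadA φ A) a) := by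
    intro e he
    have h2 := h1.smul he
    rw [smul_smul, inv_mul_cancel₀ hc] at h2
    have := key 1 1 _ φ.R_one h2
    rw [one_smul] at this h2
    rwa [← this]
  rcases φ.total c with ⟨c', hc'⟩ | h2
  · by_cases h3 : c' = 0
    · have := key c c' b hc' h1
      rw [h3, zero_smul] at this
      exact absurd this hb
    · exact fin _ (φ.inv hc' h3)
  · exact fin _ h2

theorem Red.prJ {x : Tw K'} {a : Tw K} (h : Red φ x a) (J : Finset ℕ) :
    Red φ (prJ J x) (prJ J a) := by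
  intro g
  change φ.R _ _
  rw [co_prJ, co_prJ]
  split_ifs
  · exact h g
  · exact φ.R_zero

theorem Red.cmpT {x : Tw K'} {a : Tw K} (h : Red φ x a) (J : Finset ℕ) (z : G) :
    Red φ (cmpT J z x) (cmpT J z a) :=
  (((Red.mo φ z).inv (mo_ne_zero z)).mul h).prJ J

theorem Tens_lead_le (E : Finset ℕ) (W : Submodule K' (Tw K')) :
    Tens E (lead φ W) ≤ lead φ (Tens E W) := by
  rw [Tens_le_iff]
  rintro z hz _ ⟨x, h1, h2⟩
  exact ⟨_, smul_mem_Tens hz h1, (Red.mo φ z).mul h2⟩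

theorem lead_Tens {J E : Finset ℕ} (h : Disjoint J E) {W : Submodule K' (Tw K')}
    (hW : W ≤ Subalgebra.toSubmodule (DJ K' J)) : lead φ (Tens E W) = Tens E (lead φ W) := by
  apply le_antisymm _ (Tens_lead_le E W)
  rintro a ⟨x, h1, h2⟩
  apply mem_Tens_of_cmp h (h2.mem_DJ (Tens_le_base (M := Tw K') hW h1))
  intro z hz
  exact ⟨_, cmp_mem_of_Tens h hW h1 hz, h2.cmpT J z⟩

theorem Red.pd {x : Tw K'} {a : Tw K} (h : Red φ x a) (hp : RedP φ (minpoly K' x) (minpoly K a)) :
    Red φ (pd x) (pd a) := hp.derivative.aeval h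

theorem Red.pia {x y : Tw K'} {a b : Tw K} (h : Red φ x a)
    (hp : RedP φ (minpoly K' x) (minpoly K a)) (hy : Red φ y b) : Red φ (pia x y) (pia a b) :=
  ((h.pd hp).inv (pd_ne_zero a)).mul (hp.Del h hy)

theorem leadA_Cen_le {J : Finset ℕ} {x : Tw K'} {a : Tw K} (h : Red φ x a) :
    leadA φ (Cen J {x}) ≤ Cen J {a} := by
  rintro b ⟨y, h1, h2⟩
  obtain ⟨h3, h4⟩ := mem_Cen_singleton.1 h1
  exact mem_Cen_singleton.2 ⟨h.comm h2 h3, h2.mem_DJ h4⟩

theorem leadA_Cen {J : Finset ℕ} {x : Tw K'} {a : Tw K} (h : Red φ x a) (hx : x ∈ DJ K' J)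
    (hp : RedP φ (minpoly K' x) (minpoly K a)) : leadA φ (Cen J {x}) = Cen J {a} := by
  apply le_antisymm (leadA_Cen_le h)
  intro b hb
  obtain ⟨h3, h4⟩ := mem_Cen_singleton.1 hb
  have := h.pia hp (Red.up φ b)
  rw [pia_of_comm h3] at this
  exact this.mem_leadA (pia_mem_Cen hx (up_mem_DJ h4))

end Crest.Agent.R180
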