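import Crest.Agent.R180.Pt

set_option autoImplicit false

/-!
PLAN (helper28).
* `dom_Z0`: for `x ≠ 0` in `Tw Z0` the values `dg g + order (co x g)` (g in the support, in `Gam'`) are
  pairwise distinct (`dg_inj_mod`); let g0, h0 be the minimisers for x, y.  In `co_mul x y (g0+h0)` the
  term g = g0 has order `ord x_g0 + kap g0 h0 + ord y_h0` and every other nonzero term has strictly larger
  order (add `dg (g0+h0)`), so the sum is nonzero (look at that coefficient / `HahnSeries.addVal`).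
* `rec_comm`: compare components of `(u + θ v) y = y (u + θ v)` at `zab (a+1) (b+1)`:
  `c1 (1 - eps) y_{a,b+1} + c2 (1 - eps') θ y_{a+1,b} = 0`, where the first factor vanishes iff
  `b+1 ≡ 0`, the second iff `a+1 ≡ 0` mod ℓ (`eps_gu`, `eps_gv`).  Components commute with θ
  (`cmpT_mul_left/right`).  Walk along the antidiagonal.
* `gc_of_indep`: `M = {(D1 f h1, D1 f h2) | ev w f = 0}` is a sub-bimodule of `(DJ J)^2` (use Gen and
  `Tm.mul`); by `average_DJ`, `(tr (d y1), tr (d y2)) • 1 ∈ M`; if these scalar pairs do not fill K^2 there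
  is `(s1,s2) ≠ 0` with `s1 y1 + s2 y2 = 0` on M, so `h = s1 h1 + s2 h2` kills all relations.  Then with
  terms `t_g` for `mo g` (g ∈ GJ J) and `Γ = Σ_g (mo g)⁻¹ D1 t_g h` one gets
  `NJ^2 • D1 t_k h = mo k Γ - Γ mo k`, so `h` is inner, contradiction.  So (1,0),(0,1) ∈ M and
  `D1 f (u • h1 + v • h2) = u y1 + v y2` (`D1_smul`, `mo_comm_DJ`) gives u, v.
-/

namespace Crest.Agent.R180

open Module

/-- the valuation of the `g`-th term -/
noncomputable def vl (x : Tw Z0) (g : G) : Gam' := dg g + ((co Z0 x g).order : Gam)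

theorem vl_inj (x : Tw Z0) {g h : G} (H : vl x g = vl x h) : g = h := by
  apply dg_inj_mod
  have : dg g - dg h = ((co Z0 x h).order : Gam) - ((co Z0 x g).order : Gam) := by
    unfold vl at H
    rw [sub_eq_sub_iff_add_eq_add, H, add_comm]
  rw [this]
  exact sub_mem (Subtype.property _) (Subtype.property _)

theorem exists_min_vl {x : Tw Z0} (hx : x ≠ 0) :
    ∃ g0, co Z0 x g0 ≠ 0 ∧ ∀ g, co Z0 x g ≠ 0 → vl x g0 ≤ vl x g := by
  have hne : (co Z0 x).support.Nonempty := by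
    rw [Finsupp.support_nonempty_iff]
    intro h
    exact hx ((co Z0).injective (by rw [h, map_zero]))
  obtain ⟨g0, h1, h2⟩ := Finset.exists_min_image _ (vl x) hne
  exact ⟨g0, Finsupp.mem_support_iff.1 h1, fun g hg => h2 g (Finsupp.mem_support_iff.2 hg)⟩

theorem order_term {x y : Tw Z0} {g h : G} (hg : co Z0 x g ≠ 0) (hh : co Z0 y h ≠ 0) :
    (((co Z0 x g * (cc Z0 g h * co Z0 y h)).order : Gam) : Gam') =
      vl x g + vl y h - dg (g + h) := by
  have hc : cc Z0 g h = c0 g h := rfl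
  rw [HahnSeries.order_mul hg (mul_ne_zero (cc_ne_zero _ _) hh),
    HahnSeries.order_mul (cc_ne_zero _ _) hh, hc, c0, HahnSeries.order_single (circ_ne_zero _)]
  simp only [AddSubgroup.coe_add, kap, vl]
  abel

instance dom_Z0 : Dom Z0 := by
  refine ⟨fun x y hxy => ?_⟩
  by_contra hne
  push Not at hne
  obtain ⟨g0, hg0, hg⟩ := exists_min_vl hne.1
  obtain ⟨h0, hh0, hh⟩ := exists_min_vl hne.2
  have h1 := co_mul x y (g0 + h0)
  rw [hxy, map_zero, Finsupp.zero_apply] at h1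
  set T : Z0 := co Z0 x g0 * (cc Z0 g0 h0 * co Z0 y h0) with hT
  have hT0 : T ≠ 0 := mul_ne_zero hg0 (mul_ne_zero (cc_ne_zero _ _) hh0)
  have h2 := congrArg (fun s : Z0 => s.coeff T.order) h1
  simp only [HahnSeries.coeff_zero, HahnSeries.coeff_sum] at h2
  rw [Finset.sum_eq_single g0] at h2
  · rw [add_sub_cancel_left] at h2
    exact hT0 (HahnSeries.coeff_order_eq_zero.1 h2.symm)
  · intro g hgs hgne
    have hg' := Finsupp.mem_support_iff.1 hgs
    by_cases hy : co Z0 y (g0 + h0 - g) = 0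
    · rw [hy]; simp
    apply HahnSeries.coeff_eq_zero_of_lt_order
    rw [← Subtype.coe_lt_coe, hT, order_term hg0 hh0, order_term hg' hy, add_sub_cancel]
    apply sub_lt_sub_right
    exact add_lt_add_of_lt_of_le (lt_of_le_of_ne (hg g hg') (fun h => hgne (vl_inj x h).symm))
      (hh _ hy)
  · intro h
    exact absurd (Finsupp.mem_support_iff.2 hg0) h

/-- exponent of `u_α` -/
def gu (α : ℕ) : G := DFinsupp.single ⟨α, false⟩ 1
/-- exponent of `v_α` -/
def gv (α : ℕ) : G := DFinsupp.single ⟨α, true⟩ 1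
/-- exponent of `u^a v^b` -/
def zab (α a b : ℕ) : G := a • gu α + b • gv α

theorem gu_mem (α : ℕ) : gu α ∈ GJ {α} := by
  intro i hi
  unfold gu
  rw [DFinsupp.single_eq_of_ne]
  rintro rfl
  simp at hi

theorem gv_mem (α : ℕ) : gv α ∈ GJ {α} := by
  intro i hi
  unfold gv
  rw [DFinsupp.single_eq_of_ne]
  rintro rfl
  simp at hi

theorem zab_mem (α a b : ℕ) : zab α a b ∈ GJ {α} :=
  add_mem (nsmul_mem (gu_mem α) a) (nsmul_mem (gv_mem α) b)

theorem zab_false (α a b : ℕ) : zab α a b ⟨α, false⟩ = (a : ZMod (ell α)) := by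
  simp [zab, gu, gv]

theorem zab_true (α a b : ℕ) : zab α a b ⟨α, true⟩ = (b : ZMod (ell α)) := by
  simp [zab, gu, gv]

theorem GJ_single_ext {α : ℕ} {z z' : G} (hz : z ∈ GJ {α}) (hz' : z' ∈ GJ {α})
    (h1 : z ⟨α, false⟩ = z' ⟨α, false⟩) (h2 : z ⟨α, true⟩ = z' ⟨α, true⟩) : z = z' := by
  ext ⟨a, b⟩
  by_cases ha : a = α
  · subst ha
    cases b
    · exact h1
    · exact h2
  · rw [hz ⟨a, b⟩ (by simpa using ha), hz' ⟨a, b⟩ (by simpa using ha)]

theorem exists_zab {α : ℕ} {z : G} (hz : z ∈ GJ {α}) :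
    ∃ a < ell α, ∃ b < ell α, z = zab α a b := by
  refine ⟨(z ⟨α, false⟩).val, ZMod.val_lt _, (z ⟨α, true⟩).val, ZMod.val_lt _, ?_⟩
  apply GJ_single_ext hz (zab_mem _ _ _)
  · rw [zab_false]; simp
  · rw [zab_true]; simp

variable {K : Type} [Field K] [Algebra Z0 K]

theorem eps_gu (α : ℕ) (z : G) : eps K (gu α) z = 1 ↔ z ⟨α, true⟩ = 0 := by
  rw [eps_eq_one_iff, gu, Bf_single, Bf_single_right]
  simp only [Bool.false_eq_true, ↓reduceIte, mul_one]
  rw [eq_comm, ZMod.toAddCircle_eq_zero]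

theorem eps_gv (α : ℕ) (z : G) : eps K (gv α) z = 1 ↔ z ⟨α, false⟩ = 0 := by
  rw [eps_eq_one_iff, gv, Bf_single, Bf_single_right]
  simp only [↓reduceIte, one_mul]
  rw [ZMod.toAddCircle_eq_zero]

theorem ell_smul {α : ℕ} {g : G} (hg : g ∈ GJ {α}) : ell α • g = 0 := by
  apply GJ_single_ext (nsmul_mem hg _) (zero_mem _) <;> simp

theorem eps_ne_neg_one {α : ℕ} {g : G} (hg : g ∈ GJ {α}) (h : G) : eps K g h ≠ -1 := by
  intro H
  haveI : CharZero K := charZero_K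
  have h1 := eps_pow (K := K) g h _ (ell_smul hg)
  have hodd : Odd (ell α) := ⟨α + 2, by unfold ell; ring⟩
  rw [H, hodd.neg_one_pow] at h1
  norm_num at h1

theorem mo_add_eq (g h : G) : (mo (g + h) : Tw K) = (cc K g h)⁻¹ • (mo g * mo h) := by
  rw [mo_mul, smul_smul, inv_mul_cancel₀ (cc_ne_zero _ _), one_smul]

theorem mo_add_mem {A : Subalgebra K (Tw K)} {g h : G} (hg : mo g ∈ A) (hh : mo h ∈ A) :
    mo (g + h) ∈ A := by
  rw [mo_add_eq]; exact A.smul_mem (A.mul_mem hg hh) _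

theorem mo_nsmul_mem {A : Subalgebra K (Tw K)} {g : G} (hg : mo g ∈ A) (n : ℕ) :
    mo (n • g) ∈ A := by
  induction n with
  | zero => rw [zero_smul, mo_zero]; exact A.one_mem
  | succ n ih => rw [succ_nsmul]; exact mo_add_mem ih hg

theorem mo_mem_of_uv {A : Subalgebra K (Tw K)} {α : ℕ} (hu : mo (gu α) ∈ A) (hv : mo (gv α) ∈ A)
    {z : G} (hz : z ∈ GJ {α}) : mo z ∈ A := by
  obtain ⟨a, -, b, -, rfl⟩ := exists_zab hz
  exact mo_add_mem (mo_nsmul_mem hu a) (mo_nsmul_mem hv b)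

theorem DJ_le_of_uv {A : Subalgebra K (Tw K)} {J : Finset ℕ} {α : ℕ} (hJ : DJ K J ≤ A)
    (hu : mo (gu α) ∈ A) (hv : mo (gv α) ∈ A) : DJ K (J ∪ {α}) ≤ A := by
  intro x hx
  induction hx using DJ_induction with
  | h0 => exact zero_mem _
  | hadd a b _ _ ha hb => exact add_mem ha hb
  | hm g c hg =>
    obtain ⟨z, hz, k, hk, rfl⟩ := GJ_split hg
    exact A.smul_mem (mo_add_mem (mo_mem_of_uv hu hv hz) (hJ (mo_mem_DJ hk))) _

theorem DJ_le_adjoin_uv (J : Finset ℕ) (α : ℕ) :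
    DJ K (J ∪ {α}) ≤ Algebra.adjoin K ((DJ K J : Set (Tw K)) ∪ {mo (gu α), mo (gv α)}) :=
  DJ_le_of_uv (fun _ hx => Algebra.subset_adjoin (Or.inl hx))
    (Algebra.subset_adjoin (Or.inr (by simp))) (Algebra.subset_adjoin (Or.inr (by simp)))

/-- the values of terms form a subalgebra -/
noncomputable def evRange (w : Vec K) : Subalgebra K (Tw K) where
  carrier := {d | ∃ f : Tm K, ev w f = d}
  mul_mem' := by rintro _ _ ⟨f, rfl⟩ ⟨g, rfl⟩; exact ⟨.mul f g, rfl⟩
  add_mem' := by rintro _ _ ⟨f, rfl⟩ ⟨g, rfl⟩; exact ⟨.add f g, rfl⟩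
  algebraMap_mem' := fun c => ⟨.c c, rfl⟩

theorem gen_uv (α : ℕ) : Gen {α} (![mo (gu α), mo (gv α)] : Vec K) := by
  intro d hd
  change d ∈ evRange _
  induction hd using DJ_induction with
  | h0 => exact zero_mem _
  | hadd a b _ _ ha hb => exact add_mem ha hb
  | hm g c hg =>
    exact Subalgebra.smul_mem _ (mo_mem_of_uv (A := evRange _) (α := α) ⟨.v 0, rfl⟩ ⟨.v 1, rfl⟩ hg) _

variable [Dom K]

theorem mo_add_inv (g h : G) :
    (mo (g + h) : Tw K)⁻¹ = cc K g h • ((mo h)⁻¹ * (mo g)⁻¹) := by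
  symm
  apply eq_inv_of_mul_eq_one_right
  rw [mo_add_eq, smul_mul_smul_comm, inv_mul_cancel₀ (cc_ne_zero _ _), one_smul, mul_assoc,
    ← mul_assoc (mo h), mul_inv_cancel₀ (mo_ne_zero _), one_mul, mul_inv_cancel₀ (mo_ne_zero _)]

theorem cmpT_mo_mul (J : Finset ℕ) (g z : G) (y : Tw K) :
    cmpT J (g + z) (mo g * y) = cc K g z • cmpT J z y := by
  rw [cmpT_apply, cmpT_apply, mo_add_inv, smul_mul_assoc, map_smul, mul_assoc,
    ← mul_assoc (mo g)⁻¹, inv_mul_cancel₀ (mo_ne_zero _), one_mul]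

theorem cmpT_mul_mo {J E : Finset ℕ} (h : Disjoint J E) {g z : G} (hg : g ∈ GJ E) (hz : z ∈ GJ E)
    {y : Tw K} (hy : y ∈ DJ K (J ∪ E)) :
    cmpT J (z + g) (y * mo g) = cc K z g • cmpT J z y := by
  induction hy using DJ_induction with
  | h0 => simp
  | hadd a b _ _ ha hb => rw [add_mul, map_add, map_add, ha, hb, smul_add]
  | hm k c hk =>
    obtain ⟨z', hz', k', hk', rfl⟩ := GJ_split hk
    have hm : (mo k' : Tw K) ∈ DJ K J := mo_mem_DJ hk'
    rw [mo_add_eq, smul_mul_assoc, smul_mul_assoc, mul_assoc, ← mo_comm_DJ h hg hm, ← mul_assoc,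
      mo_mul z' g, smul_mul_assoc]
    simp only [map_smul]
    rw [cmpT_smul h (add_mem hz hg) (add_mem hz' hg) hm, cmpT_smul h hz hz' hm]
    by_cases e : z = z'
    · subst e
      simp only [if_true, smul_smul]
      congr 1; ring
    · rw [if_neg e, if_neg (by simpa using e)]; simp

theorem rec_step {J : Finset ℕ} {α : ℕ} (hα : α ∉ J) {θ y : Tw K} (hθ : θ ∈ DJ K J)
    (hy : y ∈ DJ K (J ∪ {α})) (h1 : θ * y = y * θ)
    (h2 : (mo (gu α) + θ * mo (gv α)) * y = y * (mo (gu α) + θ * mo (gv α))) (a b : ℕ) :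
    ∃ s t : K, (s = 0 ↔ ell α ∣ b + 1) ∧ (t = 0 ↔ ell α ∣ a + 1) ∧
      s • cmpT J (zab α a (b + 1)) y + t • (θ * cmpT J (zab α (a + 1) b) y) = 0 := by
  have hd : Disjoint J {α} := Finset.disjoint_singleton_right.2 hα
  set A := zab α a (b + 1) with hA
  set B := zab α (a + 1) b with hB
  have hAm : A ∈ GJ {α} := zab_mem _ _ _
  have hBm : B ∈ GJ {α} := zab_mem _ _ _
  have e1 : gv α + B = gu α + A := by simp only [hA, hB, zab, succ_nsmul]; abel
  have e2 : A + gu α = gu α + A := add_comm _ _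
  have e3 : B + gv α = gu α + A := by rw [← e1, add_comm]
  have hW : gu α + A ∈ GJ {α} := add_mem (gu_mem α) hAm
  have H := congrArg (cmpT J (gu α + A)) h2
  rw [add_mul, mul_add, map_add, map_add, cmpT_mo_mul, mul_assoc, cmpT_mul_left hd hW hθ,
    ← mul_assoc, ← h1, mul_assoc, cmpT_mul_left hd hW hθ] at H
  have f1 := cmpT_mo_mul J (gv α) B y
  have f2 := cmpT_mul_mo hd (gu_mem α) hAm hy
  have f3 := cmpT_mul_mo hd (gv_mem α) hBm hy
  rw [e1] at f1
  rw [e2] at f2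
  rw [e3] at f3
  rw [f1, f2, f3, cc_comm (gu α) A, cc_comm (gv α) B] at H
  refine ⟨(eps K (gu α) A - 1) * cc K A (gu α), (eps K (gv α) B - 1) * cc K B (gv α), ?_, ?_, ?_⟩
  · rw [mul_eq_zero, or_iff_left (cc_ne_zero _ _), sub_eq_zero, eps_gu, hA, zab_true,
      ZMod.natCast_eq_zero_iff]
  · rw [mul_eq_zero, or_iff_left (cc_ne_zero _ _), sub_eq_zero, eps_gv, hB, zab_false,
      ZMod.natCast_eq_zero_iff]
  · simp only [mul_smul_comm] at H
    rw [← sub_eq_zero] at H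
    rw [← H]
    module

/-- the centraliser of `u + θ v` -/
theorem rec_comm {J : Finset ℕ} {α : ℕ} (hα : α ∉ J) {θ y : Tw K} (hθ : θ ∈ DJ K J) (hθ0 : θ ≠ 0)
    (hy : y ∈ DJ K (J ∪ {α})) (h1 : θ * y = y * θ)
    (h2 : (mo (gu α) + θ * mo (gv α)) * y = y * (mo (gu α) + θ * mo (gv α))) :
    (∀ a < ell α, ∀ b < ell α, ell α ≤ a + b → cmpT J (zab α a b) y = 0) ∧
    (∀ a b, a + b < ell α → ∃ κ : K, κ ≠ 0 ∧
      cmpT J (zab α a b) y = κ • (θ ^ b * cmpT J (zab α (a + b) 0) y)) := by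
  constructor
  · intro a
    induction a with
    | zero => intro _ b hb h; omega
    | succ a ih =>
      intro ha b hb h
      obtain ⟨s, t, hs, ht, H⟩ := rec_step hα hθ hy h1 h2 a b
      have ht0 : t ≠ 0 := fun h0 => absurd (Nat.le_of_dvd (by omega) (ht.1 h0)) (by omega)
      have : s • cmpT J (zab α a (b + 1)) y = 0 := by
        by_cases hb1 : b + 1 = ell α
        · rw [hs.2 (hb1 ▸ dvd_rfl), zero_smul]
        · rw [ih (by omega) (b + 1) (by omega) (by omega), smul_zero]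
      rw [this, zero_add, smul_eq_zero, or_iff_right ht0, mul_eq_zero, or_iff_right hθ0] at H
      exact H
  · intro a b
    induction b generalizing a with
    | zero => intro _; exact ⟨1, one_ne_zero, by simp⟩
    | succ b ih =>
      intro h
      obtain ⟨s, t, hs, ht, H⟩ := rec_step hα hθ hy h1 h2 a b
      have ht0 : t ≠ 0 := fun h0 => absurd (Nat.le_of_dvd (by omega) (ht.1 h0)) (by omega)
      have hs0 : s ≠ 0 := fun h0 => absurd (Nat.le_of_dvd (by omega) (hs.1 h0)) (by omega)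
      obtain ⟨κ, hκ, e⟩ := ih (a + 1) (by omega)
      refine ⟨-(s⁻¹ * t * κ), neg_ne_zero.2 (mul_ne_zero (mul_ne_zero (inv_ne_zero hs0) ht0) hκ), ?_⟩
      rw [e, show a + 1 + b = a + (b + 1) by ring, mul_smul_comm, ← mul_assoc, ← pow_succ',
        add_eq_zero_iff_eq_neg] at H
      have := congrArg (fun x => s⁻¹ • x) H
      simp only [smul_smul, inv_mul_cancel₀ hs0, one_smul] at this
      rw [this, smul_neg, smul_smul, neg_smul, mul_assoc]

theorem D1_congr {w h : Vec K} (H : ∀ f : Tm K, ev w f = 0 → D1 w f h = 0) {f f' : Tm K}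
    (e : ev w f = ev w f') : D1 w f h = D1 w f' h := by
  have := H (.add f (.mul (.c (-1)) f')) (by simp [e])
  simp only [D1_add, D1_mul, D1_c, zero_mul, zero_add, ev_c, map_neg, map_one, neg_mul,
    one_mul] at this
  exact add_neg_eq_zero.1 this

/-- a first order deformation preserving all relations is inner -/
theorem inner_of_rel {J : Finset ℕ} {w h : Vec K} (hw : ∀ j, w j ∈ DJ K J) (hg : Gen J w)
    (hh : ∀ j, h j ∈ DJ K J) (H : ∀ f : Tm K, ev w f = 0 → D1 w f h = 0) :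
    ∃ g ∈ DJ K J, h = fun j => g * w j - w j * g := by
  haveI : CharZero K := charZero_K
  have hN : ((NJ J ^ 2 : ℕ) : K) ≠ 0 := by exact_mod_cast (pow_pos (NJ_pos J) 2).ne'
  choose t ht using fun g : GJ J => hg (mo (g : G)) (mo_mem_DJ g.2)
  set Γ : Tw K := ∑ g : GJ J, (mo (g : G))⁻¹ * D1 w (t g) h with hΓ
  have hΓm : Γ ∈ DJ K J :=
    Subalgebra.sum_mem _ (fun g _ => mul_mem (mo_inv_mem g.2) (D1_mem hw hh _))
  have key : ∀ k : GJ J,
      ((NJ J ^ 2 : ℕ) : K) • D1 w (t k) h = mo (k : G) * Γ - Γ * mo (k : G) := by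
    intro k
    have e1 : mo (k : G) * Γ = ∑ g : GJ J, ((mo (g : G))⁻¹ * D1 w (t g) h * mo (k : G) +
        D1 w (t k) h) := by
      rw [hΓ, Finset.mul_sum, ← Equiv.sum_comp (Equiv.addRight k)]
      apply Finset.sum_congr rfl
      intro g _
      have e2 : D1 w (t (g + k)) h = (cc K g k)⁻¹ •
          (D1 w (t g) h * mo (k : G) + mo (g : G) * D1 w (t k) h) := by
        rw [D1_congr H (f' := .mul (.c (cc K g k)⁻¹) (.mul (t g) (t k)))]
        · simp [ht, Algebra.smul_def]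
        · simp only [ev_mul, ev_c, ht, AddSubgroup.coe_add, mo_add_eq, Algebra.smul_def]
      simp only [Equiv.coe_addRight, AddSubgroup.coe_add]
      rw [e2, mo_add_inv, smul_mul_smul_comm, mul_inv_cancel₀ (cc_ne_zero _ _), one_smul,
        ← mul_assoc, ← mul_assoc, mul_inv_cancel₀ (mo_ne_zero _), one_mul, mul_add, ← mul_assoc,
        ← mul_assoc, inv_mul_cancel₀ (mo_ne_zero _), one_mul]
    rw [e1, Finset.sum_add_distrib, ← Finset.sum_mul, add_sub_cancel_left, Finset.sum_const,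
      Finset.card_univ, card_GJ, Nat.cast_smul_eq_nsmul]
  set g : Tw K := -(((NJ J ^ 2 : ℕ) : K)⁻¹ • Γ) with hgdef
  have key2 : ∀ x (hx : x ∈ DJ K J), ∀ f : Tm K, ev w f = x → D1 w f h = g * x - x * g := by
    intro x hx
    induction hx using DJ_induction with
    | h0 => intro f hf; rw [H f hf]; simp
    | hadd a b ha' hb' ha hb =>
      intro f hf
      obtain ⟨fa, hfa⟩ := hg a ha'
      obtain ⟨fb, hfb⟩ := hg b hb'
      rw [D1_congr H (f' := .add fa fb) (by rw [hf, ev_add, hfa, hfb]), D1_add, ha fa hfa,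
        hb fb hfb]
      noncomm_ring
    | hm k c hk =>
      intro f hf
      rw [D1_congr H (f' := .mul (.c c) (t ⟨k, hk⟩)) (by
        rw [hf, ev_mul, ev_c, ht, Algebra.smul_def])]
      have := congrArg (fun x => ((NJ J ^ 2 : ℕ) : K)⁻¹ • x) (key ⟨k, hk⟩)
      simp only [smul_smul, inv_mul_cancel₀ hN, one_smul] at this
      rw [D1_mul, D1_c, zero_mul, zero_add, ev_c, ← Algebra.smul_def, this, hgdef]
      simp only [neg_mul, mul_neg, smul_mul_assoc, mul_smul_comm]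
      module
  refine ⟨g, neg_mem (Subalgebra.smul_mem _ hΓm _), ?_⟩
  funext j
  exact key2 _ (hw j) (.v j) rfl

/-- scalar pairs of relations -/
noncomputable def relS (w h1 h2 : Vec K) : Submodule K (K × K) where
  carrier := {s | ∃ f : Tm K, ev w f = 0 ∧ D1 w f h1 = s.1 • (1 : Tw K) ∧
    D1 w f h2 = s.2 • (1 : Tw K)}
  add_mem' := by
    rintro s s' ⟨f, a1, a2, a3⟩ ⟨f', b1, b2, b3⟩
    exact ⟨.add f f', by simp [a1, b1], by simp [a2, b2, add_smul], by simp [a3, b3, add_smul]⟩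
  zero_mem' := ⟨.c 0, by simp, by simp, by simp⟩
  smul_mem' := by
    rintro c s ⟨f, a1, a2, a3⟩
    refine ⟨.mul (.c c) f, by simp [a1], ?_, ?_⟩
    · simp [a2, Algebra.algebraMap_eq_smul_one, smul_smul, mul_comm]
    · simp [a3, Algebra.algebraMap_eq_smul_one, smul_smul, mul_comm]

theorem exists_rel_sum {w h1 h2 : Vec K} {ι : Type} (s : Finset ι) (y1 y2 : ι → Tw K)
    (H : ∀ i, ∃ f : Tm K, ev w f = 0 ∧ D1 w f h1 = y1 i ∧ D1 w f h2 = y2 i) :
    ∃ f : Tm K, ev w f = 0 ∧ D1 w f h1 = ∑ i ∈ s, y1 i ∧ D1 w f h2 = ∑ i ∈ s, y2 i := by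
  classical
  induction s using Finset.induction with
  | empty => exact ⟨.c 0, by simp, by simp, by simp⟩
  | insert i s hi ih =>
    obtain ⟨f, a1, a2, a3⟩ := H i
    obtain ⟨f', b1, b2, b3⟩ := ih
    exact ⟨.add f f', by simp [a1, b1], by simp [a2, b2, Finset.sum_insert hi],
      by simp [a3, b3, Finset.sum_insert hi]⟩

theorem tr_mem_relS {J : Finset ℕ} {w h1 h2 : Vec K} (hw : ∀ j, w j ∈ DJ K J) (hg : Gen J w)
    (hh1 : ∀ j, h1 j ∈ DJ K J) (hh2 : ∀ j, h2 j ∈ DJ K J) {f : Tm K} (hf : ev w f = 0)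
    {d : Tw K} (hd : d ∈ DJ K J) :
    (tr (D1 w f h1 * d), tr (D1 w f h2 * d)) ∈ relS w h1 h2 := by
  haveI : CharZero K := charZero_K
  have hN : ((NJ J ^ 2 : ℕ) : K) ≠ 0 := by exact_mod_cast (pow_pos (NJ_pos J) 2).ne'
  obtain ⟨f', a1, a2, a3⟩ := exists_rel_sum (w := w) (h1 := h1) (h2 := h2) Finset.univ
    (fun g : GJ J => mo (g : G) * (D1 w f h1 * d) * (mo (g : G))⁻¹)
    (fun g : GJ J => mo (g : G) * (D1 w f h2 * d) * (mo (g : G))⁻¹) (by
      intro g
      obtain ⟨p, hp⟩ := hg _ (mo_mem_DJ g.2)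
      obtain ⟨q, hq⟩ := hg _ (mul_mem hd (mo_inv_mem g.2))
      refine ⟨.mul (.mul p f) q, by simp [hf], ?_, ?_⟩
      · simp [hf, hp, hq, mul_assoc]
      · simp [hf, hp, hq, mul_assoc])
  rw [average_DJ (mul_mem (D1_mem hw hh1 f) hd)] at a2
  rw [average_DJ (mul_mem (D1_mem hw hh2 f) hd)] at a3
  have : (((NJ J ^ 2 : ℕ) : K) * tr (D1 w f h1 * d), ((NJ J ^ 2 : ℕ) : K) * tr (D1 w f h2 * d)) ∈
      relS w h1 h2 := ⟨f', a1, a2, a3⟩
  have := Submodule.smul_mem _ ((NJ J ^ 2 : ℕ) : K)⁻¹ this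
  simpa only [Prod.smul_mk, smul_eq_mul, inv_mul_cancel_left₀ hN] using this

/-- generation condition for a noncommutative first order deformation -/
theorem gc_of_indep {J : Finset ℕ} {α : ℕ} (hα : α ∉ J) {w h1 h2 : Vec K}
    (hw : ∀ j, w j ∈ DJ K J) (hg : Gen J w) (hh1 : ∀ j, h1 j ∈ DJ K J) (hh2 : ∀ j, h2 j ∈ DJ K J)
    (hind : ∀ (c1 c2 : K), ∀ g ∈ DJ K J,
      c1 • h1 + c2 • h2 = (fun j => g * w j - w j * g) → c1 = 0 ∧ c2 = 0) :
    DJ K (J ∪ {α}) ≤ Algebra.adjoin K ((DJ K J : Set (Tw K)) ∪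
      {y | ∃ f : Tm K, ev w f = 0 ∧
        y = D1 w f ((mo (gu α) : Tw K) • h1 + (mo (gv α) : Tw K) • h2)}) := by
  have hd : Disjoint J {α} := Finset.disjoint_singleton_right.2 hα
  have htop : relS w h1 h2 = ⊤ := by
    by_contra hne
    obtain ⟨l, hl0, hl⟩ := Submodule.exists_le_ker_of_lt_top _ (lt_top_iff_ne_top.2 hne)
    set c1 := l (1, 0) with hc1
    set c2 := l (0, 1) with hc2
    have hl' : ∀ s : K × K, l s = c1 * s.1 + c2 * s.2 := by
      rintro ⟨s1, s2⟩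
      have : (s1, s2) = s1 • ((1 : K), (0 : K)) + s2 • ((0 : K), (1 : K)) := by simp
      rw [this, map_add, map_smul, map_smul]
      simp [mul_comm, hc1, hc2]
    have hh : ∀ j, (c1 • h1 + c2 • h2) j ∈ DJ K J := fun j =>
      add_mem (Subalgebra.smul_mem _ (hh1 j) _) (Subalgebra.smul_mem _ (hh2 j) _)
    obtain ⟨g, hgm, e⟩ := inner_of_rel hw hg hh (by
      intro f hf
      apply eq_zero_of_tr (DJ K J) (D1_mem hw hh f)
      intro d hd
      have := hl (tr_mem_relS hw hg hh1 hh2 hf hd)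
      rw [LinearMap.mem_ker, hl'] at this
      simpa [add_mul] using this)
    obtain ⟨e1, e2⟩ := hind c1 c2 g hgm e
    apply hl0
    ext <;> simp [hl', e1, e2]
  have hcu : ∀ j, mo (gu α) * w j = w j * mo (gu α) := fun j => mo_comm_DJ hd (gu_mem α) (hw j)
  have hcv : ∀ j, mo (gv α) * w j = w j * mo (gv α) := fun j => mo_comm_DJ hd (gv_mem α) (hw j)
  apply DJ_le_of_uv (fun _ hx => Algebra.subset_adjoin (Or.inl hx))
  · obtain ⟨f, a1, a2, a3⟩ : ((1 : K), (0 : K)) ∈ relS w h1 h2 := htop ▸ Submodule.mem_top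
    refine Algebra.subset_adjoin (Or.inr ⟨f, a1, ?_⟩)
    rw [map_add, D1_smul hcu, D1_smul hcv, a2, a3]; simp
  · obtain ⟨f, a1, a2, a3⟩ : ((0 : K), (1 : K)) ∈ relS w h1 h2 := htop ▸ Submodule.mem_top
    refine Algebra.subset_adjoin (Or.inr ⟨f, a1, ?_⟩)
    rw [map_add, D1_smul hcu, D1_smul hcv, a2, a3]; simp

end Crest.Agent.R180
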