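import Crest.Agent.R180.Tw

set_option autoImplicit false

namespace Crest.Agent.R180

open Module

variable {K : Type} [Field K] [Algebra Z0 K]

theorem Bf_disj {J E : Finset ℕ} (h : Disjoint J E) {g z : G} (hg : g ∈ GJ J) (hz : z ∈ GJ E) :
    Bf g z = 0 := by
  apply Bf_eq_zero_of_disj
  intro a
  by_cases ha : a ∈ J
  · right; exact hz _ (Finset.disjoint_left.1 h ha)
  · left; exact hg _ ha

theorem mo_comm_DJ {J E : Finset ℕ} (h : Disjoint J E) {z : G} (hz : z ∈ GJ E) {x : Tw K}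
    (hx : x ∈ DJ K J) : mo z * x = x * mo z := by
  induction hx using DJ_induction with
  | h0 => simp
  | hadd a b _ _ ha hb => simp [mul_add, add_mul, ha, hb]
  | hm g c hg =>
    rw [mul_smul_comm, smul_mul_assoc, mo_comm]
    have : eps K z g = 1 := by
      rw [eps_eq_one_iff, Bf_disj h hg hz, Bf_disj h.symm hz hg]
    rw [this, one_smul]

theorem DJ_comm {J E : Finset ℕ} (h : Disjoint J E) {x y : Tw K} (hx : x ∈ DJ K J)
    (hy : y ∈ DJ K E) : y * x = x * y := by
  induction hy using DJ_induction with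
  | h0 => simp
  | hadd a b _ _ ha hb => simp [mul_add, add_mul, ha, hb]
  | hm g c hg => rw [mul_smul_comm, smul_mul_assoc, mo_comm_DJ h hg hx]

theorem GJ_disj {J E : Finset ℕ} (h : Disjoint J E) {g : G} (hg : g ∈ GJ J) (hz : g ∈ GJ E) :
    g = 0 := by
  ext i
  by_cases ha : i.a ∈ J
  · exact hz _ (Finset.disjoint_left.1 h ha)
  · exact hg _ ha

theorem GJ_split {J E : Finset ℕ} {g : G} (hg : g ∈ GJ (J ∪ E)) :
    ∃ z ∈ GJ E, ∃ k ∈ GJ J, g = z + k := by
  classical
  refine ⟨g.filter (fun i => i.a ∉ J), ?_, g.filter (fun i => i.a ∈ J), ?_, ?_⟩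
  · intro i hi
    rw [DFinsupp.filter_apply]
    split_ifs with h
    · rfl
    · exact hg i (by simp [h, hi])
  · intro i hi
    rw [DFinsupp.filter_apply, if_neg hi]
  · ext i
    simp only [DFinsupp.add_apply, DFinsupp.filter_apply]
    split_ifs <;> simp

open Classical in
/-- projection to `DJ J` -/
noncomputable def prJ (J : Finset ℕ) : Tw K →ₗ[K] Tw K where
  toFun x := (co K).symm ((co K x).filter (fun g => g ∈ GJ J))
  map_add' x y := by simp [Finsupp.filter_add]
  map_smul' c x := by simp [Finsupp.filter_smul]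

open Classical in
theorem co_prJ (J : Finset ℕ) (x : Tw K) (g : G) :
    co K (prJ J x) g = if g ∈ GJ J then co K x g else 0 := by
  simp [prJ, Finsupp.filter_apply]

theorem prJ_mem (J : Finset ℕ) (x : Tw K) : prJ J x ∈ DJ K J := by
  intro g hg; rw [co_prJ, if_neg hg]

theorem prJ_of_mem {J : Finset ℕ} {x : Tw K} (hx : x ∈ DJ K J) : prJ J x = x := by
  apply Tw.ext'
  intro g
  rw [co_prJ]; split_ifs with h
  · rfl
  · exact (hx g h).symm

theorem tr_prJ (J : Finset ℕ) (x : Tw K) : tr (prJ J x) = tr x := by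
  rw [tr_apply, co_prJ, if_pos (zero_mem _), tr_apply]

theorem prJ_mo_mul {J : Finset ℕ} {z : G} (hz : z ∉ GJ J) {x : Tw K} (hx : x ∈ DJ K J) :
    prJ J (mo z * x) = 0 := by
  apply Tw.ext'
  intro g
  rw [co_prJ]; split_ifs with h
  · have := co_mo_mul z (g - z) x
    rw [add_sub_cancel] at this
    rw [this, hx (g - z) (fun h' => hz (by simpa using sub_mem h h'))]; simp
  · simp

theorem prJ_mul_left {J : Finset ℕ} {d : Tw K} (hd : d ∈ DJ K J) (x : Tw K) :
    prJ J (d * x) = d * prJ J x := by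
  induction x using Tw.induction with
  | h0 => simp
  | hadd a b ha hb => simp [mul_add, ha, hb]
  | hm g c =>
    rw [mul_smul_comm, map_smul, map_smul, mul_smul_comm]
    congr 1
    by_cases hg : g ∈ GJ J
    · rw [prJ_of_mem (mo_mem_DJ hg), prJ_of_mem (mul_mem hd (mo_mem_DJ hg))]
    · have h1 : prJ J (mo g : Tw K) = 0 := by
        have := prJ_mo_mul (K := K) hg (one_mem _); rwa [mul_one] at this
      rw [h1, mul_zero]
      induction hd using DJ_induction with
      | h0 => simp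
      | hadd a b _ _ ha hb => simp [add_mul, ha, hb]
      | hm k e hk =>
        rw [smul_mul_assoc, mo_comm, map_smul, map_smul, prJ_mo_mul hg (mo_mem_DJ hk)]; simp

theorem tr_mo_mul_of_disj {J E : Finset ℕ} (h : Disjoint J E) {z : G} (hz : z ∈ GJ E)
    {x : Tw K} (hx : x ∈ DJ K J) : tr (mo z * x) = if z = 0 then tr x else 0 := by
  split_ifs with h0
  · rw [h0, mo_zero, one_mul]
  · rw [← tr_prJ J, prJ_mo_mul (fun h' => h0 (GJ_disj h h' hz)) hx, map_zero]

theorem tr_mul_of_disj {J E : Finset ℕ} (h : Disjoint J E) {x y : Tw K}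
    (hx : x ∈ DJ K J) (hy : y ∈ DJ K E) : tr (y * x) = tr y * tr x := by
  induction hy using DJ_induction with
  | h0 => simp
  | hadd a b _ _ ha hb => simp [add_mul, ha, hb]
  | hm g c hg =>
    rw [smul_mul_assoc, map_smul, map_smul, tr_mo_mul_of_disj h hg hx, tr_mo]
    split_ifs <;> simp

/-- centre of `DJ J` -/
theorem central_DJ {J : Finset ℕ} {x : Tw K} (hx : x ∈ DJ K J)
    (h : ∀ g ∈ GJ J, mo g * x = x * mo g) : x = tr x • (1 : Tw K) := by
  apply Tw.ext'
  intro k
  rw [← mo_zero, map_smul, Finsupp.smul_apply, co_mo_apply]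
  split_ifs with h0
  · rw [← h0, tr_apply]; simp
  · rw [smul_zero]
    by_cases hk : k ∈ GJ J
    swap
    · exact hx k hk
    obtain ⟨i, hi⟩ : ∃ i, k i ≠ 0 := by
      by_contra hne
      push Not at hne
      exact h0 (DFinsupp.ext hne).symm
    have hiJ : i.a ∈ J := by by_contra h'; exact hi (hk i h')
    obtain ⟨g, hg, hB⟩ : ∃ g ∈ GJ J, Bf g k ≠ Bf k g := by
      refine ⟨DFinsupp.single ⟨i.a, !i.b⟩ 1, ?_, ?_⟩
      · intro j hj
        rw [DFinsupp.single_eq_of_ne]
        rintro rfl; exact hj hiJ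
      · rw [Bf_single, Bf_single_right]
        obtain ⟨a, b⟩ := i
        cases b
        · simpa using hi
        · simp only [Bool.not_true, Bool.false_eq_true, ↓reduceIte, mul_one]
          intro h'; exact hi (by simpa using h'.symm)
    have h1 := co_mo_mul g k x
    have h2 := co_mul_mo g k x
    rw [h g hg, add_comm, h2, cc_comm g k] at h1
    have h3 : (eps K g k - 1) * cc K k g * co K x k = 0 := by linear_combination -h1
    rcases mul_eq_zero.1 h3 with h4 | h4
    · rcases mul_eq_zero.1 h4 with h5 | h5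
      · exact absurd ((eps_eq_one_iff g k).1 (sub_eq_zero.1 h5)) hB
      · exact absurd h5 (cc_ne_zero _ _)
    · exact h4

variable [Dom K]

theorem mo_inv (g : G) : (mo g : Tw K)⁻¹ = (cc K g (-g))⁻¹ • mo (-g) := by
  symm
  apply eq_inv_of_mul_eq_one_right
  rw [mul_smul_comm, mo_mul, smul_smul, inv_mul_cancel₀ (cc_ne_zero _ _), add_neg_cancel, one_smul,
    mo_zero]

theorem mo_inv_mem {J : Finset ℕ} {g : G} (h : g ∈ GJ J) : (mo g : Tw K)⁻¹ ∈ DJ K J :=
  inv_mem_of_le le_rfl (mo_mem_DJ h)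

/-- averaging -/
theorem average_DJ {J : Finset ℕ} {x : Tw K} (hx : x ∈ DJ K J) :
    ∑ g : GJ J, mo (g : G) * x * (mo (g : G))⁻¹ = (((NJ J ^ 2 : ℕ) : K) * tr x) • (1 : Tw K) := by
  have hy : ∑ g : GJ J, mo (g : G) * x * (mo (g : G))⁻¹ ∈ DJ K J :=
    Subalgebra.sum_mem _ (fun g _ => mul_mem (mul_mem (mo_mem_DJ g.2) hx) (mo_inv_mem g.2))
  rw [central_DJ hy]
  · congr 1
    rw [map_sum]
    have : ∀ g : GJ J, tr (mo (g : G) * x * (mo (g : G))⁻¹) = tr x := by
      intro g
      rw [tr_comm, ← mul_assoc, inv_mul_cancel₀ (mo_ne_zero _), one_mul]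
    simp only [this, Finset.sum_const, Finset.card_univ, card_GJ, nsmul_eq_mul]
  · intro h hh
    rw [Finset.mul_sum, Finset.sum_mul]
    symm
    rw [← Equiv.sum_comp (Equiv.addLeft (⟨h, hh⟩ : GJ J))]
    apply Finset.sum_congr rfl
    intro k _
    simp only [Equiv.coe_addLeft, AddSubgroup.coe_add]
    have e : (mo (h + k) : Tw K) = (cc K h k)⁻¹ • (mo h * mo k) := by
      rw [mo_mul, smul_smul, inv_mul_cancel₀ (cc_ne_zero _ _), one_smul]
    have e2 : (mo (h + k) : Tw K)⁻¹ = (cc K h k) • ((mo (k : G))⁻¹ * (mo h)⁻¹) := by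
      symm
      apply eq_inv_of_mul_eq_one_right
      rw [e, smul_mul_smul_comm, inv_mul_cancel₀ (cc_ne_zero _ _), one_smul, mul_assoc,
        ← mul_assoc (mo (k : G)), mul_inv_cancel₀ (mo_ne_zero _), one_mul,
        mul_inv_cancel₀ (mo_ne_zero _)]
    rw [e2, e]
    simp only [smul_mul_assoc, mul_smul_comm, smul_smul, mul_assoc]
    rw [mul_inv_cancel₀ (cc_ne_zero _ _), one_smul, inv_mul_cancel₀ (mo_ne_zero _), mul_one]

/-! ### graded modules -/

section asm
variable {M : Type} [AddCommGroup M] [Module K M] [Module (Tw K) M] [IsScalarTower K (Tw K) M]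

theorem mo_smul_comm (x : Tw K) (c : K) (y : M) : x • c • y = c • x • y := by
  rw [← algebraMap_smul (Tw K) c y, ← mul_smul, ← Algebra.commutes, mul_smul, algebraMap_smul]

noncomputable def asm (E : Finset ℕ) : (GJ E → M) →ₗ[K] M where
  toFun f := ∑ z : GJ E, (mo (z : G) : Tw K) • f z
  map_add' f g := by simp [Finset.sum_add_distrib]
  map_smul' c f := by simp [Finset.smul_sum, mo_smul_comm]

theorem asm_apply (E : Finset ℕ) (f : GJ E → M) :
    asm (K := K) E f = ∑ z : GJ E, (mo (z : G) : Tw K) • f z := rfl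

noncomputable def Tens (E : Finset ℕ) (W : Submodule K M) : Submodule K M :=
  (Submodule.pi Set.univ (fun _ : GJ E => W)).map (asm E)

theorem mem_Tens {E : Finset ℕ} {W : Submodule K M} {x : M} :
    x ∈ Tens E W ↔ ∃ f : GJ E → M, (∀ z, f z ∈ W) ∧ ∑ z : GJ E, (mo (z : G) : Tw K) • f z = x := by
  simp [Tens, Submodule.mem_map, Submodule.mem_pi, asm_apply]

theorem smul_mem_Tens {E : Finset ℕ} {W : Submodule K M} {z : G} (hz : z ∈ GJ E) {x : M}
    (hx : x ∈ W) : (mo z : Tw K) • x ∈ Tens E W := by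
  classical
  rw [mem_Tens]
  refine ⟨Pi.single ⟨z, hz⟩ x, ?_, ?_⟩
  · intro z'
    by_cases h : z' = ⟨z, hz⟩
    · rw [h]; simpa
    · rw [Pi.single_eq_of_ne h]; exact zero_mem _
  · rw [Finset.sum_eq_single ⟨z, hz⟩]
    · simp
    · intro b _ hb; rw [Pi.single_eq_of_ne hb, smul_zero]
    · simp

theorem le_Tens (E : Finset ℕ) (W : Submodule K M) : W ≤ Tens E W := by
  intro x hx
  have := smul_mem_Tens (E := E) (zero_mem _) hx
  rwa [mo_zero, one_smul] at this

theorem Tens_le_iff {E : Finset ℕ} {W U : Submodule K M} :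
    Tens E W ≤ U ↔ ∀ z ∈ GJ E, ∀ x ∈ W, (mo z : Tw K) • x ∈ U := by
  constructor
  · intro h z hz x hx; exact h (smul_mem_Tens hz hx)
  · intro h x hx
    obtain ⟨f, hf, rfl⟩ := mem_Tens.1 hx
    exact Submodule.sum_mem _ (fun z _ => h z z.2 _ (hf z))

@[elab_as_elim]
theorem Tens_induction {E : Finset ℕ} {W : Submodule K M} {P : (x : M) → x ∈ Tens E W → Prop}
    (h0 : P 0 (zero_mem _))
    (hadd : ∀ a b ha hb, P a ha → P b hb → P (a + b) (add_mem ha hb))
    (hm : ∀ z (hz : z ∈ GJ E), ∀ w (hw : w ∈ W), P ((mo z : Tw K) • w) (smul_mem_Tens hz hw))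
    {x : M} (hx : x ∈ Tens E W) : P x hx := by
  have : ∃ h, P x h := by
    obtain ⟨f, hf, rfl⟩ := mem_Tens.1 hx
    exact Finset.sum_induction _ (fun y => ∃ h, P y h)
      (fun a b ⟨ha, ha'⟩ ⟨hb, hb'⟩ => ⟨_, hadd a b ha hb ha' hb'⟩) ⟨_, h0⟩
      (fun g _ => ⟨_, hm g g.2 _ (hf g)⟩)
  exact this.2

theorem Tens_mono {E E' : Finset ℕ} (hE : E ⊆ E') {W W' : Submodule K M} (h : W ≤ W') :
    Tens E W ≤ Tens E' W' :=
  Tens_le_iff.2 (fun _ hz _ hx => smul_mem_Tens (GJ_mono hE hz) (h hx))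

theorem Tens_Tens_le {E E' E'' : Finset ℕ} (h1 : E ⊆ E'') (h2 : E' ⊆ E'') (W : Submodule K M) :
    Tens E' (Tens E W) ≤ Tens E'' W := by
  rw [Tens_le_iff]
  intro z hz x hx
  induction hx using Tens_induction with
  | h0 => simp
  | hadd a b _ _ ha hb => rw [smul_add]; exact add_mem ha hb
  | hm z' hz' w hw =>
    rw [← mul_smul, mo_mul, smul_assoc]
    exact Submodule.smul_mem _ _ (smul_mem_Tens (add_mem (GJ_mono h2 hz) (GJ_mono h1 hz')) hw)

theorem Tens_le_Tens_Tens {E E' E'' : Finset ℕ} (h : E'' ⊆ E ∪ E') (W : Submodule K M) :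
    Tens E'' W ≤ Tens E' (Tens E W) := by
  rw [Tens_le_iff]
  intro z hz x hx
  obtain ⟨z', hz', k, hk, rfl⟩ := GJ_split (GJ_mono h hz)
  have e : (mo (z' + k) : Tw K) = (cc K z' k)⁻¹ • (mo z' * mo k) := by
    rw [mo_mul, smul_smul, inv_mul_cancel₀ (cc_ne_zero _ _), one_smul]
  rw [e, smul_assoc, mul_smul]
  exact Submodule.smul_mem _ _ (smul_mem_Tens hz' (smul_mem_Tens hk hx))

theorem Tens_empty (W : Submodule K M) : Tens ∅ W = W := by
  apply le_antisymm _ (le_Tens _ _)
  rw [Tens_le_iff]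
  intro z hz x hx
  have : z = 0 := GJ_disj (J := ∅) (E := ∅) (by simp) hz hz
  rw [this, mo_zero, one_smul]; exact hx

theorem Tens_sup (E : Finset ℕ) (W W' : Submodule K M) :
    Tens E (W ⊔ W') = Tens E W ⊔ Tens E W' := by
  apply le_antisymm
  · rw [Tens_le_iff]
    intro z hz x hx
    obtain ⟨a, ha, b, hb, rfl⟩ := Submodule.mem_sup.1 hx
    rw [smul_add]
    exact Submodule.add_mem_sup (smul_mem_Tens hz ha) (smul_mem_Tens hz hb)
  · exact sup_le (Tens_mono subset_rfl le_sup_left) (Tens_mono subset_rfl le_sup_right)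

noncomputable def piEquiv (ι : Type) (W : Submodule K M) :
    (Submodule.pi Set.univ (fun _ : ι => W)) ≃ₗ[K] (ι → W) where
  toFun f := fun z => ⟨f.1 z, f.2 z (Set.mem_univ _)⟩
  invFun f := ⟨fun z => f z, fun z _ => (f z).2⟩
  map_add' _ _ := rfl
  map_smul' _ _ := rfl
  left_inv _ := rfl
  right_inv _ := rfl

instance (E : Finset ℕ) (W : Submodule K M) [FiniteDimensional K W] :
    FiniteDimensional K (Submodule.pi Set.univ (fun _ : GJ E => W)) :=
  (piEquiv (GJ E) W).symm.finiteDimensional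

instance (E : Finset ℕ) (W : Submodule K M) [FiniteDimensional K W] :
    FiniteDimensional K (Tens E W) := by
  unfold Tens; infer_instance

theorem finrank_pi_univ (E : Finset ℕ) (W : Submodule K M) [FiniteDimensional K W] :
    finrank K (Submodule.pi Set.univ (fun _ : GJ E => W)) = NJ E ^ 2 * finrank K W := by
  rw [(piEquiv (GJ E) W).finrank_eq, Module.finrank_pi_fintype]
  simp [card_GJ]

theorem finrank_Tens_le (E : Finset ℕ) (W : Submodule K M) [FiniteDimensional K W] :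
    finrank K (Tens E W) ≤ NJ E ^ 2 * finrank K W := by
  rw [← finrank_pi_univ]; exact Submodule.finrank_map_le _ _

end asm

variable (K) in
/-- modules with components -/
class GrM (M : Type) [AddCommGroup M] [Module K M] [Module (Tw K) M] where
  base' : Finset ℕ → Submodule K M
  cmp' : Finset ℕ → G → M →ₗ[K] M
  cmp_mem' : ∀ J z x, cmp' J z x ∈ base' J
  cmp_smul' : ∀ {J E}, Disjoint J E → ∀ {z z'}, z ∈ GJ E → z' ∈ GJ E → ∀ {x}, x ∈ base' J →
    cmp' J z ((mo z' : Tw K) • x) = if z = z' then x else 0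
  asm_cmp' : ∀ {J E}, Disjoint J E → ∀ {x}, x ∈ base' (J ∪ E) →
    ∑ z : GJ E, (mo (z : G) : Tw K) • cmp' J z x = x
  smul_mem' : ∀ {J d x}, d ∈ DJ K J → x ∈ base' J → d • x ∈ base' J
  base_mono' : ∀ {J J'}, J ⊆ J' → base' J ≤ base' J'

section gr0
variable {M : Type} [AddCommGroup M] [Module K M] [Module (Tw K) M] [GrM K M]

variable (K M) in
def base (J : Finset ℕ) : Submodule K M := GrM.base' J
variable (K) in
def cmp (J : Finset ℕ) (z : G) : M →ₗ[K] M := GrM.cmp' J z

theorem cmp_mem (J : Finset ℕ) (z : G) (x : M) : cmp K J z x ∈ base K M J := GrM.cmp_mem' J z x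
theorem cmp_smul {J E : Finset ℕ} (h : Disjoint J E) {z z' : G} (hz : z ∈ GJ E) (hz' : z' ∈ GJ E)
    {x : M} (hx : x ∈ base K M J) :
    cmp K J z ((mo z' : Tw K) • x) = if z = z' then x else 0 := GrM.cmp_smul' h hz hz' hx
theorem asm_cmp {J E : Finset ℕ} (h : Disjoint J E) {x : M} (hx : x ∈ base K M (J ∪ E)) :
    ∑ z : GJ E, (mo (z : G) : Tw K) • cmp K J z x = x := GrM.asm_cmp' h hx
theorem base_smul_mem {J : Finset ℕ} {d : Tw K} {x : M} (hd : d ∈ DJ K J) (hx : x ∈ base K M J) :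
    d • x ∈ base K M J := GrM.smul_mem' hd hx
theorem base_mono {J J' : Finset ℕ} (h : J ⊆ J') : base K M J ≤ base K M J' := GrM.base_mono' h
end gr0

noncomputable def cmpT (J : Finset ℕ) (z : G) : Tw K →ₗ[K] Tw K :=
  prJ J ∘ₗ LinearMap.mulLeft K (mo z)⁻¹

theorem cmpT_apply (J : Finset ℕ) (z : G) (x : Tw K) : cmpT J z x = prJ J ((mo z)⁻¹ * x) := rfl

theorem cmpT_smul {J E : Finset ℕ} (h : Disjoint J E) {z z' : G} (hz : z ∈ GJ E) (hz' : z' ∈ GJ E)
    {x : Tw K} (hx : x ∈ DJ K J) : cmpT J z (mo z' * x) = if z = z' then x else 0 := by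
  rw [cmpT_apply, ← mul_assoc]
  split_ifs with e
  · rw [e, inv_mul_cancel₀ (mo_ne_zero _), one_mul, prJ_of_mem hx]
  · rw [mo_inv, smul_mul_assoc, mo_mul, smul_mul_assoc, smul_mul_assoc, map_smul, map_smul,
      prJ_mo_mul _ hx]
    · simp
    · intro h'
      apply e
      have := GJ_disj h h' (add_mem (neg_mem hz) hz')
      rwa [neg_add_eq_zero] at this

noncomputable instance : GrM K (Tw K) where
  base' J := Subalgebra.toSubmodule (DJ K J)
  cmp' := cmpT
  cmp_mem' J z x := prJ_mem J _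
  cmp_smul' h _ _ hz hz' _ hx := cmpT_smul h hz hz' hx
  asm_cmp' := by
    intro J E h x hx
    have hx' : x ∈ DJ K (J ∪ E) := hx
    induction hx' using DJ_induction with
    | h0 => simp
    | hadd a b ha' hb' ha hb =>
      simp only [map_add, smul_add, Finset.sum_add_distrib, ha ha', hb hb']
    | hm g c hg =>
      obtain ⟨z, hz, k, hk, rfl⟩ := GJ_split hg
      have e : c • (mo (z + k) : Tw K) = mo z * ((c * (cc K z k)⁻¹) • mo k) := by
        rw [mul_smul_comm, mo_mul, smul_smul, mul_assoc, inv_mul_cancel₀ (cc_ne_zero _ _), mul_one]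
      rw [e, Finset.sum_eq_single ⟨z, hz⟩]
      · rw [cmpT_smul h hz hz (Subalgebra.smul_mem _ (mo_mem_DJ hk) _)]; simp
      · intro b _ hb
        rw [cmpT_smul h b.2 hz (Subalgebra.smul_mem _ (mo_mem_DJ hk) _), if_neg, smul_zero]
        intro h'; exact hb (Subtype.ext h')
      · simp
  smul_mem' hd hx := (DJ K _).mul_mem hd hx
  base_mono' h := DJ_mono h

theorem base_Tw (J : Finset ℕ) : base K (Tw K) J =
    Subalgebra.toSubmodule (DJ K J) := rfl

theorem cmp_Tw (J : Finset ℕ) (z : G) (x : Tw K) : cmp K J z x = cmpT J z x := rfl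

/-- pairs -/
abbrev Vec (K : Type) [Field K] := Fin 2 → Tw K
/-- families -/
abbrev Fam (K : Type) [Field K] := ℕ →₀ Tw K

noncomputable instance : GrM K (Vec K) where
  base' J := Submodule.pi Set.univ (fun _ => Subalgebra.toSubmodule (DJ K J))
  cmp' J z := LinearMap.pi (fun j => cmpT J z ∘ₗ LinearMap.proj j)
  cmp_mem' J z x := fun j _ => prJ_mem J _
  cmp_smul' := by
    intro J E h z z' hz hz' x hx
    ext j
    have := cmpT_smul h hz hz' (hx j (Set.mem_univ _))
    simp only [LinearMap.pi_apply, LinearMap.coe_comp, LinearMap.coe_proj, Function.comp_apply,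
      Function.eval, Pi.smul_apply, smul_eq_mul, this]
    split_ifs <;> rfl
  asm_cmp' := by
    intro J E h x hx
    ext j
    rw [Finset.sum_apply]
    exact asm_cmp (M := Tw K) h (hx j (Set.mem_univ _))
  smul_mem' hd hx := fun j _ => (DJ K _).mul_mem hd (hx j (Set.mem_univ _))
  base_mono' h _ hx := fun j _ => DJ_mono h (hx j (Set.mem_univ _))

theorem mem_base_Vec {J : Finset ℕ} {x : Vec K} :
    x ∈ base K (Vec K) J ↔ ∀ j, x j ∈ DJ K J :=
  ⟨fun h j => h j (Set.mem_univ _), fun h j _ => h j⟩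

theorem cmp_Vec (J : Finset ℕ) (z : G) (x : Vec K) (j : Fin 2) :
    cmp K J z x j = cmpT J z (x j) := rfl

instance (J : Finset ℕ) : FiniteDimensional K (base K (Vec K) J) :=
  (piEquiv (Fin 2) (Subalgebra.toSubmodule (DJ K J))).symm.finiteDimensional

theorem finrank_base_Vec (J : Finset ℕ) :
    finrank K (base K (Vec K) J) = 2 * NJ J ^ 2 := by
  have := (piEquiv (Fin 2) (Subalgebra.toSubmodule (DJ K J))).finrank_eq
  rw [Module.finrank_pi_fintype] at this
  refine this.trans ?_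
  rw [Finset.sum_const, finrank_DJ]; simp

noncomputable instance : GrM K (Fam K) where
  base' J :=
    { carrier := {b | ∀ i, b i ∈ DJ K J}
      add_mem' := fun ha hb i => add_mem (ha i) (hb i)
      zero_mem' := fun i => zero_mem _
      smul_mem' := fun c _ hx i => Subalgebra.smul_mem _ (hx i) c }
  cmp' J z := Finsupp.mapRange.linearMap (cmpT J z)
  cmp_mem' J z x := fun j => prJ_mem J _
  cmp_smul' := by
    intro J E h z z' hz hz' x hx
    ext j
    have := cmpT_smul h hz hz' (hx j)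
    simp only [Finsupp.mapRange.linearMap_apply, Finsupp.mapRange_apply, Finsupp.smul_apply,
      smul_eq_mul, this]
    split_ifs <;> rfl
  asm_cmp' := by
    intro J E h x hx
    ext j
    rw [Finsupp.finsetSum_apply]
    exact asm_cmp (M := Tw K) h (hx j)
  smul_mem' hd hx := fun j => mul_mem hd (hx j)
  base_mono' h _ hx := fun j => DJ_mono h (hx j)

theorem mem_base_Fam {J : Finset ℕ} {x : Fam K} :
    x ∈ base K (Fam K) J ↔ ∀ j, x j ∈ DJ K J := Iff.rfl

theorem cmp_Fam (J : Finset ℕ) (z : G) (x : Fam K) (j : ℕ) :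
    cmp K J z x j = cmpT J z (x j) := rfl

section gr
variable {M : Type} [AddCommGroup M] [Module K M] [Module (Tw K) M] [IsScalarTower K (Tw K) M]
  [GrM K M]

theorem cmp_sum {J E : Finset ℕ} (h : Disjoint J E) {f : GJ E → M}
    (hf : ∀ z, f z ∈ base K M J) (z : GJ E) :
    cmp K J z (∑ z : GJ E, (mo (z : G) : Tw K) • f z) = f z := by
  rw [map_sum, Finset.sum_eq_single z]
  · rw [cmp_smul h z.2 z.2 (hf z), if_pos rfl]
  · intro b _ hb
    rw [cmp_smul h z.2 b.2 (hf b), if_neg]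
    intro h'; exact hb (Subtype.ext h').symm
  · simp

theorem cmp_mem_of_Tens {J E : Finset ℕ} (h : Disjoint J E) {W : Submodule K M}
    (hW : W ≤ base K M J) {x : M} (hx : x ∈ Tens E W) {z : G} (hz : z ∈ GJ E) :
    cmp K J z x ∈ W := by
  obtain ⟨f, hf, rfl⟩ := mem_Tens.1 hx
  have := cmp_sum h (fun z => hW (hf z)) ⟨z, hz⟩
  simp only at this
  rw [this]; exact hf _

theorem mem_Tens_of_cmp {J E : Finset ℕ} (h : Disjoint J E) {W : Submodule K M} {x : M}
    (hx : x ∈ base K M (J ∪ E)) (H : ∀ z ∈ GJ E, cmp K J z x ∈ W) :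
    x ∈ Tens E W :=
  mem_Tens.2 ⟨fun z => cmp K J z x, fun z => H z z.2, asm_cmp h hx⟩

theorem Tens_le_base {J E : Finset ℕ} {W : Submodule K M} (hW : W ≤ base K M J) :
    Tens E W ≤ base K M (J ∪ E) := by
  rw [Tens_le_iff]
  intro z hz x hx
  exact base_smul_mem (mo_mem_DJ (GJ_mono Finset.subset_union_right hz))
    (base_mono Finset.subset_union_left (hW hx))

theorem Tens_base {J E : Finset ℕ} (h : Disjoint J E) :
    Tens E (base K M J) = base K M (J ∪ E) :=
  le_antisymm (Tens_le_base le_rfl) (fun _ hx => mem_Tens_of_cmp h hx (fun z _ => cmp_mem _ _ _))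

theorem eq_zero_of_cmp {J E : Finset ℕ} (h : Disjoint J E) {x : M}
    (hx : x ∈ base K M (J ∪ E)) (H : ∀ z ∈ GJ E, cmp K J z x = 0) :
    x = 0 := by
  rw [← asm_cmp h hx]
  exact Finset.sum_eq_zero (fun z _ => by rw [H z z.2, smul_zero])

theorem finrank_Tens {J E : Finset ℕ} (h : Disjoint J E) (W : Submodule K M)
    [FiniteDimensional K W] (hW : W ≤ base K M J) :
    finrank K (Tens E W) = NJ E ^ 2 * finrank K W := by
  rw [← finrank_pi_univ]
  unfold Tens
  rw [← LinearMap.range_domRestrict]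
  apply LinearMap.finrank_range_of_inj
  rw [← LinearMap.ker_eq_bot, LinearMap.ker_eq_bot']
  intro f hf
  apply Subtype.ext
  ext z
  have := cmp_sum h (fun z => hW (f.2 z (Set.mem_univ _))) z
  have hf' : ∑ z : GJ E, (mo (z : G) : Tw K) • f.1 z = 0 := hf
  rw [hf', map_zero] at this
  exact this.symm

theorem Tens_inf {J E : Finset ℕ} (h : Disjoint J E) {W W' : Submodule K M}
    (hW : W ≤ base K M J) (hW' : W' ≤ base K M J) : Tens E W ⊓ Tens E W' = Tens E (W ⊓ W') := by
  apply le_antisymm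
  · rintro x ⟨h1, h2⟩
    exact mem_Tens_of_cmp h (Tens_le_base hW h1)
      (fun z hz => ⟨cmp_mem_of_Tens h hW h1 hz, cmp_mem_of_Tens h hW' h2 hz⟩)
  · exact le_inf (Tens_mono subset_rfl inf_le_left) (Tens_mono subset_rfl inf_le_right)

theorem cmp_zero_of_mem {J : Finset ℕ} {x : M} (hx : x ∈ base K M J) :
    cmp K J 0 x = x := by
  have := cmp_smul (J := J) (E := ∅) (by simp) (zero_mem _) (zero_mem _) hx
  rwa [mo_zero, one_smul, if_pos rfl] at this

theorem cmp_ne_zero_of_mem {J E : Finset ℕ} (h : Disjoint J E) {x : M}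
    (hx : x ∈ base K M J) {z : G} (hz : z ∈ GJ E) (h0 : z ≠ 0) :
    cmp K J z x = 0 := by
  have := cmp_smul h hz (zero_mem _) hx
  rwa [mo_zero, one_smul, if_neg h0] at this

end gr

theorem cmpT_mul_left {J E : Finset ℕ} (h : Disjoint J E) {z : G} (hz : z ∈ GJ E) {d : Tw K}
    (hd : d ∈ DJ K J) (x : Tw K) : cmpT J z (d * x) = d * cmpT J z x := by
  rw [cmpT_apply, cmpT_apply, ← prJ_mul_left hd, ← mul_assoc, DJ_comm h hd (mo_inv_mem hz),
    mul_assoc]

theorem cmpT_mul_right {J E : Finset ℕ} (h : Disjoint J E) {z : G} (hz : z ∈ GJ E) {d : Tw K}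
    (hd : d ∈ DJ K J) {x : Tw K} (hx : x ∈ DJ K (J ∪ E)) :
    cmpT J z (x * d) = cmpT J z x * d := by
  conv_lhs => rw [← asm_cmp (K := K) (M := Tw K) h (x := x) hx]
  rw [Finset.sum_mul]
  simp only [smul_eq_mul, mul_assoc]
  exact cmp_sum (M := Tw K) h (f := fun z => cmpT J z x * d)
    (fun z => (DJ K J).mul_mem (prJ_mem _ _) hd) ⟨z, hz⟩

theorem tr_mul_cmpT (J : Finset ℕ) (z : G) {d : Tw K} (hd : d ∈ DJ K J) (x : Tw K) :
    tr (d * cmpT J z x) = tr (d * ((mo z)⁻¹ * x)) := by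
  rw [cmpT_apply, ← prJ_mul_left hd, tr_prJ]

end Crest.Agent.R180
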