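import Crest.Agent.R180.Cocycle

set_option autoImplicit false

namespace Crest.Agent.R180

open Module

/-- twisted group algebra of `G` over `K` -/
def Tw (K : Type) [Field K] : Type := G →₀ K

section
variable (K : Type) [Field K]
noncomputable instance : AddCommGroup (Tw K) := inferInstanceAs (AddCommGroup (G →₀ K))
noncomputable instance : Module K (Tw K) := inferInstanceAs (Module K (G →₀ K))
/-- coordinates -/
noncomputable def co : Tw K ≃ₗ[K] (G →₀ K) := LinearEquiv.refl K (G →₀ K)
end

variable {K : Type} [Field K]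

/-- monomial basis element -/
noncomputable def mo (g : G) : Tw K := (co K).symm (Finsupp.single g 1)

theorem co_mo (g : G) : co K (mo g) = Finsupp.single g 1 := rfl

theorem co_mo_apply (g h : G) : co K (mo g) h = if g = h then 1 else 0 := by
  rw [co_mo, Finsupp.single_apply]

theorem Tw.ext' {x y : Tw K} (h : ∀ g, co K x g = co K y g) : x = y :=
  (co K).injective (Finsupp.ext h)

theorem Tw.eq_sum (x : Tw K) : x = ∑ g ∈ (co K x).support, co K x g • mo g := by
  apply (co K).injective
  rw [map_sum]
  conv_lhs => rw [← Finsupp.sum_single (co K x)]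
  rw [Finsupp.sum]
  apply Finset.sum_congr rfl
  intro g _
  rw [map_smul, co_mo, Finsupp.smul_single, smul_eq_mul, mul_one]

@[elab_as_elim]
theorem Tw.induction {P : Tw K → Prop} (x : Tw K) (h0 : P 0)
    (hadd : ∀ a b, P a → P b → P (a + b)) (hm : ∀ (g : G) (c : K), P (c • mo g)) : P x := by
  rw [Tw.eq_sum x]
  exact Finset.sum_induction _ P hadd h0 (fun g _ => hm g _)

theorem Tw.lhom_ext {M : Type*} [AddCommGroup M] [Module K M] {f g : Tw K →ₗ[K] M}
    (h : ∀ a, f (mo a) = g (mo a)) : f = g := by
  ext x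
  induction x using Tw.induction with
  | h0 => simp
  | hadd a b ha hb => simp [ha, hb]
  | hm g c => simp [h]

variable [Algebra Z0 K]

variable (K) in
noncomputable def cc (g h : G) : K := algebraMap Z0 K (c0 g h)

variable (K) in
noncomputable def eps (g h : G) : K := algebraMap Z0 K (eps0 g h)

theorem cc_ne_zero (g h : G) : cc K g h ≠ 0 := by
  unfold cc
  exact (map_ne_zero _).2 (c0_ne_zero g h)

theorem cc_comm (g h : G) : cc K g h = eps K g h * cc K h g := by
  unfold cc eps; rw [c0_comm, map_mul]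

theorem eps_ne_zero (g h : G) : eps K g h ≠ 0 := by
  intro H
  apply cc_ne_zero (K := K) g h
  rw [cc_comm, H, zero_mul]

theorem eps_eq_one_iff (g h : G) : eps K g h = 1 ↔ Bf g h = Bf h g := by
  rw [← eps0_eq_one_iff]
  unfold eps
  constructor
  · intro H
    apply (algebraMap Z0 K).injective
    rw [H, map_one]
  · intro H; rw [H, map_one]

theorem eps_pow (g h : G) (n : ℕ) (hn : n • g = 0) : eps K g h ^ n = 1 := by
  unfold eps; rw [← map_pow, eps0_pow g h n hn, map_one]

variable (K) in
noncomputable def mulL : Tw K →ₗ[K] Tw K →ₗ[K] Tw K :=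
  (Finsupp.linearCombination K (fun g : G =>
    (Finsupp.linearCombination K (fun h : G => cc K g h • (mo (g + h) : Tw K))) ∘ₗ
      (co K).toLinearMap)) ∘ₗ (co K).toLinearMap

theorem mulL_mo (g h : G) : mulL K (mo g) (mo h) = cc K g h • mo (g + h) := by
  simp [mulL, co_mo]

noncomputable instance : Ring (Tw K) :=
  { (inferInstance : AddCommGroup (Tw K)) with
    mul := fun x y => mulL K x y
    one := mo 0
    left_distrib := fun a b c => map_add (mulL K a) b c
    right_distrib := fun a b c => by
      show mulL K (a + b) c = mulL K a c + mulL K b c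
      rw [map_add]; rfl
    zero_mul := fun a => by
      show mulL K 0 a = 0
      rw [map_zero]; rfl
    mul_zero := fun a => map_zero (mulL K a)
    mul_assoc := fun a b c => by
      show mulL K (mulL K a b) c = mulL K a (mulL K b c)
      induction a using Tw.induction with
      | h0 => simp
      | hadd a a' ha ha' => simp [ha, ha']
      | hm g r =>
        induction b using Tw.induction with
        | h0 => simp
        | hadd b b' hb hb' => simp only [map_add, LinearMap.add_apply, hb, hb']
        | hm h s =>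
          induction c using Tw.induction with
          | h0 => simp
          | hadd c c' hc hc' => simp only [map_add, hc, hc']
          | hm k t =>
            simp only [map_smul, LinearMap.smul_apply, mulL_mo, smul_smul, add_assoc]
            congr 1
            have := congrArg (algebraMap Z0 K) (c0_cocycle g h k)
            simp only [map_mul] at this
            unfold cc
            linear_combination (r * s * t) * this
    one_mul := fun a => by
      show mulL K (mo 0) a = a
      induction a using Tw.induction with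
      | h0 => simp
      | hadd a a' ha ha' => simp [ha, ha']
      | hm g r => simp [mulL_mo, cc, c0_zero_left]
    mul_one := fun a => by
      show mulL K a (mo 0) = a
      induction a using Tw.induction with
      | h0 => simp
      | hadd a a' ha ha' => simp [ha, ha']
      | hm g r => simp [mulL_mo, cc, c0_zero_right] }

theorem Tw.mul_def (x y : Tw K) : x * y = mulL K x y := rfl

noncomputable instance : Algebra K (Tw K) :=
  Algebra.ofModule
    (fun r x y => by simp only [Tw.mul_def, map_smul, LinearMap.smul_apply])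
    (fun r x y => by simp only [Tw.mul_def, map_smul])

theorem mo_zero : (mo 0 : Tw K) = 1 := rfl

theorem mo_mul (g h : G) : (mo g * mo h : Tw K) = cc K g h • mo (g + h) := mulL_mo g h

attribute [irreducible] mulL

theorem mo_comm (g h : G) : (mo g * mo h : Tw K) = eps K g h • (mo h * mo g) := by
  rw [mo_mul, mo_mul, smul_smul, ← cc_comm, add_comm]

theorem co_mo_mul (g h : G) (x : Tw K) : co K (mo g * x) (g + h) = cc K g h * co K x h := by
  induction x using Tw.induction with
  | h0 => simp
  | hadd a b ha hb => simp [mul_add, ha, hb]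
  | hm k c =>
    rw [mul_smul_comm, mo_mul]
    simp only [map_smul, Finsupp.smul_apply, co_mo_apply, smul_eq_mul, add_right_inj]
    split_ifs with H
    · subst H; ring
    · ring

theorem co_mul_mo (g h : G) (x : Tw K) : co K (x * mo g) (h + g) = cc K h g * co K x h := by
  induction x using Tw.induction with
  | h0 => simp
  | hadd a b ha hb => simp [add_mul, mul_add, ha, hb]
  | hm k c =>
    rw [smul_mul_assoc, mo_mul]
    simp only [map_smul, Finsupp.smul_apply, co_mo_apply, smul_eq_mul, add_left_inj]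
    split_ifs with H
    · subst H; ring
    · ring

theorem co_mul (x y : Tw K) (k : G) :
    co K (x * y) k = ∑ g ∈ (co K x).support, co K x g * (cc K g (k - g) * co K y (k - g)) := by
  conv_lhs => rw [Tw.eq_sum x]
  rw [Finset.sum_mul, map_sum, Finsupp.finsetSum_apply]
  apply Finset.sum_congr rfl
  intro g _
  rw [smul_mul_assoc, map_smul, Finsupp.smul_apply, smul_eq_mul]
  congr 1
  have := co_mo_mul g (k - g) y
  rwa [add_sub_cancel] at this

instance : Nontrivial (Tw K) := ⟨⟨0, mo 0, by
  intro h
  have := congrArg (fun x => co K x 0) h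
  simp [co_mo_apply] at this⟩⟩

theorem mo_ne_zero (g : G) : (mo g : Tw K) ≠ 0 := by
  intro h
  have := congrArg (fun x => co K x g) h
  simp [co_mo_apply] at this

/-- the trace -/
noncomputable def tr : Tw K →ₗ[K] K := (Finsupp.lapply 0) ∘ₗ (co K).toLinearMap

theorem tr_apply (x : Tw K) : tr x = co K x 0 := rfl

theorem tr_one : tr (1 : Tw K) = 1 := by
  rw [tr_apply, ← mo_zero, co_mo_apply]; simp

theorem tr_mo (g : G) : tr (mo g : Tw K) = if g = 0 then 1 else 0 := by
  rw [tr_apply, co_mo_apply]; split_ifs <;> rfl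

theorem tr_comm (x y : Tw K) : tr (x * y) = tr (y * x) := by
  induction x using Tw.induction with
  | h0 => simp
  | hadd a b ha hb => simp [add_mul, mul_add, ha, hb]
  | hm g c =>
    rw [smul_mul_assoc, mul_smul_comm, map_smul, map_smul]
    congr 1
    have h1 := co_mo_mul g (-g) y
    have h2 := co_mul_mo g (-g) y
    rw [add_neg_cancel] at h1
    rw [neg_add_cancel] at h2
    rw [tr_apply, tr_apply, h1, h2, cc_comm]
    have : eps K g (-g) = 1 := by rw [eps_eq_one_iff]; simp
    rw [this, one_mul]

theorem tr_algebraMap (c : K) : tr (algebraMap K (Tw K) c) = c := by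
  rw [Algebra.algebraMap_eq_smul_one, map_smul, tr_one, smul_eq_mul, mul_one]

/-- subgroup of elements supported on `J` -/
def GJ (J : Finset ℕ) : AddSubgroup G where
  carrier := {g | ∀ i : Ix, i.a ∉ J → g i = 0}
  zero_mem' := fun _ _ => rfl
  add_mem' := by intro a b ha hb i hi; simp [ha i hi, hb i hi]
  neg_mem' := by intro a ha i hi; simp [ha i hi]

theorem mem_GJ {J : Finset ℕ} {g : G} : g ∈ GJ J ↔ ∀ i : Ix, i.a ∉ J → g i = 0 := Iff.rfl

theorem GJ_mono {J J' : Finset ℕ} (h : J ⊆ J') : GJ J ≤ GJ J' :=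
  fun _ hg i hi => hg i (fun h' => hi (h h'))

theorem exists_GJ (g : G) : ∃ J, g ∈ GJ J := by
  classical
  refine ⟨g.support.image Ix.a, fun i hi => ?_⟩
  by_contra h
  exact hi (Finset.mem_image_of_mem _ (DFinsupp.mem_support_iff.2 h))

noncomputable def GJequiv (J : Finset ℕ) :
    GJ J ≃ (∀ a : J, ZMod (ell a) × ZMod (ell a)) where
  toFun g := fun a => (g.1 ⟨a, false⟩, g.1 ⟨a, true⟩)
  invFun f := ⟨DFinsupp.mk ((J ×ˢ (Finset.univ : Finset Bool)).image (fun p => ⟨p.1, p.2⟩))
      (fun i => if h : i.1.a ∈ J then (if i.1.b then (f ⟨i.1.a, h⟩).2 else (f ⟨i.1.a, h⟩).1) else 0),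
    by
      intro i hi
      rw [DFinsupp.mk_apply]
      split_ifs <;> simp_all⟩
  left_inv g := by
    apply Subtype.ext
    ext ⟨a, b⟩
    rw [DFinsupp.mk_apply]
    by_cases ha : a ∈ J
    · rw [dif_pos (by simp [ha]), dif_pos ha]
      cases b <;> simp
    · rw [dif_neg (by simp [ha])]
      exact (g.2 ⟨a, b⟩ ha).symm
  right_inv f := by
    ext ⟨a, ha⟩
    · simp only
      rw [DFinsupp.mk_apply, dif_pos (by simp [ha]), dif_pos ha]; simp
    · simp only
      rw [DFinsupp.mk_apply, dif_pos (by simp [ha]), dif_pos ha]; simp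

noncomputable instance (J : Finset ℕ) : Fintype (GJ J) := Fintype.ofEquiv _ (GJequiv J).symm

def NJ (J : Finset ℕ) : ℕ := ∏ a ∈ J, ell a

theorem NJ_pos (J : Finset ℕ) : 0 < NJ J :=
  Finset.prod_pos (fun a _ => Nat.pos_of_ne_zero (NeZero.ne _))

theorem card_GJ (J : Finset ℕ) : Fintype.card (GJ J) = NJ J ^ 2 := by
  rw [Fintype.card_congr (GJequiv J), Fintype.card_pi]
  simp only [Fintype.card_prod, ZMod.card]
  rw [Finset.prod_coe_sort J (fun a => ell a * ell a), Finset.prod_mul_distrib, NJ, sq]

theorem NJ_sdiff {J J' : Finset ℕ} (h : J ⊆ J') : NJ J' = NJ J * NJ (J' \ J) := by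
  unfold NJ; rw [mul_comm, Finset.prod_sdiff h]

variable (K) in
/-- the finite-dimensional subalgebra -/
noncomputable def DJ (J : Finset ℕ) : Subalgebra K (Tw K) where
  carrier := {x | ∀ g, g ∉ GJ J → co K x g = 0}
  mul_mem' := by
    intro x y hx hy k hk
    rw [co_mul]
    apply Finset.sum_eq_zero
    intro g hg
    have hg' : g ∈ GJ J := by
      by_contra h; exact (Finsupp.mem_support_iff.1 hg) (hx g h)
    rw [hy (k - g) (fun h => hk (by simpa using add_mem h hg'))]; simp
  add_mem' := by intro x y hx hy k hk; simp [hx k hk, hy k hk]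
  algebraMap_mem' := by
    intro c k hk
    rw [Algebra.algebraMap_eq_smul_one, ← mo_zero, map_smul, Finsupp.smul_apply, co_mo_apply,
      if_neg]
    · simp
    · rintro rfl; exact hk (zero_mem _)

theorem mem_DJ {J : Finset ℕ} {x : Tw K} : x ∈ DJ K J ↔ ∀ g, g ∉ GJ J → co K x g = 0 := Iff.rfl

theorem mo_mem_DJ {J : Finset ℕ} {g : G} (h : g ∈ GJ J) : (mo g : Tw K) ∈ DJ K J := by
  intro k hk
  rw [co_mo_apply, if_neg]
  rintro rfl; exact hk h

theorem DJ_mono {J J' : Finset ℕ} (h : J ⊆ J') : DJ K J ≤ DJ K J' :=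
  fun _ hx g hg => hx g (fun h' => hg (GJ_mono h h'))

theorem exists_DJ (x : Tw K) : ∃ J, x ∈ DJ K J := by
  classical
  induction x using Tw.induction with
  | h0 => exact ⟨∅, zero_mem _⟩
  | hadd a b ha hb =>
    obtain ⟨J, hJ⟩ := ha
    obtain ⟨J', hJ'⟩ := hb
    exact ⟨J ∪ J', add_mem (DJ_mono Finset.subset_union_left hJ)
      (DJ_mono Finset.subset_union_right hJ')⟩
  | hm g c =>
    obtain ⟨J, hJ⟩ := exists_GJ g
    exact ⟨J, Subalgebra.smul_mem _ (mo_mem_DJ hJ) _⟩

theorem DJ_eq_sum {J : Finset ℕ} {x : Tw K} (hx : x ∈ DJ K J) :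
    x = ∑ g : GJ J, co K x g • mo (g : G) := by
  apply Tw.ext'
  intro k
  rw [map_sum, Finsupp.finsetSum_apply]
  simp only [map_smul, Finsupp.smul_apply, co_mo_apply, smul_eq_mul, mul_ite, mul_one, mul_zero]
  by_cases hk : k ∈ GJ J
  · rw [Finset.sum_eq_single ⟨k, hk⟩]
    · simp
    · intro b _ hb; rw [if_neg]; intro h; exact hb (Subtype.ext h)
    · simp
  · rw [hx k hk]; symm
    apply Finset.sum_eq_zero
    intro b _; rw [if_neg]; rintro rfl; exact hk b.2

@[elab_as_elim]
theorem DJ_induction {J : Finset ℕ} {P : (x : Tw K) → x ∈ DJ K J → Prop} (h0 : P 0 (zero_mem _))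
    (hadd : ∀ a b ha hb, P a ha → P b hb → P (a + b) (add_mem ha hb))
    (hm : ∀ (g : G) (c : K) (hg : g ∈ GJ J),
      P (c • mo g) (Subalgebra.smul_mem _ (mo_mem_DJ hg) _)) {x : Tw K} (hx : x ∈ DJ K J) :
    P x hx := by
  have : ∃ h, P x h := by
    rw [DJ_eq_sum hx]
    exact Finset.sum_induction _ (fun y => ∃ h, P y h)
      (fun a b ⟨ha, ha'⟩ ⟨hb, hb'⟩ => ⟨_, hadd a b ha hb ha' hb'⟩) ⟨_, h0⟩
      (fun g _ => ⟨_, hm g _ g.2⟩)
  exact this.2

noncomputable def DJequiv (J : Finset ℕ) :
    Subalgebra.toSubmodule (DJ K J) ≃ₗ[K] (GJ J → K) where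
  toFun x := fun g => co K x.1 g
  map_add' x y := by ext g; simp
  map_smul' c x := by ext g; simp
  invFun f := ⟨∑ g : GJ J, f g • mo (g : G),
    Subalgebra.sum_mem _ (fun g _ => Subalgebra.smul_mem _ (mo_mem_DJ g.2) _)⟩
  left_inv x := Subtype.ext (DJ_eq_sum x.2).symm
  right_inv f := by
    ext k
    simp only [map_sum, Finsupp.finsetSum_apply, map_smul, Finsupp.smul_apply, co_mo_apply,
      smul_eq_mul, mul_ite, mul_one, mul_zero]
    rw [Finset.sum_eq_single k]
    · simp
    · intro b _ hb; rw [if_neg]; intro h; exact hb (Subtype.ext h)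
    · simp

instance (J : Finset ℕ) : FiniteDimensional K (Subalgebra.toSubmodule (DJ K J)) :=
  (DJequiv J).symm.finiteDimensional

instance (J : Finset ℕ) : FiniteDimensional K (DJ K J) :=
  (inferInstance : FiniteDimensional K (Subalgebra.toSubmodule (DJ K J)))

theorem finrank_DJ (J : Finset ℕ) :
    finrank K (Subalgebra.toSubmodule (DJ K J)) = NJ J ^ 2 := by
  rw [(DJequiv J).finrank_eq, finrank_fintype_fun_eq_card, card_GJ]

variable (K) in
/-- `Tw K` has no zero divisors -/
class Dom : Prop where
  dom : ∀ x y : Tw K, x * y = 0 → x = 0 ∨ y = 0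

theorem Tw.isUnit_or [Dom K] (x : Tw K) : IsUnit x ∨ x = 0 := by
  by_cases hx : x = 0
  · exact Or.inr hx
  left
  obtain ⟨J, hJ⟩ := exists_DJ x
  haveI : NoZeroDivisors (Tw K) := ⟨fun h => Dom.dom _ _ h⟩
  haveI : IsDomain (Tw K) := NoZeroDivisors.to_isDomain _
  have hu : IsUnit (⟨x, hJ⟩ : DJ K J) := by
    have : (⟨x, hJ⟩ : DJ K J) ≠ 0 := fun h => hx (congrArg Subtype.val h)
    exact FiniteDimensional.isUnit K this
  exact hu.map (DJ K J).val

noncomputable instance [Dom K] : DivisionRing (Tw K) := DivisionRing.ofIsUnitOrEqZero Tw.isUnit_or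

theorem charZero_K : CharZero K := charZero_of_injective_algebraMap (algebraMap Z0 K).injective

/-- inverses stay in finite-dimensional subalgebras -/
theorem inv_mem_of_fd [Dom K] (A : Subalgebra K (Tw K)) [FiniteDimensional K A] {x : Tw K}
    (hx : x ∈ A) : x⁻¹ ∈ A := by
  by_cases h0 : x = 0
  · rw [h0, inv_zero]; exact zero_mem _
  have : (⟨x, hx⟩ : A) ≠ 0 := fun h => h0 (congrArg Subtype.val h)
  obtain ⟨u, hu⟩ := FiniteDimensional.isUnit K this
  have h1 : x * ((u⁻¹ : Aˣ) : A) = 1 := by
    have := congrArg Subtype.val (u.mul_inv)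
    rw [hu] at this
    exact this
  rw [← eq_inv_of_mul_eq_one_right h1]
  exact Subtype.property _

theorem inv_mem_of_le [Dom K] {J : Finset ℕ} {A : Subalgebra K (Tw K)} (hA : A ≤ DJ K J) {x : Tw K}
    (hx : x ∈ A) : x⁻¹ ∈ A := by
  haveI : FiniteDimensional K A :=
    Submodule.finiteDimensional_of_le (S₁ := Subalgebra.toSubmodule A)
      (S₂ := Subalgebra.toSubmodule (DJ K J)) hA
  exact inv_mem_of_fd A hx

end Crest.Agent.R180
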