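import Crest.Agent.R180.Pi
import Crest.Agent.R180.Nice

set_option autoImplicit false

namespace Crest.Agent.R180

open Module Polynomial

/-- a field extension with a place back to the base field -/
@[ext]
structure ValExt (K K' : Type) [Field K] [Field K'] [Algebra Z0 K] [Algebra Z0 K'] where
  ι : K →+* K'
  R : K' → K → Prop
  ι_alg : ∀ z : Z0, ι (algebraMap Z0 K z) = algebraMap Z0 K' z
  R_ι : ∀ c, R (ι c) c
  add : ∀ {x y a b}, R x a → R y b → R (x + y) (a + b)
  mul : ∀ {x y a b}, R x a → R y b → R (x * y) (a * b)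
  uniq : ∀ {x a b}, R x a → R x b → a = b
  total : ∀ x, (∃ a, R x a) ∨ R x⁻¹ 0
  inv : ∀ {x a}, R x a → a ≠ 0 → R x⁻¹ a⁻¹

variable {K K' K'' : Type} [Field K] [Field K'] [Field K''] [Algebra Z0 K] [Algebra Z0 K']
  [Algebra Z0 K'']

namespace ValExt

theorem R_zero (φ : ValExt K K') : φ.R 0 0 := by simpa using φ.R_ι 0
theorem R_one (φ : ValExt K K') : φ.R 1 1 := by simpa using φ.R_ι 1

variable (K) in
def refl : ValExt K K where
  ι := RingHom.id K
  R x a := x = a
  ι_alg _ := rfl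
  R_ι _ := rfl
  add := by rintro _ _ _ _ rfl rfl; rfl
  mul := by rintro _ _ _ _ rfl rfl; rfl
  uniq := by rintro _ _ _ rfl rfl; rfl
  total x := Or.inl ⟨x, rfl⟩
  inv := by rintro _ _ rfl _; rfl

def comp (φ : ValExt K K') (ψ : ValExt K' K'') : ValExt K K'' where
  ι := ψ.ι.comp φ.ι
  R x a := ∃ y, ψ.R x y ∧ φ.R y a
  ι_alg z := by rw [RingHom.comp_apply, φ.ι_alg, ψ.ι_alg]
  R_ι c := ⟨_, ψ.R_ι _, φ.R_ι _⟩
  add := fun ⟨_, h1, h2⟩ ⟨_, h3, h4⟩ => ⟨_, ψ.add h1 h3, φ.add h2 h4⟩
  mul := fun ⟨_, h1, h2⟩ ⟨_, h3, h4⟩ => ⟨_, ψ.mul h1 h3, φ.mul h2 h4⟩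
  uniq := fun ⟨_, h1, h2⟩ ⟨_, h3, h4⟩ => φ.uniq h2 (by rw [ψ.uniq h1 h3]; exact h4)
  total x := by
    rcases ψ.total x with ⟨y, hy⟩ | h
    · by_cases h0 : y = 0
      · exact Or.inl ⟨0, y, hy, by rw [h0]; exact φ.R_zero⟩
      · rcases φ.total y with ⟨a, ha⟩ | h
        · exact Or.inl ⟨a, y, hy, ha⟩
        · exact Or.inr ⟨_, ψ.inv hy h0, h⟩
    · exact Or.inr ⟨0, h, φ.R_zero⟩
  inv := fun ⟨y, h1, h2⟩ ha => ⟨_, ψ.inv h1 (by
    rintro rfl; exact ha (φ.uniq h2 φ.R_zero)), φ.inv h2 ha⟩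

theorem comp_refl (φ : ValExt K K') : φ.comp (refl K') = φ := by
  ext <;> simp [comp, refl]

theorem refl_comp (φ : ValExt K K') : (refl K).comp φ = φ := by
  ext <;> simp [comp, refl]

theorem comp_assoc {K₃ : Type} [Field K₃] [Algebra Z0 K₃] (φ : ValExt K K') (ψ : ValExt K' K'')
    (χ : ValExt K'' K₃) : (φ.comp ψ).comp χ = φ.comp (ψ.comp χ) := by
  ext x a
  · rfl
  · simp only [comp]
    constructor
    · rintro ⟨y, h1, z, h2, h3⟩; exact ⟨z, ⟨y, h1, h2⟩, h3⟩
    · rintro ⟨z, ⟨y, h1, h2⟩, h3⟩; exact ⟨y, h1, z, h2, h3⟩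

theorem exists_max (φ : ValExt K K') {ι : Type*} (s : Finset ι) (c : ι → K')
    (h : ∃ i ∈ s, c i ≠ 0) : ∃ j ∈ s, c j ≠ 0 ∧ ∀ i ∈ s, ∃ a, φ.R (c i * (c j)⁻¹) a := by
  classical
  induction s using Finset.induction with
  | empty => simp at h
  | insert k s hk ih =>
    by_cases hs : ∃ i ∈ s, c i ≠ 0
    · obtain ⟨j, hj, hj0, hj1⟩ := ih hs
      rcases φ.total (c k * (c j)⁻¹) with h1 | h1
      · refine ⟨j, Finset.mem_insert_of_mem hj, hj0, ?_⟩
        intro i hi
        rcases Finset.mem_insert.1 hi with rfl | hi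
        · exact h1
        · exact hj1 i hi
      · by_cases hk0 : c k = 0
        · refine ⟨j, Finset.mem_insert_of_mem hj, hj0, ?_⟩
          intro i hi
          rcases Finset.mem_insert.1 hi with rfl | hi
          · exact ⟨0, by rw [hk0, zero_mul]; exact φ.R_zero⟩
          · exact hj1 i hi
        · refine ⟨k, Finset.mem_insert_self _ _, hk0, ?_⟩
          intro i hi
          rcases Finset.mem_insert.1 hi with rfl | hi
          · exact ⟨1, by rw [mul_inv_cancel₀ hk0]; exact φ.R_one⟩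
          · obtain ⟨a, ha⟩ := hj1 i hi
            refine ⟨a * 0, ?_⟩
            convert φ.mul ha h1 using 1
            field_simp
    · push Not at hs
      obtain ⟨i, hi, hi0⟩ := h
      rcases Finset.mem_insert.1 hi with rfl | hi
      · refine ⟨i, Finset.mem_insert_self _ _, hi0, ?_⟩
        intro j hj
        rcases Finset.mem_insert.1 hj with rfl | hj
        · exact ⟨1, by rw [mul_inv_cancel₀ hi0]; exact φ.R_one⟩
        · exact ⟨0, by rw [hs j hj, zero_mul]; exact φ.R_zero⟩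
      · exact absurd (hs i hi) hi0

end ValExt

variable (K K') in
/-- modules with a reduction relation -/
class RedMod (M' : Type) (M : outParam Type) [AddCommGroup M] [Module K M] [AddCommGroup M']
    [Module K' M'] where
  red : ValExt K K' → M' → M → Prop
  zero : ∀ φ, red φ 0 0
  add : ∀ {φ x y a b}, red φ x a → red φ y b → red φ (x + y) (a + b)
  smul : ∀ {φ c c' x a}, φ.R c c' → red φ x a → red φ (c • x) (c' • a)
  scale : ∀ φ x, x ≠ 0 → ∃ (c : K') (a : M), a ≠ 0 ∧ red φ (c • x) a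
  lift : ∀ φ (l : Dual K M), ∃ l' : Dual K' M', ∀ x a, red φ x a → φ.R (l' x) (l a)

section gen
variable {M' M : Type} [AddCommGroup M] [Module K M] [AddCommGroup M'] [Module K' M']
  [RedMod K K' M' M] {φ : ValExt K K'}

/-- reduction relation -/
def Red (φ : ValExt K K') (x : M') (a : M) : Prop := RedMod.red φ x a

variable (φ) in
theorem Red.zero : Red φ (0 : M') (0 : M) := RedMod.zero φ
theorem Red.add {x y : M'} {a b : M} (h1 : Red φ x a) (h2 : Red φ y b) : Red φ (x + y) (a + b) :=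
  RedMod.add h1 h2
theorem Red.smul {c : K'} {c' : K} {x : M'} {a : M} (h1 : φ.R c c') (h2 : Red φ x a) :
    Red φ (c • x) (c' • a) := RedMod.smul h1 h2
theorem Red.smul_ι (c : K) {x : M'} {a : M} (h2 : Red φ x a) :
    Red φ (φ.ι c • x) (c • a) := RedMod.smul (φ.R_ι c) h2
variable (φ) in
theorem Red.scale {x : M'} (hx : x ≠ 0) : ∃ (c : K') (a : M), a ≠ 0 ∧ Red φ (c • x) a :=
  RedMod.scale φ x hx
variable (φ) in
theorem Red.lift (l : Dual K M) : ∃ l' : Dual K' M', ∀ x a, Red φ x a → φ.R (l' x) (l a) :=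
  RedMod.lift φ l

theorem Red.uniq {x : M'} {a b : M} (h1 : Red φ x a) (h2 : Red φ x b) : a = b := by
  rw [← sub_eq_zero, ← Module.forall_dual_apply_eq_zero_iff K]
  intro l
  obtain ⟨l', hl⟩ := Red.lift (M' := M') φ l
  rw [map_sub, φ.uniq (hl _ _ h1) (hl _ _ h2), sub_self]

theorem Red.eq_zero {a : M} (h : Red φ (0 : M') a) : a = 0 := h.uniq (Red.zero φ)

theorem Red.neg {x : M'} {a : M} (h : Red φ x a) : Red φ (-x) (-a) := by
  simpa using h.smul_ι (-1)

theorem Red.sub {x y : M'} {a b : M} (h1 : Red φ x a) (h2 : Red φ y b) :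
    Red φ (x - y) (a - b) := by
  rw [sub_eq_add_neg, sub_eq_add_neg]; exact h1.add h2.neg

theorem Red.sum {ι : Type*} {s : Finset ι} {x : ι → M'} {a : ι → M}
    (h : ∀ i ∈ s, Red φ (x i) (a i)) : Red φ (∑ i ∈ s, x i) (∑ i ∈ s, a i) := by
  classical
  induction s using Finset.induction with
  | empty => simpa using Red.zero φ
  | insert k s hk ih =>
    rw [Finset.sum_insert hk, Finset.sum_insert hk]
    exact (h k (Finset.mem_insert_self _ _)).add (ih (fun i hi => h i (Finset.mem_insert_of_mem hi)))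

theorem Red.smul_zero {c : K'} {x : M'} {a : M} (h1 : φ.R c 0) (h2 : Red φ x a) :
    Red φ (c • x) (0 : M) := by simpa using h2.smul h1

theorem Red.ne_zero {x : M'} {a : M} (h : Red φ x a) (ha : a ≠ 0) : x ≠ 0 := by
  rintro rfl; exact ha h.eq_zero

variable (φ) in
/-- simultaneous scaling of a finite family -/
theorem Red.scale_family {ι : Type*} (s : Finset ι) (x : ι → M') (h : ∃ i ∈ s, x i ≠ 0) :
    ∃ (c : K') (a : ι → M), (∃ i ∈ s, a i ≠ 0) ∧ (∀ i, x i = 0 → a i = 0) ∧
      ∀ i ∈ s, Red φ (c • x i) (a i) := by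
  classical
  have h1 : ∀ i, ∃ (c : K') (a : M), (x i ≠ 0 → c ≠ 0 ∧ a ≠ 0) ∧ (x i = 0 → c = 0) ∧
      Red φ (c • x i) a := by
    intro i
    by_cases hx : x i = 0
    · exact ⟨0, 0, fun h => absurd hx h, fun _ => rfl, by simpa using Red.zero φ⟩
    · obtain ⟨c, a, ha, hr⟩ := Red.scale φ hx
      refine ⟨c, a, fun _ => ⟨?_, ha⟩, fun h => absurd h hx, hr⟩
      rintro rfl
      rw [zero_smul] at hr
      exact ha hr.eq_zero
  choose c a h2 h3 h4 using h1
  obtain ⟨i0, hi0, hx0⟩ := h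
  obtain ⟨j, hj, hj0, hj1⟩ := φ.exists_max s (fun i => (c i)⁻¹)
    ⟨i0, hi0, inv_ne_zero (h2 i0 hx0).1⟩
  have hcj : c j ≠ 0 := fun h => hj0 (by simp [h])
  have hxj : x j ≠ 0 := fun h => hcj (h3 j h)
  have h5 : ∀ i, ∃ b : M, (i = j → b = a j) ∧ (x i = 0 → b = 0) ∧ (i ∈ s → Red φ (c j • x i) b) := by
    intro i
    by_cases hx : x i = 0
    · exact ⟨0, fun h => absurd (h ▸ hx) hxj, fun _ => rfl, fun _ => by
        rw [hx, _root_.smul_zero]; exact Red.zero φ⟩
    by_cases hij : i = j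
    · exact ⟨a j, fun _ => rfl, fun h => absurd h hx, fun _ => hij ▸ h4 i⟩
    by_cases hi : i ∈ s
    · obtain ⟨e, he⟩ := hj1 i hi
      refine ⟨e • a i, fun h => absurd h hij, fun h => absurd h hx, fun _ => ?_⟩
      convert (h4 i).smul he using 1
      rw [smul_smul]
      congr 1
      have := (h2 i hx).1
      field_simp
    · exact ⟨0, fun h => absurd h hij, fun _ => rfl, fun h => absurd h hi⟩
  choose b h6 h7 h8 using h5
  exact ⟨c j, b, ⟨j, hj, by rw [h6 j rfl]; exact (h2 j hxj).2⟩, h7, fun i hi => h8 i hi⟩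

end gen

instance : RedMod K K' K' K where
  red φ := φ.R
  zero φ := φ.R_zero
  add := fun {φ} => φ.add
  smul := fun {φ} => φ.mul
  scale φ x hx := ⟨x⁻¹, 1, one_ne_zero, by rw [smul_eq_mul, inv_mul_cancel₀ hx]; exact φ.R_one⟩
  lift φ l := ⟨LinearMap.mulRight K' (φ.ι (l 1)), fun x a h => by
    have : l a = a * l 1 := by rw [← smul_eq_mul, ← map_smul, smul_eq_mul, mul_one]
    rw [this]; exact φ.mul h (φ.R_ι _)⟩

theorem Red_scalar {φ : ValExt K K'} {x : K'} {a : K} : Red φ x a ↔ φ.R x a := Iff.rfl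

section gen
variable {M' M : Type} [AddCommGroup M] [Module K M] [AddCommGroup M'] [Module K' M']
  [RedMod K K' M' M] {φ : ValExt K K'}

noncomputable instance (ι : Type) : RedMod K K' (ι →₀ M') (ι →₀ M) where
  red φ x a := ∀ i, Red φ (x i) (a i)
  zero φ _ := Red.zero φ
  add h1 h2 i := (h1 i).add (h2 i)
  smul h1 h2 i := (h2 i).smul h1
  scale φ x hx := by
    obtain ⟨c, a, ⟨i, hi, hi0⟩, h2, h3⟩ := Red.scale_family φ x.support x
      (by obtain ⟨i, hi⟩ := Finsupp.support_nonempty_iff.2 hx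
          exact ⟨i, hi, Finsupp.mem_support_iff.1 hi⟩)
    refine ⟨c, Finsupp.onFinset x.support a
      (fun i hi => Finsupp.mem_support_iff.2 (fun h => hi (h2 i h))), ?_, ?_⟩
    · intro h
      exact hi0 (congrArg (fun f => f i) h)
    · intro j
      by_cases hj : j ∈ x.support
      · exact h3 j hj
      · have := Finsupp.notMem_support_iff.1 hj
        simp only [Finsupp.smul_apply, this, smul_zero, Finsupp.onFinset_apply, h2 j this]
        exact Red.zero φ
  lift φ l := by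
    classical
    choose l' hl' using fun i => Red.lift (M' := M') φ (l ∘ₗ Finsupp.lsingle i)
    refine ⟨Finsupp.lsum K' l', fun x a h => ?_⟩
    have e1 : Finsupp.lsum K' l' x = ∑ i ∈ x.support ∪ a.support, l' i (x i) := by
      rw [Finsupp.lsum_apply, Finsupp.sum_of_support_subset _ Finset.subset_union_left]
      simp
    have e2 : l a = ∑ i ∈ x.support ∪ a.support, (l ∘ₗ Finsupp.lsingle i) (a i) := by
      conv_lhs => rw [← Finsupp.sum_single a]
      rw [Finsupp.sum_of_support_subset _ (Finset.subset_union_right (s₁ := x.support)), map_sum]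
      · rfl
      · simp
    rw [e1, e2]
    exact Red_scalar.1 (Red.sum (fun i _ => Red_scalar.2 (hl' i _ _ (h i))))

theorem Red_finsupp {ι : Type} {x : ι →₀ M'} {a : ι →₀ M} :
    Red φ x a ↔ ∀ i, Red φ (x i) (a i) := Iff.rfl

noncomputable instance (n : ℕ) : RedMod K K' (Fin n → M') (Fin n → M) where
  red φ x a := ∀ i, Red φ (x i) (a i)
  zero φ _ := Red.zero φ
  add h1 h2 i := (h1 i).add (h2 i)
  smul h1 h2 i := (h2 i).smul h1
  scale φ x hx := by
    obtain ⟨c, a, ⟨i, hi, hi0⟩, h2, h3⟩ := Red.scale_family φ Finset.univ x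
      (by obtain ⟨i, hi⟩ := Function.ne_iff.1 hx
          exact ⟨i, Finset.mem_univ _, hi⟩)
    exact ⟨c, a, fun h => hi0 (congrFun h i), fun j => h3 j (Finset.mem_univ _)⟩
  lift φ l := by
    classical
    choose l' hl' using fun i => Red.lift (M' := M') φ (l ∘ₗ LinearMap.single K (fun _ => M) i)
    refine ⟨∑ i, l' i ∘ₗ LinearMap.proj i, fun x a h => ?_⟩
    have e2 : l a = ∑ i, (l ∘ₗ LinearMap.single K (fun _ => M) i) (a i) := by
      conv_lhs => rw [← Finset.univ_sum_single a]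
      rw [map_sum]; rfl
    rw [e2, LinearMap.sum_apply]
    exact Red_scalar.1 (Red.sum (fun i _ => Red_scalar.2 (hl' i _ _ (h i))))

theorem Red_pi {n : ℕ} {x : Fin n → M'} {a : Fin n → M} :
    Red φ x a ↔ ∀ i, Red φ (x i) (a i) := Iff.rfl

variable (φ) in
/-- space of leading terms -/
def lead (W : Submodule K' M') : Submodule K M where
  carrier := {a | ∃ x ∈ W, Red φ x a}
  add_mem' := fun ⟨_, h1, h2⟩ ⟨_, h3, h4⟩ => ⟨_, add_mem h1 h3, h2.add h4⟩
  zero_mem' := ⟨0, zero_mem _, Red.zero φ⟩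
  smul_mem' := fun c _ ⟨_, h1, h2⟩ => ⟨_, W.smul_mem _ h1, h2.smul_ι c⟩

theorem mem_lead {W : Submodule K' M'} {a : M} : a ∈ lead φ W ↔ ∃ x ∈ W, Red φ x a := Iff.rfl

theorem Red.mem_lead {W : Submodule K' M'} {x : M'} {a : M} (h : Red φ x a) (hx : x ∈ W) :
    a ∈ lead φ W := ⟨x, hx, h⟩

theorem lead_mono {W W' : Submodule K' M'} (h : W ≤ W') : lead φ W ≤ lead φ W' :=
  fun _ ⟨x, h1, h2⟩ => ⟨x, h h1, h2⟩

theorem lead_bot : lead φ (⊥ : Submodule K' M') = ⊥ := by
  rw [eq_bot_iff]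
  rintro a ⟨x, h1, h2⟩
  rw [(Submodule.mem_bot K').1 h1] at h2
  exact h2.eq_zero

theorem eq_bot_of_lead {W : Submodule K' M'} (h : lead φ W = ⊥) : W = ⊥ := by
  rw [eq_bot_iff]
  intro x hx
  by_contra h0
  obtain ⟨c, a, ha, hr⟩ := Red.scale φ (show x ≠ 0 from h0)
  have := hr.mem_lead (W.smul_mem c hx)
  rw [h] at this
  exact ha this

theorem Red.linearIndependent {ι : Type*} {x : ι → M'} {a : ι → M} (h : ∀ i, Red φ (x i) (a i))
    (ha : LinearIndependent K a) : LinearIndependent K' x := by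
  rw [linearIndependent_iff'] at ha ⊢
  intro s g hg
  by_contra hne
  push Not at hne
  obtain ⟨c, b, ⟨i, hi, hi0⟩, -, h3⟩ := Red.scale_family φ s g hne
  apply hi0
  apply ha s b _ i hi
  have h1 : Red φ (∑ i ∈ s, (c • g i) • x i) (∑ i ∈ s, b i • a i) :=
    Red.sum (fun i hi => (h i).smul (h3 i hi))
  simp only [smul_assoc] at h1
  rw [← Finset.smul_sum, hg, _root_.smul_zero] at h1
  exact h1.eq_zero

theorem rank_lead_le (W : Submodule K' M') [FiniteDimensional K' W] :
    Module.rank K (lead φ W) ≤ finrank K' W := by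
  apply rank_le
  intro s hs
  choose x h1 h2 using fun i : s => i.1.2
  have h3 : LinearIndependent K' x :=
    Red.linearIndependent h2 (hs.map' (lead φ W).subtype (Submodule.ker_subtype _))
  have h4 : LinearIndependent K' (fun i => (⟨x i, h1 i⟩ : W)) :=
    LinearIndependent.of_comp W.subtype h3
  simpa using h4.fintype_card_le_finrank

instance (W : Submodule K' M') [FiniteDimensional K' W] : FiniteDimensional K (lead φ W) :=
  Module.rank_lt_aleph0_iff.1 ((rank_lead_le W).trans_lt Cardinal.natCast_lt_aleph0)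

theorem finrank_lead_le (W : Submodule K' M') [FiniteDimensional K' W] :
    finrank K (lead φ W) ≤ finrank K' W := Module.finrank_le_of_rank_le (rank_lead_le W)

theorem lead_span {s : ℕ} {x : Fin s → M'} {a : Fin s → M} (h : ∀ i, Red φ (x i) (a i))
    (ha : LinearIndependent K a) :
    lead φ (Submodule.span K' (Set.range x)) = Submodule.span K (Set.range a) := by
  haveI : FiniteDimensional K' (Submodule.span K' (Set.range x)) :=
    FiniteDimensional.span_of_finite K' (Set.finite_range _)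
  symm
  apply Submodule.eq_of_le_of_finrank_le
  · rw [Submodule.span_le]
    rintro _ ⟨i, rfl⟩
    exact (h i).mem_lead (Submodule.subset_span ⟨i, rfl⟩)
  · refine (finrank_lead_le _).trans ?_
    rw [finrank_span_eq_card ha, finrank_span_eq_card (Red.linearIndependent h ha)]

theorem exists_red_notMem_span {s : ℕ} {x : Fin s → M'} {a : Fin s → M}
    (h : ∀ i, Red φ (x i) (a i)) (ha : LinearIndependent K a) {y : M'}
    (hy : y ∉ Submodule.span K' (Set.range x)) :
    ∃ w ∈ Submodule.span K' (Set.range x), ∃ (c : K') (b : M), Red φ (c • (y - w)) b ∧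
      b ∉ Submodule.span K (Set.range a) := by
  classical
  haveI : FiniteDimensional K' (Submodule.span K' (Set.range x)) :=
    FiniteDimensional.span_of_finite K' (Set.finite_range _)
  choose l hl using fun j => LinearMap.exists_extend ((Finsupp.lapply j) ∘ₗ ha.repr)
  have hl2 : ∀ b ∈ Submodule.span K (Set.range a), (∀ j, l j b = 0) → b = 0 := by
    intro b hb h0
    have : ha.repr ⟨b, hb⟩ = 0 := by
      ext j
      exact (LinearMap.congr_fun (hl j) ⟨b, hb⟩).symm.trans (h0 j)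
    have h2 := ha.linearCombination_repr ⟨b, hb⟩
    rw [this, map_zero] at h2
    exact h2.symm
  choose l' hl' using fun j => Red.lift (M' := M') φ (l j)
  have key : ∀ z : M', (∀ j, l' j z = 0) → ∀ (c : K') (b : M), Red φ (c • z) b → ∀ j, l j b = 0 := by
    intro z hz c b hb j
    have := hl' j _ _ hb
    rw [map_smul, hz j, _root_.smul_zero] at this
    exact φ.uniq this φ.R_zero
  let Λ : Submodule.span K' (Set.range x) →ₗ[K'] (Fin s → K') :=
    LinearMap.pi (fun j => l' j ∘ₗ Submodule.subtype _)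
  have hinj : Function.Injective Λ := by
    rw [← LinearMap.ker_eq_bot, LinearMap.ker_eq_bot']
    intro w hw
    by_contra h0
    obtain ⟨c, b, hb0, hb⟩ := Red.scale φ (show (w : M') ≠ 0 from fun h => h0 (Subtype.ext h))
    apply hb0
    apply hl2 b
    · rw [← lead_span h ha]; exact hb.mem_lead (Submodule.smul_mem _ _ w.2)
    · exact key w (fun j => congrFun hw j) c b hb
  have hsurj : Function.Surjective Λ :=
    (LinearMap.injective_iff_surjective_of_finrank_eq_finrank (by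
      rw [finrank_span_eq_card (Red.linearIndependent h ha)]; simp)).1 hinj
  obtain ⟨w, hw⟩ := hsurj (fun j => l' j y)
  have hne : y - w ≠ 0 := by
    intro h0
    apply hy
    rw [sub_eq_zero.1 h0]; exact w.2
  obtain ⟨c, b, hb0, hb⟩ := Red.scale φ hne
  refine ⟨w, w.2, c, b, hb, fun hm => hb0 (hl2 b hm (key _ (fun j => ?_) c b hb))⟩
  rw [map_sub, sub_eq_zero]
  exact (congrFun hw j).symm

theorem exists_lead_basis (W : Submodule K' M') [FiniteDimensional K' W] :
    ∃ (s : ℕ) (x : Fin s → M') (a : Fin s → M), (∀ i, Red φ (x i) (a i)) ∧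
      LinearIndependent K a ∧ W = Submodule.span K' (Set.range x) := by
  obtain ⟨a, ha1, ha2, ha3⟩ := exists_fin_basis (lead φ W)
  choose x h1 h2 using ha2
  refine ⟨_, x, a, h2, ha1, ?_⟩
  have hle : Submodule.span K' (Set.range x) ≤ W := by
    rw [Submodule.span_le]; rintro _ ⟨i, rfl⟩; exact h1 i
  apply le_antisymm _ hle
  intro y hy
  by_contra hy'
  obtain ⟨w, hw, c, b, hb, hb'⟩ := exists_red_notMem_span h2 ha1 hy'
  exact hb' (ha3 (hb.mem_lead (W.smul_mem c (sub_mem hy (hle hw)))))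

theorem finrank_lead (W : Submodule K' M') [FiniteDimensional K' W] :
    finrank K (lead φ W) = finrank K' W := by
  obtain ⟨s, x, a, h1, h2, rfl⟩ := exists_lead_basis (φ := φ) W
  rw [lead_span h1 h2, finrank_span_eq_card h2, finrank_span_eq_card (Red.linearIndependent h1 h2)]

theorem exists_red_notMem (W : Submodule K' M') [FiniteDimensional K' W] {y : M'} (hy : y ∉ W) :
    ∃ w ∈ W, ∃ (c : K') (b : M), Red φ (c • (y - w)) b ∧ b ∉ lead φ W := by
  obtain ⟨s, x, a, h1, h2, rfl⟩ := exists_lead_basis (φ := φ) W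
  rw [lead_span h1 h2]
  exact exists_red_notMem_span h1 h2 hy

theorem eq_of_le_of_lead_le {W W' : Submodule K' M'} [FiniteDimensional K' W'] (h : W ≤ W')
    (h' : lead φ W' ≤ lead φ W) : W = W' := by
  haveI : FiniteDimensional K' W := Submodule.finiteDimensional_of_le h
  apply Submodule.eq_of_le_of_finrank_le h
  rw [← finrank_lead (φ := φ), ← finrank_lead (φ := φ)]
  exact Submodule.finrank_mono h'

theorem exists_lift {W : Submodule K' M'} {U : Submodule K M} [FiniteDimensional K U]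
    (h : U ≤ lead φ W) : ∃ U' ≤ W, FiniteDimensional K' U' ∧ lead φ U' = U := by
  obtain ⟨a, ha1, ha2, ha3⟩ := exists_fin_basis U
  choose x h1 h2 using fun i => h (ha2 i)
  refine ⟨Submodule.span K' (Set.range x), ?_,
    FiniteDimensional.span_of_finite K' (Set.finite_range _), ?_⟩
  · rw [Submodule.span_le]; rintro _ ⟨i, rfl⟩; exact h1 i
  · rw [lead_span h2 ha1]
    apply le_antisymm _ ha3
    rw [Submodule.span_le]; rintro _ ⟨i, rfl⟩; exact ha2 i

theorem lead_sup_ge (W W' : Submodule K' M') : lead φ W ⊔ lead φ W' ≤ lead φ (W ⊔ W') :=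
  sup_le (lead_mono le_sup_left) (lead_mono le_sup_right)

theorem lead_inf_le (W W' : Submodule K' M') : lead φ (W ⊓ W') ≤ lead φ W ⊓ lead φ W' :=
  le_inf (lead_mono inf_le_left) (lead_mono inf_le_right)

/-- lifting niceness -/
theorem Nice.lift {A' A : Type} [AddCommGroup A] [Module K A] [AddCommGroup A'] [Module K' A']
    [RedMod K K' A' A] {α : A →ₗ[K] M →ₗ[K] M →ₗ[K] K} {α' : A' →ₗ[K'] M' →ₗ[K'] M' →ₗ[K'] K'}
    {N : Submodule K A} {H : Submodule K M} {N' : Submodule K' A'} {X' : Submodule K' M'}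
    [FiniteDimensional K' N'] [FiniteDimensional K H]
    (hN : Nice α N H (lead φ X')) (h1 : lead φ N' ≤ N) (h2 : H ≤ lead φ X')
    (hα : ∀ b' ∈ N', ∀ h' ∈ X', ∀ ξ' ∈ X', ∀ b h ξ, Red φ b' b → Red φ h' h → Red φ ξ' ξ →
      φ.R (α' b' h' ξ') (α b h ξ)) :
    ∃ H' ≤ X', finrank K' H' = finrank K H ∧ Nice α' N' H' X' := by
  obtain ⟨H', h3, h4, h5⟩ := exists_lift h2
  refine ⟨H', h3, by rw [← h5, finrank_lead], ?_⟩
  obtain ⟨s, b', b, e1, e2, e3⟩ := exists_lead_basis (φ := φ) N'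
  have hb' : ∀ i, b' i ∈ N' := fun i => by rw [e3]; exact Submodule.subset_span ⟨i, rfl⟩
  apply nice_of_basis b' e3.le
  intro h hh h0
  by_contra hne
  push Not at hne
  obtain ⟨c, k, ⟨i, -, hi⟩, -, hk⟩ := Red.scale_family φ Finset.univ h
    (by obtain ⟨i, hi⟩ := hne; exact ⟨i, Finset.mem_univ _, hi⟩)
  apply hi
  refine hN s b k e2 (fun a => h1 ((e1 a).mem_lead (hb' a)))
    (fun a => h5 ▸ (hk a (Finset.mem_univ _)).mem_lead (H'.smul_mem c (hh a))) ?_ i
  rintro ξ ⟨ξ', hξ', hr⟩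
  have : Red φ (∑ a, α' (b' a) (c • h a) ξ') (∑ a, α (b a) (k a) ξ) :=
    Red.sum (fun a _ => hα _ (hb' a) _ (h3 (H'.smul_mem c (hh a))) _ hξ' _ _ _ (e1 a)
      (hk a (Finset.mem_univ _)) hr)
  simp only [map_smul, LinearMap.smul_apply] at this
  rw [← Finset.smul_sum, h0 ξ' hξ', _root_.smul_zero] at this
  exact this.eq_zero

end gen

end Crest.Agent.R180
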